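import Mathlib
import Crest.Prelude.Def_QState
import Crest.Prelude.Def_QChannel

set_option autoImplicit false
set_option linter.unusedSimpArgs false
set_option linter.unusedSectionVars false

open scoped ComplexOrder Kronecker
open Matrix Crest.Quantum Polynomial

namespace Crest.Agent.S0534Aux.EntBasic

variable {d : Type*} [Fintype d] [DecidableEq d]

/-- `vnEntropy` of a Hermitian matrix as a sum of `negMulLog` of the eigenvalues. -/
lemma vnEntropy_eq_sum {ρ : Matrix d d ℂ} (h : ρ.IsHermitian) :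
    vnEntropy ρ = ∑ i, Real.negMulLog (h.eigenvalues i) := by
  simp [vnEntropy, h, Real.negMulLog, Finset.sum_neg_distrib]

lemma vnEntropy_of_not_hermitian {ρ : Matrix d d ℂ} (h : ¬ ρ.IsHermitian) :
    vnEntropy ρ = 0 := by
  simp [vnEntropy, h]

/-- `vnEntropy` depends only on the characteristic polynomial. -/
lemma vnEntropy_eq_roots {ρ : Matrix d d ℂ} (h : ρ.IsHermitian) :
    vnEntropy ρ = (ρ.charpoly.roots.map (fun z : ℂ => Real.negMulLog z.re)).sum := by
  rw [vnEntropy_eq_sum h, h.roots_charpoly_eq_eigenvalues, Multiset.map_map]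
  simp

/-- If the characteristic polynomial splits with real roots `μ`, the entropy is `∑ η(μ i)`. -/
lemma vnEntropy_of_charpoly {ι : Type*} [Fintype ι] {ρ : Matrix d d ℂ} (h : ρ.IsHermitian)
    (μ : ι → ℝ) (hc : ρ.charpoly = ∏ i, (X - C (μ i : ℂ))) :
    vnEntropy ρ = ∑ i, Real.negMulLog (μ i) := by
  rw [vnEntropy_eq_roots h, hc, Polynomial.roots_prod]
  · simp
  · simp [Finset.prod_ne_zero_iff, Polynomial.X_sub_C_ne_zero]

omit [Fintype d] in
lemma isHermitian_diagonal_ofReal (μ : d → ℝ) :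
    (diagonal (fun i => (μ i : ℂ))).IsHermitian := by
  apply isHermitian_diagonal_of_self_adjoint
  ext i
  simp

lemma vnEntropy_diagonal (μ : d → ℝ) :
    vnEntropy (diagonal (fun i => (μ i : ℂ))) = ∑ i, Real.negMulLog (μ i) :=
  vnEntropy_of_charpoly (isHermitian_diagonal_ofReal μ) μ (charpoly_diagonal _)

lemma isHermitian_conj_iff {U : Matrix d d ℂ} (hU : U ∈ unitaryGroup d ℂ) (ρ : Matrix d d ℂ) :
    (U * ρ * star U).IsHermitian ↔ ρ.IsHermitian := by
  have h1 : star U * U = 1 := (mem_unitaryGroup_iff').1 hU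
  constructor
  · intro h
    have h2 : ρ = star U * (U * ρ * star U) * U := by
      calc ρ = (star U * U) * ρ * (star U * U) := by rw [h1]; simp
        _ = _ := by simp only [Matrix.mul_assoc]
    rw [h2]
    have := isHermitian_conjTranspose_mul_mul U h
    simpa [star_eq_conjTranspose] using this
  · intro h
    have := isHermitian_mul_mul_conjTranspose U h
    simpa [star_eq_conjTranspose] using this

lemma charpoly_conj {U : Matrix d d ℂ} (hU : U ∈ unitaryGroup d ℂ) (ρ : Matrix d d ℂ) :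
    (U * ρ * star U).charpoly = ρ.charpoly := by
  have h1 : star U * U = 1 := (mem_unitaryGroup_iff').1 hU
  rw [Matrix.mul_assoc, charpoly_mul_comm, Matrix.mul_assoc, h1, Matrix.mul_one]

/-- Unitary invariance of `vnEntropy` (no hypothesis on `ρ`). -/
lemma vnEntropy_unitary_conj {U : Matrix d d ℂ} (hU : U ∈ unitaryGroup d ℂ) (ρ : Matrix d d ℂ) :
    vnEntropy (U * ρ * star U) = vnEntropy ρ := by
  by_cases h : ρ.IsHermitian
  · rw [vnEntropy_eq_roots h, vnEntropy_eq_roots ((isHermitian_conj_iff hU ρ).2 h),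
      charpoly_conj hU]
  · rw [vnEntropy_of_not_hermitian h,
      vnEntropy_of_not_hermitian (fun h' => h ((isHermitian_conj_iff hU ρ).1 h'))]

lemma vnEntropy_unitary_conj' {U : Matrix d d ℂ} (hU : U ∈ unitaryGroup d ℂ) (ρ : Matrix d d ℂ) :
    vnEntropy (star U * ρ * U) = vnEntropy ρ := by
  have hU' : star U ∈ unitaryGroup d ℂ := Unitary.star_mem hU
  simpa using vnEntropy_unitary_conj hU' ρ

/-- (Spec) -/
lemma vnEntropy_of_spectral {U : Matrix d d ℂ} (hU : U ∈ unitaryGroup d ℂ) (μ : d → ℝ) :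
    vnEntropy (U * diagonal (fun i => (μ i : ℂ)) * star U) = ∑ i, Real.negMulLog (μ i) := by
  rw [vnEntropy_unitary_conj hU, vnEntropy_diagonal]

/-- Reindexing invariance. -/
lemma vnEntropy_submatrix_equiv {d' : Type*} [Fintype d'] [DecidableEq d'] (e : d' ≃ d)
    (ρ : Matrix d d ℂ) : vnEntropy (ρ.submatrix e e) = vnEntropy ρ := by
  have hiff : (ρ.submatrix e e).IsHermitian ↔ ρ.IsHermitian := by
    constructor
    · intro h
      have := h.submatrix e.symm
      simpa using this
    · intro h; exact h.submatrix e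
  by_cases h : ρ.IsHermitian
  · rw [vnEntropy_eq_roots h, vnEntropy_eq_roots (hiff.2 h)]
    have := Matrix.charpoly_reindex e.symm ρ
    simp only [Matrix.reindex_apply, Equiv.symm_symm] at this
    rw [this]
  · rw [vnEntropy_of_not_hermitian h, vnEntropy_of_not_hermitian (fun h' => h (hiff.1 h'))]

/-- column sums of `|W k i|^2` -/
lemma unitary_col_sum {W : Matrix d d ℂ} (hW : W ∈ unitaryGroup d ℂ) (i : d) :
    ∑ k, ‖W k i‖ ^ 2 = 1 := by
  have h1 : star W * W = 1 := (mem_unitaryGroup_iff').1 hW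
  have h2 := congrFun (congrFun h1 i) i
  simp only [Matrix.mul_apply, star_apply, one_apply_eq] at h2
  have h3 : ∀ k, star (W k i) * W k i = ((‖W k i‖ ^ 2 : ℝ) : ℂ) := by
    intro k
    rw [Complex.star_def, Complex.conj_mul']
    push_cast; rfl
  simp only [h3] at h2
  exact_mod_cast h2

lemma unitary_row_sum {W : Matrix d d ℂ} (hW : W ∈ unitaryGroup d ℂ) (k : d) :
    ∑ i, ‖W k i‖ ^ 2 = 1 := by
  have h1 : W * star W = 1 := (mem_unitaryGroup_iff).1 hW
  have h2 := congrFun (congrFun h1 k) k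
  simp only [Matrix.mul_apply, star_apply, one_apply_eq] at h2
  have h3 : ∀ i, W k i * star (W k i) = ((‖W k i‖ ^ 2 : ℝ) : ℂ) := by
    intro i
    rw [Complex.star_def, Complex.mul_conj']
    push_cast; rfl
  simp only [h3] at h2
  exact_mod_cast h2

/-- Doubly stochastic Jensen. -/
lemma sum_negMulLog_le_of_unitary {W : Matrix d d ℂ} (hW : W ∈ unitaryGroup d ℂ) (μ : d → ℝ)
    (hμ : ∀ i, 0 ≤ μ i) :
    ∑ k, Real.negMulLog (μ k) ≤ ∑ i, Real.negMulLog (∑ k, ‖W k i‖ ^ 2 * μ k) := by
  have hJ : ∀ i, ∑ k, ‖W k i‖ ^ 2 * Real.negMulLog (μ k) ≤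
      Real.negMulLog (∑ k, ‖W k i‖ ^ 2 * μ k) := by
    intro i
    have := Real.concaveOn_negMulLog.le_map_sum (t := Finset.univ) (w := fun k => ‖W k i‖ ^ 2)
      (p := μ) (fun k _ => by positivity) (unitary_col_sum hW i) (fun k _ => hμ k)
    simpa [smul_eq_mul] using this
  calc ∑ k, Real.negMulLog (μ k) = ∑ k, (∑ i, ‖W k i‖ ^ 2) * Real.negMulLog (μ k) := by
        simp [unitary_row_sum hW]
    _ = ∑ i, ∑ k, ‖W k i‖ ^ 2 * Real.negMulLog (μ k) := by
        simp only [Finset.sum_mul]
        rw [Finset.sum_comm]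
    _ ≤ _ := Finset.sum_le_sum (fun i _ => hJ i)

lemma conj_diagonal_apply_diag (W : Matrix d d ℂ) (μ : d → ℝ) (i : d) :
    (star W * diagonal (fun i => (μ i : ℂ)) * W) i i = ((∑ k, ‖W k i‖ ^ 2 * μ k : ℝ) : ℂ) := by
  rw [Matrix.mul_apply]
  simp only [Matrix.mul_diagonal, star_apply]
  push_cast
  refine Finset.sum_congr rfl (fun k _ => ?_)
  have h3 : star (W k i) * W k i = ((‖W k i‖ : ℂ) ^ 2) := by
    rw [Complex.star_def, Complex.conj_mul']
  calc star (W k i) * (μ k : ℂ) * W k i = (star (W k i) * W k i) * μ k := by ring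
    _ = _ := by rw [h3]

/-- spectral theorem in plain matrix form -/
lemma spectral_plain {ρ : Matrix d d ℂ} (h : ρ.IsHermitian) :
    ρ = (h.eigenvectorUnitary : Matrix d d ℂ) * diagonal (fun i => (h.eigenvalues i : ℂ)) *
      star (h.eigenvectorUnitary : Matrix d d ℂ) := by
  have := h.spectral_theorem
  rw [Unitary.conjStarAlgAut_apply] at this
  exact this

/-- (Diag): the entropy is at most the Shannon entropy of the diagonal in any orthonormal basis. -/
lemma vnEntropy_le_sum_diag {ρ : Matrix d d ℂ} (hρ : ρ.PosSemidef) {U : Matrix d d ℂ}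
    (hU : U ∈ unitaryGroup d ℂ) :
    vnEntropy ρ ≤ ∑ i, Real.negMulLog ((star U * ρ * U) i i).re := by
  have h := hρ.isHermitian
  set V : Matrix d d ℂ := (h.eigenvectorUnitary : Matrix d d ℂ) with hV
  have hVu : V ∈ unitaryGroup d ℂ := h.eigenvectorUnitary.2
  have hW : star V * U ∈ unitaryGroup d ℂ := mul_mem (Unitary.star_mem hVu) hU
  have key : star U * ρ * U =
      star (star V * U) * diagonal (fun i => (h.eigenvalues i : ℂ)) * (star V * U) := by
    conv_lhs => rw [spectral_plain h]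
    simp only [star_mul, star_star, Matrix.mul_assoc, ← hV]
  rw [vnEntropy_eq_sum h, key]
  simp only [conj_diagonal_apply_diag, Complex.ofReal_re]
  exact sum_negMulLog_le_of_unitary hW _ (fun i => hρ.eigenvalues_nonneg i)


omit [DecidableEq d] in
lemma conj_diag_re_nonneg {ρ : Matrix d d ℂ} (hρ : ρ.PosSemidef) (U : Matrix d d ℂ) (i : d) :
    0 ≤ ((star U * ρ * U) i i).re := by
  have h1 : (star U * ρ * U).PosSemidef := by
    have := hρ.conjTranspose_mul_mul_same U
    simpa [star_eq_conjTranspose] using this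
  have h2 := h1.diag_nonneg (i := i)
  exact (Complex.le_def.1 h2).1

/-- diagonalisation: `V* ρ V = diag λ`. -/
lemma star_eigenvectorUnitary_mul_mul {ρ : Matrix d d ℂ} (h : ρ.IsHermitian) :
    star (h.eigenvectorUnitary : Matrix d d ℂ) * ρ * (h.eigenvectorUnitary : Matrix d d ℂ) =
      diagonal (fun i => (h.eigenvalues i : ℂ)) := by
  have hVu : (h.eigenvectorUnitary : Matrix d d ℂ) ∈ unitaryGroup d ℂ := h.eigenvectorUnitary.2
  have h1 : star (h.eigenvectorUnitary : Matrix d d ℂ) * (h.eigenvectorUnitary : Matrix d d ℂ) = 1 :=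
    (mem_unitaryGroup_iff').1 hVu
  have hs := spectral_plain h
  calc star (h.eigenvectorUnitary : Matrix d d ℂ) * ρ * (h.eigenvectorUnitary : Matrix d d ℂ)
      = star (h.eigenvectorUnitary : Matrix d d ℂ) * ((h.eigenvectorUnitary : Matrix d d ℂ) *
        diagonal (fun i => (h.eigenvalues i : ℂ)) * star (h.eigenvectorUnitary : Matrix d d ℂ)) *
        (h.eigenvectorUnitary : Matrix d d ℂ) := by rw [← hs]
    _ = (star (h.eigenvectorUnitary : Matrix d d ℂ) * (h.eigenvectorUnitary : Matrix d d ℂ)) *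
        diagonal (fun i => (h.eigenvalues i : ℂ)) *
        (star (h.eigenvectorUnitary : Matrix d d ℂ) * (h.eigenvectorUnitary : Matrix d d ℂ)) := by
        simp only [Matrix.mul_assoc]
    _ = _ := by rw [h1]; simp

/-- (Conc) concavity of the von Neumann entropy on PSD matrices. -/
lemma vnEntropy_concave {ι : Type*} [Fintype ι] (q : ι → ℝ) (ρ : ι → Matrix d d ℂ)
    (hq : ∀ a, 0 ≤ q a) (hsum : ∑ a, q a = 1) (hρ : ∀ a, (ρ a).PosSemidef) :
    ∑ a, q a * vnEntropy (ρ a) ≤ vnEntropy (∑ a, (q a : ℂ) • ρ a) := by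
  have hbar : (∑ a, (q a : ℂ) • ρ a).PosSemidef := by
    apply Matrix.posSemidef_sum
    intro a _
    exact (hρ a).smul (by exact_mod_cast hq a)
  have h := hbar.isHermitian
  set V : Matrix d d ℂ := (h.eigenvectorUnitary : Matrix d d ℂ) with hV
  have hVu : V ∈ unitaryGroup d ℂ := h.eigenvectorUnitary.2
  have hdiag := star_eigenvectorUnitary_mul_mul h
  rw [← hV] at hdiag
  have hlam : ∀ i, h.eigenvalues i = ∑ a, q a * ((star V * ρ a * V) i i).re := by
    intro i
    have h1 := congrFun (congrFun hdiag i) i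
    rw [diagonal_apply_eq, Matrix.mul_sum, Matrix.sum_mul, Matrix.sum_apply] at h1
    have h2 := congrArg Complex.re h1
    rw [Complex.ofReal_re, Complex.re_sum] at h2
    rw [← h2]
    refine Finset.sum_congr rfl (fun a _ => ?_)
    simp
  rw [vnEntropy_eq_sum h]
  calc ∑ a, q a * vnEntropy (ρ a)
      ≤ ∑ a, q a * ∑ i, Real.negMulLog ((star V * ρ a * V) i i).re :=
        Finset.sum_le_sum (fun a _ =>
          mul_le_mul_of_nonneg_left (vnEntropy_le_sum_diag (hρ a) hVu) (hq a))
    _ = ∑ i, ∑ a, q a * Real.negMulLog ((star V * ρ a * V) i i).re := by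
        simp only [Finset.mul_sum]
        rw [Finset.sum_comm]
    _ ≤ ∑ i, Real.negMulLog (h.eigenvalues i) := by
        refine Finset.sum_le_sum (fun i _ => ?_)
        rw [hlam i]
        have := Real.concaveOn_negMulLog.le_map_sum (t := Finset.univ) (w := q)
          (p := fun a => ((star V * ρ a * V) i i).re) (fun a _ => hq a) hsum
          (fun a _ => conj_diag_re_nonneg (hρ a) V i)
        simpa [smul_eq_mul] using this

lemma trace_re_eq_sum_eigenvalues {ρ : Matrix d d ℂ} (h : ρ.IsHermitian) :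
    (ρ.trace).re = ∑ i, h.eigenvalues i := by
  rw [h.trace_eq_sum_eigenvalues]
  simp

/-- scaling -/
lemma vnEntropy_smul {ρ : Matrix d d ℂ} (h : ρ.IsHermitian) (c : ℝ) :
    vnEntropy ((c : ℂ) • ρ) = c * vnEntropy ρ + Real.negMulLog c * (ρ.trace).re := by
  have hVu : (h.eigenvectorUnitary : Matrix d d ℂ) ∈ unitaryGroup d ℂ := h.eigenvectorUnitary.2
  have h1 : (c : ℂ) • ρ = (h.eigenvectorUnitary : Matrix d d ℂ) *
      diagonal (fun i => ((c * h.eigenvalues i : ℝ) : ℂ)) *
      star (h.eigenvectorUnitary : Matrix d d ℂ) := by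
    conv_lhs => rw [spectral_plain h]
    have : diagonal (fun i => ((c * h.eigenvalues i : ℝ) : ℂ)) =
        (c : ℂ) • diagonal (fun i => (h.eigenvalues i : ℂ)) := by
      ext i j
      by_cases hij : i = j
      · subst hij; simp
      · simp [hij]
    rw [this]
    simp
  rw [h1, vnEntropy_of_spectral hVu, vnEntropy_eq_sum h, trace_re_eq_sum_eigenvalues h]
  simp only [Real.negMulLog_mul, Finset.sum_add_distrib, Finset.mul_sum]
  rw [add_comm]
  congr 1
  refine Finset.sum_congr rfl (fun i _ => by ring)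

/-- additivity on Kronecker products (unnormalised form) -/
lemma vnEntropy_kronecker {e : Type*} [Fintype e] [DecidableEq e] {A : Matrix d d ℂ}
    {B : Matrix e e ℂ} (hA : A.IsHermitian) (hB : B.IsHermitian) :
    vnEntropy (A ⊗ₖ B) = (B.trace).re * vnEntropy A + (A.trace).re * vnEntropy B := by
  set UA : Matrix d d ℂ := (hA.eigenvectorUnitary : Matrix d d ℂ) with hUA
  set UB : Matrix e e ℂ := (hB.eigenvectorUnitary : Matrix e e ℂ) with hUB
  have hUAu : UA ∈ unitaryGroup d ℂ := hA.eigenvectorUnitary.2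
  have hUBu : UB ∈ unitaryGroup e ℂ := hB.eigenvectorUnitary.2
  have hU : UA ⊗ₖ UB ∈ unitaryGroup (d × e) ℂ := kronecker_mem_unitary hUAu hUBu
  have h1 : A ⊗ₖ B = (UA ⊗ₖ UB) *
      diagonal (fun p : d × e => ((hA.eigenvalues p.1 * hB.eigenvalues p.2 : ℝ) : ℂ)) *
      star (UA ⊗ₖ UB) := by
    conv_lhs => rw [spectral_plain hA, spectral_plain hB]
    rw [← hUA, ← hUB, mul_kronecker_mul, mul_kronecker_mul, diagonal_kronecker_diagonal,
      star_eq_conjTranspose, star_eq_conjTranspose, star_eq_conjTranspose,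
      conjTranspose_kronecker]
    congr 3
    ext p
    push_cast
    rfl
  rw [h1, vnEntropy_of_spectral hU, vnEntropy_eq_sum hA, vnEntropy_eq_sum hB,
    trace_re_eq_sum_eigenvalues hA, trace_re_eq_sum_eigenvalues hB, Fintype.sum_prod_type]
  simp only [Real.negMulLog_mul, Finset.sum_add_distrib]
  rw [Finset.sum_mul_sum, Finset.sum_mul_sum]
  congr 1
  rw [Finset.sum_comm]

/-- block diagonal -/
lemma vnEntropy_fromBlocks_diag {e : Type*} [Fintype e] [DecidableEq e] {A : Matrix d d ℂ}
    {B : Matrix e e ℂ} (hA : A.IsHermitian) (hB : B.IsHermitian) :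
    vnEntropy (fromBlocks A 0 0 B) = vnEntropy A + vnEntropy B := by
  have h : (fromBlocks A 0 0 B).IsHermitian := by
    apply IsHermitian.fromBlocks hA _ hB
    simp
  rw [vnEntropy_eq_roots h, vnEntropy_eq_roots hA, vnEntropy_eq_roots hB,
    charpoly_fromBlocks_zero₁₂, Polynomial.roots_mul, Multiset.map_add, Multiset.sum_add]
  exact mul_ne_zero (charpoly_monic A).ne_zero (charpoly_monic B).ne_zero


section Bipartite

variable {k e : Type*} [Fintype k] [DecidableEq k] [Fintype e] [DecidableEq e]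

/-- partial trace over the second factor -/
def ptrA (M : Matrix (k × e) (k × e) ℂ) : Matrix k k ℂ := of fun s t => ∑ i, M (s, i) (t, i)
/-- partial trace over the first factor -/
def ptrB (M : Matrix (k × e) (k × e) ℂ) : Matrix e e ℂ := of fun i j => ∑ s, M (s, i) (s, j)

lemma trace_mul_kron_one (M : Matrix (k × e) (k × e) ℂ) (R : Matrix k k ℂ) :
    (M * (R ⊗ₖ (1 : Matrix e e ℂ))).trace = (ptrA M * R).trace := by
  simp only [Matrix.trace, Matrix.diag, Matrix.mul_apply, kroneckerMap_apply, Fintype.sum_prod_type,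
    ptrA, of_apply, one_apply, mul_ite, mul_one, mul_zero, Finset.sum_ite_eq', Finset.mem_univ, if_true,
    Finset.sum_mul]
  refine Finset.sum_congr rfl (fun s _ => ?_)
  rw [Finset.sum_comm]

lemma trace_mul_one_kron (M : Matrix (k × e) (k × e) ℂ) (R : Matrix e e ℂ) :
    (M * ((1 : Matrix k k ℂ) ⊗ₖ R)).trace = (ptrB M * R).trace := by
  simp only [Matrix.trace, Matrix.diag, Matrix.mul_apply, kroneckerMap_apply, Fintype.sum_prod_type,
    ptrB, of_apply, one_apply, mul_ite, mul_one, mul_zero, ite_mul, one_mul, zero_mul, Finset.sum_ite_eq', Finset.mem_univ, if_true,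
    Finset.sum_mul]
  have h1 : ∀ x x_1, (∑ x_2, ∑ x_3, if x_2 = x then M (x, x_1) (x_2, x_3) * R x_3 x_1 else 0) =
      ∑ x_3, M (x, x_1) (x, x_3) * R x_3 x_1 := by
    intro x x_1
    rw [Finset.sum_comm]
    simp [Finset.sum_ite_eq']
  simp only [h1]
  rw [Finset.sum_comm]
  refine Finset.sum_congr rfl (fun s _ => ?_)
  rw [Finset.sum_comm]

/-- diagonal entry as a trace -/
lemma conj_apply_diag_eq_trace {n : Type*} [Fintype n] [DecidableEq n] (X U : Matrix n n ℂ) (i : n) :
    (star U * X * U) i i = (X * (U * Matrix.single i i 1 * star U)).trace := by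
  rw [← Matrix.mul_assoc, ← Matrix.mul_assoc, Matrix.trace_mul_comm, ← Matrix.mul_assoc, ← Matrix.mul_assoc,
    Matrix.trace_mul_single]
  simp

lemma sum_conj_single {n : Type*} [Fintype n] [DecidableEq n] {U : Matrix n n ℂ}
    (hU : U ∈ unitaryGroup n ℂ) : ∑ i, U * Matrix.single i i 1 * star U = 1 := by
  rw [← Matrix.sum_mul, ← Matrix.mul_sum]
  have : ∑ i : n, Matrix.single i i (1 : ℂ) = 1 := by
    ext a b
    rw [Matrix.sum_apply]
    by_cases hab : a = b
    · subst hab
      simp [Matrix.single_apply]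
    · have : ∀ c : n, ¬ (c = a ∧ c = b) := fun c hc => hab (hc.1.symm.trans hc.2)
      simp [Matrix.single_apply, hab, this]
  rw [this, Matrix.mul_one]
  exact (mem_unitaryGroup_iff).1 hU

lemma kron_conj_single (UA : Matrix k k ℂ) (UB : Matrix e e ℂ) (s : k) (i : e) :
    (UA ⊗ₖ UB) * Matrix.single (s, i) (s, i) 1 * star (UA ⊗ₖ UB) =
      (UA * Matrix.single s s 1 * star UA) ⊗ₖ (UB * Matrix.single i i 1 * star UB) := by
  rw [mul_kronecker_mul, mul_kronecker_mul, single_kronecker_single, star_eq_conjTranspose,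
    star_eq_conjTranspose, star_eq_conjTranspose, conjTranspose_kronecker]
  simp

lemma sum_diag_A (M : Matrix (k × e) (k × e) ℂ) (UA : Matrix k k ℂ) {UB : Matrix e e ℂ}
    (hUB : UB ∈ unitaryGroup e ℂ) (s : k) :
    ∑ i, (star (UA ⊗ₖ UB) * M * (UA ⊗ₖ UB)) (s, i) (s, i) = (star UA * ptrA M * UA) s s := by
  simp only [conj_apply_diag_eq_trace, kron_conj_single]
  rw [← Matrix.trace_sum, ← Matrix.mul_sum, ← trace_mul_kron_one, ← sum_conj_single hUB]
  congr 2
  ext ⟨a, b⟩ ⟨c, d⟩
  simp [Matrix.sum_apply, kroneckerMap_apply, Finset.mul_sum]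

lemma sum_diag_B (M : Matrix (k × e) (k × e) ℂ) {UA : Matrix k k ℂ} (UB : Matrix e e ℂ)
    (hUA : UA ∈ unitaryGroup k ℂ) (i : e) :
    ∑ s, (star (UA ⊗ₖ UB) * M * (UA ⊗ₖ UB)) (s, i) (s, i) = (star UB * ptrB M * UB) i i := by
  simp only [conj_apply_diag_eq_trace, kron_conj_single]
  rw [← Matrix.trace_sum, ← Matrix.mul_sum, ← trace_mul_one_kron, ← sum_conj_single hUA]
  congr 2
  ext ⟨a, b⟩ ⟨c, d⟩
  simp [Matrix.sum_apply, kroneckerMap_apply, Finset.sum_mul]

lemma ptrA_eq_sum (M : Matrix (k × e) (k × e) ℂ) :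
    ptrA M = ∑ i, M.submatrix (fun s => (s, i)) (fun s => (s, i)) := by
  ext s t
  simp [ptrA, Matrix.sum_apply]

lemma ptrB_eq_sum (M : Matrix (k × e) (k × e) ℂ) :
    ptrB M = ∑ s, M.submatrix (fun i => (s, i)) (fun i => (s, i)) := by
  ext s t
  simp [ptrB, Matrix.sum_apply]

lemma ptrA_posSemidef {M : Matrix (k × e) (k × e) ℂ} (hM : M.PosSemidef) : (ptrA M).PosSemidef := by
  rw [ptrA_eq_sum]
  exact Matrix.posSemidef_sum _ (fun i _ => hM.submatrix _)

lemma ptrB_posSemidef {M : Matrix (k × e) (k × e) ℂ} (hM : M.PosSemidef) : (ptrB M).PosSemidef := by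
  rw [ptrB_eq_sum]
  exact Matrix.posSemidef_sum _ (fun i _ => hM.submatrix _)

lemma trace_ptrA (M : Matrix (k × e) (k × e) ℂ) : (ptrA M).trace = M.trace := by
  simp [Matrix.trace, ptrA, Fintype.sum_prod_type]

lemma trace_ptrB (M : Matrix (k × e) (k × e) ℂ) : (ptrB M).trace = M.trace := by
  simp only [Matrix.trace, ptrB, Fintype.sum_prod_type, Matrix.diag, of_apply]
  rw [Finset.sum_comm]

/-- classical subadditivity of the Shannon entropy -/
lemma classical_subadd (p : k → e → ℝ) (hp : ∀ s i, 0 ≤ p s i) (h1 : ∑ s, ∑ i, p s i = 1) :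
    ∑ s, ∑ i, Real.negMulLog (p s i) ≤
      ∑ s, Real.negMulLog (∑ i, p s i) + ∑ i, Real.negMulLog (∑ s, p s i) := by
  set a : k → ℝ := fun s => ∑ i, p s i with ha
  set b : e → ℝ := fun i => ∑ s, p s i with hb
  have hpa : ∀ s i, p s i ≤ a s := fun s i =>
    Finset.single_le_sum (f := fun i => p s i) (fun j _ => hp s j) (Finset.mem_univ i)
  have hpb : ∀ s i, p s i ≤ b i := fun s i =>
    Finset.single_le_sum (f := fun s => p s i) (fun j _ => hp j i) (Finset.mem_univ s)
  have key : ∀ s i, Real.negMulLog (p s i) ≤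
      - (p s i * Real.log (a s)) - p s i * Real.log (b i) + (a s * b i - p s i) := by
    intro s i
    rcases (hp s i).eq_or_lt with h0 | hpos
    · rw [← h0]
      have : 0 ≤ a s * b i := mul_nonneg ((hp s i).trans (hpa s i)) ((hp s i).trans (hpb s i))
      simp [this]
    · have hapos : 0 < a s := lt_of_lt_of_le hpos (hpa s i)
      have hbpos : 0 < b i := lt_of_lt_of_le hpos (hpb s i)
      have h2 : Real.log (a s * b i / p s i) ≤ a s * b i / p s i - 1 :=
        Real.log_le_sub_one_of_pos (by positivity)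
      rw [Real.log_div (by positivity) (by positivity), Real.log_mul (by positivity) (by positivity)] at h2
      have h3 := mul_le_mul_of_nonneg_left h2 hpos.le
      have h4 : p s i * (a s * b i / p s i - 1) = a s * b i - p s i := by
        field_simp
      rw [h4] at h3
      unfold Real.negMulLog
      nlinarith
  have hsa : ∑ s, a s = 1 := h1
  have hsb : ∑ i, b i = 1 := by
    rw [← h1, Finset.sum_comm]
  calc ∑ s, ∑ i, Real.negMulLog (p s i)
      ≤ ∑ s, ∑ i, (- (p s i * Real.log (a s)) - p s i * Real.log (b i) + (a s * b i - p s i)) :=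
        Finset.sum_le_sum (fun s _ => Finset.sum_le_sum (fun i _ => key s i))
    _ = ∑ s, Real.negMulLog (a s) + ∑ i, Real.negMulLog (b i) := by
        simp only [Finset.sum_add_distrib, Finset.sum_sub_distrib, Finset.sum_neg_distrib]
        have e1 : ∑ s, ∑ i, p s i * Real.log (a s) = ∑ s, a s * Real.log (a s) := by
          refine Finset.sum_congr rfl (fun s _ => ?_)
          rw [← Finset.sum_mul]
        have e2 : ∑ s, ∑ i, p s i * Real.log (b i) = ∑ i, b i * Real.log (b i) := by
          rw [Finset.sum_comm]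
          refine Finset.sum_congr rfl (fun s _ => ?_)
          rw [← Finset.sum_mul]
        have e3 : ∑ s, ∑ i, a s * b i = 1 := by
          rw [← Finset.sum_mul_sum, hsa, hsb, one_mul]
        rw [e1, e2, e3, h1]
        simp only [Real.negMulLog, neg_mul, Finset.sum_neg_distrib]
        ring

/-- (Subadd) subadditivity of the von Neumann entropy. -/
theorem vnEntropy_subadditive {M : Matrix (k × e) (k × e) ℂ} (hM : M.PosSemidef)
    (htr : M.trace = 1) : vnEntropy M ≤ vnEntropy (ptrA M) + vnEntropy (ptrB M) := by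
  have hA := (ptrA_posSemidef hM).isHermitian
  have hB := (ptrB_posSemidef hM).isHermitian
  set UA : Matrix k k ℂ := (hA.eigenvectorUnitary : Matrix k k ℂ) with hUA
  set UB : Matrix e e ℂ := (hB.eigenvectorUnitary : Matrix e e ℂ) with hUB
  have hUAu : UA ∈ unitaryGroup k ℂ := hA.eigenvectorUnitary.2
  have hUBu : UB ∈ unitaryGroup e ℂ := hB.eigenvectorUnitary.2
  have hU : UA ⊗ₖ UB ∈ unitaryGroup (k × e) ℂ := kronecker_mem_unitary hUAu hUBu
  set p : k → e → ℝ := fun s i => ((star (UA ⊗ₖ UB) * M * (UA ⊗ₖ UB)) (s, i) (s, i)).re with hp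
  have hp0 : ∀ s i, 0 ≤ p s i := fun s i => conj_diag_re_nonneg hM _ _
  have ha : ∀ s, ∑ i, p s i = hA.eigenvalues s := by
    intro s
    have h1 := congrArg Complex.re (sum_diag_A M UA hUBu s)
    rw [Complex.re_sum, hUA, star_eigenvectorUnitary_mul_mul hA, diagonal_apply_eq,
      Complex.ofReal_re] at h1
    exact h1
  have hb : ∀ i, ∑ s, p s i = hB.eigenvalues i := by
    intro i
    have h1 := congrArg Complex.re (sum_diag_B M UB hUAu i)
    rw [Complex.re_sum, hUB, star_eigenvectorUnitary_mul_mul hB, diagonal_apply_eq,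
      Complex.ofReal_re] at h1
    exact h1
  have h1 : ∑ s, ∑ i, p s i = 1 := by
    simp only [ha]
    rw [← trace_re_eq_sum_eigenvalues hA, trace_ptrA, htr]
    simp
  have h2 := classical_subadd p hp0 h1
  simp only [ha, hb] at h2
  rw [vnEntropy_eq_sum hA, vnEntropy_eq_sum hB]
  refine le_trans (vnEntropy_le_sum_diag hM hU) ?_
  rw [Fintype.sum_prod_type]
  exact h2

end Bipartite

section MulComm
variable {m n : Type*} [Fintype m] [DecidableEq m] [Fintype n] [DecidableEq n]

lemma roots_X_pow_mul_sum (k : ℕ) {p : ℂ[X]} (hp : p ≠ 0) :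
    (((X : ℂ[X]) ^ k * p).roots.map (fun z : ℂ => Real.negMulLog z.re)).sum =
      (p.roots.map (fun z : ℂ => Real.negMulLog z.re)).sum := by
  rw [Polynomial.roots_mul (mul_ne_zero (pow_ne_zero _ X_ne_zero) hp), Polynomial.roots_X_pow,
    Multiset.map_add, Multiset.sum_add, Multiset.map_nsmul, Multiset.sum_nsmul]
  simp

/-- `S(b bᴴ) = S(bᴴ b)` for rectangular `b`. -/
lemma vnEntropy_mul_conjTranspose_comm (b : Matrix m n ℂ) :
    vnEntropy (b * bᴴ) = vnEntropy (bᴴ * b) := by
  rw [vnEntropy_eq_roots (isHermitian_mul_conjTranspose_self b),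
    vnEntropy_eq_roots (isHermitian_conjTranspose_mul_self b),
    ← roots_X_pow_mul_sum (Fintype.card n) (charpoly_monic (b * bᴴ)).ne_zero,
    ← roots_X_pow_mul_sum (Fintype.card m) (charpoly_monic (bᴴ * b)).ne_zero,
    charpoly_mul_comm']

end MulComm

section BoolSub
variable {e : Type*} [Fintype e] [DecidableEq e]

lemma ptrB_bool (M : Matrix (Bool × e) (Bool × e) ℂ) :
    ptrB M = block M false false + block M true true := by
  ext i j
  simp [ptrB, block, add_comm]

lemma ptrA_apply_eq_trace_block {k : Type*} [Fintype k] [DecidableEq k]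
    (M : Matrix (k × e) (k × e) ℂ) (s t : k) : ptrA M s t = (block M s t).trace := by
  simp [ptrA, block, Matrix.trace]

/-- entropy of a PSD trace one `2 × 2` matrix is at most the binary entropy of its diagonal. -/
lemma vnEntropy_bool_le_binEntropy {A : Matrix Bool Bool ℂ} (hA : A.PosSemidef)
    (htr : A.trace = 1) : vnEntropy A ≤ Real.binEntropy (A true true).re := by
  have h1 := vnEntropy_le_sum_diag hA (U := 1) (one_mem _)
  simp only [star_one, Matrix.one_mul, Matrix.mul_one, Fintype.sum_bool] at h1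
  have h2 : (A false false).re = 1 - (A true true).re := by
    have := congrArg Complex.re htr
    simp only [Matrix.trace, Matrix.diag, Fintype.sum_bool, Complex.add_re, Complex.one_re] at this
    linarith
  rw [Real.binEntropy_eq_negMulLog_add_negMulLog_one_sub, ← h2]
  exact h1

/-- (SUB) of the task board. -/
theorem vnEntropy_le_binEntropy_add {M : Matrix (Bool × e) (Bool × e) ℂ} (hM : M.PosSemidef)
    (htr : M.trace = 1) :
    vnEntropy M ≤ Real.binEntropy ((block M true true).trace).re +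
      vnEntropy (block M false false + block M true true) := by
  have h1 := vnEntropy_subadditive hM htr
  have h2 := vnEntropy_bool_le_binEntropy (ptrA_posSemidef hM) ((trace_ptrA M).trans htr)
  rw [ptrA_apply_eq_trace_block] at h2
  rw [ptrB_bool] at h1
  linarith

end BoolSub

end Crest.Agent.S0534Aux.EntBasic
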