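import Mathlib

/-!
# The scalar three-edge function `Gsc`

`Gsc p1 p2 p3 = η(λ₊) + η(λ₋) - η(p1) - η(p2) - η(p3)` where `λ±` are the eigenvalues of
`[[p1 + p2, √(p2 p3)], [√(p2 p3), p3]]`, i.e. `λ₊ + λ₋ = p1 + p2 + p3`, `λ₊ λ₋ = p1 p3`.
-/

namespace Crest.Agent.S0534Aux

noncomputable def lamP (p1 p2 p3 : ℝ) : ℝ :=
  ((p1 + p2 + p3) + Real.sqrt ((p1 + p2 + p3) ^ 2 - 4 * p1 * p3)) / 2

noncomputable def lamM (p1 p2 p3 : ℝ) : ℝ :=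
  ((p1 + p2 + p3) - Real.sqrt ((p1 + p2 + p3) ^ 2 - 4 * p1 * p3)) / 2

noncomputable def Gsc (p1 p2 p3 : ℝ) : ℝ :=
  Real.negMulLog (lamP p1 p2 p3) + Real.negMulLog (lamM p1 p2 p3)
    - Real.negMulLog p1 - Real.negMulLog p2 - Real.negMulLog p3

theorem disc_nonneg {p1 p2 p3 : ℝ} (h1 : 0 ≤ p1) (h2 : 0 ≤ p2) (h3 : 0 ≤ p3) :
    0 ≤ (p1 + p2 + p3) ^ 2 - 4 * p1 * p3 := by
  nlinarith [sq_nonneg (p1 - p3), mul_nonneg h2 h1, mul_nonneg h2 h3, mul_nonneg h2 h2]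

theorem lamP_add_lamM (p1 p2 p3 : ℝ) : lamP p1 p2 p3 + lamM p1 p2 p3 = p1 + p2 + p3 := by
  unfold lamP lamM; ring

theorem lamP_mul_lamM {p1 p2 p3 : ℝ} (h1 : 0 ≤ p1) (h2 : 0 ≤ p2) (h3 : 0 ≤ p3) :
    lamP p1 p2 p3 * lamM p1 p2 p3 = p1 * p3 := by
  unfold lamP lamM
  have h := Real.sq_sqrt (disc_nonneg h1 h2 h3)
  nlinarith [h]

theorem lamP_nonneg {p1 p2 p3 : ℝ} (h1 : 0 ≤ p1) (h2 : 0 ≤ p2) (h3 : 0 ≤ p3) :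
    0 ≤ lamP p1 p2 p3 := by
  unfold lamP
  have := Real.sqrt_nonneg ((p1 + p2 + p3) ^ 2 - 4 * p1 * p3)
  linarith

theorem lamM_nonneg {p1 p2 p3 : ℝ} (h1 : 0 ≤ p1) (h2 : 0 ≤ p2) (h3 : 0 ≤ p3) :
    0 ≤ lamM p1 p2 p3 := by
  unfold lamM
  have h : Real.sqrt ((p1 + p2 + p3) ^ 2 - 4 * p1 * p3) ≤ p1 + p2 + p3 := by
    rw [Real.sqrt_le_left (by linarith)]
    nlinarith [mul_nonneg h1 h3]
  linarith

theorem add_lamP_mul_add_lamM {p1 p2 p3 : ℝ} (h1 : 0 ≤ p1) (h2 : 0 ≤ p2) (h3 : 0 ≤ p3) (u : ℝ) :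
    (u + lamP p1 p2 p3) * (u + lamM p1 p2 p3) = u ^ 2 + u * (p1 + p2 + p3) + p1 * p3 := by
  have ha := lamP_add_lamM p1 p2 p3
  have hm := lamP_mul_lamM h1 h2 h3
  calc (u + lamP p1 p2 p3) * (u + lamM p1 p2 p3)
      = u ^ 2 + u * (lamP p1 p2 p3 + lamM p1 p2 p3) + lamP p1 p2 p3 * lamM p1 p2 p3 := by ring
    _ = _ := by rw [ha, hm]

end Crest.Agent.S0534Aux
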