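import Mathlib

/-!
# The monotone lemma (replaces the integral formula for `-x log x`)

If `∑ σ i = 0`, `∑ σ i * x i = 0`, `x i ≥ 0` and `∑ σ i * log (u + x i) ≥ 0` for all `u > 0`,
then `∑ σ i * negMulLog (x i) ≥ 0`.
-/

namespace Crest.Agent.S0534Aux.MonoLemma

open Real Finset

/-- elementary two-sided bound: `x ≤ (u+x) log(1+x/u) ≤ x + x^2/u`. -/
lemma bound_aux {u x : ℝ} (hu : 0 < u) (hx : 0 ≤ x) :
    |(u + x) * Real.log (1 + x / u) - x| ≤ x ^ 2 / u := by
  have hy : 0 ≤ x / u := div_nonneg hx hu.le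
  have h1 : Real.log (1 + x / u) ≤ x / u := by
    have := Real.log_le_sub_one_of_pos (show 0 < 1 + x / u by positivity)
    linarith
  have h2 : 1 - (1 + x / u)⁻¹ ≤ Real.log (1 + x / u) :=
    Real.one_sub_inv_le_log_of_pos (by positivity)
  have hux : 0 < u + x := by positivity
  have e1 : (u + x) * (x / u) = x + x ^ 2 / u := by field_simp
  have e2 : (u + x) * (1 - (1 + x / u)⁻¹) = x := by
    have : (1 + x / u) = (u + x) / u := by field_simp
    rw [this, inv_div]; field_simp; ring
  have h3 : (u + x) * Real.log (1 + x / u) ≤ x + x ^ 2 / u := by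
    rw [← e1]; exact mul_le_mul_of_nonneg_left h1 hux.le
  have h4 : x ≤ (u + x) * Real.log (1 + x / u) := by
    calc x = (u + x) * (1 - (1 + x / u)⁻¹) := e2.symm
      _ ≤ _ := mul_le_mul_of_nonneg_left h2 hux.le
  have h5 : 0 ≤ x ^ 2 / u := by positivity
  rw [abs_le]; constructor <;> linarith

theorem sum_negMulLog_nonneg {ι : Type*} (s : Finset ι) (σ x : ι → ℝ)
    (hx : ∀ i ∈ s, 0 ≤ x i) (h0 : ∑ i ∈ s, σ i = 0) (h1 : ∑ i ∈ s, σ i * x i = 0)
    (hlog : ∀ u : ℝ, 0 < u → 0 ≤ ∑ i ∈ s, σ i * Real.log (u + x i)) :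
    0 ≤ ∑ i ∈ s, σ i * Real.negMulLog (x i) := by
  set f : ℝ → ℝ := fun u => ∑ i ∈ s, σ i * ((u + x i) * Real.log (u + x i)) with hf
  -- monotone on `[0, ∞)`
  have hcont : Continuous f := by
    refine continuous_finsetSum _ (fun i _ => continuous_const.mul ?_)
    exact Real.continuous_mul_log.comp (continuous_id.add continuous_const)
  have hderiv : ∀ u : ℝ, 0 < u → HasDerivAt f (∑ i ∈ s, σ i * Real.log (u + x i)) u := by
    intro u hu
    have key : ∀ i ∈ s, HasDerivAt (fun u => σ i * ((u + x i) * Real.log (u + x i)))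
        (σ i * (Real.log (u + x i) + 1)) u := by
      intro i hi
      have hpos : u + x i ≠ 0 := by have := hx i hi; positivity
      have h := (Real.hasDerivAt_mul_log hpos).comp u ((hasDerivAt_id u).add_const (x i))
      simpa using h.const_mul (σ i)
    have := HasDerivAt.fun_sum key
    have e : ∑ i ∈ s, σ i * (Real.log (u + x i) + 1) = ∑ i ∈ s, σ i * Real.log (u + x i) := by
      simp only [mul_add, mul_one, Finset.sum_add_distrib, h0, add_zero]
    rw [e] at this
    exact this
  have hmono : MonotoneOn f (Set.Ici 0) := by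
    apply monotoneOn_of_deriv_nonneg (convex_Ici 0) hcont.continuousOn
    · intro u hu
      rw [interior_Ici] at hu
      exact (hderiv u hu).differentiableAt.differentiableWithinAt
    · intro u hu
      rw [interior_Ici] at hu
      rw [(hderiv u hu).deriv]
      exact hlog u hu
  -- value at `0`
  have hf0 : f 0 = - ∑ i ∈ s, σ i * Real.negMulLog (x i) := by
    simp only [hf, zero_add, Real.negMulLog, ← Finset.sum_neg_distrib]
    refine Finset.sum_congr rfl (fun i _ => by ring)
  -- bound at `u`
  set C : ℝ := ∑ i ∈ s, |σ i| * x i ^ 2 with hC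
  have hCnn : 0 ≤ C := Finset.sum_nonneg (fun i _ => by positivity)
  have hbound : ∀ u : ℝ, 0 < u → f u ≤ C / u := by
    intro u hu
    have e : f u = ∑ i ∈ s, σ i * ((u + x i) * Real.log (1 + x i / u) - x i) := by
      have e1 : ∀ i ∈ s, σ i * ((u + x i) * Real.log (u + x i)) =
          σ i * ((u + x i) * Real.log (1 + x i / u) - x i) +
            (Real.log u * u * σ i + (Real.log u + 1) * (σ i * x i)) := by
        intro i hi
        have hxi := hx i hi
        have : u + x i = u * (1 + x i / u) := by field_simp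
        have hl : Real.log (u + x i) = Real.log u + Real.log (1 + x i / u) := by
          rw [this, Real.log_mul hu.ne' (by positivity)]
        rw [hl]; ring
      simp only [hf]
      rw [Finset.sum_congr rfl e1, Finset.sum_add_distrib, Finset.sum_add_distrib,
        ← Finset.mul_sum, ← Finset.mul_sum, h0, h1]
      simp
    rw [e, hC, Finset.sum_div]
    refine Finset.sum_le_sum (fun i hi => ?_)
    have hb := bound_aux hu (hx i hi)
    calc σ i * ((u + x i) * Real.log (1 + x i / u) - x i)
        ≤ |σ i * ((u + x i) * Real.log (1 + x i / u) - x i)| := le_abs_self _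
      _ = |σ i| * |(u + x i) * Real.log (1 + x i / u) - x i| := abs_mul _ _
      _ ≤ |σ i| * (x i ^ 2 / u) := mul_le_mul_of_nonneg_left hb (abs_nonneg _)
      _ = |σ i| * x i ^ 2 / u := by ring
  -- conclude
  have hle : ∀ ε : ℝ, 0 < ε → f 0 ≤ ε := by
    intro ε hε
    set u : ℝ := (C + 1) / ε with hu
    have hupos : 0 < u := by positivity
    have h1 : f 0 ≤ f u := hmono (Set.mem_Ici.2 le_rfl) (Set.mem_Ici.2 hupos.le) hupos.le
    have h2 : C / u ≤ ε := by
      rw [hu, div_div_eq_mul_div, div_le_iff₀ (by positivity)]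
      nlinarith
    linarith [hbound u hupos]
  have : f 0 ≤ 0 := le_of_forall_pos_le_add (by intro ε hε; simpa using hle ε hε)
  linarith

end Crest.Agent.S0534Aux.MonoLemma
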