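import Mathlib
import Crest.Prelude.Def_QState
import Crest.Agent.S0534Aux.MonoLemma

/-!
# Spectral data: from determinant inequalities to entropy inequalities

`IsSpec c τ h L` says that `(c, τ, h, L)` is a real linear combination of the data
`(1, x, negMulLog x, fun u => log (u + x))`, `x ≥ 0`.  A positive semidefinite matrix `A` gives
`IsSpec (card n) (trace A) (vnEntropy A) (fun u => log det (u + A))`.
`IsSpec.nonneg` : if `c = τ = 0` and `L ≥ 0` on `(0, ∞)` then `h ≥ 0`.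
-/

namespace Crest.Agent.S0534Aux.Spec

open Crest.Quantum Matrix
open scoped ComplexOrder

def IsSpec (c τ h : ℝ) (L : ℝ → ℝ) : Prop :=
  ∃ (ι : Type) (_ : Fintype ι) (σ x : ι → ℝ), (∀ i, 0 ≤ x i) ∧ ∑ i, σ i = c ∧
    ∑ i, σ i * x i = τ ∧ (∀ u, 0 < u → L u = ∑ i, σ i * Real.log (u + x i)) ∧
    ∑ i, σ i * Real.negMulLog (x i) = h

theorem IsSpec.nonneg {h : ℝ} {L : ℝ → ℝ} (H : IsSpec 0 0 h L) (hL : ∀ u, 0 < u → 0 ≤ L u) :
    0 ≤ h := by
  obtain ⟨ι, _, σ, x, hx, h0, h1, hLu, hh⟩ := H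
  rw [← hh]
  refine MonoLemma.sum_negMulLog_nonneg Finset.univ σ x (fun i _ => hx i) h0 h1 ?_
  intro u hu
  rw [← hLu u hu]; exact hL u hu

theorem IsSpec.zero : IsSpec 0 0 0 (fun _ => 0) :=
  ⟨Empty, inferInstance, fun _ => 0, fun _ => 0, by simp, by simp, by simp, by simp, by simp⟩

theorem IsSpec.scalar {x : ℝ} (hx : 0 ≤ x) :
    IsSpec 1 x (Real.negMulLog x) (fun u => Real.log (u + x)) :=
  ⟨Unit, inferInstance, fun _ => 1, fun _ => x, fun _ => hx, by simp, by simp, by simp, by simp⟩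

theorem IsSpec.add {c τ h c' τ' h' : ℝ} {L L' : ℝ → ℝ} (H : IsSpec c τ h L)
    (H' : IsSpec c' τ' h' L') : IsSpec (c + c') (τ + τ') (h + h') (fun u => L u + L' u) := by
  obtain ⟨ι, _, σ, x, hx, h0, h1, hLu, hh⟩ := H
  obtain ⟨ι', _, σ', x', hx', h0', h1', hLu', hh'⟩ := H'
  refine ⟨ι ⊕ ι', inferInstance, Sum.elim σ σ', Sum.elim x x', ?_, ?_, ?_, ?_, ?_⟩
  · rintro (i | i) <;> simp [hx, hx']
  · simp [h0, h0']
  · simp [h1, h1']
  · intro u hu; simp [hLu u hu, hLu' u hu]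
  · simp [hh, hh']

theorem IsSpec.smul {c τ h : ℝ} {L : ℝ → ℝ} (r : ℝ) (H : IsSpec c τ h L) :
    IsSpec (r * c) (r * τ) (r * h) (fun u => r * L u) := by
  obtain ⟨ι, _, σ, x, hx, h0, h1, hLu, hh⟩ := H
  refine ⟨ι, inferInstance, fun i => r * σ i, x, hx, ?_, ?_, ?_, ?_⟩
  · rw [← h0, Finset.mul_sum]
  · rw [← h1, Finset.mul_sum]; exact Finset.sum_congr rfl (fun i _ => by ring)
  · intro u hu
    show r * L u = _
    rw [hLu u hu, Finset.mul_sum]; exact Finset.sum_congr rfl (fun i _ => by ring)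
  · rw [← hh, Finset.mul_sum]; exact Finset.sum_congr rfl (fun i _ => by ring)

theorem IsSpec.neg {c τ h : ℝ} {L : ℝ → ℝ} (H : IsSpec c τ h L) :
    IsSpec (-c) (-τ) (-h) (fun u => - L u) := by
  simpa using H.smul (-1)

theorem IsSpec.sub {c τ h c' τ' h' : ℝ} {L L' : ℝ → ℝ} (H : IsSpec c τ h L)
    (H' : IsSpec c' τ' h' L') : IsSpec (c - c') (τ - τ') (h - h') (fun u => L u - L' u) := by
  simpa [sub_eq_add_neg] using H.add H'.neg

theorem IsSpec.congr {c τ h c' τ' h' : ℝ} {L L' : ℝ → ℝ} (H : IsSpec c τ h L)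
    (hc : c = c') (hτ : τ = τ') (hh : h = h') (hL : ∀ u, 0 < u → L u = L' u) :
    IsSpec c' τ' h' L' := by
  subst hc hτ hh
  obtain ⟨ι, _, σ, x, hx, h0, h1, hLu, hh⟩ := H
  exact ⟨ι, inferInstance, σ, x, hx, h0, h1, fun u hu => by rw [← hL u hu, hLu u hu], hh⟩

theorem IsSpec.sum {κ : Type*} (s : Finset κ) {c τ h : κ → ℝ} {L : κ → ℝ → ℝ}
    (H : ∀ k ∈ s, IsSpec (c k) (τ k) (h k) (L k)) :
    IsSpec (∑ k ∈ s, c k) (∑ k ∈ s, τ k) (∑ k ∈ s, h k) (fun u => ∑ k ∈ s, L k u) := by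
  classical
  induction s using Finset.induction_on with
  | empty => simpa using IsSpec.zero
  | insert a s ha ih =>
    have h1 := (H a (Finset.mem_insert_self a s)).add
      (ih (fun k hk => H k (Finset.mem_insert_of_mem hk)))
    simpa [Finset.sum_insert ha] using h1

section matrix

variable {n : Type} [Fintype n] [DecidableEq n]

theorem vnEntropy_eq_sum {A : Matrix n n ℂ} (hA : A.IsHermitian) :
    vnEntropy A = ∑ i, Real.negMulLog (hA.eigenvalues i) := by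
  unfold vnEntropy
  rw [dif_pos hA, ← Finset.sum_neg_distrib]
  exact Finset.sum_congr rfl (fun i _ => by simp [Real.negMulLog])

theorem det_add_eq_prod {A : Matrix n n ℂ} (hA : A.IsHermitian) (u : ℝ) :
    ((u : ℂ) • (1 : Matrix n n ℂ) + A).det = ((∏ i, (u + hA.eigenvalues i) : ℝ) : ℂ) := by
  have h1 := Matrix.eval_charpoly A (-(u : ℂ))
  rw [hA.charpoly_eq, Polynomial.eval_prod] at h1
  have h2 : (Matrix.scalar n (-(u : ℂ)) - A) = -((u : ℂ) • (1 : Matrix n n ℂ) + A) := by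
    ext i j
    simp [Matrix.scalar_apply, Matrix.diagonal_apply, Matrix.one_apply]
    split_ifs <;> ring
  rw [h2, Matrix.det_neg] at h1
  have h3 : ∏ i, Polynomial.eval (-(u : ℂ))
      (Polynomial.X - Polynomial.C (RCLike.ofReal (hA.eigenvalues i) : ℂ))
      = (-1) ^ Fintype.card n * ∏ i, ((u : ℂ) + (hA.eigenvalues i : ℂ)) := by
    rw [← Finset.card_univ, ← Finset.prod_const, ← Finset.prod_mul_distrib]
    refine Finset.prod_congr rfl (fun i _ => ?_)
    simp; ring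
  rw [h3] at h1
  have h4 : ((-1 : ℂ) ^ Fintype.card n) ≠ 0 := pow_ne_zero _ (by norm_num)
  have h5 := mul_left_cancel₀ h4 h1
  rw [← h5]; push_cast; rfl

theorem log_det_add_eq_sum {A : Matrix n n ℂ} (hA : A.PosSemidef) {u : ℝ} (hu : 0 < u) :
    Real.log ((u : ℂ) • (1 : Matrix n n ℂ) + A).det.re
      = ∑ i, Real.log (u + hA.isHermitian.eigenvalues i) := by
  rw [det_add_eq_prod hA.isHermitian, Complex.ofReal_re, Real.log_prod]
  intro i _
  have := hA.eigenvalues_nonneg i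
  positivity

theorem det_add_pos {A : Matrix n n ℂ} (hA : A.PosSemidef) {u : ℝ} (hu : 0 < u) :
    0 < ((u : ℂ) • (1 : Matrix n n ℂ) + A).det.re := by
  rw [det_add_eq_prod hA.isHermitian, Complex.ofReal_re]
  refine Finset.prod_pos (fun i _ => ?_)
  have := hA.eigenvalues_nonneg i
  positivity

theorem IsSpec.matrix {A : Matrix n n ℂ} (hA : A.PosSemidef) :
    IsSpec (Fintype.card n) A.trace.re (vnEntropy A)
      (fun u => Real.log ((u : ℂ) • (1 : Matrix n n ℂ) + A).det.re) := by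
  refine ⟨n, inferInstance, fun _ => 1, hA.isHermitian.eigenvalues, hA.eigenvalues_nonneg,
    by simp, ?_, ?_, ?_⟩
  · rw [hA.isHermitian.trace_eq_sum_eigenvalues]; simp
  · intro u hu
    show Real.log ((u : ℂ) • (1 : Matrix n n ℂ) + A).det.re = _
    rw [log_det_add_eq_sum hA hu]; simp
  · simp [vnEntropy_eq_sum hA.isHermitian]

end matrix

end Crest.Agent.S0534Aux.Spec
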