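import Mathlib
import Crest.Agent.S0534Aux.Spec
import Crest.Agent.S0534Aux.Gsc

/-!
# The scalar step of the three-edge theorem

`E2 τ δ` is the (unnormalised) entropy of a `2 × 2` positive matrix of trace `τ` and determinant `δ`,
`G p1 p2 p3 = E2 (p1+p2+p3) (p1*p3) - η p1 - η p2 - η p3`.
Main result: `G_sum_ge` (subadditivity + monotonicity).
-/

namespace Crest.Agent.S0534Aux.GscSub

open Crest.Agent.S0534Aux.Spec

noncomputable def E2 (τ δ : ℝ) : ℝ :=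
  Real.negMulLog ((τ + Real.sqrt (τ ^ 2 - 4 * δ)) / 2) +
    Real.negMulLog ((τ - Real.sqrt (τ ^ 2 - 4 * δ)) / 2)

noncomputable def G (p1 p2 p3 : ℝ) : ℝ :=
  E2 (p1 + p2 + p3) (p1 * p3) - Real.negMulLog p1 - Real.negMulLog p2 - Real.negMulLog p3

/-- the `log det` function of the scalar model -/
noncomputable def Lsc (p1 p2 p3 u : ℝ) : ℝ :=
  Real.log (u ^ 2 + (p1 + p2 + p3) * u + p1 * p3) - Real.log (u + p1) - Real.log (u + p2)
    - Real.log (u + p3)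

theorem isSpec_E2 {τ δ : ℝ} (hτ : 0 ≤ τ) (hδ : 0 ≤ δ) (h : 4 * δ ≤ τ ^ 2) :
    IsSpec 2 τ (E2 τ δ) (fun u => Real.log (u ^ 2 + τ * u + δ)) := by
  set s := Real.sqrt (τ ^ 2 - 4 * δ) with hs
  have hs0 : 0 ≤ s := Real.sqrt_nonneg _
  have hs2 : s ^ 2 = τ ^ 2 - 4 * δ := Real.sq_sqrt (by linarith)
  have hsτ : s ≤ τ := by
    rw [hs]
    calc Real.sqrt (τ ^ 2 - 4 * δ) ≤ Real.sqrt (τ ^ 2) := Real.sqrt_le_sqrt (by linarith)
      _ = τ := Real.sqrt_sq hτ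
  have hp : 0 ≤ (τ + s) / 2 := by linarith
  have hm : 0 ≤ (τ - s) / 2 := by linarith
  refine ((IsSpec.scalar hp).add (IsSpec.scalar hm)).congr (by norm_num) (by ring) rfl ?_
  intro u hu
  rw [← Real.log_mul (by positivity) (by positivity)]
  congr 1
  nlinarith

theorem disc_nonneg' (p1 p2 p3 : ℝ) (h1 : 0 ≤ p1) (h2 : 0 ≤ p2) (h3 : 0 ≤ p3) :
    4 * (p1 * p3) ≤ (p1 + p2 + p3) ^ 2 := by
  nlinarith [sq_nonneg (p1 - p3), mul_nonneg h2 h1, mul_nonneg h2 h3, mul_nonneg h2 h2]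

theorem isSpec_G {p1 p2 p3 : ℝ} (h1 : 0 ≤ p1) (h2 : 0 ≤ p2) (h3 : 0 ≤ p3) :
    IsSpec (-1) 0 (G p1 p2 p3) (Lsc p1 p2 p3) := by
  have hE := isSpec_E2 (τ := p1 + p2 + p3) (δ := p1 * p3) (by positivity) (by positivity)
    (disc_nonneg' p1 p2 p3 h1 h2 h3)
  refine (((hE.sub (IsSpec.scalar h1)).sub (IsSpec.scalar h2)).sub (IsSpec.scalar h3)).congr
    (by norm_num) (by ring) rfl ?_
  intro u _
  rfl

theorem G_comm (p1 p2 p3 : ℝ) : G p1 p2 p3 = G p3 p2 p1 := by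
  unfold G
  rw [show p3 + p2 + p1 = p1 + p2 + p3 by ring, show p3 * p1 = p1 * p3 by ring]
  ring

theorem E2_smul {t : ℝ} (ht : 0 ≤ t) (τ δ : ℝ) :
    E2 (t * τ) (t ^ 2 * δ) = t * E2 τ δ + τ * Real.negMulLog t := by
  unfold E2
  have h : Real.sqrt ((t * τ) ^ 2 - 4 * (t ^ 2 * δ)) = t * Real.sqrt (τ ^ 2 - 4 * δ) := by
    rw [show (t * τ) ^ 2 - 4 * (t ^ 2 * δ) = t ^ 2 * (τ ^ 2 - 4 * δ) by ring,
      Real.sqrt_mul (by positivity), Real.sqrt_sq ht]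
  rw [h, show (t * τ + t * Real.sqrt (τ ^ 2 - 4 * δ)) / 2
      = t * ((τ + Real.sqrt (τ ^ 2 - 4 * δ)) / 2) by ring,
    show (t * τ - t * Real.sqrt (τ ^ 2 - 4 * δ)) / 2
      = t * ((τ - Real.sqrt (τ ^ 2 - 4 * δ)) / 2) by ring,
    Real.negMulLog_mul, Real.negMulLog_mul]
  ring

theorem G_smul {t : ℝ} (ht : 0 ≤ t) (p1 p2 p3 : ℝ) :
    G (t * p1) (t * p2) (t * p3) = t * G p1 p2 p3 := by
  unfold G
  rw [show t * p1 + t * p2 + t * p3 = t * (p1 + p2 + p3) by ring,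
    show t * p1 * (t * p3) = t ^ 2 * (p1 * p3) by ring, E2_smul ht,
    Real.negMulLog_mul, Real.negMulLog_mul, Real.negMulLog_mul]
  ring

/-- `G p1 0 p3 = 0`. -/
theorem G_zero_mid {p1 p3 : ℝ} (h1 : 0 ≤ p1) (h3 : 0 ≤ p3) : G p1 0 p3 = 0 := by
  have H := (isSpec_G h1 le_rfl h3).add (IsSpec.scalar (le_refl (0 : ℝ)))
  have hL : ∀ u : ℝ, 0 < u → Lsc p1 0 p3 u + Real.log (u + 0) = 0 := by
    intro u hu
    unfold Lsc
    rw [show u ^ 2 + (p1 + 0 + p3) * u + p1 * p3 = (u + p1) * (u + p3) by ring,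
      Real.log_mul (by positivity) (by positivity)]
    ring
  have H' : IsSpec 0 0 (G p1 0 p3) (fun _ => 0) :=
    H.congr (by norm_num) (by norm_num) (by simp) hL
  have a := H'.nonneg (fun _ _ => le_rfl)
  have b := (H'.neg.congr (by norm_num) (by norm_num) rfl (fun _ _ => by simp) :
    IsSpec 0 0 (-(G p1 0 p3)) (fun _ => 0)).nonneg (fun _ _ => le_rfl)
  linarith

/-- `G` is nonincreasing in the first variable. -/
theorem G_anti_left {p1 p1' p2 p3 : ℝ} (h1 : 0 ≤ p1) (h11 : p1 ≤ p1') (h2 : 0 ≤ p2)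
    (h3 : 0 ≤ p3) : G p1' p2 p3 ≤ G p1 p2 p3 := by
  have h1' : 0 ≤ p1' := h1.trans h11
  have H := (isSpec_G h1 h2 h3).sub (isSpec_G h1' h2 h3)
  have H' : IsSpec 0 0 (G p1 p2 p3 - G p1' p2 p3) (fun u => Lsc p1 p2 p3 u - Lsc p1' p2 p3 u) :=
    H.congr (by norm_num) (by norm_num) rfl (fun _ _ => rfl)
  have := H'.nonneg ?_
  · linarith
  intro u hu
  unfold Lsc
  have e : ∀ q : ℝ, 0 ≤ q → Real.log (u ^ 2 + (q + p2 + p3) * u + q * p3) - Real.log (u + q)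
      = Real.log (u + p3 + u * p2 / (u + q)) := by
    intro q hq
    rw [← Real.log_div (by positivity) (by positivity)]
    congr 1
    field_simp
    ring
  have hmono : Real.log (u + p3 + u * p2 / (u + p1')) ≤ Real.log (u + p3 + u * p2 / (u + p1)) := by
    apply Real.log_le_log (by positivity)
    have : u * p2 / (u + p1') ≤ u * p2 / (u + p1) :=
      div_le_div_of_nonneg_left (by positivity) (by positivity) (by linarith)
    linarith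
  have e1 := e p1 h1
  have e2 := e p1' h1'
  linarith

theorem G_anti_right {p1 p2 p3 p3' : ℝ} (h1 : 0 ≤ p1) (h2 : 0 ≤ p2) (h3 : 0 ≤ p3)
    (h33 : p3 ≤ p3') : G p1 p2 p3' ≤ G p1 p2 p3 := by
  rw [G_comm p1 p2 p3', G_comm p1 p2 p3]
  exact G_anti_left h3 h33 h2 h1

/-- tangent plane inequality for `ψ(X,Y) = log (X Y + u) - log X - log Y`. -/
theorem psi_tangent {X Y X0 Y0 u : ℝ} (hX : 0 < X) (hY : 0 < Y) (hX0 : 0 < X0) (hY0 : 0 < Y0)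
    (hu : 0 < u) :
    Real.log (X0 * Y0 + u) - Real.log X0 - Real.log Y0
      - u / (X0 * Y0 + u) * ((X - X0) / X0 + (Y - Y0) / Y0)
      ≤ Real.log (X * Y + u) - Real.log X - Real.log Y := by
  set m := X0 * Y0 / (X0 * Y0 + u) with hm
  have hD : 0 < X0 * Y0 + u := by positivity
  have hm0 : 0 ≤ m := by positivity
  have hm1 : 1 - m = u / (X0 * Y0 + u) := by rw [hm]; field_simp; ring
  have hm1' : 0 ≤ 1 - m := by rw [hm1]; positivity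
  set ξ := X / X0 with hξ
  set υ := Y / Y0 with hυ
  have hξ0 : 0 < ξ := by positivity
  have hυ0 : 0 < υ := by positivity
  -- concavity of log
  have hconc : m * Real.log (ξ * υ) + (1 - m) * Real.log 1 ≤ Real.log (m * (ξ * υ) + (1 - m) * 1) := by
    have := strictConcaveOn_log_Ioi.concaveOn.2 (show ξ * υ ∈ Set.Ioi (0 : ℝ) from by
      simpa using mul_pos hξ0 hυ0) (show (1 : ℝ) ∈ Set.Ioi (0 : ℝ) from by simp) hm0 hm1' (by ring)
    simpa [smul_eq_mul] using this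
  have e1 : m * (ξ * υ) + (1 - m) * 1 = (X * Y + u) / (X0 * Y0 + u) := by
    rw [hm1, hm, hξ, hυ]; field_simp
  have e2 : Real.log ((X * Y + u) / (X0 * Y0 + u)) = Real.log (X * Y + u) - Real.log (X0 * Y0 + u) :=
    Real.log_div (by positivity) (by positivity)
  have e3 : Real.log (ξ * υ) = Real.log ξ + Real.log υ := Real.log_mul hξ0.ne' hυ0.ne'
  have e4 : Real.log ξ = Real.log X - Real.log X0 := Real.log_div hX.ne' hX0.ne'
  have e5 : Real.log υ = Real.log Y - Real.log Y0 := Real.log_div hY.ne' hY0.ne'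
  have l1 : Real.log ξ ≤ ξ - 1 := Real.log_le_sub_one_of_pos hξ0
  have l2 : Real.log υ ≤ υ - 1 := Real.log_le_sub_one_of_pos hυ0
  have e6 : (X - X0) / X0 = ξ - 1 := by rw [hξ]; field_simp
  have e7 : (Y - Y0) / Y0 = υ - 1 := by rw [hυ]; field_simp
  rw [e1, e2, e3, Real.log_one] at hconc
  rw [← hm1, e6, e7]
  have l3 : (1 - m) * (Real.log ξ + Real.log υ) ≤ (1 - m) * ((ξ - 1) + (υ - 1)) :=
    mul_le_mul_of_nonneg_left (by linarith) hm1'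
  nlinarith

theorem Lsc_one_eq {x y u : ℝ} (hx : 0 ≤ x) (hy : 0 ≤ y) (hu : 0 < u) :
    Lsc x 1 y u = (Real.log ((u + x) * (u + y) + u) - Real.log (u + x) - Real.log (u + y))
      - Real.log (u + 1) := by
  unfold Lsc
  rw [show u ^ 2 + (x + 1 + y) * u + x * y = (u + x) * (u + y) + u by ring]
  ring

/-- subadditivity on a family with all middle weights positive -/
theorem G_sum_ge_pos {κ : Type*} (s : Finset κ) (hs : s.Nonempty) (p1 p2 p3 : κ → ℝ)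
    (h1 : ∀ k ∈ s, 0 ≤ p1 k) (h2 : ∀ k ∈ s, 0 < p2 k) (h3 : ∀ k ∈ s, 0 ≤ p3 k) :
    G (∑ k ∈ s, p1 k) (∑ k ∈ s, p2 k) (∑ k ∈ s, p3 k) ≤ ∑ k ∈ s, G (p1 k) (p2 k) (p3 k) := by
  set P1 := ∑ k ∈ s, p1 k with hP1
  set P2 := ∑ k ∈ s, p2 k with hP2
  set P3 := ∑ k ∈ s, p3 k with hP3
  have hP2pos : 0 < P2 := Finset.sum_pos h2 hs
  have hP1nn : 0 ≤ P1 := Finset.sum_nonneg h1
  have hP3nn : 0 ≤ P3 := Finset.sum_nonneg h3
  have hk : ∀ k ∈ s, G (p1 k) (p2 k) (p3 k) = p2 k * G (p1 k / p2 k) 1 (p3 k / p2 k) := by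
    intro k hk
    have := h2 k hk
    rw [← G_smul this.le]
    congr 1 <;> field_simp
  have htot : G P1 P2 P3 = P2 * G (P1 / P2) 1 (P3 / P2) := by
    rw [← G_smul hP2pos.le]
    congr 1 <;> field_simp
  rw [htot, Finset.sum_congr rfl hk]
  have Hs := IsSpec.sum s (c := fun k => p2 k * (-1)) (τ := fun k => p2 k * 0)
    (h := fun k => p2 k * G (p1 k / p2 k) 1 (p3 k / p2 k))
    (L := fun k u => p2 k * Lsc (p1 k / p2 k) 1 (p3 k / p2 k) u)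
    (fun k hk => (isSpec_G (div_nonneg (h1 k hk) (h2 k hk).le) zero_le_one
      (div_nonneg (h3 k hk) (h2 k hk).le)).smul (p2 k))
  have Ht := (isSpec_G (div_nonneg hP1nn hP2pos.le) zero_le_one
      (div_nonneg hP3nn hP2pos.le)).smul P2
  have H := (Hs.sub Ht).congr (c' := 0) (τ' := 0) (by simp [← Finset.sum_neg_distrib, hP2])
    (by simp) rfl (fun _ _ => rfl)
  have := H.nonneg ?_
  · linarith
  intro u hu
  show 0 ≤ ∑ k ∈ s, p2 k * Lsc (p1 k / p2 k) 1 (p3 k / p2 k) u - P2 * Lsc (P1 / P2) 1 (P3 / P2) u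
  set X0 := u + P1 / P2 with hX0
  set Y0 := u + P3 / P2 with hY0
  have hX0pos : 0 < X0 := by positivity
  have hY0pos : 0 < Y0 := by positivity
  set ψ0 := Real.log (X0 * Y0 + u) - Real.log X0 - Real.log Y0 with hψ0
  set c0 := u / (X0 * Y0 + u) with hc0
  have hterm : ∀ k ∈ s, p2 k * (ψ0 - c0 * ((u + p1 k / p2 k - X0) / X0 + (u + p3 k / p2 k - Y0) / Y0)
      - Real.log (u + 1)) ≤ p2 k * Lsc (p1 k / p2 k) 1 (p3 k / p2 k) u := by
    intro k hk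
    have hp := h2 k hk
    have hx : 0 ≤ p1 k / p2 k := div_nonneg (h1 k hk) hp.le
    have hy : 0 ≤ p3 k / p2 k := div_nonneg (h3 k hk) hp.le
    rw [Lsc_one_eq hx hy hu]
    apply mul_le_mul_of_nonneg_left _ hp.le
    have := psi_tangent (X := u + p1 k / p2 k) (Y := u + p3 k / p2 k) (X0 := X0) (Y0 := Y0)
      (u := u) (by positivity) (by positivity) hX0pos hY0pos hu
    linarith
  have hsum := Finset.sum_le_sum hterm
  have hlin : ∑ k ∈ s, p2 k * (ψ0 - c0 * ((u + p1 k / p2 k - X0) / X0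
      + (u + p3 k / p2 k - Y0) / Y0) - Real.log (u + 1)) = P2 * (ψ0 - Real.log (u + 1)) := by
    have e : ∀ k ∈ s, p2 k * (ψ0 - c0 * ((u + p1 k / p2 k - X0) / X0
        + (u + p3 k / p2 k - Y0) / Y0) - Real.log (u + 1))
        = p2 k * (ψ0 - Real.log (u + 1) - c0 * ((u - X0) / X0 + (u - Y0) / Y0))
          - c0 / X0 * p1 k - c0 / Y0 * p3 k := by
      intro k hk
      have hp := (h2 k hk).ne'
      field_simp
      ring
    rw [Finset.sum_congr rfl e, Finset.sum_sub_distrib, Finset.sum_sub_distrib, ← Finset.sum_mul,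
      ← Finset.mul_sum, ← Finset.mul_sum, ← hP1, ← hP2, ← hP3]
    have e1 : u - X0 = - (P1 / P2) := by rw [hX0]; ring
    have e2 : u - Y0 = - (P3 / P2) := by rw [hY0]; ring
    rw [e1, e2]
    field_simp
    ring
  rw [hlin] at hsum
  rw [Lsc_one_eq (div_nonneg hP1nn hP2pos.le) (div_nonneg hP3nn hP2pos.le) hu]
  linarith

/-- **Scalar step**: subadditivity and monotonicity of `G`. -/
theorem G_sum_ge {κ : Type*} (s : Finset κ) (p1 p2 p3 : κ → ℝ) (P1 P3 : ℝ)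
    (h1 : ∀ k ∈ s, 0 ≤ p1 k) (h2 : ∀ k ∈ s, 0 ≤ p2 k) (h3 : ∀ k ∈ s, 0 ≤ p3 k)
    (hP1 : ∑ k ∈ s, p1 k ≤ P1) (hP3 : ∑ k ∈ s, p3 k ≤ P3) :
    G P1 (∑ k ∈ s, p2 k) P3 ≤ ∑ k ∈ s, G (p1 k) (p2 k) (p3 k) := by
  classical
  set sp := s.filter (fun k => 0 < p2 k) with hsp
  have hsub : sp ⊆ s := Finset.filter_subset _ _
  have hz : ∀ k ∈ s, k ∉ sp → p2 k = 0 := by
    intro k hk hk'
    have : ¬ 0 < p2 k := fun h => hk' (Finset.mem_filter.2 ⟨hk, h⟩)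
    exact le_antisymm (not_lt.1 this) (h2 k hk)
  have e2 : ∑ k ∈ s, p2 k = ∑ k ∈ sp, p2 k := (Finset.sum_subset hsub hz).symm
  have eG : ∑ k ∈ s, G (p1 k) (p2 k) (p3 k) = ∑ k ∈ sp, G (p1 k) (p2 k) (p3 k) := by
    refine (Finset.sum_subset hsub ?_).symm
    intro k hk hk'
    rw [hz k hk hk']
    exact G_zero_mid (h1 k hk) (h3 k hk)
  have l1 : ∑ k ∈ sp, p1 k ≤ P1 :=
    (Finset.sum_le_sum_of_subset_of_nonneg hsub (fun k hk _ => h1 k hk)).trans hP1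
  have l3 : ∑ k ∈ sp, p3 k ≤ P3 :=
    (Finset.sum_le_sum_of_subset_of_nonneg hsub (fun k hk _ => h3 k hk)).trans hP3
  have n1 : 0 ≤ ∑ k ∈ sp, p1 k := Finset.sum_nonneg (fun k hk => h1 k (hsub hk))
  have n3 : 0 ≤ ∑ k ∈ sp, p3 k := Finset.sum_nonneg (fun k hk => h3 k (hsub hk))
  have n2 : 0 ≤ ∑ k ∈ sp, p2 k := Finset.sum_nonneg (fun k hk => h2 k (hsub hk))
  rw [e2, eG]
  rcases sp.eq_empty_or_nonempty with he | hne
  · rw [he]
    simp only [Finset.sum_empty]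
    rw [he] at l1 l3
    simp only [Finset.sum_empty] at l1 l3
    exact (G_zero_mid l1 l3).le
  · calc G P1 (∑ k ∈ sp, p2 k) P3 ≤ G (∑ k ∈ sp, p1 k) (∑ k ∈ sp, p2 k) P3 :=
          G_anti_left n1 l1 n2 (n3.trans l3)
      _ ≤ G (∑ k ∈ sp, p1 k) (∑ k ∈ sp, p2 k) (∑ k ∈ sp, p3 k) := G_anti_right n1 n2 n3 l3
      _ ≤ _ := G_sum_ge_pos sp hne p1 p2 p3 (fun k hk => h1 k (hsub hk))
          (fun k hk => (Finset.mem_filter.1 hk).2) (fun k hk => h3 k (hsub hk))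

/-! ### The same statements for the shared definition `Crest.Agent.S0534Aux.Gsc` -/

theorem G_eq (p1 p2 p3 : ℝ) : G p1 p2 p3 = Crest.Agent.S0534Aux.Gsc p1 p2 p3 := by
  unfold G E2 Crest.Agent.S0534Aux.Gsc Crest.Agent.S0534Aux.lamP Crest.Agent.S0534Aux.lamM
  rw [show 4 * (p1 * p3) = 4 * p1 * p3 by ring]

theorem isSpec_Gsc {p1 p2 p3 : ℝ} (h1 : 0 ≤ p1) (h2 : 0 ≤ p2) (h3 : 0 ≤ p3) :
    IsSpec (-1) 0 (Crest.Agent.S0534Aux.Gsc p1 p2 p3) (Lsc p1 p2 p3) := by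
  rw [← G_eq]; exact isSpec_G h1 h2 h3

theorem Gsc_smul {t : ℝ} (ht : 0 ≤ t) (p1 p2 p3 : ℝ) :
    Crest.Agent.S0534Aux.Gsc (t * p1) (t * p2) (t * p3) = t * Crest.Agent.S0534Aux.Gsc p1 p2 p3 := by
  rw [← G_eq, ← G_eq]; exact G_smul ht p1 p2 p3

theorem Gsc_comm (p1 p2 p3 : ℝ) :
    Crest.Agent.S0534Aux.Gsc p1 p2 p3 = Crest.Agent.S0534Aux.Gsc p3 p2 p1 := by
  rw [← G_eq, ← G_eq]; exact G_comm p1 p2 p3

theorem Gsc_zero_mid {p1 p3 : ℝ} (h1 : 0 ≤ p1) (h3 : 0 ≤ p3) :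
    Crest.Agent.S0534Aux.Gsc p1 0 p3 = 0 := by
  rw [← G_eq]; exact G_zero_mid h1 h3

theorem Gsc_anti_left {p1 p1' p2 p3 : ℝ} (h1 : 0 ≤ p1) (h11 : p1 ≤ p1') (h2 : 0 ≤ p2)
    (h3 : 0 ≤ p3) : Crest.Agent.S0534Aux.Gsc p1' p2 p3 ≤ Crest.Agent.S0534Aux.Gsc p1 p2 p3 := by
  rw [← G_eq, ← G_eq]; exact G_anti_left h1 h11 h2 h3

theorem Gsc_anti_right {p1 p2 p3 p3' : ℝ} (h1 : 0 ≤ p1) (h2 : 0 ≤ p2) (h3 : 0 ≤ p3)
    (h33 : p3 ≤ p3') : Crest.Agent.S0534Aux.Gsc p1 p2 p3' ≤ Crest.Agent.S0534Aux.Gsc p1 p2 p3 := by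
  rw [← G_eq, ← G_eq]; exact G_anti_right h1 h2 h3 h33

/-- **Scalar step** for the shared `Gsc`: subadditivity and monotonicity. -/
theorem Gsc_sum_ge {κ : Type*} (s : Finset κ) (p1 p2 p3 : κ → ℝ) (P1 P3 : ℝ)
    (h1 : ∀ k ∈ s, 0 ≤ p1 k) (h2 : ∀ k ∈ s, 0 ≤ p2 k) (h3 : ∀ k ∈ s, 0 ≤ p3 k)
    (hP1 : ∑ k ∈ s, p1 k ≤ P1) (hP3 : ∑ k ∈ s, p3 k ≤ P3) :
    Crest.Agent.S0534Aux.Gsc P1 (∑ k ∈ s, p2 k) P3
      ≤ ∑ k ∈ s, Crest.Agent.S0534Aux.Gsc (p1 k) (p2 k) (p3 k) := by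
  simp only [← G_eq]; exact G_sum_ge s p1 p2 p3 P1 P3 h1 h2 h3 hP1 hP3

end Crest.Agent.S0534Aux.GscSub
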