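import Mathlib

/-!
# Singular value decomposition of a square complex matrix

`exists_svd a : ∃ U W σ, U, W unitary, σ ≥ 0, a = U * diagonal σ * Wᴴ`.
Proof: spectral theorem for `aᴴ a = W D Wᴴ`; the columns of `a W` are orthogonal with squared
norms `D k`; normalise the nonzero ones and complete them to an orthonormal basis.
-/

set_option autoImplicit false

open Matrix
open scoped ComplexOrder

namespace Crest.Agent.S0534Aux.SVD

variable {n : Type*} [Fintype n] [DecidableEq n]

theorem exists_svd (a : Matrix n n ℂ) :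
    ∃ (U W : Matrix n n ℂ) (σ : n → ℝ), U ∈ unitaryGroup n ℂ ∧ W ∈ unitaryGroup n ℂ ∧
      (∀ k, 0 ≤ σ k) ∧ a = U * diagonal (fun k => (σ k : ℂ)) * Wᴴ := by
  classical
  have hH : (aᴴ * a).IsHermitian := isHermitian_conjTranspose_mul_self a
  have hP : (aᴴ * a).PosSemidef := posSemidef_conjTranspose_mul_self a
  set W : Matrix n n ℂ := (hH.eigenvectorUnitary : Matrix n n ℂ) with hW
  have hWu : W ∈ unitaryGroup n ℂ := hH.eigenvectorUnitary.2
  set d : n → ℝ := hH.eigenvalues with hd
  have hd0 : ∀ k, 0 ≤ d k := hP.eigenvalues_nonneg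
  have hWW : Wᴴ * W = 1 := by
    have := (mem_unitaryGroup_iff'.mp hWu); simpa [star_eq_conjTranspose] using this
  have hWW' : W * Wᴴ = 1 := by
    have := (mem_unitaryGroup_iff.mp hWu); simpa [star_eq_conjTranspose] using this
  have hspec : Wᴴ * (aᴴ * a) * W = diagonal (fun k => (d k : ℂ)) := by
    have := hH.conjStarAlgAut_star_eigenvectorUnitary
    rw [Unitary.conjStarAlgAut_star_apply] at this
    simpa [star_eq_conjTranspose, Function.comp_def] using this
  set c : Matrix n n ℂ := a * W with hc
  have hcc : cᴴ * c = diagonal (fun k => (d k : ℂ)) := by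
    rw [hc, conjTranspose_mul, ← hspec]; simp only [Matrix.mul_assoc]
  have hcc' : ∀ k l, ∑ i, star (c i k) * c i l = if k = l then (d k : ℂ) else 0 := by
    intro k l
    have := congrFun (congrFun hcc k) l
    simpa [Matrix.mul_apply, diagonal_apply] using this
  let v : n → EuclideanSpace ℂ n := fun k => WithLp.toLp 2 (fun i => c i k / (Real.sqrt (d k) : ℂ))
  let s : Set n := {k | d k ≠ 0}
  have hv : Orthonormal ℂ (s.domRestrict v) := by
    rw [orthonormal_iff_ite]
    rintro ⟨k, hk⟩ ⟨l, hl⟩
    have hk' : (0 : ℝ) < d k := lt_of_le_of_ne (hd0 k) (Ne.symm hk)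
    have hl' : (0 : ℝ) < d l := lt_of_le_of_ne (hd0 l) (Ne.symm hl)
    have e1 : inner ℂ (v k) (v l)
        = (∑ i, star (c i k) * c i l) / ((Real.sqrt (d k) : ℂ) * (Real.sqrt (d l) : ℂ)) := by
      simp only [v, PiLp.inner_apply, RCLike.inner_apply]
      rw [Finset.sum_div]
      refine Finset.sum_congr rfl (fun i _ => ?_)
      simp only [map_div₀, Complex.conj_ofReal]
      simp only [Complex.star_def]
      field_simp
    simp only [Set.domRestrict_apply, Subtype.mk.injEq]
    rw [e1, hcc']
    by_cases hkl : k = l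
    · subst hkl
      simp only [if_true]
      rw [← Complex.ofReal_mul, Real.mul_self_sqrt (hd0 k)]
      exact div_self (by exact_mod_cast hk)
    · simp [hkl]
  obtain ⟨b, hb⟩ := hv.exists_orthonormalBasis_extension_of_card_eq
    (by simp : Module.finrank ℂ (EuclideanSpace ℂ n) = Fintype.card n)
  set U : Matrix n n ℂ := (EuclideanSpace.basisFun n ℂ).toBasis.toMatrix b.toBasis with hU
  have hUu : U ∈ unitaryGroup n ℂ :=
    (EuclideanSpace.basisFun n ℂ).toMatrix_orthonormalBasis_mem_unitary b
  have hUapp : ∀ i k, U i k = b k i := fun i k => rfl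
  have hcU : c = U * diagonal (fun k => ((Real.sqrt (d k) : ℝ) : ℂ)) := by
    ext i k
    rw [mul_diagonal, hUapp]
    by_cases hk : d k = 0
    · have h0 := hcc' k k
      simp only [if_true, hk, Complex.ofReal_zero] at h0
      have h1 : ∀ j, c j k = 0 := by
        have h2 : ∑ j, ((Complex.normSq (c j k) : ℝ) : ℂ) = 0 := by
          rw [← h0]; refine Finset.sum_congr rfl (fun j _ => ?_)
          rw [Complex.star_def, Complex.normSq_eq_conj_mul_self]
        have h3 : ∑ j, Complex.normSq (c j k) = 0 := by exact_mod_cast h2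
        intro j
        have := (Finset.sum_eq_zero_iff_of_nonneg (fun j _ => Complex.normSq_nonneg (c j k))).mp h3
          j (Finset.mem_univ j)
        exact Complex.normSq_eq_zero.mp this
      simp [h1 i, hk]
    · have hk' : (0 : ℝ) < d k := lt_of_le_of_ne (hd0 k) (Ne.symm hk)
      rw [hb k hk]
      simp only [v]
      have : ((Real.sqrt (d k) : ℝ) : ℂ) ≠ 0 := by
        exact_mod_cast (Real.sqrt_pos.mpr hk').ne'
      field_simp
  refine ⟨U, W, fun k => Real.sqrt (d k), hUu, hWu, fun k => Real.sqrt_nonneg _, ?_⟩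
  rw [← hcU, hc, Matrix.mul_assoc, hWW', Matrix.mul_one]

end Crest.Agent.S0534Aux.SVD
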