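import Mathlib

set_option autoImplicit false

open scoped ComplexOrder MatrixOrder
open Matrix

namespace Crest.Agent.S0534Aux.LogDetConvex

variable {n : Type*} [Fintype n] [DecidableEq n]

/-- The trace of a product of two positive semidefinite matrices is nonnegative. -/
lemma trace_mul_nonneg {P Q : Matrix n n ℂ} (hP : P.PosSemidef) (hQ : Q.PosSemidef) :
    0 ≤ (P * Q).trace := by
  have hS : CFC.sqrt P * CFC.sqrt P = P := CFC.sqrt_mul_sqrt_self P hP.nonneg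
  have hSh : (CFC.sqrt P)ᴴ = CFC.sqrt P := (CFC.sqrt_nonneg P).posSemidef.isHermitian
  have h1 : (P * Q).trace = ((CFC.sqrt P)ᴴ * Q * CFC.sqrt P).trace := by
    rw [hSh]
    conv_lhs => rw [← hS]
    rw [Matrix.mul_assoc, Matrix.trace_mul_comm, Matrix.mul_assoc]
  rw [h1]
  exact (hQ.conjTranspose_mul_mul_same _).trace_nonneg

/-- `Mᴴ D⁻¹ M = D + (K + Kᴴ) + Kᴴ D⁻¹ K` for `M = D + K`. -/
lemma conj_inv_identity {D K : Matrix n n ℂ} (hD : D.PosDef) :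
    (D + K)ᴴ * D⁻¹ * (D + K) = D + (K + Kᴴ) + Kᴴ * D⁻¹ * K := by
  have hu : IsUnit D.det := (Matrix.isUnit_iff_isUnit_det D).mp hD.isUnit
  have h1 : D * D⁻¹ = 1 := Matrix.mul_nonsing_inv D hu
  have h2 : D⁻¹ * D = 1 := Matrix.nonsing_inv_mul D hu
  rw [Matrix.conjTranspose_add, hD.isHermitian.eq]
  simp only [Matrix.add_mul, Matrix.mul_add, h1, Matrix.one_mul, Matrix.mul_assoc, h2,
    Matrix.mul_one]
  abel

lemma posDef_conj {D K : Matrix n n ℂ} (hD : D.PosDef) (hK : (K + Kᴴ).PosSemidef) :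
    ((D + K)ᴴ * D⁻¹ * (D + K)).PosDef := by
  rw [conj_inv_identity hD]
  exact (hD.add_posSemidef hK).add_posSemidef (hD.inv.posSemidef.conjTranspose_mul_mul_same K)

lemma det_add_ne_zero {D K : Matrix n n ℂ} (hD : D.PosDef) (hK : (K + Kᴴ).PosSemidef) :
    (D + K).det ≠ 0 := by
  intro h
  have := (posDef_conj hD hK).det_pos
  rw [Matrix.det_mul, h, mul_zero] at this
  exact lt_irrefl _ this

lemma isUnit_det_add {D K : Matrix n n ℂ} (hD : D.PosDef) (hK : (K + Kᴴ).PosSemidef) :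
    IsUnit (D + K).det := isUnit_iff_ne_zero.mpr (det_add_ne_zero hD hK)

/-- `(M⁻¹)ᴴ D M⁻¹ ≤ D⁻¹` for `M = D + K`, `K + Kᴴ ≥ 0`. -/
lemma inv_sub_posSemidef {D K : Matrix n n ℂ} (hD : D.PosDef) (hK : (K + Kᴴ).PosSemidef) :
    (D⁻¹ - ((D + K)⁻¹)ᴴ * D * (D + K)⁻¹).PosSemidef := by
  have hu := isUnit_det_add hD hK
  have h1 : (D + K) * (D + K)⁻¹ = 1 := Matrix.mul_nonsing_inv _ hu
  have h2 : ((D + K)⁻¹)ᴴ * (D + K)ᴴ = 1 := by
    rw [← Matrix.conjTranspose_mul, h1, Matrix.conjTranspose_one]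
  have key : D⁻¹ - ((D + K)⁻¹)ᴴ * D * (D + K)⁻¹
      = ((D + K)⁻¹)ᴴ * ((K + Kᴴ) + Kᴴ * D⁻¹ * K) * (D + K)⁻¹ := by
    have e : (K + Kᴴ) + Kᴴ * D⁻¹ * K = (D + K)ᴴ * D⁻¹ * (D + K) - D := by
      rw [conj_inv_identity hD]; abel
    rw [e, Matrix.mul_sub, Matrix.sub_mul]
    congr 1
    calc D⁻¹ = 1 * D⁻¹ * 1 := by simp
      _ = (((D + K)⁻¹)ᴴ * (D + K)ᴴ) * D⁻¹ * ((D + K) * (D + K)⁻¹) := by rw [h1, h2]
      _ = _ := by simp only [Matrix.mul_assoc]
  rw [key]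
  exact (hK.add (hD.inv.posSemidef.conjTranspose_mul_mul_same K)).conjTranspose_mul_mul_same _

/-- weighted AM-GM for traces. -/
lemma two_re_trace_mul_le {A B : Matrix n n ℂ} (hA : A.PosDef) (hB : B.PosDef)
    (U V : Matrix n n ℂ) :
    2 * (U * V).trace.re ≤ (B⁻¹ * (Uᴴ * A * U)).trace.re + (A⁻¹ * (Vᴴ * B * V)).trace.re := by
  have huA : IsUnit A.det := (Matrix.isUnit_iff_isUnit_det A).mp hA.isUnit
  have huB : IsUnit B.det := (Matrix.isUnit_iff_isUnit_det B).mp hB.isUnit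
  have a1 : A * A⁻¹ = 1 := Matrix.mul_nonsing_inv A huA
  have a2 : A⁻¹ * A = 1 := Matrix.nonsing_inv_mul A huA
  have b1 : B * B⁻¹ = 1 := Matrix.mul_nonsing_inv B huB
  have b2 : B⁻¹ * B = 1 := Matrix.nonsing_inv_mul B huB
  set W := U - A⁻¹ * Vᴴ * B with hW
  have hpos := trace_mul_nonneg hB.inv.posSemidef (hA.posSemidef.conjTranspose_mul_mul_same W)
  have hWh : Wᴴ = Uᴴ - B * V * A⁻¹ := by
    rw [hW, Matrix.conjTranspose_sub, Matrix.conjTranspose_mul, Matrix.conjTranspose_mul,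
      Matrix.conjTranspose_conjTranspose, hB.isHermitian.eq, hA.inv.isHermitian.eq,
      Matrix.mul_assoc]
  have hexp : B⁻¹ * (Wᴴ * A * W) = B⁻¹ * (Uᴴ * A * U) - B⁻¹ * (Uᴴ * Vᴴ) * B - V * U
      + V * A⁻¹ * Vᴴ * B := by
    rw [hWh, hW]
    have t1 : (Uᴴ - B * V * A⁻¹) * A = Uᴴ * A - B * V := by
      rw [Matrix.sub_mul, Matrix.mul_assoc (B * V), a2, Matrix.mul_one]
    rw [t1, Matrix.sub_mul, Matrix.mul_sub, Matrix.mul_sub]
    have t2 : Uᴴ * A * (A⁻¹ * Vᴴ * B) = Uᴴ * Vᴴ * B := by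
      rw [Matrix.mul_assoc A⁻¹, ← Matrix.mul_assoc (Uᴴ * A), Matrix.mul_assoc Uᴴ, a1,
        Matrix.mul_one, Matrix.mul_assoc]
    rw [t2]
    simp only [Matrix.mul_sub, ← Matrix.mul_assoc, b2, Matrix.one_mul]
    abel
  have htr : (B⁻¹ * (Wᴴ * A * W)).trace = (B⁻¹ * (Uᴴ * A * U)).trace - star ((U * V).trace)
      - (U * V).trace + (A⁻¹ * (Vᴴ * B * V)).trace := by
    rw [hexp, Matrix.trace_add, Matrix.trace_sub, Matrix.trace_sub]
    have s1 : (B⁻¹ * (Uᴴ * Vᴴ) * B).trace = star ((U * V).trace) := by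
      rw [Matrix.trace_mul_comm, ← Matrix.mul_assoc, b1, Matrix.one_mul,
        ← Matrix.conjTranspose_mul, Matrix.trace_conjTranspose, Matrix.trace_mul_comm]
    have s2 : (V * U).trace = (U * V).trace := Matrix.trace_mul_comm _ _
    have s3 : (V * A⁻¹ * Vᴴ * B).trace = (A⁻¹ * (Vᴴ * B * V)).trace := by
      rw [Matrix.mul_assoc, Matrix.mul_assoc, Matrix.trace_mul_comm]
      simp only [Matrix.mul_assoc]
    rw [s1, s2, s3]
  rw [htr] at hpos
  have := (Complex.le_def.1 hpos).1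
  simp only [Complex.zero_re, Complex.add_re, Complex.sub_re] at this
  have hs : (star ((U * V).trace)).re = (U * V).trace.re := by
    simp
  rw [hs] at this
  linarith

/-- monotonicity of `X ↦ tr (P (E X E))` in the Loewner order. -/
lemma trace_conj_le {P X Y E : Matrix n n ℂ} (hP : P.PosSemidef) (hXY : (Y - X).PosSemidef)
    (hE : E.IsHermitian) :
    (P * (E * X * E)).trace.re ≤ (P * (E * Y * E)).trace.re := by
  have h := trace_mul_nonneg hP (hXY.conjTranspose_mul_mul_same E)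
  rw [hE.eq, Matrix.mul_sub, Matrix.sub_mul, Matrix.mul_sub, Matrix.trace_sub] at h
  have := (Complex.le_def.1 h).1
  simp only [Complex.zero_re, Complex.sub_re] at this
  linarith

/-- The key trace inequality. -/
lemma key_ineq {D₁ D₂ K E : Matrix n n ℂ} (h1 : D₁.PosDef) (h2 : D₂.PosDef)
    (hK : (K + Kᴴ).PosSemidef) (hE : E.IsHermitian) :
    ((D₁ + K)⁻¹ * E * ((D₂ + K)⁻¹ * E)).trace.re ≤ (D₁⁻¹ * E * (D₂⁻¹ * E)).trace.re := by
  have h := two_re_trace_mul_le h1 h2 ((D₁ + K)⁻¹ * E) ((D₂ + K)⁻¹ * E)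
  have e1 : ((D₁ + K)⁻¹ * E)ᴴ * D₁ * ((D₁ + K)⁻¹ * E)
      = E * (((D₁ + K)⁻¹)ᴴ * D₁ * (D₁ + K)⁻¹) * E := by
    rw [Matrix.conjTranspose_mul, hE.eq]; simp only [Matrix.mul_assoc]
  have e2 : ((D₂ + K)⁻¹ * E)ᴴ * D₂ * ((D₂ + K)⁻¹ * E)
      = E * (((D₂ + K)⁻¹)ᴴ * D₂ * (D₂ + K)⁻¹) * E := by
    rw [Matrix.conjTranspose_mul, hE.eq]; simp only [Matrix.mul_assoc]
  rw [e1, e2] at h
  have i1 := trace_conj_le h2.inv.posSemidef (inv_sub_posSemidef h1 hK) hE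
  have i2 := trace_conj_le h1.inv.posSemidef (inv_sub_posSemidef h2 hK) hE
  have c1 : (D₂⁻¹ * (E * D₁⁻¹ * E)).trace = (D₁⁻¹ * E * (D₂⁻¹ * E)).trace := by
    rw [show D₂⁻¹ * (E * D₁⁻¹ * E) = (D₂⁻¹ * E) * (D₁⁻¹ * E) by simp only [Matrix.mul_assoc],
      Matrix.trace_mul_comm]
  have c2 : (D₁⁻¹ * (E * D₂⁻¹ * E)).trace = (D₁⁻¹ * E * (D₂⁻¹ * E)).trace := by
    simp only [Matrix.mul_assoc]
  rw [c1] at i1
  rw [c2] at i2
  linarith

/-- derivative of `h ↦ det (A + h E)` at `0`. -/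
lemma hasDerivAt_det_zero (A E : Matrix n n ℂ) (hA : IsUnit A.det) :
    HasDerivAt (fun h : ℝ => (A + (h : ℂ) • E).det) (A.det * (A⁻¹ * E).trace) 0 := by
  set Y := A⁻¹ * E with hY
  set Q : Polynomial ℂ :=
    (det (1 + (Polynomial.X : Polynomial ℂ) • Y.map Polynomial.C)).divX.divX with hQ
  have hf : (fun h : ℝ => (A + (h : ℂ) • E).det)
      = fun h : ℝ => A.det * (1 + Y.trace * (h : ℂ) + Q.eval (h : ℂ) * (h : ℂ) ^ 2) := by
    funext h
    have : A + (h : ℂ) • E = A * (1 + (h : ℂ) • Y) := by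
      rw [hY, Matrix.mul_add, Matrix.mul_one, Matrix.mul_smul, ← Matrix.mul_assoc,
        Matrix.mul_nonsing_inv A hA, Matrix.one_mul]
    rw [this, Matrix.det_mul, Matrix.det_one_add_smul]
  rw [hf]
  have hc : HasDerivAt (fun z : ℂ => A.det * (1 + Y.trace * z + Q.eval z * z ^ 2))
      (A.det * (0 + Y.trace * 1 + (Q.derivative.eval ((0 : ℝ) : ℂ) * ((0 : ℝ) : ℂ) ^ 2
        + Q.eval ((0 : ℝ) : ℂ) * (2 * ((0 : ℝ) : ℂ))))) ((0 : ℝ) : ℂ) := by
    apply HasDerivAt.const_mul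
    apply HasDerivAt.add
    · apply HasDerivAt.add
      · exact hasDerivAt_const _ _
      · exact (hasDerivAt_id _).const_mul _
    · apply HasDerivAt.mul
      · exact Q.hasDerivAt _
      · simpa using (hasDerivAt_pow 2 (((0 : ℝ) : ℂ)))
  have := hc.comp_ofReal
  simpa using this

lemma hasDerivAt_det (M E : Matrix n n ℂ) (t : ℝ) (h : IsUnit (M + (t : ℂ) • E).det) :
    HasDerivAt (fun s : ℝ => (M + (s : ℂ) • E).det)
      ((M + (t : ℂ) • E).det * ((M + (t : ℂ) • E)⁻¹ * E).trace) t := by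
  have h0 := hasDerivAt_det_zero (M + (t : ℂ) • E) E h
  have h1 := HasDerivAt.comp_sub_const (f := fun h : ℝ => (M + (t : ℂ) • E + (h : ℂ) • E).det) t t
    (by rw [sub_self]; exact h0)
  have hfun : (fun s : ℝ => (M + (s : ℂ) • E).det)
      = fun x : ℝ => (M + (t : ℂ) • E + ((x - t : ℝ) : ℂ) • E).det := by
    funext s
    congr 1
    rw [add_assoc, ← add_smul]
    push_cast
    congr 2
    ring
  rw [hfun]
  exact h1

/-- derivative of `log ‖p‖`. -/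
lemma hasDerivAt_log_norm {p : ℝ → ℂ} {p' : ℂ} {t : ℝ} (hp : HasDerivAt p p' t)
    (h0 : p t ≠ 0) : HasDerivAt (fun s => Real.log ‖p s‖) ((p' / p t).re) t := by
  have h1 : HasDerivAt (fun s => ‖p s‖ ^ 2) (2 * inner ℝ (p t) p') t := hp.norm_sq
  have hpos : ‖p t‖ ^ 2 ≠ 0 := by positivity
  have h2 := (h1.log hpos).const_mul (1 / 2 : ℝ)
  have hfun : (fun s => Real.log ‖p s‖) = fun s => (1 / 2 : ℝ) * Real.log (‖p s‖ ^ 2) := by
    funext s
    rw [Real.log_pow]; push_cast; ring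
  rw [hfun]
  have : (p' / p t).re = 1 / 2 * (2 * inner ℝ (p t) p' / ‖p t‖ ^ 2) := by
    rw [Complex.div_re, Complex.inner, ← Complex.normSq_eq_norm_sq]
    simp only [Complex.mul_re, Complex.conj_re, Complex.conj_im]
    ring
  rw [this]
  exact h2

/-- The function `F_K(D) = log |det (D + K)| - log |det D|`. -/
noncomputable def F (K D : Matrix n n ℂ) : ℝ :=
  Real.log ‖(D + K).det‖ - Real.log ‖D.det‖

omit [Fintype n] [DecidableEq n] in
lemma posDef_line {D₀ D₁ : Matrix n n ℂ} (h0 : D₀.PosDef) (h1 : D₁.PosDef) {t : ℝ}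
    (ht : t ∈ Set.Icc (0 : ℝ) 1) : (D₀ + (t : ℂ) • (D₁ - D₀)).PosDef := by
  have e : D₀ + (t : ℂ) • (D₁ - D₀) = ((1 - t : ℝ) : ℂ) • D₀ + (t : ℂ) • D₁ := by
    push_cast
    rw [smul_sub, sub_smul, one_smul]; abel
  rw [e]
  rcases lt_or_eq_of_le ht.2 with hlt | heq
  · have hp : (0 : ℂ) < ((1 - t : ℝ) : ℂ) := by
      exact_mod_cast sub_pos.mpr hlt
    have hq : (0 : ℂ) ≤ (t : ℂ) := by exact_mod_cast ht.1
    exact (h0.smul hp).add_posSemidef (h1.posSemidef.smul hq)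
  · subst heq
    simpa using h1

lemma inv_sub_inv' {A B : Matrix n n ℂ} (hA : IsUnit A.det) (hB : IsUnit B.det) :
    A⁻¹ - B⁻¹ = A⁻¹ * (B - A) * B⁻¹ := by
  rw [Matrix.mul_sub, Matrix.sub_mul, Matrix.nonsing_inv_mul A hA, Matrix.one_mul,
    Matrix.mul_assoc, Matrix.mul_nonsing_inv B hB, Matrix.mul_one]

/-- the derivative of `F` along a line. -/
noncomputable def g' (K D₀ E : Matrix n n ℂ) (t : ℝ) : ℝ :=
  ((D₀ + (t : ℂ) • E + K)⁻¹ * E).trace.re - ((D₀ + (t : ℂ) • E)⁻¹ * E).trace.re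

lemma hasDerivAt_line {K D₀ E : Matrix n n ℂ} (hK : (K + Kᴴ).PosSemidef) {t : ℝ}
    (ht : (D₀ + (t : ℂ) • E).PosDef) :
    HasDerivAt (fun s : ℝ => F K (D₀ + (s : ℂ) • E)) (g' K D₀ E t) t := by
  have hu1 : IsUnit (D₀ + K + (t : ℂ) • E).det := by
    rw [add_right_comm]; exact isUnit_det_add ht hK
  have hu2 : IsUnit (D₀ + (t : ℂ) • E).det := (Matrix.isUnit_iff_isUnit_det _).mp ht.isUnit
  have d1 := hasDerivAt_log_norm (hasDerivAt_det (D₀ + K) E t hu1) hu1.ne_zero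
  have d2 := hasDerivAt_log_norm (hasDerivAt_det D₀ E t hu2) hu2.ne_zero
  rw [mul_div_cancel_left₀ _ hu1.ne_zero] at d1
  rw [mul_div_cancel_left₀ _ hu2.ne_zero] at d2
  have := d1.sub d2
  unfold F g'
  simp only [add_right_comm D₀ _ K]
  exact this

lemma g'_mono {K D₀ E : Matrix n n ℂ} (hK : (K + Kᴴ).PosSemidef) (hE : E.IsHermitian)
    {s t : ℝ} (hs : (D₀ + (s : ℂ) • E).PosDef) (ht : (D₀ + (t : ℂ) • E).PosDef) (hst : s ≤ t) :
    g' K D₀ E s ≤ g' K D₀ E t := by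
  have us := isUnit_det_add hs hK
  have ut := isUnit_det_add ht hK
  have vs : IsUnit (D₀ + (s : ℂ) • E).det := (Matrix.isUnit_iff_isUnit_det _).mp hs.isUnit
  have vt : IsUnit (D₀ + (t : ℂ) • E).det := (Matrix.isUnit_iff_isUnit_det _).mp ht.isUnit
  have r1 := inv_sub_inv' us ut
  have r2 := inv_sub_inv' vs vt
  have e1 : D₀ + (t : ℂ) • E + K - (D₀ + (s : ℂ) • E + K) = ((t - s : ℝ) : ℂ) • E := by
    push_cast; rw [sub_smul]; abel
  have e2 : D₀ + (t : ℂ) • E - (D₀ + (s : ℂ) • E) = ((t - s : ℝ) : ℂ) • E := by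
    push_cast; rw [sub_smul]; abel
  rw [e1] at r1
  rw [e2] at r2
  have k := key_ineq hs ht hK hE
  have t1 : ((D₀ + (s : ℂ) • E + K)⁻¹ * E).trace - ((D₀ + (t : ℂ) • E + K)⁻¹ * E).trace
      = ((t - s : ℝ) : ℂ) * ((D₀ + (s : ℂ) • E + K)⁻¹ * E * ((D₀ + (t : ℂ) • E + K)⁻¹ * E)).trace := by
    rw [← Matrix.trace_sub, ← Matrix.sub_mul, r1, Matrix.mul_smul, Matrix.smul_mul,
      Matrix.smul_mul, Matrix.trace_smul, smul_eq_mul]
    simp only [Matrix.mul_assoc]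
  have t2 : ((D₀ + (s : ℂ) • E)⁻¹ * E).trace - ((D₀ + (t : ℂ) • E)⁻¹ * E).trace
      = ((t - s : ℝ) : ℂ) * ((D₀ + (s : ℂ) • E)⁻¹ * E * ((D₀ + (t : ℂ) • E)⁻¹ * E)).trace := by
    rw [← Matrix.trace_sub, ← Matrix.sub_mul, r2, Matrix.mul_smul, Matrix.smul_mul,
      Matrix.smul_mul, Matrix.trace_smul, smul_eq_mul]
    simp only [Matrix.mul_assoc]
  have t1r := congrArg Complex.re t1
  have t2r := congrArg Complex.re t2
  rw [Complex.sub_re, Complex.re_ofReal_mul] at t1r t2r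
  unfold g'
  have hts : 0 ≤ t - s := sub_nonneg.mpr hst
  nlinarith [mul_le_mul_of_nonneg_left k hts]

theorem convexOn_line {K D₀ D₁ : Matrix n n ℂ} (hK : (K + Kᴴ).PosSemidef) (h0 : D₀.PosDef)
    (h1 : D₁.PosDef) :
    ConvexOn ℝ (Set.Icc (0 : ℝ) 1) (fun s : ℝ => F K (D₀ + (s : ℂ) • (D₁ - D₀))) := by
  have hE : (D₁ - D₀).IsHermitian := h1.isHermitian.sub h0.isHermitian
  have hd : ∀ t ∈ Set.Icc (0 : ℝ) 1,
      HasDerivAt (fun s : ℝ => F K (D₀ + (s : ℂ) • (D₁ - D₀))) (g' K D₀ (D₁ - D₀) t) t :=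
    fun t ht => hasDerivAt_line hK (posDef_line h0 h1 ht)
  apply MonotoneOn.convexOn_of_deriv (convex_Icc 0 1)
  · exact fun t ht => (hd t ht).continuousAt.continuousWithinAt
  · intro t ht
    exact (hd t (interior_subset ht)).differentiableAt.differentiableWithinAt
  · intro s hs t ht hst
    rw [(hd s (interior_subset hs)).deriv, (hd t (interior_subset ht)).deriv]
    exact g'_mono hK hE (posDef_line h0 h1 (interior_subset hs))
      (posDef_line h0 h1 (interior_subset ht)) hst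

/-- **Convexity of `D ↦ log |det (D + K)| - log det D`** on positive definite matrices, for every
`K` with `K + Kᴴ ≥ 0`. -/
theorem convexOn_F {K : Matrix n n ℂ} (hK : (K + Kᴴ).PosSemidef) :
    ConvexOn ℝ {D : Matrix n n ℂ | D.PosDef} (F K) := by
  have hcomb : ∀ (D₀ D₁ : Matrix n n ℂ) (a b : ℝ), a + b = 1 →
      a • D₀ + b • D₁ = D₀ + (b : ℂ) • (D₁ - D₀) := by
    intro D₀ D₁ a b hab
    have ha : a = 1 - b := by linarith
    subst ha
    rw [smul_sub, sub_smul, one_smul]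
    have : ∀ X : Matrix n n ℂ, (b : ℂ) • X = b • X := fun X => by
      ext i j; simp
    rw [this, this]; abel
  refine ⟨?_, ?_⟩
  · intro D₀ h0 D₁ h1 a b ha hb hab
    rw [hcomb D₀ D₁ a b hab]
    exact posDef_line h0 h1 ⟨hb, by linarith⟩
  · intro D₀ h0 D₁ h1 a b ha hb hab
    have hc := (convexOn_line hK h0 h1).2 (x := 0) (y := 1) (by simp) (by simp) ha hb hab
    rw [hcomb D₀ D₁ a b hab]
    simpa using hc

end Crest.Agent.S0534Aux.LogDetConvex
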