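import Mathlib
import Crest.Agent.S0534Aux.LogDetConvex

/-!
# Sign-flip pinching

`m` an index type with labels `lab : m → κ`.  If `K` (with `K + Kᴴ ≥ 0`) only couples indices with
equal labels, then replacing a positive definite `D` by its label-diagonal part
(`D i j` kept iff `lab i = lab j`) does not increase `F K D = log|det (D+K)| - log|det D|`.
Proof: one reflection `diag(±1)` at a time + convexity of `F K` (`LogDetConvex.convexOn_F`).
-/

set_option autoImplicit false

open Matrix
open scoped ComplexOrder MatrixOrder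

namespace Crest.Agent.S0534Aux.Twirl

open Crest.Agent.S0534Aux.LogDetConvex

variable {m κ : Type*} [Fintype m] [DecidableEq m] [DecidableEq κ]

/-- sign vector: `-1` on the indices with label `k`. -/
def sgn (lab : m → κ) (k : κ) (i : m) : ℂ := if lab i = k then -1 else 1

/-- the reflection. -/
def flip (lab : m → κ) (k : κ) : Matrix m m ℂ := diagonal (sgn lab k)

/-- partial pinching: off-label entries touching a label in `s` are killed. -/
def pinch (lab : m → κ) (s : Finset κ) (D : Matrix m m ℂ) : Matrix m m ℂ :=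
  Matrix.of fun i j => if lab i = lab j ∨ (lab i ∉ s ∧ lab j ∉ s) then D i j else 0

omit [Fintype m] [DecidableEq m] in
lemma sgn_mul_self (lab : m → κ) (k : κ) (i : m) : sgn lab k i * sgn lab k i = 1 := by
  unfold sgn; split_ifs <;> norm_num

lemma flip_mul_flip (lab : m → κ) (k : κ) : flip lab k * flip lab k = 1 := by
  unfold flip
  rw [diagonal_mul_diagonal]
  simp [sgn_mul_self]

omit [Fintype m] in
lemma flip_conjTranspose (lab : m → κ) (k : κ) : (flip lab k)ᴴ = flip lab k := by
  unfold flip
  rw [diagonal_conjTranspose]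
  congr 1
  ext i
  simp only [Pi.star_apply, sgn]
  split_ifs <;> simp

lemma flip_mul_mul_apply (lab : m → κ) (k : κ) (D : Matrix m m ℂ) (i j : m) :
    (flip lab k * D * flip lab k) i j = sgn lab k i * sgn lab k j * D i j := by
  unfold flip
  rw [mul_diagonal, diagonal_mul]; ring

lemma flip_conj_of_label {lab : m → κ} {K : Matrix m m ℂ}
    (hK : ∀ i j, lab i ≠ lab j → K i j = 0) (k : κ) : flip lab k * K * flip lab k = K := by
  ext i j
  rw [flip_mul_mul_apply]
  by_cases h : lab i = lab j
  · have : sgn lab k i = sgn lab k j := by unfold sgn; rw [h]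
    rw [this, sgn_mul_self, one_mul]
  · rw [hK i j h, mul_zero]

lemma det_flip_conj (lab : m → κ) (k : κ) (M : Matrix m m ℂ) :
    (flip lab k * M * flip lab k).det = M.det := by
  rw [det_mul, det_mul, mul_comm (flip lab k).det, mul_assoc, ← det_mul, flip_mul_flip, det_one,
    mul_one]

lemma F_flip {lab : m → κ} {K : Matrix m m ℂ} (hK : ∀ i j, lab i ≠ lab j → K i j = 0) (k : κ)
    (D : Matrix m m ℂ) : F K (flip lab k * D * flip lab k) = F K D := by
  unfold F
  have h1 : flip lab k * D * flip lab k + K = flip lab k * (D + K) * flip lab k := by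
    rw [Matrix.mul_add, Matrix.add_mul, flip_conj_of_label hK]
  rw [h1, det_flip_conj, det_flip_conj]

lemma posDef_flip (lab : m → κ) (k : κ) {D : Matrix m m ℂ} (hD : D.PosDef) :
    (flip lab k * D * flip lab k).PosDef := by
  have h := hD.conjTranspose_mul_mul_same (B := flip lab k) (by
    intro x y hxy
    have := congrArg (fun v => (flip lab k) *ᵥ v) hxy
    simpa [mulVec_mulVec, flip_mul_flip] using this)
  rwa [flip_conjTranspose] at h

lemma pinch_insert (lab : m → κ) (s : Finset κ) (k : κ) (D : Matrix m m ℂ) :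
    pinch lab (insert k s) D
      = (1 / 2 : ℝ) • pinch lab s D + (1 / 2 : ℝ) • (flip lab k * pinch lab s D * flip lab k) := by
  ext i j
  simp only [Matrix.add_apply, Matrix.smul_apply, flip_mul_mul_apply]
  simp only [pinch, of_apply, Finset.mem_insert, not_or, sgn]
  by_cases hij : lab i = lab j
  · simp only [hij, true_or, if_true]
    split_ifs <;> simp <;> ring
  · simp only [hij, false_or]
    by_cases hi : lab i = k
    · have hj : lab j ≠ k := fun h => hij (hi.trans h.symm)
      simp only [hi, hj, not_true_eq_false, false_and, if_true, if_false, not_false_eq_true,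
        true_and]
      split_ifs <;> simp <;> ring
    · by_cases hj : lab j = k
      · simp only [hi, hj, not_true_eq_false, false_and, and_false, if_true, if_false,
          not_false_eq_true, true_and]
        split_ifs <;> simp <;> ring
      · simp only [hi, hj, if_false, not_false_eq_true, true_and]
        split_ifs <;> simp <;> ring

omit [Fintype m] [DecidableEq m] in
lemma pinch_empty (lab : m → κ) (D : Matrix m m ℂ) : pinch lab ∅ D = D := by
  ext i j; simp [pinch]

theorem pinch_posDef_and_le {lab : m → κ} {K : Matrix m m ℂ} (hKp : (K + Kᴴ).PosSemidef)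
    (hK : ∀ i j, lab i ≠ lab j → K i j = 0) {D : Matrix m m ℂ} (hD : D.PosDef) (s : Finset κ) :
    (pinch lab s D).PosDef ∧ F K (pinch lab s D) ≤ F K D := by
  induction s using Finset.induction_on with
  | empty => rw [pinch_empty]; exact ⟨hD, le_refl _⟩
  | insert k s _ ih =>
    obtain ⟨h1, h2⟩ := ih
    have hc := convexOn_F hKp
    have h3 := posDef_flip lab k h1
    rw [pinch_insert]
    refine ⟨hc.1 h1 h3 (by norm_num) (by norm_num) (by norm_num), ?_⟩
    have h4 : F K ((1 / 2 : ℝ) • pinch lab s D
          + (1 / 2 : ℝ) • (flip lab k * pinch lab s D * flip lab k))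
        ≤ (1 / 2 : ℝ) • F K (pinch lab s D)
          + (1 / 2 : ℝ) • F K (flip lab k * pinch lab s D * flip lab k) :=
      hc.2 h1 h3 (by norm_num) (by norm_num) (by norm_num)
    rw [F_flip hK] at h4
    simp only [smul_eq_mul] at h4
    linarith

section blocks

variable {κ : Type*} [Fintype κ] [DecidableEq κ]

lemma posDef_fromBlocks_diag {x y : Matrix κ κ ℂ} (hx : x.PosDef) (hy : y.PosDef) :
    (fromBlocks x 0 0 y).PosDef := by
  refine PosDef.of_dotProduct_mulVec_pos (IsHermitian.fromBlocks hx.1 (by simp) hy.1) ?_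
  intro z hz
  have e : star z ⬝ᵥ (fromBlocks x 0 0 y *ᵥ z)
      = star (z ∘ Sum.inl) ⬝ᵥ (x *ᵥ (z ∘ Sum.inl)) + star (z ∘ Sum.inr) ⬝ᵥ (y *ᵥ (z ∘ Sum.inr)) := by
    rw [fromBlocks_mulVec]
    simp [dotProduct, Fintype.sum_sum_type]
  rw [e]
  have hx0 := hx.posSemidef.dotProduct_mulVec_nonneg (z ∘ Sum.inl)
  have hy0 := hy.posSemidef.dotProduct_mulVec_nonneg (z ∘ Sum.inr)
  by_cases h1 : z ∘ Sum.inl = 0
  · have h2 : z ∘ Sum.inr ≠ 0 := by
      intro h2
      apply hz
      rw [← Sum.elim_comp_inl_inr z, h1, h2]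
      ext i; cases i <;> rfl
    exact add_pos_of_nonneg_of_pos hx0 (hy.dotProduct_mulVec_pos h2)
  · exact add_pos_of_pos_of_nonneg (hx.dotProduct_mulVec_pos h1) hy0

/-- the anti-Hermitian coupling. -/
def Kmat (α : κ → ℝ) : Matrix (κ ⊕ κ) (κ ⊕ κ) ℂ :=
  fromBlocks 0 (diagonal fun k => (α k : ℂ)) (-diagonal fun k => (α k : ℂ)) 0

lemma Kmat_add_conjTranspose (α : κ → ℝ) : Kmat α + (Kmat α)ᴴ = 0 := by
  unfold Kmat
  rw [fromBlocks_conjTranspose, fromBlocks_add]
  have h : (diagonal fun k => (α k : ℂ))ᴴ = diagonal fun k => (α k : ℂ) := by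
    rw [diagonal_conjTranspose]; congr 1; ext k; simp
  simp [h]

lemma Kmat_label (α : κ → ℝ) (i j : κ ⊕ κ)
    (h : (Sum.elim id id : κ ⊕ κ → κ) i ≠ (Sum.elim id id : κ ⊕ κ → κ) j) : Kmat α i j = 0 := by
  unfold Kmat
  rcases i with i | i <;> rcases j with j | j <;> simp at h ⊢ <;> simp [diagonal_apply, h]

lemma pinch_fromBlocks (x y : Matrix κ κ ℂ) :
    pinch (Sum.elim id id : κ ⊕ κ → κ) Finset.univ (fromBlocks x 0 0 y)
      = fromBlocks (diagonal fun k => x k k) 0 0 (diagonal fun k => y k k) := by
  ext i j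
  rcases i with i | i <;> rcases j with j | j
  · by_cases h : i = j
    · subst h; simp [pinch]
    · simp [pinch, h]
  · simp only [pinch, of_apply, fromBlocks_apply₁₂]; split_ifs <;> rfl
  · simp only [pinch, of_apply, fromBlocks_apply₂₁]; split_ifs <;> rfl
  · by_cases h : i = j
    · subst h; simp [pinch]
    · simp [pinch, h]

lemma det_diag_blocks (a b c d : κ → ℂ) (ha : ∀ k, a k ≠ 0) :
    (fromBlocks (diagonal a) (diagonal b) (diagonal c) (diagonal d)).det
      = ∏ k, (a k * d k - c k * b k) := by
  letI : Invertible (diagonal a) := invertibleOfRightInverse _ (diagonal fun k => (a k)⁻¹) (by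
    rw [diagonal_mul_diagonal]
    simp [ha])
  have hinv : ⅟(diagonal a) = diagonal fun k => (a k)⁻¹ := by
    apply invOf_eq_right_inv
    rw [diagonal_mul_diagonal]
    simp [ha]
  rw [det_fromBlocks₁₁, hinv, diagonal_mul_diagonal, diagonal_mul_diagonal, diagonal_sub,
    det_diagonal, det_diagonal, ← Finset.prod_mul_distrib]
  refine Finset.prod_congr rfl (fun k _ => ?_)
  have := ha k
  field_simp

/-- **Pinching inequality** in logarithmic form. -/
theorem pinch_blocks {x y : Matrix κ κ ℂ} (hx : x.PosDef) (hy : y.PosDef) (α : κ → ℝ) :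
    Real.log (∏ k, ((x k k).re * (y k k).re + α k ^ 2)) - Real.log (∏ k, ((x k k).re * (y k k).re))
      ≤ Real.log ‖(fromBlocks x (diagonal fun k => (α k : ℂ)) (-diagonal fun k => (α k : ℂ)) y).det‖
        - Real.log ‖x.det * y.det‖ := by
  have hKp : (Kmat α + (Kmat α)ᴴ).PosSemidef := by
    rw [Kmat_add_conjTranspose]; exact PosSemidef.zero
  have h := (pinch_posDef_and_le hKp (Kmat_label α) (posDef_fromBlocks_diag hx hy) Finset.univ).2
  rw [pinch_fromBlocks] at h
  unfold F Kmat at h
  rw [fromBlocks_add, fromBlocks_add] at h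
  simp only [add_zero, zero_add] at h
  rw [det_fromBlocks_zero₂₁, det_fromBlocks_zero₂₁, det_diagonal, det_diagonal] at h
  have hre : ∀ {z : Matrix κ κ ℂ}, z.PosDef → ∀ k, z k k = (((z k k).re : ℝ) : ℂ) := by
    intro z hz k
    have := hz.1.apply k k
    exact (Complex.conj_eq_iff_re.mp this).symm
  have hpos : ∀ {z : Matrix κ κ ℂ}, z.PosDef → ∀ k, 0 < (z k k).re := by
    intro z hz k
    have := hz.diag_pos (i := k)
    exact (Complex.lt_def.mp this).1
  have e1 : (fromBlocks (diagonal fun k => x k k) (diagonal fun k => (α k : ℂ))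
      (-diagonal fun k => (α k : ℂ)) (diagonal fun k => y k k)).det
      = ((∏ k, ((x k k).re * (y k k).re + α k ^ 2) : ℝ) : ℂ) := by
    have : (-diagonal fun k => (α k : ℂ)) = diagonal fun k => (-(α k : ℂ)) := by
      rw [← diagonal_neg]
    rw [this, det_diag_blocks]
    · push_cast
      refine Finset.prod_congr rfl (fun k _ => ?_)
      rw [← hre hx k, ← hre hy k]; ring
    · intro k hk
      have := hpos hx k
      rw [hk] at this; simp at this
  have e2 : (∏ i, x i i) * ∏ i, y i i = ((∏ k, ((x k k).re * (y k k).re) : ℝ) : ℂ) := by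
    push_cast
    rw [Finset.prod_mul_distrib]
    congr 1 <;> exact Finset.prod_congr rfl (fun k _ => by first | exact hre hx k | exact hre hy k)
  rw [e1, e2, Complex.norm_real, Complex.norm_real, Real.norm_of_nonneg, Real.norm_of_nonneg] at h
  · exact h
  · exact Finset.prod_nonneg (fun k _ => (mul_pos (hpos hx k) (hpos hy k)).le)
  · exact Finset.prod_nonneg (fun k _ => by
      have := mul_pos (hpos hx k) (hpos hy k); positivity)

end blocks

end Crest.Agent.S0534Aux.Twirl
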