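import Mathlib
import Crest.Prelude.Def_QState
import Crest.Agent.S0534Aux.Spec
import Crest.Agent.S0534Aux.Gsc
import Crest.Agent.S0534Aux.GscSub
import Crest.Agent.S0534Aux.SVD
import Crest.Agent.S0534Aux.Twirl
import Crest.Agent.S0534Aux.EntBasic

/-!
# The three-edge theorem, abstract square form

`P ≥ 0`, `aᴴ b = 0`, `P b = 0`  ⟹
`H P + H (a aᴴ) + H (b bᴴ) + Gsc (tr P) (tr a aᴴ) (tr b bᴴ) ≤ H (P + (a+b)(a+b)ᴴ)`.
-/

set_option autoImplicit false

open Matrix Crest.Quantum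
open scoped ComplexOrder

namespace Crest.Agent.S0534Aux.E3

open Crest.Agent.S0534Aux.Spec Crest.Agent.S0534Aux.GscSub Crest.Agent.S0534Aux

variable {K : Type} [Fintype K] [DecidableEq K]

lemma norm_det_add {A : Matrix K K ℂ} (hA : A.PosSemidef) {u : ℝ} (hu : 0 < u) :
    ‖((u : ℂ) • (1 : Matrix K K ℂ) + A).det‖ = ((u : ℂ) • (1 : Matrix K K ℂ) + A).det.re := by
  rw [det_add_eq_prod hA.isHermitian, Complex.norm_real, Complex.ofReal_re, Real.norm_of_nonneg]
  exact Finset.prod_nonneg (fun i _ => by have := hA.eigenvalues_nonneg i; positivity)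

lemma posDef_add {A : Matrix K K ℂ} (hA : A.PosSemidef) {u : ℝ} (hu : 0 < u) :
    ((u : ℂ) • (1 : Matrix K K ℂ) + A).PosDef :=
  (PosDef.one.smul (by exact_mod_cast hu : (0 : ℂ) < (u : ℂ))).add_posSemidef hA

/-- the determinant identity (Step 0). -/
lemma det_key (P a b : Matrix K K ℂ) (hP : P.PosSemidef) (hab : aᴴ * b = 0) (hPb : P * b = 0)
    {u : ℝ} (hu : 0 < u) :
    (fromBlocks ((u : ℂ) • (1 : Matrix K K ℂ) + P) (((Real.sqrt u : ℝ) : ℂ) • a)
      (-(((Real.sqrt u : ℝ) : ℂ) • aᴴ)) ((u : ℂ) • (1 : Matrix K K ℂ) + bᴴ * b)).det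
      = (u : ℂ) ^ Fintype.card K * ((u : ℂ) • (1 : Matrix K K ℂ) + (P + (a + b) * (a + b)ᴴ)).det := by
  set x : Matrix K K ℂ := (u : ℂ) • (1 : Matrix K K ℂ) + P with hx
  have hxp : x.PosDef := posDef_add hP hu
  have hxu : IsUnit x.det := (isUnit_iff_isUnit_det x).mp hxp.isUnit
  have hu0 : (u : ℂ) ≠ 0 := by exact_mod_cast hu.ne'
  letI := invertibleOfIsUnitDet x hxu
  have hxb : x * b = (u : ℂ) • b := by rw [hx, Matrix.add_mul, hPb]; simp
  have hxib : x⁻¹ * b = (u : ℂ)⁻¹ • b := by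
    have : x⁻¹ * (x * b) = b := by rw [← Matrix.mul_assoc, nonsing_inv_mul x hxu, Matrix.one_mul]
    rw [hxb, Matrix.mul_smul] at this
    calc x⁻¹ * b = (u : ℂ)⁻¹ • ((u : ℂ) • (x⁻¹ * b)) := by
          rw [smul_smul, inv_mul_cancel₀ hu0, one_smul]
      _ = (u : ℂ)⁻¹ • b := by rw [this]
  have hbx : bᴴ * x⁻¹ = (u : ℂ)⁻¹ • bᴴ := by
    have hxH : (x⁻¹)ᴴ = x⁻¹ := hxp.inv.isHermitian
    have := congrArg conjTranspose hxib
    rw [conjTranspose_mul, hxH, conjTranspose_smul] at this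
    simpa using this
  have hba : bᴴ * a = 0 := by
    have := congrArg conjTranspose hab
    simpa [conjTranspose_mul] using this
  rw [det_fromBlocks₁₁, invOf_eq_nonsing_inv]
  have h1 : (u : ℂ) • (1 : Matrix K K ℂ) + (P + (a + b) * (a + b)ᴴ) = x + (a + b) * (a + b)ᴴ := by
    rw [hx, add_assoc]
  rw [h1, det_add_mul _ _ hxu]
  have hs : ((Real.sqrt u : ℝ) : ℂ) * ((Real.sqrt u : ℝ) : ℂ) = (u : ℂ) := by
    rw [← Complex.ofReal_mul, Real.mul_self_sqrt hu.le]
  have h2 : (u : ℂ) • (1 : Matrix K K ℂ) + bᴴ * b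
        - -(((Real.sqrt u : ℝ) : ℂ) • aᴴ) * x⁻¹ * (((Real.sqrt u : ℝ) : ℂ) • a)
      = (u : ℂ) • (1 + (a + b)ᴴ * x⁻¹ * (a + b)) := by
    have e1 : (a + b)ᴴ * x⁻¹ * (a + b) = aᴴ * x⁻¹ * a + (u : ℂ)⁻¹ • (bᴴ * b) := by
      rw [conjTranspose_add, Matrix.add_mul, Matrix.add_mul, hbx, Matrix.mul_add, Matrix.mul_add,
        Matrix.mul_assoc aᴴ x⁻¹ b, hxib]
      simp [hab, hba]
    rw [e1, Matrix.neg_mul, Matrix.neg_mul, sub_neg_eq_add, Matrix.smul_mul, Matrix.smul_mul,
      Matrix.mul_smul, smul_smul, hs, smul_add, smul_add, smul_smul, mul_inv_cancel₀ hu0, one_smul]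
    abel
  rw [h2, det_smul]; ring

lemma diag_re_nonneg {A : Matrix K K ℂ} (hA : A.PosSemidef) (k : K) : 0 ≤ (A k k).re :=
  (Complex.le_def.mp (hA.diag_nonneg (i := k))).1

/-- pointwise (in `u`) determinant inequality, logarithmic form. -/
lemma pointwise (P b : Matrix K K ℂ) (σ : K → ℝ) (hP : P.PosSemidef)
    (hab : (diagonal fun k => (σ k : ℂ))ᴴ * b = 0) (hPb : P * b = 0) {u : ℝ} (hu : 0 < u) :
    ∑ k, (Real.log ((u + (P k k).re) * (u + ((bᴴ * b) k k).re) + u * σ k ^ 2)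
        - Real.log (u + (P k k).re) - Real.log (u + ((bᴴ * b) k k).re))
      ≤ Fintype.card K * Real.log u
        + Real.log ((u : ℂ) • (1 : Matrix K K ℂ) + (P + ((diagonal fun k => (σ k : ℂ)) + b)
            * ((diagonal fun k => (σ k : ℂ)) + b)ᴴ)).det.re
        - Real.log ((u : ℂ) • (1 : Matrix K K ℂ) + P).det.re
        - Real.log ((u : ℂ) • (1 : Matrix K K ℂ) + bᴴ * b).det.re := by
  set a : Matrix K K ℂ := diagonal fun k => (σ k : ℂ) with ha
  have hR : (bᴴ * b).PosSemidef := posSemidef_conjTranspose_mul_self b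
  have hωp : (P + (a + b) * (a + b)ᴴ).PosSemidef :=
    hP.add (posSemidef_self_mul_conjTranspose (a + b))
  have h1 : ∀ k, 0 ≤ (P k k).re := diag_re_nonneg hP
  have h3 : ∀ k, 0 ≤ ((bᴴ * b) k k).re := diag_re_nonneg hR
  have hpin := Twirl.pinch_blocks (posDef_add hP hu) (posDef_add hR hu)
    (fun k => Real.sqrt u * σ k)
  have hA1 : (diagonal fun k => ((Real.sqrt u * σ k : ℝ) : ℂ)) = ((Real.sqrt u : ℝ) : ℂ) • a := by
    rw [ha]; ext i j; by_cases h : i = j <;> simp [h, diagonal_apply]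
  have hA2 : (diagonal fun k => ((Real.sqrt u * σ k : ℝ) : ℂ)) = ((Real.sqrt u : ℝ) : ℂ) • aᴴ := by
    rw [hA1, ha, diagonal_conjTranspose]; congr 2; ext k; simp
  have hdk := det_key P a b hP hab hPb hu
  rw [← hA1, ← hA2] at hdk
  rw [hdk] at hpin
  have hx : ∀ k, (((u : ℂ) • (1 : Matrix K K ℂ) + P) k k).re = u + (P k k).re := by
    intro k; simp
  have hy : ∀ k, (((u : ℂ) • (1 : Matrix K K ℂ) + bᴴ * b) k k).re = u + ((bᴴ * b) k k).re := by
    intro k; simp
  simp only [hx, hy] at hpin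
  have hsq : ∀ k, (Real.sqrt u * σ k) ^ 2 = u * σ k ^ 2 := by
    intro k; rw [mul_pow, Real.sq_sqrt hu.le]
  simp only [hsq] at hpin
  rw [norm_mul, norm_mul, norm_pow, norm_det_add hωp hu, norm_det_add hP hu, norm_det_add hR hu,
    Complex.norm_real, Real.norm_of_nonneg hu.le,
    Real.log_mul (pow_pos hu _).ne' (det_add_pos hωp hu).ne',
    Real.log_mul (det_add_pos hP hu).ne' (det_add_pos hR hu).ne', Real.log_pow,
    Real.log_prod, Real.log_prod] at hpin
  · rw [← Finset.sum_sub_distrib] at hpin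
    have e : ∀ k, Real.log ((u + (P k k).re) * (u + ((bᴴ * b) k k).re) + u * σ k ^ 2)
        - Real.log (u + (P k k).re) - Real.log (u + ((bᴴ * b) k k).re)
        = Real.log ((u + (P k k).re) * (u + ((bᴴ * b) k k).re) + u * σ k ^ 2)
        - Real.log ((u + (P k k).re) * (u + ((bᴴ * b) k k).re)) := by
      intro k
      have := h1 k; have := h3 k
      rw [Real.log_mul (by positivity) (by positivity)]; ring
    simp only [e]
    linarith
  · intro k _
    have := h1 k; have := h3 k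
    positivity
  · intro k _
    have := h1 k; have := h3 k
    positivity

/-- the three-edge theorem for a diagonal middle edge, before the scalar step. -/
theorem E3_diag (P b : Matrix K K ℂ) (σ : K → ℝ) (hP : P.PosSemidef)
    (hab : (diagonal fun k => (σ k : ℂ))ᴴ * b = 0) (hPb : P * b = 0) :
    vnEntropy P + ∑ k, Real.negMulLog (σ k ^ 2) + vnEntropy (bᴴ * b)
      + ∑ k, Gsc (P k k).re (σ k ^ 2) ((bᴴ * b) k k).re
      ≤ vnEntropy (P + ((diagonal fun k => (σ k : ℂ)) + b)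
          * ((diagonal fun k => (σ k : ℂ)) + b)ᴴ) := by
  have hpw := fun (u : ℝ) (hu : 0 < u) => pointwise P b σ hP hab hPb hu
  set a : Matrix K K ℂ := diagonal fun k => (σ k : ℂ) with ha
  have hR : (bᴴ * b).PosSemidef := posSemidef_conjTranspose_mul_self b
  have hωp : (P + (a + b) * (a + b)ᴴ).PosSemidef :=
    hP.add (posSemidef_self_mul_conjTranspose (a + b))
  have h1 : ∀ k, 0 ≤ (P k k).re := diag_re_nonneg hP
  have h2 : ∀ k, 0 ≤ σ k ^ 2 := fun k => sq_nonneg _
  have h3 : ∀ k, 0 ≤ ((bᴴ * b) k k).re := diag_re_nonneg hR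
  have hba : bᴴ * a = 0 := by
    have := congrArg conjTranspose hab
    simpa [conjTranspose_mul] using this
  have htr : (P + (a + b) * (a + b)ᴴ).trace.re
      = P.trace.re + (bᴴ * b).trace.re + ∑ k, σ k ^ 2 := by
    have e1 : (a + b) * (a + b)ᴴ = a * aᴴ + a * bᴴ + b * aᴴ + b * bᴴ := by
      rw [conjTranspose_add, Matrix.add_mul, Matrix.mul_add, Matrix.mul_add]; abel
    have e2 : (a * aᴴ).trace = ((∑ k, σ k ^ 2 : ℝ) : ℂ) := by
      rw [ha, diagonal_conjTranspose, diagonal_mul_diagonal, trace_diagonal]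
      push_cast
      refine Finset.sum_congr rfl (fun k _ => ?_)
      simp [sq]
    rw [e1, trace_add, trace_add, trace_add, trace_add, trace_mul_comm a bᴴ, hba,
      trace_mul_comm b aᴴ, hab, trace_mul_comm b bᴴ, e2]
    simp only [trace_zero, add_zero, Complex.add_re, Complex.ofReal_re]
    ring
  have S := (((((IsSpec.matrix hωp).sub (IsSpec.matrix hP)).sub (IsSpec.matrix hR)).sub
     (IsSpec.sum Finset.univ (fun k _ => IsSpec.scalar (h2 k)))).sub
     (IsSpec.sum Finset.univ (fun k _ => isSpec_Gsc (h1 k) (h2 k) (h3 k)))).add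
     (IsSpec.sum Finset.univ (fun (_ : K) _ => IsSpec.scalar (le_refl (0 : ℝ))))
  have S' := S.congr (c' := 0) (τ' := 0) (by simp) (by rw [htr]; simp; ring) rfl (fun _ _ => rfl)
  have hnn := S'.nonneg (by
    intro u hu
    have := hpw u hu
    have e : ∀ k, Lsc (P k k).re (σ k ^ 2) ((bᴴ * b) k k).re u
        = (Real.log ((u + (P k k).re) * (u + ((bᴴ * b) k k).re) + u * σ k ^ 2)
        - Real.log (u + (P k k).re) - Real.log (u + ((bᴴ * b) k k).re)) - Real.log (u + σ k ^ 2) := by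
      intro k
      unfold Lsc
      rw [show u ^ 2 + ((P k k).re + σ k ^ 2 + ((bᴴ * b) k k).re) * u
          + (P k k).re * ((bᴴ * b) k k).re
          = (u + (P k k).re) * (u + ((bᴴ * b) k k).re) + u * σ k ^ 2 by ring]
      ring
    simp only [e, Finset.sum_sub_distrib, add_zero, Finset.sum_const, Finset.card_univ,
      nsmul_eq_mul] at this ⊢
    linarith)
  simp only [Real.negMulLog_zero, Finset.sum_const_zero, add_zero] at hnn
  linarith

/-- **Three-edge theorem**, abstract square form. -/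
theorem three_edge (P a b : Matrix K K ℂ) (hP : P.PosSemidef) (hab : aᴴ * b = 0) (hPb : P * b = 0) :
    vnEntropy P + vnEntropy (a * aᴴ) + vnEntropy (b * bᴴ)
      + Gsc P.trace.re (a * aᴴ).trace.re (b * bᴴ).trace.re
      ≤ vnEntropy (P + (a + b) * (a + b)ᴴ) := by
  obtain ⟨U, W, σ, hU, hW, -, ha⟩ := SVD.exists_svd a
  have hUU : Uᴴ * U = 1 := by
    have := mem_unitaryGroup_iff'.mp hU; simpa [star_eq_conjTranspose] using this
  have hUU' : U * Uᴴ = 1 := by
    have := mem_unitaryGroup_iff.mp hU; simpa [star_eq_conjTranspose] using this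
  have hWW : Wᴴ * W = 1 := by
    have := mem_unitaryGroup_iff'.mp hW; simpa [star_eq_conjTranspose] using this
  have hWW' : W * Wᴴ = 1 := by
    have := mem_unitaryGroup_iff.mp hW; simpa [star_eq_conjTranspose] using this
  set S : Matrix K K ℂ := diagonal fun k => (σ k : ℂ) with hS
  have hSa : S = Uᴴ * a * W := by
    rw [ha]
    calc S = (Uᴴ * U) * S * (Wᴴ * W) := by rw [hUU, hWW, Matrix.one_mul, Matrix.mul_one]
      _ = Uᴴ * (U * S * Wᴴ) * W := by simp only [Matrix.mul_assoc]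
  set P' : Matrix K K ℂ := Uᴴ * P * U with hP'
  set b' : Matrix K K ℂ := Uᴴ * b * W with hb'
  have hP'p : P'.PosSemidef := hP.conjTranspose_mul_mul_same U
  have hab' : Sᴴ * b' = 0 := by
    rw [hSa, hb']
    calc (Uᴴ * a * W)ᴴ * (Uᴴ * b * W) = Wᴴ * (aᴴ * (U * Uᴴ) * b) * W := by
          simp only [conjTranspose_mul, conjTranspose_conjTranspose, Matrix.mul_assoc]
      _ = 0 := by rw [hUU', Matrix.mul_one, hab]; simp
  have hPb' : P' * b' = 0 := by
    rw [hP', hb']
    calc Uᴴ * P * U * (Uᴴ * b * W) = Uᴴ * (P * (U * Uᴴ) * b) * W := by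
          simp only [Matrix.mul_assoc]
      _ = 0 := by rw [hUU', Matrix.mul_one, hPb]; simp
  have key := E3_diag P' b' σ hP'p hab' hPb'
  rw [← hS] at key
  -- identify the terms
  have e1 : P' + (S + b') * (S + b')ᴴ = star U * (P + (a + b) * (a + b)ᴴ) * U := by
    have h1 : S + b' = Uᴴ * (a + b) * W := by
      rw [hSa, hb', Matrix.mul_add, Matrix.add_mul]
    have h2 : (S + b') * (S + b')ᴴ = Uᴴ * ((a + b) * (a + b)ᴴ) * U := by
      rw [h1]
      calc Uᴴ * (a + b) * W * (Uᴴ * (a + b) * W)ᴴ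
          = Uᴴ * ((a + b) * (W * Wᴴ) * (a + b)ᴴ) * U := by
            simp only [conjTranspose_mul, conjTranspose_conjTranspose, Matrix.mul_assoc]
        _ = _ := by rw [hWW', Matrix.mul_one]
    rw [h2, hP', star_eq_conjTranspose, Matrix.mul_add Uᴴ P, Matrix.add_mul (Uᴴ * P)]
  have e2 : vnEntropy P' = vnEntropy P := by
    rw [hP', ← star_eq_conjTranspose]; exact EntBasic.vnEntropy_unitary_conj' hU P
  have e3 : a * aᴴ = U * diagonal (fun k => ((σ k ^ 2 : ℝ) : ℂ)) * star U := by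
    have hSS : S * Sᴴ = diagonal (fun k => ((σ k ^ 2 : ℝ) : ℂ)) := by
      rw [hS, diagonal_conjTranspose, diagonal_mul_diagonal]
      congr 1; ext k; simp [sq]
    rw [← hSS, ha, star_eq_conjTranspose]
    calc U * S * Wᴴ * (U * S * Wᴴ)ᴴ = U * (S * (Wᴴ * W) * Sᴴ) * Uᴴ := by
          simp only [conjTranspose_mul, conjTranspose_conjTranspose, Matrix.mul_assoc]
      _ = _ := by rw [hWW, Matrix.mul_one]
  have e4 : vnEntropy (a * aᴴ) = ∑ k, Real.negMulLog (σ k ^ 2) := by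
    rw [e3]; exact EntBasic.vnEntropy_of_spectral hU _
  have e5 : b'ᴴ * b' = star W * (bᴴ * b) * W := by
    rw [hb', star_eq_conjTranspose]
    calc (Uᴴ * b * W)ᴴ * (Uᴴ * b * W) = Wᴴ * (bᴴ * (U * Uᴴ) * b) * W := by
          simp only [conjTranspose_mul, conjTranspose_conjTranspose, Matrix.mul_assoc]
      _ = _ := by rw [hUU', Matrix.mul_one]
  have e6 : vnEntropy (b'ᴴ * b') = vnEntropy (b * bᴴ) := by
    rw [e5, EntBasic.vnEntropy_unitary_conj' hW, EntBasic.vnEntropy_mul_conjTranspose_comm]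
  have t1 : ∑ k, (P' k k).re = P.trace.re := by
    have : P'.trace = P.trace := by
      rw [hP', Matrix.mul_assoc, trace_mul_comm, Matrix.mul_assoc, hUU', Matrix.mul_one]
    rw [← this, trace]; simp
  have t2 : ∑ k, σ k ^ 2 = (a * aᴴ).trace.re := by
    rw [e3, star_eq_conjTranspose, Matrix.mul_assoc, trace_mul_comm, Matrix.mul_assoc, hUU,
      Matrix.mul_one, trace_diagonal, ← Complex.ofReal_sum, Complex.ofReal_re]
  have t3 : ∑ k, ((b'ᴴ * b') k k).re = (b * bᴴ).trace.re := by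
    have : (b'ᴴ * b').trace = (b * bᴴ).trace := by
      rw [e5, star_eq_conjTranspose, Matrix.mul_assoc, trace_mul_comm, Matrix.mul_assoc, hWW',
        Matrix.mul_one, trace_mul_comm]
    rw [← this, trace]; simp
  have hG := Gsc_sum_ge Finset.univ (fun k => (P' k k).re) (fun k => σ k ^ 2)
    (fun k => ((b'ᴴ * b') k k).re) P.trace.re (b * bᴴ).trace.re
    (fun k _ => diag_re_nonneg hP'p k) (fun k _ => sq_nonneg _)
    (fun k _ => diag_re_nonneg (posSemidef_conjTranspose_mul_self b') k) t1.le t3.le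
  rw [t2] at hG
  rw [e1, EntBasic.vnEntropy_unitary_conj' hU, e2, ← e4, e6] at key
  linarith

end Crest.Agent.S0534Aux.E3
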