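import Mathlib
import Crest.Prelude.Def_QState
import Crest.Prelude.Def_QChannel
import Crest.Agent.S0534Aux.E3

/-!
# Block forms of the three-edge theorem (corollaries of `E3.three_edge`)
-/

set_option autoImplicit false

open Matrix Crest.Quantum
open scoped ComplexOrder MatrixOrder

namespace Crest.Agent.S0534Aux.H3fromE3

open Crest.Agent.S0534Aux

lemma vnEntropy_zero {f : Type*} [Fintype f] [DecidableEq f] :
    vnEntropy (0 : Matrix f f ℂ) = 0 := by
  have h : (0 : Matrix f f ℂ) = diagonal (fun _ => (((0 : ℝ)) : ℂ)) := by simp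
  rw [h, EntBasic.vnEntropy_diagonal]; simp

variable {e f : Type} [Fintype e] [DecidableEq e] [Fintype f] [DecidableEq f]

omit [DecidableEq e] [DecidableEq f] in
lemma trace_fromBlocks' (A : Matrix e e ℂ) (B : Matrix e f ℂ) (C : Matrix f e ℂ)
    (D : Matrix f f ℂ) : (fromBlocks A B C D).trace = A.trace + D.trace := by
  simp [trace, Fintype.sum_sum_type]

/-- **H3**, `fromBlocks` form. -/
theorem H3 (Q N11 : Matrix e e ℂ) (N12 : Matrix e f ℂ) (N22 : Matrix f f ℂ) (hQ : Q.PosSemidef)
    (hN : (fromBlocks N11 N12 N12ᴴ N22).PosSemidef) :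
    vnEntropy Q + vnEntropy N11 + vnEntropy N22 + Gsc Q.trace.re N11.trace.re N22.trace.re
      ≤ vnEntropy (fromBlocks (Q + N11) N12 N12ᴴ N22) := by
  obtain ⟨B, hB⟩ := CStarAlgebra.nonneg_iff_eq_star_mul_self.mp hN.nonneg
  rw [star_eq_conjTranspose] at hB
  set W : Matrix (e ⊕ f) (e ⊕ f) ℂ := Bᴴ with hW
  have hNW : fromBlocks N11 N12 N12ᴴ N22 = W * Wᴴ := by rw [hB, hW, conjTranspose_conjTranspose]
  set Pf : Matrix (e ⊕ f) (e ⊕ f) ℂ := fromBlocks 1 0 0 0 with hPf
  set Pt : Matrix (e ⊕ f) (e ⊕ f) ℂ := fromBlocks 0 0 0 1 with hPt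
  have hPfH : Pfᴴ = Pf := by rw [hPf, fromBlocks_conjTranspose]; simp
  have hPtH : Ptᴴ = Pt := by rw [hPt, fromBlocks_conjTranspose]; simp
  have hsum : Pf + Pt = 1 := by rw [hPf, hPt, fromBlocks_add]; simp
  have hft : Pf * Pt = 0 := by rw [hPf, hPt, fromBlocks_multiply]; simp
  set P : Matrix (e ⊕ f) (e ⊕ f) ℂ := fromBlocks Q 0 0 0 with hP
  have hPp : P.PosSemidef := by
    refine PosSemidef.of_dotProduct_mulVec_nonneg
      (IsHermitian.fromBlocks hQ.1 (by simp) isHermitian_zero) ?_
    intro z
    have e : star z ⬝ᵥ ((fromBlocks Q 0 0 0 : Matrix (e ⊕ f) (e ⊕ f) ℂ) *ᵥ z)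
        = star (z ∘ Sum.inl) ⬝ᵥ (Q *ᵥ (z ∘ Sum.inl)) := by
      rw [fromBlocks_mulVec]; simp [dotProduct, Fintype.sum_sum_type]
    rw [e]; exact hQ.dotProduct_mulVec_nonneg _
  have hPPt : P * Pt = 0 := by rw [hP, hPt, fromBlocks_multiply]; simp
  have key := E3.three_edge P (Pf * W) (Pt * W) hPp
    (by rw [conjTranspose_mul, hPfH, Matrix.mul_assoc, ← Matrix.mul_assoc Pf, hft]; simp)
    (by rw [← Matrix.mul_assoc, hPPt]; simp)
  have e0 : Pf * W + Pt * W = W := by rw [← Matrix.add_mul, hsum, Matrix.one_mul]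
  have e1 : Pf * W * (Pf * W)ᴴ = fromBlocks N11 0 0 0 := by
    rw [conjTranspose_mul, hPfH, Matrix.mul_assoc, ← Matrix.mul_assoc W, ← hNW, hPf,
      fromBlocks_multiply, fromBlocks_multiply]; simp
  have e2 : Pt * W * (Pt * W)ᴴ = fromBlocks 0 0 0 N22 := by
    rw [conjTranspose_mul, hPtH, Matrix.mul_assoc, ← Matrix.mul_assoc W, ← hNW, hPt,
      fromBlocks_multiply, fromBlocks_multiply]; simp
  have hN11 : N11.IsHermitian := by
    have := hN.isHermitian
    rw [IsHermitian, fromBlocks_conjTranspose] at this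
    exact (fromBlocks_inj.mp this).1
  have hN22 : N22.IsHermitian := by
    have := hN.isHermitian
    rw [IsHermitian, fromBlocks_conjTranspose] at this
    exact (fromBlocks_inj.mp this).2.2.2
  rw [e0, e1, e2, ← hNW, hP, fromBlocks_add,
    EntBasic.vnEntropy_fromBlocks_diag hQ.isHermitian isHermitian_zero,
    EntBasic.vnEntropy_fromBlocks_diag hN11 isHermitian_zero,
    EntBasic.vnEntropy_fromBlocks_diag isHermitian_zero hN22, vnEntropy_zero, vnEntropy_zero,
    trace_fromBlocks', trace_fromBlocks', trace_fromBlocks'] at key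
  simpa using key

omit [Fintype e] [DecidableEq e] in
lemma submatrix_bool_eq_fromBlocks (M : Matrix (Bool × e) (Bool × e) ℂ) :
    M.submatrix (Equiv.boolProdEquivSum e).symm (Equiv.boolProdEquivSum e).symm
      = fromBlocks (block M false false) (block M false true) (block M true false)
          (block M true true) := by
  ext i j
  rcases i with i | i <;> rcases j with j | j <;> rfl

/-- **H3**, `Bool × e` form: `ω = N + (Q in the (false,false) block)`, stated blockwise. -/
theorem H3_bool (Q : Matrix e e ℂ) (N ω : Matrix (Bool × e) (Bool × e) ℂ) (hQ : Q.PosSemidef)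
    (hN : N.PosSemidef)
    (hff : block ω false false = Q + block N false false)
    (hft : block ω false true = block N false true)
    (htf : block ω true false = block N true false)
    (htt : block ω true true = block N true true) :
    vnEntropy Q + vnEntropy (block N false false) + vnEntropy (block N true true)
      + Gsc Q.trace.re (block N false false).trace.re (block N true true).trace.re
      ≤ vnEntropy ω := by
  have hN' := hN.submatrix (Equiv.boolProdEquivSum e).symm
  rw [submatrix_bool_eq_fromBlocks] at hN'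
  have hH : block N true false = (block N false true)ᴴ := by
    ext i j
    have := hN.isHermitian.apply (true, i) (false, j)
    simp only [block, of_apply, conjTranspose_apply]
    exact this.symm
  rw [hH] at hN'
  have key := H3 Q _ _ _ hQ hN'
  have e1 : vnEntropy ω = vnEntropy (fromBlocks (Q + block N false false) (block N false true)
      (block N false true)ᴴ (block N true true)) := by
    rw [← EntBasic.vnEntropy_submatrix_equiv (Equiv.boolProdEquivSum e).symm ω,
      submatrix_bool_eq_fromBlocks, hff, hft, htf, htt, hH]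
  rw [e1]; exact key

/-- `Q` placed in the `(false,false)` block. -/
def placeFF (Q : Matrix e e ℂ) : Matrix (Bool × e) (Bool × e) ℂ :=
  Matrix.of fun p q => if p.1 = false ∧ q.1 = false then Q p.2 q.2 else 0

/-- **H3**, `Bool × e` form with `ω = N + placeFF Q`. -/
theorem H3_bool' (Q : Matrix e e ℂ) (N : Matrix (Bool × e) (Bool × e) ℂ) (hQ : Q.PosSemidef)
    (hN : N.PosSemidef) :
    vnEntropy Q + vnEntropy (block N false false) + vnEntropy (block N true true)
      + Gsc Q.trace.re (block N false false).trace.re (block N true true).trace.re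
      ≤ vnEntropy (N + placeFF Q) := by
  refine H3_bool Q N _ hQ hN ?_ ?_ ?_ ?_ <;> ext i j <;> simp [block, placeFF, add_comm]

end Crest.Agent.S0534Aux.H3fromE3
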