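import Crest.Prelude.Def_AmpDamp

/-!
# Channel plumbing for S0534 / S0535 (helper36)

* `qubitPower_succ`, `qubitPower_succ'`, `qubitPower_zero`, `qubitPower_isChannel`
* `cp_blockwise` (CP with arbitrary finite auxiliary type), `cp_of_kraus`
* `qubitTensor_apply`, `qubitTensor_eq_blockwise`, `qubitTensor_posSemidef`,
  `qubitTensor_isChannel`
* `gadMap_eq_mk2`, `gadMap_kraus`, `gadMap_isChannel`
-/

set_option autoImplicit false
set_option linter.unusedSectionVars false
set_option linter.unusedSimpArgs false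

namespace Crest.Agent.S0534Aux.Plumbing

open Crest.Quantum Crest.MathPhysics.AmpDamp Matrix
open scoped ComplexOrder Kronecker

/-- `Bool × (Fin n → Bool) ≃ (Fin (n+1) → Bool)`, by `Fin.cons`. -/
def cE (n : ℕ) : Bool × (Fin n → Bool) ≃ (Fin (n + 1) → Bool) :=
  Fin.consEquiv (fun _ => Bool)

@[simp] lemma cE_apply (n : ℕ) (s : Bool) (σ : Fin n → Bool) :
    cE n (s, σ) = (Fin.cons s σ : Fin (n + 1) → Bool) := rfl

/-- `Φ^{⊗(n+1)} = Φ ⊗ Φ^{⊗n}` up to reindexing. -/
theorem qubitPower_succ (n : ℕ) (Φ : Matrix Bool Bool ℂ → Matrix Bool Bool ℂ)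
    (M : Matrix (Fin (n + 1) → Bool) (Fin (n + 1) → Bool) ℂ) :
    (qubitPower (n + 1) Φ M).submatrix (cE n) (cE n) =
      qubitTensor Φ (qubitPower n Φ) (M.submatrix (cE n) (cE n)) := by
  ext ⟨s, σ⟩ ⟨t, τ⟩
  simp only [submatrix_apply, qubitPower, qubitTensor, of_apply, cE_apply, block]
  rw [← (cE n).sum_comp]
  simp_rw [← (cE n).sum_comp (fun τ' : Fin (n+1) → Bool => _)]
  simp only [Fintype.sum_prod_type, cE_apply, Fin.prod_univ_succ, Fin.cons_zero, Fin.cons_succ]
  simp only [Finset.mul_sum]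
  refine Finset.sum_congr rfl fun s' _ => ?_
  rw [Finset.sum_comm]
  refine Finset.sum_congr rfl fun t' _ => ?_
  refine Finset.sum_congr rfl fun σ' _ => ?_
  refine Finset.sum_congr rfl fun τ' _ => ?_
  ring

section general

variable {d e : Type*} [Fintype d] [Fintype e] [DecidableEq d] [DecidableEq e]

/-- Complete positivity with an arbitrary finite auxiliary index type. -/
theorem cp_blockwise {κ : Type*} [Fintype κ] {Φ : Matrix d d ℂ → Matrix e e ℂ}
    (h : IsCompletelyPositive Φ) (M : Matrix (κ × d) (κ × d) ℂ) (hM : M.PosSemidef) :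
    (blockwise Φ M).PosSemidef := by
  classical
  let f : κ ≃ Fin (Fintype.card κ) := Fintype.equivFin κ
  have h1 : (M.submatrix (Prod.map f.symm id) (Prod.map f.symm id)).PosSemidef := hM.submatrix _
  have h2 := (h _ _ h1).submatrix (Prod.map f (id : e → e))
  convert h2 using 1
  ext ⟨a, i⟩ ⟨b, j⟩
  simp only [blockwise, of_apply, submatrix_apply, Prod.map_apply, id_eq]
  have : block M a b = block (M.submatrix (Prod.map f.symm id) (Prod.map f.symm id)) (f a) (f b) := by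
    ext i' j'
    simp [block]
  rw [this]

/-- A linear qubit map is determined by its transfer coefficients. -/
theorem linear_expand {Φ : Matrix Bool Bool ℂ → Matrix Bool Bool ℂ} (h : IsLinearMap ℂ Φ)
    (A : Matrix Bool Bool ℂ) (s t : Bool) :
    Φ A s t = ∑ s' : Bool, ∑ t' : Bool, qubitCoeff Φ s t s' t' * A s' t' := by
  have hA : A = ∑ s' : Bool, ∑ t' : Bool, A s' t' • Matrix.single s' t' (1 : ℂ) := by
    ext a b
    simp [Matrix.sum_apply, Matrix.single_apply]
    cases a <;> cases b <;> simp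
  let L : Matrix Bool Bool ℂ →ₗ[ℂ] Matrix Bool Bool ℂ := h.mk' Φ
  have hL : ∀ X, Φ X = L X := fun X => rfl
  conv_lhs => rw [hA, hL]
  simp only [map_sum, map_smul, Matrix.sum_apply, Matrix.smul_apply, smul_eq_mul, qubitCoeff, hL]
  refine Finset.sum_congr rfl fun s' _ => Finset.sum_congr rfl fun t' _ => ?_
  ring

/-- `Φ ⊗ Ψ = (Φ ⊗ id) ∘ (id ⊗ Ψ)`, entrywise form. -/
theorem qubitTensor_apply {Φ : Matrix Bool Bool ℂ → Matrix Bool Bool ℂ} (hΦ : IsLinearMap ℂ Φ)
    (Ψ : Matrix d d ℂ → Matrix e e ℂ) (M : Matrix (Bool × d) (Bool × d) ℂ)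
    (s t : Bool) (i j : e) :
    qubitTensor Φ Ψ M (s, i) (t, j) = Φ (Matrix.of fun s' t' => Ψ (block M s' t') i j) s t := by
  rw [linear_expand hΦ]
  simp [qubitTensor]

theorem qubitTensor_eq_blockwise {Φ : Matrix Bool Bool ℂ → Matrix Bool Bool ℂ}
    (hΦ : IsLinearMap ℂ Φ)
    (Ψ : Matrix d d ℂ → Matrix e e ℂ) (M : Matrix (Bool × d) (Bool × d) ℂ) :
    qubitTensor Φ Ψ M =
      (blockwise Φ ((blockwise Ψ M).submatrix Prod.swap Prod.swap)).submatrix
        Prod.swap Prod.swap := by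
  ext ⟨s, i⟩ ⟨t, j⟩
  rw [qubitTensor_apply hΦ]
  simp only [submatrix_apply, Prod.swap_prod_mk, blockwise, of_apply]
  congr 1

theorem qubitTensor_posSemidef {Φ : Matrix Bool Bool ℂ → Matrix Bool Bool ℂ}
    (hΦ : IsLinearMap ℂ Φ) (hΦc : IsCompletelyPositive Φ)
    {Ψ : Matrix d d ℂ → Matrix e e ℂ} (hΨc : IsCompletelyPositive Ψ)
    {M : Matrix (Bool × d) (Bool × d) ℂ} (hM : M.PosSemidef) :
    (qubitTensor Φ Ψ M).PosSemidef := by
  rw [qubitTensor_eq_blockwise hΦ]
  exact (cp_blockwise hΦc _ ((cp_blockwise hΨc _ hM).submatrix _)).submatrix _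

theorem block_add {κ : Type*} (M N : Matrix (κ × d) (κ × d) ℂ) (s t : κ) :
    block (M + N) s t = block M s t + block N s t := by
  ext i j; simp [block]

theorem block_smul {κ : Type*} (c : ℂ) (M : Matrix (κ × d) (κ × d) ℂ) (s t : κ) :
    block (c • M) s t = c • block M s t := by
  ext i j; simp [block]

theorem qubitTensor_isLinear (Φ : Matrix Bool Bool ℂ → Matrix Bool Bool ℂ)
    {Ψ : Matrix d d ℂ → Matrix e e ℂ} (hΨ : IsLinearMap ℂ Ψ) :
    IsLinearMap ℂ (qubitTensor Φ Ψ) := by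
  constructor
  · intro M N
    ext ⟨s, i⟩ ⟨t, j⟩
    simp only [qubitTensor, of_apply, block_add, hΨ.map_add, Matrix.add_apply, mul_add,
      Finset.sum_add_distrib]
  · intro c M
    ext ⟨s, i⟩ ⟨t, j⟩
    simp only [qubitTensor, of_apply, block_smul, hΨ.map_smul, Matrix.smul_apply, smul_eq_mul,
      Finset.mul_sum]
    refine Finset.sum_congr rfl fun s' _ => Finset.sum_congr rfl fun t' _ => ?_
    ring

theorem trace_eq_sum_block {κ : Type*} [Fintype κ] (M : Matrix (κ × d) (κ × d) ℂ) :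
    M.trace = ∑ s, (block M s s).trace := by
  simp [Matrix.trace, Fintype.sum_prod_type, block]

theorem qubitTensor_trace {Φ : Matrix Bool Bool ℂ → Matrix Bool Bool ℂ}
    (hΦ : IsTracePreserving Φ)
    {Ψ : Matrix d d ℂ → Matrix e e ℂ} (hΨ : IsTracePreserving Ψ)
    (M : Matrix (Bool × d) (Bool × d) ℂ) :
    (qubitTensor Φ Ψ M).trace = M.trace := by
  have h1 : (qubitTensor Φ Ψ M).trace =
      ∑ s' : Bool, ∑ t' : Bool, (Φ (Matrix.single s' t' 1)).trace * (Ψ (block M s' t')).trace := by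
    simp only [Matrix.trace, Fintype.sum_prod_type, qubitTensor, Matrix.diag_apply, of_apply,
      qubitCoeff, Fintype.sum_bool]
    simp only [Finset.mul_sum, Finset.sum_add_distrib, add_mul]
    ring
  rw [h1, trace_eq_sum_block]
  simp only [hΦ _, hΨ _, Fintype.sum_bool]
  simp [Matrix.trace_single_eq_of_ne]

theorem qubitTensor_cp {Φ : Matrix Bool Bool ℂ → Matrix Bool Bool ℂ}
    (hΦ : IsLinearMap ℂ Φ) (hΦc : IsCompletelyPositive Φ)
    {Ψ : Matrix d d ℂ → Matrix e e ℂ} (hΨc : IsCompletelyPositive Ψ) :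
    IsCompletelyPositive (qubitTensor Φ Ψ) := by
  intro k M hM
  -- reassociate
  let f1 : (Fin k × Bool) × d → Fin k × (Bool × d) := fun x => (x.1.1, (x.1.2, x.2))
  let f2 : (Fin k × e) × Bool → (Fin k × Bool) × e := fun x => ((x.1.1, x.2), x.1.2)
  let f3 : Fin k × (Bool × e) → (Fin k × e) × Bool := fun x => ((x.1, x.2.2), x.2.1)
  have h1 := cp_blockwise hΨc _ (hM.submatrix f1)
  have h2 := cp_blockwise hΦc _ (h1.submatrix f2)
  have h3 := h2.submatrix f3
  convert h3 using 1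
  ext ⟨a, s, i⟩ ⟨b, t, j⟩
  simp only [blockwise, of_apply, submatrix_apply, f3]
  rw [qubitTensor_apply hΦ]
  congr 1

theorem qubitTensor_isChannel {Φ : Matrix Bool Bool ℂ → Matrix Bool Bool ℂ} (hΦ : IsChannel Φ)
    {Ψ : Matrix d d ℂ → Matrix e e ℂ} (hΨ : IsChannel Ψ) : IsChannel (qubitTensor Φ Ψ) :=
  ⟨qubitTensor_isLinear Φ hΨ.1, qubitTensor_cp hΦ.1 hΦ.2.1 hΨ.2.1,
    qubitTensor_trace hΦ.2.2 hΨ.2.2⟩

/-- Channels may be transported along equivalences of index types. -/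
theorem isChannel_reindex {d' e' : Type*} [Fintype d'] [Fintype e'] [DecidableEq d']
    [DecidableEq e'] {Ψ : Matrix d d ℂ → Matrix e e ℂ} (hΨ : IsChannel Ψ)
    (f : d ≃ d') (g : e' ≃ e) :
    IsChannel (fun M : Matrix d' d' ℂ => (Ψ (M.submatrix f f)).submatrix g g) := by
  refine ⟨⟨?_, ?_⟩, ?_, ?_⟩
  · intro M N
    have : (M + N).submatrix f f = M.submatrix f f + N.submatrix f f := rfl
    simp only [this, hΨ.1.map_add]
    rfl
  · intro c M
    have : (c • M).submatrix f f = c • M.submatrix f f := rfl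
    simp only [this, hΨ.1.map_smul]
    rfl
  · intro k M hM
    have h1 := hΨ.2.1 k _ (hM.submatrix (Prod.map (id : Fin k → Fin k) f))
    have h2 := h1.submatrix (Prod.map (id : Fin k → Fin k) g)
    convert h2 using 1
    ext ⟨a, i⟩ ⟨b, j⟩
    rfl
  · intro M
    have h1 : ((Ψ (M.submatrix f f)).submatrix g g).trace = (Ψ (M.submatrix f f)).trace := by
      simp only [Matrix.trace, Matrix.diag_apply, submatrix_apply]
      exact g.sum_comp (fun i => Ψ (M.submatrix f f) i i)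
    have h2 : (M.submatrix f f).trace = M.trace := by
      simp only [Matrix.trace, Matrix.diag_apply, submatrix_apply]
      exact f.sum_comp (fun i => M i i)
    simp only [h1, hΨ.2.2 _, h2]

theorem isChannel_id : IsChannel (id : Matrix d d ℂ → Matrix d d ℂ) := by
  refine ⟨⟨fun _ _ => rfl, fun _ _ => rfl⟩, ?_, fun _ => rfl⟩
  intro k M hM
  convert hM using 1
  ext ⟨a, i⟩ ⟨b, j⟩
  rfl

theorem blockwise_conj {κ : Type*} [Fintype κ] [DecidableEq κ] (K : Matrix e d ℂ)
    (M : Matrix (κ × d) (κ × d) ℂ) :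
    blockwise (fun A => K * A * Kᴴ) M =
      ((1 : Matrix κ κ ℂ) ⊗ₖ K) * M * ((1 : Matrix κ κ ℂ) ⊗ₖ K)ᴴ := by
  ext ⟨a, i⟩ ⟨b, j⟩
  simp only [blockwise, of_apply, Matrix.mul_apply, block, conjTranspose_apply,
    kroneckerMap_apply, Fintype.sum_prod_type, Matrix.one_apply, ite_mul, one_mul, zero_mul,
    Finset.sum_ite_eq, Finset.mem_univ, if_true, star_mul', apply_ite star, star_one, star_zero,
    mul_ite, mul_zero, Finset.sum_const_zero]
  simp

theorem cp_of_kraus {r : ℕ} (K : Fin r → Matrix e d ℂ) {Φ : Matrix d d ℂ → Matrix e e ℂ}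
    (h : ∀ M, Φ M = ∑ k, K k * M * (K k)ᴴ) : IsCompletelyPositive Φ := by
  intro n M hM
  have h1 : blockwise Φ M = ∑ k, blockwise (fun A => K k * A * (K k)ᴴ) M := by
    ext ⟨a, i⟩ ⟨b, j⟩
    simp only [blockwise, of_apply, h, Matrix.sum_apply]
  rw [h1]
  refine Matrix.posSemidef_sum _ fun k _ => ?_
  rw [blockwise_conj]
  exact hM.mul_mul_conjTranspose_same _

end general

theorem qubitPower_zero (Φ : Matrix Bool Bool ℂ → Matrix Bool Bool ℂ) :
    qubitPower 0 Φ = id := by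
  funext M
  ext σ τ
  simp only [qubitPower, of_apply, Finset.univ_eq_empty, Finset.prod_empty, one_mul, id_eq]
  rw [Fintype.sum_unique, Fintype.sum_unique]
  congr 1 <;> exact Subsingleton.elim _ _

theorem qubitPower_succ' (n : ℕ) (Φ : Matrix Bool Bool ℂ → Matrix Bool Bool ℂ) :
    qubitPower (n + 1) Φ = fun M =>
      (qubitTensor Φ (qubitPower n Φ) (M.submatrix (cE n) (cE n))).submatrix
        (cE n).symm (cE n).symm := by
  funext M
  rw [← qubitPower_succ]
  ext σ τ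
  simp

theorem qubitPower_isChannel {Φ : Matrix Bool Bool ℂ → Matrix Bool Bool ℂ} (hΦ : IsChannel Φ)
    (n : ℕ) : IsChannel (qubitPower n Φ) := by
  induction n with
  | zero => rw [qubitPower_zero]; exact isChannel_id
  | succ n ih =>
    rw [qubitPower_succ']
    exact isChannel_reindex (qubitTensor_isChannel hΦ ih) (cE n) (cE n).symm

/-- A `2 × 2` matrix indexed by `Bool` from its four entries. -/
def mk2 (a b c d : ℂ) : Matrix Bool Bool ℂ :=
  Matrix.of fun s t => match s, t with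
    | false, false => a
    | false, true => b
    | true, false => c
    | true, true => d

@[simp] lemma mk2_ff (a b c d : ℂ) : mk2 a b c d false false = a := rfl
@[simp] lemma mk2_ft (a b c d : ℂ) : mk2 a b c d false true = b := rfl
@[simp] lemma mk2_tf (a b c d : ℂ) : mk2 a b c d true false = c := rfl
@[simp] lemma mk2_tt (a b c d : ℂ) : mk2 a b c d true true = d := rfl

theorem gadMap_eq_mk2 (γ ν : ℝ) (M : Matrix Bool Bool ℂ) :
    gadMap γ ν M = mk2
      (((1 - γ * ν : ℝ) : ℂ) * M false false + ((γ * (1 - ν) : ℝ) : ℂ) * M true true)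
      (((Real.sqrt (1 - γ) : ℝ) : ℂ) * M false true)
      (((Real.sqrt (1 - γ) : ℝ) : ℂ) * M true false)
      (((γ * ν : ℝ) : ℂ) * M false false + ((1 - γ + γ * ν : ℝ) : ℂ) * M true true) := by
  ext s t
  cases s <;> cases t <;> simp [gadMap]

/-- The four Kraus operators of the generalized amplitude damping channel. -/
noncomputable def gadKraus (γ ν : ℝ) : Fin 4 → Matrix Bool Bool ℂ :=
  ![mk2 (Real.sqrt (1 - ν)) 0 0 (Real.sqrt (1 - ν) * Real.sqrt (1 - γ)),
    mk2 0 (Real.sqrt (1 - ν) * Real.sqrt γ) 0 0,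
    mk2 (Real.sqrt ν * Real.sqrt (1 - γ)) 0 0 (Real.sqrt ν),
    mk2 0 0 (Real.sqrt ν * Real.sqrt γ) 0]

theorem gadMap_kraus (γ ν : ℝ) (hγ : γ ∈ Set.Icc (0 : ℝ) 1) (hν : ν ∈ Set.Icc (0 : ℝ) 1)
    (M : Matrix Bool Bool ℂ) :
    gadMap γ ν M = ∑ k, gadKraus γ ν k * M * (gadKraus γ ν k)ᴴ := by
  have ha : ((Real.sqrt (1 - ν) : ℝ) : ℂ) * (Real.sqrt (1 - ν) : ℝ) = ((1 - ν : ℝ) : ℂ) := by
    rw [← Complex.ofReal_mul, Real.mul_self_sqrt (by linarith [hν.2])]
  have hb : ((Real.sqrt ν : ℝ) : ℂ) * (Real.sqrt ν : ℝ) = ((ν : ℝ) : ℂ) := by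
    rw [← Complex.ofReal_mul, Real.mul_self_sqrt hν.1]
  have hc : ((Real.sqrt (1 - γ) : ℝ) : ℂ) * (Real.sqrt (1 - γ) : ℝ) = ((1 - γ : ℝ) : ℂ) := by
    rw [← Complex.ofReal_mul, Real.mul_self_sqrt (by linarith [hγ.2])]
  have hg : ((Real.sqrt γ : ℝ) : ℂ) * (Real.sqrt γ : ℝ) = ((γ : ℝ) : ℂ) := by
    rw [← Complex.ofReal_mul, Real.mul_self_sqrt hγ.1]
  push_cast at ha hb hc hg
  rw [gadMap_eq_mk2]
  ext s t
  cases s <;> cases t <;>
    simp only [Fin.sum_univ_four, gadKraus, Matrix.add_apply, Matrix.mul_apply, Fintype.sum_bool,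
      conjTranspose_apply, Matrix.cons_val_zero, Matrix.cons_val_one, Matrix.cons_val, mk2_ff, mk2_ft, mk2_tf, mk2_tt,
      star_mul', star_zero, Complex.star_def, Complex.conj_ofReal, map_mul, map_zero, mul_zero, zero_mul, add_zero, zero_add] <;>
    push_cast
  · linear_combination (-(M false false) - γ * M true true) * ha - M true true * (Real.sqrt (1-ν))^2 * hg - M false false * (1 - γ) * hb - M false false * (Real.sqrt ν)^2 * hc
  · linear_combination (-(Real.sqrt (1 - γ) : ℂ) * M false true) * ha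
      - (Real.sqrt (1 - γ) : ℂ) * M false true * hb
  · linear_combination (-(Real.sqrt (1 - γ) : ℂ) * M true false) * ha
      - (Real.sqrt (1 - γ) : ℂ) * M true false * hb
  · linear_combination (-(M false false) * (Real.sqrt γ : ℂ) ^ 2 - M true true) * hb
      - M false false * ν * hg - M true true * (Real.sqrt (1 - γ) : ℂ) ^ 2 * ha
      - M true true * (1 - ν) * hc

theorem gadMap_isLinear (γ ν : ℝ) : IsLinearMap ℂ (gadMap γ ν) := by
  constructor
  · intro M N
    simp only [gadMap_eq_mk2]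
    ext s t
    cases s <;> cases t <;> simp <;> ring
  · intro c M
    simp only [gadMap_eq_mk2]
    ext s t
    cases s <;> cases t <;> simp <;> ring

theorem gadMap_trace (γ ν : ℝ) : IsTracePreserving (gadMap γ ν) := by
  intro M
  simp only [gadMap_eq_mk2, Matrix.trace, Fintype.sum_bool, Matrix.diag_apply, mk2_ff, mk2_tt]
  push_cast
  ring

theorem gadMap_isChannel (γ ν : ℝ) (hγ : γ ∈ Set.Icc (0 : ℝ) 1) (hν : ν ∈ Set.Icc (0 : ℝ) 1) :
    IsChannel (gadMap γ ν) :=
  ⟨gadMap_isLinear γ ν, cp_of_kraus (gadKraus γ ν) (gadMap_kraus γ ν hγ hν), gadMap_trace γ ν⟩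

end Crest.Agent.S0534Aux.Plumbing
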