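import Mathlib
import Crest.Prelude.Def_QState
import Crest.Prelude.Def_QChannel
import Crest.Prelude.Def_AmpDamp
import Crest.Agent.S0534Aux.EntBasic

/-!
# S0534 from S0535 (used as a black box)

`qubitPower (n+1) Φ` is, up to the reindexing `Bool × (Fin n → Bool) ≃ (Fin (n+1) → Bool)`, the map
`qubitTensor Φ (qubitPower n Φ)`.  The two halves of S0534 then follow by induction on `n` from
clauses 1 and 2 of S0535, the single-letter bound and the two-state ensemble.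
-/

set_option autoImplicit false

namespace Crest.Agent.S0534Aux.PowerTop

open Crest.Quantum Crest.MathPhysics.AmpDamp Matrix
open scoped ComplexOrder

/-- The reindexing `Bool × (Fin n → Bool) ≃ (Fin (n+1) → Bool)`. -/
def cE (n : ℕ) : Bool × (Fin n → Bool) ≃ (Fin (n + 1) → Bool) := Fin.consEquiv (fun _ => Bool)

@[simp] lemma cE_apply_zero (n : ℕ) (s : Bool) (σ : Fin n → Bool) : cE n (s, σ) 0 = s := rfl

@[simp] lemma cE_apply_succ (n : ℕ) (s : Bool) (σ : Fin n → Bool) (i : Fin n) :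
    cE n (s, σ) i.succ = σ i := rfl

/-- A matrix on `n+1` qubits seen as a matrix on `Bool × n` qubits. -/
def pull (n : ℕ) (M : Matrix (Fin (n + 1) → Bool) (Fin (n + 1) → Bool) ℂ) :
    Matrix (Bool × (Fin n → Bool)) (Bool × (Fin n → Bool)) ℂ := M.submatrix (cE n) (cE n)

/-- The inverse of `pull`. -/
def push (n : ℕ) (M : Matrix (Bool × (Fin n → Bool)) (Bool × (Fin n → Bool)) ℂ) :
    Matrix (Fin (n + 1) → Bool) (Fin (n + 1) → Bool) ℂ := M.submatrix (cE n).symm (cE n).symm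

@[simp] lemma pull_push (n : ℕ) (M : Matrix (Bool × (Fin n → Bool)) (Bool × (Fin n → Bool)) ℂ) :
    pull n (push n M) = M := by
  ext p q; simp [pull, push]

lemma pull_sum_smul (n : ℕ) {m : ℕ} (q : Fin m → ℝ)
    (X : Fin m → Matrix (Fin (n + 1) → Bool) (Fin (n + 1) → Bool) ℂ) :
    pull n (∑ a, (q a : ℂ) • X a) = ∑ a, (q a : ℂ) • pull n (X a) := by
  ext p r
  simp [pull, Matrix.sum_apply]

lemma vnEntropy_pull (n : ℕ) (M : Matrix (Fin (n + 1) → Bool) (Fin (n + 1) → Bool) ℂ) :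
    vnEntropy (pull n M) = vnEntropy M :=
  EntBasic.vnEntropy_submatrix_equiv (cE n) M

lemma isDensity_pull {n : ℕ} {M : Matrix (Fin (n + 1) → Bool) (Fin (n + 1) → Bool) ℂ}
    (h : IsDensity M) : IsDensity (pull n M) := by
  refine ⟨h.1.submatrix _, ?_⟩
  rw [← h.2]
  simp only [pull, Matrix.trace, Matrix.diag, Matrix.submatrix_apply]
  exact (cE n).sum_comp (fun i => M i i)

lemma isDensity_push {n : ℕ} {M : Matrix (Bool × (Fin n → Bool)) (Bool × (Fin n → Bool)) ℂ}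
    (h : IsDensity M) : IsDensity (push n M) := by
  refine ⟨h.1.submatrix _, ?_⟩
  rw [← h.2]
  simp only [push, Matrix.trace, Matrix.diag, Matrix.submatrix_apply]
  exact (cE n).symm.sum_comp (fun i => M i i)

/-- `qubitPower (n+1) Φ = Φ ⊗ qubitPower n Φ` up to reindexing. -/
lemma qubitPower_succ (n : ℕ) (Φ : Matrix Bool Bool ℂ → Matrix Bool Bool ℂ)
    (M : Matrix (Fin (n + 1) → Bool) (Fin (n + 1) → Bool) ℂ) :
    pull n (qubitPower (n + 1) Φ M) = qubitTensor Φ (qubitPower n Φ) (pull n M) := by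
  ext ⟨s, σ⟩ ⟨t, τ⟩
  simp only [pull, qubitPower, qubitTensor, Matrix.submatrix_apply, Matrix.of_apply, block]
  rw [← (cE n).sum_comp, Fintype.sum_prod_type]
  refine Finset.sum_congr rfl fun s' _ => ?_
  have h1 : ∀ σ' : Fin n → Bool,
      (∑ τ'' : Fin (n + 1) → Bool,
        (∏ i, qubitCoeff Φ (cE n (s, σ) i) (cE n (t, τ) i) (cE n (s', σ') i) (τ'' i)) *
          M (cE n (s', σ')) τ'')
      = ∑ t' : Bool, ∑ τ' : Fin n → Bool,
        qubitCoeff Φ s t s' t' * ((∏ i, qubitCoeff Φ (σ i) (τ i) (σ' i) (τ' i)) *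
          M (cE n (s', σ')) (cE n (t', τ'))) := by
    intro σ'
    rw [← (cE n).sum_comp, Fintype.sum_prod_type]
    refine Finset.sum_congr rfl fun t' _ => Finset.sum_congr rfl fun τ' _ => ?_
    rw [Fin.prod_univ_succ]
    simp only [cE_apply_zero, cE_apply_succ]
    ring
  simp only [h1]
  rw [Finset.sum_comm]
  refine Finset.sum_congr rfl fun t' _ => ?_
  rw [Finset.mul_sum]
  refine Finset.sum_congr rfl fun σ' _ => ?_
  rw [Finset.mul_sum]

lemma holevoInfo_succ (n : ℕ) (Φ : Matrix Bool Bool ℂ → Matrix Bool Bool ℂ) {m : ℕ}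
    (q : Fin m → ℝ) (ρ : Fin m → Matrix (Fin (n + 1) → Bool) (Fin (n + 1) → Bool) ℂ) :
    holevoInfo (qubitPower (n + 1) Φ) q ρ
      = holevoInfo (qubitTensor Φ (qubitPower n Φ)) q (fun a => pull n (ρ a)) := by
  unfold holevoInfo
  simp only [← qubitPower_succ, ← pull_sum_smul, vnEntropy_pull]

lemma isEnsemble_pull {n m : ℕ} {q : Fin m → ℝ}
    {ρ : Fin m → Matrix (Fin (n + 1) → Bool) (Fin (n + 1) → Bool) ℂ} (h : IsEnsemble q ρ) :
    IsEnsemble q (fun a => pull n (ρ a)) :=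
  ⟨h.1, h.2.1, fun a => isDensity_pull (h.2.2 a)⟩

lemma isEnsemble_push {n m : ℕ} {q : Fin m → ℝ}
    {ρ : Fin m → Matrix (Bool × (Fin n → Bool)) (Bool × (Fin n → Bool)) ℂ} (h : IsEnsemble q ρ) :
    IsEnsemble q (fun a => push n (ρ a)) :=
  ⟨h.1, h.2.1, fun a => isDensity_push (h.2.2 a)⟩

/-! ### zero qubits -/

lemma density_zero {M : Matrix (Fin 0 → Bool) (Fin 0 → Bool) ℂ} (h : IsDensity M) : M = 1 := by
  ext i j
  have hij : j = i := Subsingleton.elim _ _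
  subst hij
  have := h.2
  simp only [Matrix.trace, Matrix.diag, Fintype.sum_unique] at this
  rw [Matrix.one_apply_eq, ← this]
  congr 1 <;> exact Subsingleton.elim _ _

lemma qubitPower_zero (Φ : Matrix Bool Bool ℂ → Matrix Bool Bool ℂ)
    (M : Matrix (Fin 0 → Bool) (Fin 0 → Bool) ℂ) : qubitPower 0 Φ M = M := by
  ext i j
  simp only [qubitPower, Matrix.of_apply, Fintype.sum_unique, Finset.univ_eq_empty,
    Finset.prod_empty, one_mul]
  congr 1 <;> exact Subsingleton.elim _ _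

lemma vnEntropy_one_zero : vnEntropy (1 : Matrix (Fin 0 → Bool) (Fin 0 → Bool) ℂ) = 0 := by
  have h := EntBasic.vnEntropy_diagonal (d := Fin 0 → Bool) (fun _ => (1 : ℝ))
  simpa using h

lemma holevoInfo_zero (Φ : Matrix Bool Bool ℂ → Matrix Bool Bool ℂ) {m : ℕ} {q : Fin m → ℝ}
    {ρ : Fin m → Matrix (Fin 0 → Bool) (Fin 0 → Bool) ℂ} (h : IsEnsemble q ρ) :
    holevoInfo (qubitPower 0 Φ) q ρ = 0 := by
  unfold holevoInfo
  have h1 : ∀ a, qubitPower 0 Φ (ρ a) = 1 := fun a => by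
    rw [qubitPower_zero, density_zero (h.2.2 a)]
  simp only [h1, vnEntropy_one_zero, mul_zero, Finset.sum_const_zero, sub_zero]
  rw [← Finset.sum_smul]
  have : (∑ a, (q a : ℂ)) = 1 := by exact_mod_cast h.2.1
  rw [this, one_smul, vnEntropy_one_zero]

/-! ### the rate function -/

lemma continuous_gadRate (γ ν : ℝ) : Continuous (gadRate γ ν) := by
  unfold gadRate
  have := Real.binEntropy_continuous
  fun_prop

lemma exists_max_gadRate (γ ν : ℝ) :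
    ∃ p ∈ Set.Icc (0 : ℝ) 1, ∀ p' ∈ Set.Icc (0 : ℝ) 1, gadRate γ ν p' ≤ gadRate γ ν p := by
  obtain ⟨p, hp, hmax⟩ := (isCompact_Icc (a := (0 : ℝ)) (b := 1)).exists_isMaxOn
    ⟨0, by simp⟩ (continuous_gadRate γ ν).continuousOn
  exact ⟨p, hp, fun p' hp' => hmax hp'⟩

/-! ### the two halves of S0534 -/

/-- Upper bound. -/
theorem upper (γ ν : ℝ)
    (hch : ∀ n, IsChannel (qubitPower n (gadMap γ ν)))
    (h535 : ∀ (d e : Type) [Fintype d] [Fintype e] [DecidableEq d] [DecidableEq e] [Nonempty d]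
      [Nonempty e] (Ψ : Matrix d d ℂ → Matrix e e ℂ), IsChannel Ψ →
      ∀ (m : ℕ) (q : Fin m → ℝ) (ρ : Fin m → Matrix (Bool × d) (Bool × d) ℂ), IsEnsemble q ρ →
      ∀ ε > (0 : ℝ), ∃ (m₁ : ℕ) (q₁ : Fin m₁ → ℝ) (ρ₁ : Fin m₁ → Matrix Bool Bool ℂ)
        (m₂ : ℕ) (q₂ : Fin m₂ → ℝ) (ρ₂ : Fin m₂ → Matrix d d ℂ),
        IsEnsemble q₁ ρ₁ ∧ IsEnsemble q₂ ρ₂ ∧
          holevoInfo (qubitTensor (gadMap γ ν) Ψ) q ρ ≤
            holevoInfo (gadMap γ ν) q₁ ρ₁ + holevoInfo Ψ q₂ ρ₂ + ε)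
    (hsingle : ∀ (m : ℕ) (q : Fin m → ℝ) (ρ : Fin m → Matrix Bool Bool ℂ), IsEnsemble q ρ →
      ∃ p ∈ Set.Icc (0 : ℝ) 1, holevoInfo (gadMap γ ν) q ρ ≤ gadRate γ ν p)
    (n : ℕ) (m : ℕ) (q : Fin m → ℝ) (ρ : Fin m → Matrix (Fin n → Bool) (Fin n → Bool) ℂ)
    (hens : IsEnsemble q ρ) :
    ∃ p ∈ Set.Icc (0 : ℝ) 1, holevoInfo (qubitPower n (gadMap γ ν)) q ρ ≤ n * gadRate γ ν p := by
  obtain ⟨p, hp, hmax⟩ := exists_max_gadRate γ ν
  refine ⟨p, hp, ?_⟩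
  induction n generalizing m with
  | zero => rw [holevoInfo_zero _ hens]; simp
  | succ n ih =>
    rw [holevoInfo_succ]
    apply le_of_forall_pos_le_add
    intro ε hε
    obtain ⟨m₁, q₁, ρ₁, m₂, q₂, ρ₂, h1, h2, hle⟩ :=
      h535 (Fin n → Bool) (Fin n → Bool) _ (hch n) m q _ (isEnsemble_pull hens) ε hε
    obtain ⟨p₁, hp₁, hs⟩ := hsingle m₁ q₁ ρ₁ h1
    have hi := ih m₂ q₂ ρ₂ h2
    have hm := hmax p₁ hp₁
    push_cast
    linarith

/-- Achievability. -/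
theorem lower (γ ν : ℝ)
    (hch : ∀ n, IsChannel (qubitPower n (gadMap γ ν)))
    (h535 : ∀ (d e : Type) [Fintype d] [Fintype e] [DecidableEq d] [DecidableEq e] [Nonempty d]
      [Nonempty e] (Ψ : Matrix d d ℂ → Matrix e e ℂ), IsChannel Ψ →
      ∀ (m₁ : ℕ) (q₁ : Fin m₁ → ℝ) (ρ₁ : Fin m₁ → Matrix Bool Bool ℂ)
      (m₂ : ℕ) (q₂ : Fin m₂ → ℝ) (ρ₂ : Fin m₂ → Matrix d d ℂ), IsEnsemble q₁ ρ₁ →
      IsEnsemble q₂ ρ₂ →
      ∃ (m : ℕ) (q : Fin m → ℝ) (ρ : Fin m → Matrix (Bool × d) (Bool × d) ℂ), IsEnsemble q ρ ∧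
        holevoInfo (gadMap γ ν) q₁ ρ₁ + holevoInfo Ψ q₂ ρ₂ ≤
          holevoInfo (qubitTensor (gadMap γ ν) Ψ) q ρ)
    (p : ℝ)
    (hach : ∃ (m : ℕ) (q : Fin m → ℝ) (ρ : Fin m → Matrix Bool Bool ℂ), IsEnsemble q ρ ∧
      gadRate γ ν p ≤ holevoInfo (gadMap γ ν) q ρ)
    (n : ℕ) :
    ∃ (m : ℕ) (q : Fin m → ℝ) (ρ : Fin m → Matrix (Fin n → Bool) (Fin n → Bool) ℂ),
      IsEnsemble q ρ ∧ n * gadRate γ ν p ≤ holevoInfo (qubitPower n (gadMap γ ν)) q ρ := by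
  induction n with
  | zero =>
    have hens : IsEnsemble (fun _ : Fin 1 => (1 : ℝ))
        (fun _ : Fin 1 => (1 : Matrix (Fin 0 → Bool) (Fin 0 → Bool) ℂ)) := by
      refine ⟨fun _ => zero_le_one, by simp, fun _ => ⟨Matrix.PosSemidef.one, by simp⟩⟩
    exact ⟨1, _, _, hens, by rw [holevoInfo_zero _ hens]; simp⟩
  | succ n ih =>
    obtain ⟨m₁, q₁, ρ₁, h1, hr⟩ := hach
    obtain ⟨m₂, q₂, ρ₂, h2, hi⟩ := ih
    obtain ⟨m, q, ρ, hens, hle⟩ :=
      h535 (Fin n → Bool) (Fin n → Bool) _ (hch n) m₁ q₁ ρ₁ m₂ q₂ ρ₂ h1 h2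
    refine ⟨m, q, fun a => push n (ρ a), isEnsemble_push hens, ?_⟩
    rw [holevoInfo_succ]
    simp only [pull_push]
    push_cast
    linarith

end Crest.Agent.S0534Aux.PowerTop
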