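import Mathlib
import Crest.Prelude.Def_QState
import Crest.Prelude.Def_QChannel
import Crest.Prelude.Def_AmpDamp
import Crest.Agent.S0534Aux.EntBasic

/-!
Product (achievability) side of S0534 / S0535: product states and product ensembles.
-/

set_option autoImplicit false
set_option linter.unusedSectionVars false

open scoped ComplexOrder Kronecker
open Matrix Crest.Quantum Crest.MathPhysics.AmpDamp

namespace Crest.Agent.S0534Aux.Product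

variable {d e : Type*} [Fintype d] [Fintype e] [DecidableEq d] [DecidableEq e]

/-- Hermitian with unit trace (all we need of an output state on the product side). -/
def HT {k : Type*} [Fintype k] (A : Matrix k k ℂ) : Prop := A.IsHermitian ∧ A.trace = 1

lemma IsDensity.ht {k : Type*} [Fintype k] {A : Matrix k k ℂ} (h : IsDensity A) : HT A :=
  ⟨h.1.isHermitian, h.2⟩

lemma block_kronecker (A : Matrix Bool Bool ℂ) (B : Matrix d d ℂ) (s t : Bool) :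
    block (A ⊗ₖ B) s t = A s t • B := by
  ext i j
  simp [block, kroneckerMap_apply]

lemma map_qubit_decomp {Φ : Matrix Bool Bool ℂ → Matrix Bool Bool ℂ} (hΦ : IsLinearMap ℂ Φ)
    (A : Matrix Bool Bool ℂ) :
    Φ A = ∑ s : Bool, ∑ t : Bool, A s t • Φ (Matrix.single s t 1) := by
  conv_lhs => rw [matrix_eq_sum_single A]
  have h1 : ∀ (f : Bool → Matrix Bool Bool ℂ), Φ (∑ s, f s) = ∑ s, Φ (f s) := by
    intro f
    exact map_sum (hΦ.mk' Φ) f Finset.univ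
  rw [h1]
  refine Finset.sum_congr rfl (fun s _ => ?_)
  rw [h1]
  refine Finset.sum_congr rfl (fun t _ => ?_)
  rw [← hΦ.map_smul]
  congr 1
  simp [Matrix.smul_single]

lemma qubitTensor_kronecker {Φ : Matrix Bool Bool ℂ → Matrix Bool Bool ℂ}
    {Ψ : Matrix d d ℂ → Matrix e e ℂ} (hΦ : IsLinearMap ℂ Φ) (hΨ : IsLinearMap ℂ Ψ)
    (A : Matrix Bool Bool ℂ) (B : Matrix d d ℂ) :
    qubitTensor Φ Ψ (A ⊗ₖ B) = Φ A ⊗ₖ Ψ B := by
  ext ⟨s, i⟩ ⟨t, j⟩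
  simp only [qubitTensor, Matrix.of_apply, block_kronecker, hΨ.map_smul, Matrix.smul_apply,
    kroneckerMap_apply, smul_eq_mul, qubitCoeff]
  rw [map_qubit_decomp hΦ A]
  simp only [Matrix.sum_apply, Matrix.smul_apply, smul_eq_mul, Finset.sum_mul]
  refine Finset.sum_congr rfl (fun s' _ => Finset.sum_congr rfl (fun t' _ => ?_))
  ring


lemma ht_sum {k : Type*} [Fintype k] {m : ℕ} (q : Fin m → ℝ) (X : Fin m → Matrix k k ℂ)
    (hq : ∑ a, q a = 1) (hX : ∀ a, HT (X a)) : HT (∑ a, (q a : ℂ) • X a) := by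
  constructor
  · unfold Matrix.IsHermitian
    rw [conjTranspose_sum]
    refine Finset.sum_congr rfl (fun a _ => ?_)
    rw [conjTranspose_smul, (hX a).1]
    simp
  · rw [trace_sum]
    simp only [trace_smul, (hX _).2, smul_eq_mul, mul_one]
    exact_mod_cast hq

lemma ht_kronecker {k l : Type*} [Fintype k] [Fintype l] {A : Matrix k k ℂ} {B : Matrix l l ℂ}
    (hA : HT A) (hB : HT B) : HT (A ⊗ₖ B) := by
  constructor
  · unfold Matrix.IsHermitian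
    rw [conjTranspose_kronecker, hA.1, hB.1]
  · rw [trace_kronecker, hA.2, hB.2, one_mul]

lemma vnEntropy_kronecker_ht {k l : Type*} [Fintype k] [Fintype l] [DecidableEq k] [DecidableEq l]
    {A : Matrix k k ℂ} {B : Matrix l l ℂ} (hA : HT A) (hB : HT B) :
    vnEntropy (A ⊗ₖ B) = vnEntropy A + vnEntropy B := by
  rw [EntBasic.vnEntropy_kronecker hA.1 hB.1, hA.2, hB.2]
  simp

lemma isDensity_kronecker {k l : Type*} [Fintype k] [Fintype l] [DecidableEq k] [DecidableEq l]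
    {A : Matrix k k ℂ} {B : Matrix l l ℂ}
    (hA : IsDensity A) (hB : IsDensity B) : IsDensity (A ⊗ₖ B) :=
  ⟨hA.1.kronecker hB.1, by rw [trace_kronecker, hA.2, hB.2, one_mul]⟩

/-- weights of the product ensemble -/
def prodQ {m₁ m₂ : ℕ} (q₁ : Fin m₁ → ℝ) (q₂ : Fin m₂ → ℝ) : Fin (m₁ * m₂) → ℝ :=
  fun c => q₁ (finProdFinEquiv.symm c).1 * q₂ (finProdFinEquiv.symm c).2

/-- states of the product ensemble -/
def prodRho {m₁ m₂ : ℕ} (ρ₁ : Fin m₁ → Matrix Bool Bool ℂ) (ρ₂ : Fin m₂ → Matrix d d ℂ) :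
    Fin (m₁ * m₂) → Matrix (Bool × d) (Bool × d) ℂ :=
  fun c => ρ₁ (finProdFinEquiv.symm c).1 ⊗ₖ ρ₂ (finProdFinEquiv.symm c).2

lemma sum_fin_prod {M : Type*} [AddCommMonoid M] {m₁ m₂ : ℕ} (F : Fin m₁ × Fin m₂ → M) :
    ∑ c : Fin (m₁ * m₂), F (finProdFinEquiv.symm c) = ∑ a, ∑ b, F (a, b) := by
  rw [Equiv.sum_comp finProdFinEquiv.symm F, Fintype.sum_prod_type]

lemma sum_smul_kronecker {k l : Type*} [Fintype k] [Fintype l] {m₁ m₂ : ℕ}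
    (q₁ : Fin m₁ → ℝ) (q₂ : Fin m₂ → ℝ) (X : Fin m₁ → Matrix k k ℂ) (Y : Fin m₂ → Matrix l l ℂ) :
    ∑ a, ∑ b, ((q₁ a * q₂ b : ℝ) : ℂ) • (X a ⊗ₖ Y b) =
      (∑ a, (q₁ a : ℂ) • X a) ⊗ₖ (∑ b, (q₂ b : ℂ) • Y b) := by
  ext ⟨i, j⟩ ⟨i', j'⟩
  simp only [Matrix.sum_apply, Matrix.smul_apply, kroneckerMap_apply, smul_eq_mul,
    Finset.sum_mul_sum]
  refine Finset.sum_congr rfl (fun a _ => Finset.sum_congr rfl (fun b _ => ?_))
  push_cast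
  ring

theorem holevo_product {Φ : Matrix Bool Bool ℂ → Matrix Bool Bool ℂ}
    {Ψ : Matrix d d ℂ → Matrix e e ℂ} (hΦ : IsLinearMap ℂ Φ) (hΨ : IsLinearMap ℂ Ψ)
    {m₁ m₂ : ℕ} (q₁ : Fin m₁ → ℝ) (ρ₁ : Fin m₁ → Matrix Bool Bool ℂ)
    (q₂ : Fin m₂ → ℝ) (ρ₂ : Fin m₂ → Matrix d d ℂ)
    (h₁ : IsEnsemble q₁ ρ₁) (h₂ : IsEnsemble q₂ ρ₂)
    (o₁ : ∀ a, HT (Φ (ρ₁ a))) (o₂ : ∀ b, HT (Ψ (ρ₂ b))) :
    IsEnsemble (prodQ q₁ q₂) (prodRho ρ₁ ρ₂) ∧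
    (∀ c, HT (qubitTensor Φ Ψ (prodRho ρ₁ ρ₂ c))) ∧
    holevoInfo (qubitTensor Φ Ψ) (prodQ q₁ q₂) (prodRho ρ₁ ρ₂) =
      holevoInfo Φ q₁ ρ₁ + holevoInfo Ψ q₂ ρ₂ := by
  obtain ⟨hq₁, hs₁, hd₁⟩ := h₁
  obtain ⟨hq₂, hs₂, hd₂⟩ := h₂
  refine ⟨⟨fun c => mul_nonneg (hq₁ _) (hq₂ _), ?_, fun c => isDensity_kronecker (hd₁ _) (hd₂ _)⟩,
    fun c => ?_, ?_⟩
  · have := sum_fin_prod (fun p : Fin m₁ × Fin m₂ => q₁ p.1 * q₂ p.2)
    simp only [prodQ]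
    rw [this, ← Finset.sum_mul_sum, hs₁, hs₂, one_mul]
  · simp only [prodRho]
    rw [qubitTensor_kronecker hΦ hΨ]
    exact ht_kronecker (o₁ _) (o₂ _)
  · unfold holevoInfo
    have e1 : ∑ c, ((prodQ q₁ q₂ c : ℝ) : ℂ) • qubitTensor Φ Ψ (prodRho ρ₁ ρ₂ c) =
        (∑ a, (q₁ a : ℂ) • Φ (ρ₁ a)) ⊗ₖ (∑ b, (q₂ b : ℂ) • Ψ (ρ₂ b)) := by
      rw [← sum_smul_kronecker]
      rw [← sum_fin_prod (fun p : Fin m₁ × Fin m₂ =>
        ((q₁ p.1 * q₂ p.2 : ℝ) : ℂ) • (Φ (ρ₁ p.1) ⊗ₖ Ψ (ρ₂ p.2)))]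
      refine Finset.sum_congr rfl (fun c _ => ?_)
      simp only [prodQ, prodRho]
      rw [qubitTensor_kronecker hΦ hΨ]
    have e2 : ∑ c, prodQ q₁ q₂ c * vnEntropy (qubitTensor Φ Ψ (prodRho ρ₁ ρ₂ c)) =
        ∑ a, q₁ a * vnEntropy (Φ (ρ₁ a)) + ∑ b, q₂ b * vnEntropy (Ψ (ρ₂ b)) := by
      have : ∀ c, prodQ q₁ q₂ c * vnEntropy (qubitTensor Φ Ψ (prodRho ρ₁ ρ₂ c)) =
          (fun p : Fin m₁ × Fin m₂ => q₁ p.1 * q₂ p.2 *
            (vnEntropy (Φ (ρ₁ p.1)) + vnEntropy (Ψ (ρ₂ p.2)))) (finProdFinEquiv.symm c) := by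
        intro c
        simp only [prodQ, prodRho]
        rw [qubitTensor_kronecker hΦ hΨ, vnEntropy_kronecker_ht (o₁ _) (o₂ _)]
      rw [Finset.sum_congr rfl (fun c _ => this c),
        sum_fin_prod (fun p : Fin m₁ × Fin m₂ => q₁ p.1 * q₂ p.2 *
            (vnEntropy (Φ (ρ₁ p.1)) + vnEntropy (Ψ (ρ₂ p.2))))]
      simp only [mul_add, Finset.sum_add_distrib]
      congr 1
      · refine Finset.sum_congr rfl (fun a _ => ?_)
        rw [← Finset.sum_mul, ← Finset.mul_sum, hs₂, mul_one]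
      · rw [Finset.sum_comm]
        refine Finset.sum_congr rfl (fun b _ => ?_)
        rw [← Finset.sum_mul, ← Finset.sum_mul, hs₁, one_mul]
    rw [e1, e2, vnEntropy_kronecker_ht (ht_sum q₁ _ hs₁ o₁) (ht_sum q₂ _ hs₂ o₂)]
    ring


/-! ### the amplitude damping map and general channels on states -/

lemma gadMap_isLinearMap (γ ν : ℝ) : IsLinearMap ℂ (gadMap γ ν) := by
  constructor
  · intro x y
    ext s t
    cases s <;> cases t <;> simp [gadMap] <;> ring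
  · intro c x
    ext s t
    cases s <;> cases t <;> simp [gadMap] <;> ring

lemma gadMap_trace (γ ν : ℝ) (M : Matrix Bool Bool ℂ) : (gadMap γ ν M).trace = M.trace := by
  simp only [Matrix.trace, Matrix.diag, Fintype.sum_bool, gadMap, Matrix.of_apply]
  simp
  ring

lemma gadMap_isHermitian (γ ν : ℝ) {M : Matrix Bool Bool ℂ} (hM : M.IsHermitian) :
    (gadMap γ ν M).IsHermitian := by
  ext s t
  have h00 := hM.apply false false
  have h11 := hM.apply true true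
  have h01 := hM.apply false true
  have h10 := hM.apply true false
  cases s <;> cases t <;> simp [gadMap, Matrix.conjTranspose_apply] <;>
    simp_all

lemma gadMap_ht (γ ν : ℝ) {M : Matrix Bool Bool ℂ} (hM : HT M) : HT (gadMap γ ν M) :=
  ⟨gadMap_isHermitian γ ν hM.1, by rw [gadMap_trace, hM.2]⟩

lemma cp_posSemidef {Ψ : Matrix d d ℂ → Matrix e e ℂ} (hΨ : IsCompletelyPositive Ψ)
    {ρ : Matrix d d ℂ} (hρ : ρ.PosSemidef) : (Ψ ρ).PosSemidef := by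
  have h1 : (ρ.submatrix (Prod.snd : Fin 1 × d → d) Prod.snd).PosSemidef := hρ.submatrix _
  have h2 := hΨ 1 _ h1
  have h3 := h2.submatrix (fun i : e => ((0 : Fin 1), i))
  have h4 : (blockwise (k := Fin 1) Ψ (ρ.submatrix (Prod.snd : Fin 1 × d → d) Prod.snd)).submatrix
      (fun i : e => ((0 : Fin 1), i)) (fun i : e => ((0 : Fin 1), i)) = Ψ ρ := by
    ext i j
    simp only [blockwise, Matrix.submatrix_apply, Matrix.of_apply]
    congr 1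
  rwa [h4] at h3

lemma channel_isDensity {Ψ : Matrix d d ℂ → Matrix e e ℂ} (hΨ : IsChannel Ψ)
    {ρ : Matrix d d ℂ} (hρ : IsDensity ρ) : IsDensity (Ψ ρ) :=
  ⟨cp_posSemidef hΨ.2.1 hρ.1, by rw [hΨ.2.2, hρ.2]⟩

/-- S0535, clause 2 (verbatim). -/
theorem clause2 (γ ν : ℝ) (Ψ : Matrix d d ℂ → Matrix e e ℂ) (hΨ : IsChannel Ψ) :
    ∀ (m₁ : ℕ) (q₁ : Fin m₁ → ℝ) (ρ₁ : Fin m₁ → Matrix Bool Bool ℂ)
      (m₂ : ℕ) (q₂ : Fin m₂ → ℝ) (ρ₂ : Fin m₂ → Matrix d d ℂ), IsEnsemble q₁ ρ₁ → IsEnsemble q₂ ρ₂ →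
      ∃ (m : ℕ) (q : Fin m → ℝ) (ρ : Fin m → Matrix (Bool × d) (Bool × d) ℂ), IsEnsemble q ρ ∧
        holevoInfo (gadMap γ ν) q₁ ρ₁ + holevoInfo Ψ q₂ ρ₂ ≤
          holevoInfo (qubitTensor (gadMap γ ν) Ψ) q ρ := by
  intro m₁ q₁ ρ₁ m₂ q₂ ρ₂ h₁ h₂
  obtain ⟨hE, _, hH⟩ := holevo_product (gadMap_isLinearMap γ ν) hΨ.1 q₁ ρ₁ q₂ ρ₂ h₁ h₂
    (fun a => gadMap_ht γ ν (IsDensity.ht (h₁.2.2 a)))
    (fun b => IsDensity.ht (channel_isDensity hΨ (h₂.2.2 b)))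
  exact ⟨_, _, _, hE, hH.ge⟩

/-- S0535, clause 4 (verbatim). -/
theorem clause4 (γ ν : ℝ) (Ψ : Matrix d d ℂ → Matrix e e ℂ) (hΨ : IsChannel Ψ) :
    ∀ (ρ₁ : Matrix Bool Bool ℂ) (ρ₂ : Matrix d d ℂ), IsDensity ρ₁ → IsDensity ρ₂ →
      ∃ ρ : Matrix (Bool × d) (Bool × d) ℂ, IsDensity ρ ∧
        vnEntropy (qubitTensor (gadMap γ ν) Ψ ρ) ≤ vnEntropy (gadMap γ ν ρ₁) + vnEntropy (Ψ ρ₂) := by
  intro ρ₁ ρ₂ h₁ h₂
  refine ⟨ρ₁ ⊗ₖ ρ₂, isDensity_kronecker h₁ h₂, ?_⟩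
  rw [qubitTensor_kronecker (gadMap_isLinearMap γ ν) hΨ.1,
    vnEntropy_kronecker_ht (gadMap_ht γ ν (IsDensity.ht h₁))
      (IsDensity.ht (channel_isDensity hΨ h₂))]

end Crest.Agent.S0534Aux.Product
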