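import Mathlib

/-! Scalar calculus for the GADC additivity proof: the function
`s(p) = binEntropy ((1 + √(1 - 4 v(p))) / 2)`, `v(p) = γ ν (1-ν) + γ (1-γ) (p-ν)^2`, is convex on `[0,1]`.

Route: `s = J ∘ y`, `y(p) = √(v p)` (a norm, hence convex) and
`J(y) = binEntropy ((1 + √(1 - 4 y^2)) / 2)` convex and monotone on `[0,1/2]`. -/

set_option autoImplicit false

namespace Crest.Agent.S0534Aux.SConvex

open Real Set

/-- `L r = log (1+r) - log (1-r) = 2 artanh r`. -/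
noncomputable def Lfun (r : ℝ) : ℝ := Real.log (1 + r) - Real.log (1 - r)

theorem two_mul_le_Lfun {r : ℝ} (h0 : 0 ≤ r) (h1 : r < 1) : 2 * r ≤ Lfun r := by
  have habs : |r| < 1 := by rw [abs_of_nonneg h0]; exact h1
  have hs := Real.hasSum_log_sub_log_of_abs_lt_one habs
  have := le_hasSum hs 0 (fun j _ => by positivity)
  simpa [Lfun] using this

theorem hasDerivAt_Lfun {r : ℝ} (h0 : -1 < r) (h1 : r < 1) :
    HasDerivAt Lfun (2 / (1 - r ^ 2)) r := by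
  have e1 : HasDerivAt (fun x : ℝ => Real.log (1 + x)) (1 / (1 + r)) r := by
    have := ((hasDerivAt_id r).const_add 1).log (by simp; linarith)
    simpa using this
  have e2 : HasDerivAt (fun x : ℝ => Real.log (1 - x)) (-1 / (1 - r)) r := by
    have := ((hasDerivAt_id r).const_sub 1).log (by simp; linarith)
    simpa using this
  have a1 : (1 + r) ≠ 0 := by linarith
  have a2 : (1 - r) ≠ 0 := by linarith
  have a3 : (1 - r ^ 2) ≠ 0 := by
    have : 1 - r ^ 2 = (1 + r) * (1 - r) := by ring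
    rw [this]; exact mul_ne_zero a1 a2
  have h3 : HasDerivAt (fun x : ℝ => Real.log (1 + x) - Real.log (1 - x))
      (1 / (1 + r) - -1 / (1 - r)) r := e1.sub e2
  refine h3.congr_deriv ?_
  field_simp
  ring

/-- `F r = (r⁻² - 1) (L r)²`, the square of `J'`. -/
noncomputable def Ffun (r : ℝ) : ℝ := ((r ^ 2)⁻¹ - 1) * (Lfun r) ^ 2

theorem hasDerivAt_Ffun {r : ℝ} (h0 : 0 < r) (h1 : r < 1) :
    HasDerivAt Ffun (2 * Lfun r * (2 * r - Lfun r) / r ^ 3) r := by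
  have hL := hasDerivAt_Lfun (r := r) (by linarith) h1
  have e1 : HasDerivAt (fun x : ℝ => (x ^ 2)⁻¹ - 1) (-(2 * r) / (r ^ 2) ^ 2) r := by
    have h2 : HasDerivAt (fun x : ℝ => x ^ 2) (2 * r) r := by
      simpa using (hasDerivAt_pow 2 r)
    have := (h2.inv (by positivity)).sub_const 1
    simpa using this
  have e2 : HasDerivAt (fun x : ℝ => (Lfun x) ^ 2) (2 * Lfun r * (2 / (1 - r ^ 2))) r := by
    have := hL.fun_pow 2
    simpa using this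
  have a3 : (1 - r ^ 2) ≠ 0 := by
    have : 0 < 1 - r ^ 2 := by nlinarith
    exact this.ne'
  have a4 : r ≠ 0 := h0.ne'
  have h3 : HasDerivAt (fun x : ℝ => ((x ^ 2)⁻¹ - 1) * (Lfun x) ^ 2)
      (-(2 * r) / (r ^ 2) ^ 2 * (Lfun r) ^ 2 +
        ((r ^ 2)⁻¹ - 1) * (2 * Lfun r * (2 / (1 - r ^ 2)))) r := e1.mul e2
  refine h3.congr_deriv ?_
  field_simp
  ring

theorem Ffun_antitoneOn : AntitoneOn Ffun (Ioo 0 1) := by
  apply antitoneOn_of_deriv_nonpos (convex_Ioo 0 1)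
  · intro r hr
    exact (hasDerivAt_Ffun hr.1 hr.2).continuousAt.continuousWithinAt
  · intro r hr
    rw [interior_Ioo] at hr
    exact (hasDerivAt_Ffun hr.1 hr.2).differentiableAt.differentiableWithinAt
  · intro r hr
    rw [interior_Ioo] at hr
    rw [(hasDerivAt_Ffun hr.1 hr.2).deriv]
    have hL := two_mul_le_Lfun hr.1.le hr.2
    have hLpos : 0 ≤ Lfun r := by nlinarith [hr.1]
    apply div_nonpos_of_nonpos_of_nonneg
    · apply mul_nonpos_of_nonneg_of_nonpos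
      · positivity
      · linarith
    · have := hr.1; positivity

/-- `J y = binEntropy ((1 + √(1 - 4 y²)) / 2)`: entropy of a qubit state of determinant `y²`. -/
noncomputable def Jfun (y : ℝ) : ℝ := Real.binEntropy ((1 + Real.sqrt (1 - 4 * y ^ 2)) / 2)

theorem Jfun_continuous : Continuous Jfun := by
  unfold Jfun
  fun_prop

theorem sqrt_mem_Ioo {y : ℝ} (h0 : 0 < y) (h1 : y < 1 / 2) :
    Real.sqrt (1 - 4 * y ^ 2) ∈ Ioo (0 : ℝ) 1 := by
  constructor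
  · apply Real.sqrt_pos.mpr
    nlinarith
  · rw [Real.sqrt_lt' (by norm_num)]
    nlinarith

theorem hasDerivAt_Jfun {y : ℝ} (h0 : 0 < y) (h1 : y < 1 / 2) :
    HasDerivAt Jfun (2 * y * Lfun (Real.sqrt (1 - 4 * y ^ 2)) / Real.sqrt (1 - 4 * y ^ 2)) y := by
  obtain ⟨hr0, hr1⟩ := sqrt_mem_Ioo h0 h1
  set r := Real.sqrt (1 - 4 * y ^ 2) with hr
  have hw : HasDerivAt (fun x : ℝ => 1 - 4 * x ^ 2) (-(8 * y)) y := by
    have h2 : HasDerivAt (fun x : ℝ => x ^ 2) (2 * y) y := by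
      simpa using (hasDerivAt_pow 2 y)
    have := (h2.const_mul 4).const_sub 1
    refine this.congr_deriv ?_
    ring
  have hpos : (1 - 4 * y ^ 2) ≠ 0 := by
    have : 0 < 1 - 4 * y ^ 2 := by nlinarith
    exact this.ne'
  have hs : HasDerivAt (fun x : ℝ => Real.sqrt (1 - 4 * x ^ 2)) (-(8 * y) / (2 * r)) y :=
    hw.sqrt hpos
  have hx : HasDerivAt (fun x : ℝ => (1 + Real.sqrt (1 - 4 * x ^ 2)) / 2)
      ((-(8 * y) / (2 * r)) / 2) y := (hs.const_add 1).div_const 2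
  have hb : HasDerivAt Real.binEntropy
      (Real.log (1 - (1 + r) / 2) - Real.log ((1 + r) / 2)) ((1 + r) / 2) :=
    Real.hasDerivAt_binEntropy (by linarith) (by linarith)
  have hc : HasDerivAt (fun x : ℝ => Real.binEntropy ((1 + Real.sqrt (1 - 4 * x ^ 2)) / 2))
      ((Real.log (1 - (1 + r) / 2) - Real.log ((1 + r) / 2)) * ((-(8 * y) / (2 * r)) / 2)) y :=
    HasDerivAt.comp (h₂ := Real.binEntropy)
      (h := fun x : ℝ => (1 + Real.sqrt (1 - 4 * x ^ 2)) / 2) y hb hx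
  refine hc.congr_deriv ?_
  have e1 : Real.log (1 - (1 + r) / 2) = Real.log (1 - r) - Real.log 2 := by
    rw [show 1 - (1 + r) / 2 = (1 - r) / 2 by ring, Real.log_div (by linarith) (by norm_num)]
  have e2 : Real.log ((1 + r) / 2) = Real.log (1 + r) - Real.log 2 := by
    rw [Real.log_div (by linarith) (by norm_num)]
  rw [e1, e2]
  unfold Lfun
  have : r ≠ 0 := hr0.ne'
  field_simp
  ring

theorem deriv_Jfun_nonneg {y : ℝ} (h0 : 0 < y) (h1 : y < 1 / 2) : 0 ≤ deriv Jfun y := by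
  rw [(hasDerivAt_Jfun h0 h1).deriv]
  obtain ⟨hr0, hr1⟩ := sqrt_mem_Ioo h0 h1
  have hL := two_mul_le_Lfun hr0.le hr1
  have : 0 ≤ Lfun (Real.sqrt (1 - 4 * y ^ 2)) := by linarith
  positivity

theorem deriv_Jfun_sq {y : ℝ} (h0 : 0 < y) (h1 : y < 1 / 2) :
    (deriv Jfun y) ^ 2 = Ffun (Real.sqrt (1 - 4 * y ^ 2)) := by
  rw [(hasDerivAt_Jfun h0 h1).deriv]
  obtain ⟨hr0, hr1⟩ := sqrt_mem_Ioo h0 h1
  have hsq : (Real.sqrt (1 - 4 * y ^ 2)) ^ 2 = 1 - 4 * y ^ 2 := by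
    apply Real.sq_sqrt; nlinarith
  set r := Real.sqrt (1 - 4 * y ^ 2) with hr
  unfold Ffun
  have hy : 4 * y ^ 2 = 1 - r ^ 2 := by linarith
  have : r ≠ 0 := hr0.ne'
  field_simp
  calc 2 ^ 2 * y ^ 2 * Lfun r ^ 2 = Lfun r ^ 2 * (4 * y ^ 2) := by ring
    _ = Lfun r ^ 2 * (1 - r ^ 2) := by rw [hy]

theorem deriv_Jfun_monotoneOn : MonotoneOn (deriv Jfun) (Ioo 0 (1 / 2)) := by
  intro y1 h1 y2 h2 h12
  have a1 := deriv_Jfun_nonneg h1.1 h1.2
  have a2 := deriv_Jfun_nonneg h2.1 h2.2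
  have hF : Ffun (Real.sqrt (1 - 4 * y2 ^ 2)) ≥ Ffun (Real.sqrt (1 - 4 * y1 ^ 2)) := by
    apply Ffun_antitoneOn (sqrt_mem_Ioo h2.1 h2.2) (sqrt_mem_Ioo h1.1 h1.2)
    apply Real.sqrt_le_sqrt
    have := h1.1
    nlinarith
  rw [← deriv_Jfun_sq h1.1 h1.2, ← deriv_Jfun_sq h2.1 h2.2] at hF
  exact (sq_le_sq₀ a1 a2).mp hF

theorem Jfun_convexOn : ConvexOn ℝ (Icc 0 (1 / 2)) Jfun := by
  apply MonotoneOn.convexOn_of_deriv (convex_Icc 0 (1 / 2)) Jfun_continuous.continuousOn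
  · intro y hy
    rw [interior_Icc] at hy
    exact (hasDerivAt_Jfun hy.1 hy.2).differentiableAt.differentiableWithinAt
  · rw [interior_Icc]
    exact deriv_Jfun_monotoneOn

theorem Jfun_monotoneOn : MonotoneOn Jfun (Icc 0 (1 / 2)) := by
  apply monotoneOn_of_deriv_nonneg (convex_Icc 0 (1 / 2)) Jfun_continuous.continuousOn
  · intro y hy
    rw [interior_Icc] at hy
    exact (hasDerivAt_Jfun hy.1 hy.2).differentiableAt.differentiableWithinAt
  · intro y hy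
    rw [interior_Icc] at hy
    exact deriv_Jfun_nonneg hy.1 hy.2

/-- determinant of the output of a pure input of excited population `p`. -/
def vFun (g nu p : ℝ) : ℝ := g * nu * (1 - nu) + g * (1 - g) * (p - nu) ^ 2

/-- the second term of `gadRate`, verbatim. -/
noncomputable def sFun (g nu p : ℝ) : ℝ :=
  Real.binEntropy ((1 + Real.sqrt (1 - 4 * (g * nu * (1 - nu) + g * (1 - g) * (p - nu) ^ 2))) / 2)

theorem one_sub_four_vFun (g nu p : ℝ) :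
    1 - 4 * vFun g nu p = 4 * (1 - g) * (p * (1 - p)) + (1 - 2 * ((1 - g) * p + g * nu)) ^ 2 := by
  unfold vFun; ring

theorem vFun_eq (g nu p : ℝ) :
    vFun g nu p = ((1 - g) * p + g * nu) * (1 - ((1 - g) * p + g * nu)) - (1 - g) * (p * (1 - p)) := by
  unfold vFun; ring

theorem vFun_nonneg {g nu : ℝ} (hg : g ∈ Icc (0 : ℝ) 1) (hnu : nu ∈ Icc (0 : ℝ) 1) (p : ℝ) :
    0 ≤ vFun g nu p := by
  unfold vFun
  have h1 : 0 ≤ g * nu * (1 - nu) :=
    mul_nonneg (mul_nonneg hg.1 hnu.1) (by linarith [hnu.2])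
  have h2 : 0 ≤ g * (1 - g) * (p - nu) ^ 2 :=
    mul_nonneg (mul_nonneg hg.1 (by linarith [hg.2])) (sq_nonneg _)
  linarith

theorem vFun_le {g nu p : ℝ} (hg : g ∈ Icc (0 : ℝ) 1) (hp : p ∈ Icc (0 : ℝ) 1) :
    vFun g nu p ≤ 1 / 4 := by
  have h := one_sub_four_vFun g nu p
  have h1 : 0 ≤ 4 * (1 - g) * (p * (1 - p)) :=
    mul_nonneg (by linarith [hg.2]) (mul_nonneg hp.1 (by linarith [hp.2]))
  have h2 := sq_nonneg (1 - 2 * ((1 - g) * p + g * nu))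
  linarith

theorem sFun_eq_Jfun {g nu : ℝ} (hg : g ∈ Icc (0 : ℝ) 1) (hnu : nu ∈ Icc (0 : ℝ) 1) (p : ℝ) :
    sFun g nu p = Jfun (Real.sqrt (vFun g nu p)) := by
  unfold sFun Jfun
  rw [Real.sq_sqrt (vFun_nonneg hg hnu p)]
  rfl

theorem sqrt_vFun_mem {g nu p : ℝ} (hg : g ∈ Icc (0 : ℝ) 1) (hp : p ∈ Icc (0 : ℝ) 1) :
    Real.sqrt (vFun g nu p) ∈ Icc (0 : ℝ) (1 / 2) := by
  refine ⟨Real.sqrt_nonneg _, ?_⟩
  rw [Real.sqrt_le_iff]
  refine ⟨by norm_num, ?_⟩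
  have := vFun_le (nu := nu) hg hp
  linarith

theorem sqrt_vFun_convex {g nu : ℝ} (hg : g ∈ Icc (0 : ℝ) 1) (hnu : nu ∈ Icc (0 : ℝ) 1)
    (p1 p2 a b : ℝ) (ha : 0 ≤ a) (hb : 0 ≤ b) (hab : a + b = 1) :
    Real.sqrt (vFun g nu (a * p1 + b * p2)) ≤
      a * Real.sqrt (vFun g nu p1) + b * Real.sqrt (vFun g nu p2) := by
  have v1 := vFun_nonneg hg hnu p1
  have v2 := vFun_nonneg hg hnu p2
  set A1 := Real.sqrt (vFun g nu p1) with hA1
  set A2 := Real.sqrt (vFun g nu p2) with hA2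
  have s1 : A1 ^ 2 = vFun g nu p1 := Real.sq_sqrt v1
  have s2 : A2 ^ 2 = vFun g nu p2 := Real.sq_sqrt v2
  have n1 : 0 ≤ A1 := Real.sqrt_nonneg _
  have n2 : 0 ≤ A2 := Real.sqrt_nonneg _
  set c0 := g * nu * (1 - nu) with hc0
  set k := g * (1 - g) with hk
  have hc0n : 0 ≤ c0 := mul_nonneg (mul_nonneg hg.1 hnu.1) (by linarith [hnu.2])
  have hkn : 0 ≤ k := mul_nonneg hg.1 (by linarith [hg.2])
  have e1 : vFun g nu p1 = c0 + k * (p1 - nu) ^ 2 := rfl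
  have e2 : vFun g nu p2 = c0 + k * (p2 - nu) ^ 2 := rfl
  -- Cauchy-Schwarz
  have cs : c0 + k * ((p1 - nu) * (p2 - nu)) ≤ A1 * A2 := by
    have h : (c0 + k * ((p1 - nu) * (p2 - nu))) ^ 2 ≤ (A1 * A2) ^ 2 := by
      rw [mul_pow, s1, s2, e1, e2]
      have : 0 ≤ c0 * k * ((p1 - nu) - (p2 - nu)) ^ 2 :=
        mul_nonneg (mul_nonneg hc0n hkn) (sq_nonneg _)
      nlinarith
    exact le_trans (le_abs_self _) (abs_le_of_sq_le_sq h (mul_nonneg n1 n2))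
  rw [Real.sqrt_le_iff]
  refine ⟨by positivity, ?_⟩
  have e3 : vFun g nu (a * p1 + b * p2) =
      a ^ 2 * (c0 + k * (p1 - nu) ^ 2) + b ^ 2 * (c0 + k * (p2 - nu) ^ 2)
        + 2 * a * b * (c0 + k * ((p1 - nu) * (p2 - nu))) := by
    have hb' : b = 1 - a := by linarith
    subst hb'
    unfold vFun
    rw [← hc0, ← hk]
    ring
  rw [e3, ← e1, ← e2, ← s1, ← s2]
  have : 2 * a * b * (c0 + k * ((p1 - nu) * (p2 - nu))) ≤ 2 * a * b * (A1 * A2) :=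
    mul_le_mul_of_nonneg_left cs (by positivity)
  nlinarith

theorem sFun_convexOn {g nu : ℝ} (hg : g ∈ Icc (0 : ℝ) 1) (hnu : nu ∈ Icc (0 : ℝ) 1) :
    ConvexOn ℝ (Icc 0 1) (sFun g nu) := by
  refine ⟨convex_Icc 0 1, ?_⟩
  intro p1 h1 p2 h2 a b ha hb hab
  simp only [smul_eq_mul]
  have hmem : a * p1 + b * p2 ∈ Icc (0 : ℝ) 1 := by
    have := (convex_Icc (0 : ℝ) 1) h1 h2 ha hb hab
    simpa using this
  rw [sFun_eq_Jfun hg hnu, sFun_eq_Jfun hg hnu, sFun_eq_Jfun hg hnu]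
  have m1 := sqrt_vFun_mem (nu := nu) hg h1
  have m2 := sqrt_vFun_mem (nu := nu) hg h2
  have m3 := sqrt_vFun_mem (nu := nu) hg hmem
  have m4 : a * Real.sqrt (vFun g nu p1) + b * Real.sqrt (vFun g nu p2) ∈ Icc (0 : ℝ) (1 / 2) := by
    have := (convex_Icc (0 : ℝ) (1 / 2)) m1 m2 ha hb hab
    simpa using this
  calc Jfun (Real.sqrt (vFun g nu (a * p1 + b * p2)))
      ≤ Jfun (a * Real.sqrt (vFun g nu p1) + b * Real.sqrt (vFun g nu p2)) :=
        Jfun_monotoneOn m3 m4 (sqrt_vFun_convex hg hnu p1 p2 a b ha hb hab)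
    _ ≤ a * Jfun (Real.sqrt (vFun g nu p1)) + b * Jfun (Real.sqrt (vFun g nu p2)) := by
        have := Jfun_convexOn.2 m1 m2 ha hb hab
        simpa using this

/-- Jensen form, over any finite index type. -/
theorem sFun_jensen {g nu : ℝ} (hg : g ∈ Icc (0 : ℝ) 1) (hnu : nu ∈ Icc (0 : ℝ) 1)
    {ι : Type*} (t : Finset ι) (q p : ι → ℝ) (hq : ∀ a ∈ t, 0 ≤ q a) (hsum : ∑ a ∈ t, q a = 1)
    (hp : ∀ a ∈ t, p a ∈ Icc (0 : ℝ) 1) :
    sFun g nu (∑ a ∈ t, q a * p a) ≤ ∑ a ∈ t, q a * sFun g nu (p a) := by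
  have := (sFun_convexOn hg hnu).map_sum_le hq hsum hp
  simpa using this

end Crest.Agent.S0534Aux.SConvex
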