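import Crest.Prelude.Def_AmpDamp
import Crest.Agent.S0534Aux.SConvex

set_option autoImplicit false
open Crest.Quantum Crest.MathPhysics.AmpDamp
open scoped ComplexOrder

namespace Crest.Agent.S0534Aux.QubitTwo

/-- entropy of a `2 × 2` density matrix of determinant `v`. -/
noncomputable def hdet (v : ℝ) : ℝ := Real.binEntropy ((1 + Real.sqrt (1 - 4 * v)) / 2)

theorem binEntropy_eq (x : ℝ) :
    Real.binEntropy x = -(x * Real.log x) - (1 - x) * Real.log (1 - x) := by
  simp [Real.binEntropy, Real.log_inv]; ring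

/-- (Q1) -/
theorem vnEntropy_bool (ρ : Matrix Bool Bool ℂ) (hρ : ρ.IsHermitian) (htr : ρ.trace = 1)
    (v : ℝ) (hv : ρ.det = (v : ℂ)) : vnEntropy ρ = hdet v := by
  have h1 : (hρ.eigenvalues false + hρ.eigenvalues true : ℝ) = 1 := by
    have := hρ.trace_eq_sum_eigenvalues
    rw [htr] at this
    simp only [Fintype.sum_bool] at this
    have h2 : ((hρ.eigenvalues true + hρ.eigenvalues false : ℝ) : ℂ) = ((1 : ℝ) : ℂ) := by
      push_cast; exact this.symm
    have := Complex.ofReal_injective h2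
    linarith
  have h2 : (hρ.eigenvalues false * hρ.eigenvalues true : ℝ) = v := by
    have := hρ.det_eq_prod_eigenvalues
    rw [hv] at this
    simp only [Fintype.prod_bool] at this
    have h3 : ((hρ.eigenvalues true * hρ.eigenvalues false : ℝ) : ℂ) = ((v : ℝ) : ℂ) := by
      push_cast; exact this.symm
    have := Complex.ofReal_injective h3
    linarith
  set a := hρ.eigenvalues false with ha
  set b := hρ.eigenvalues true with hb
  have hS : vnEntropy ρ = -(a * Real.log a) - b * Real.log b := by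
    unfold vnEntropy
    rw [dif_pos hρ]
    simp only [Fintype.sum_bool]
    ring
  have hsq : 1 - 4 * v = (b - a) ^ 2 := by
    have : a = 1 - b := by linarith
    rw [← h2, this]; ring
  rw [hS, hdet, hsq, Real.sqrt_sq_eq_abs]
  rcases le_total a b with hab | hab
  · rw [abs_of_nonneg (by linarith)]
    have : (1 + (b - a)) / 2 = b := by linarith
    rw [this, binEntropy_eq]
    have : 1 - b = a := by linarith
    rw [this]; ring
  · rw [abs_of_nonpos (by linarith)]
    have : (1 + -(b - a)) / 2 = a := by linarith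
    rw [this, binEntropy_eq]
    have : 1 - a = b := by linarith
    rw [this]

theorem det_bool (M : Matrix Bool Bool ℂ) :
    M.det = M false false * M true true - M false true * M true false := by
  rw [← Matrix.det_submatrix_equiv_self finTwoEquiv M, Matrix.det_fin_two]
  simp [finTwoEquiv]

theorem trace_bool (M : Matrix Bool Bool ℂ) : M.trace = M false false + M true true := by
  simp [Matrix.trace, add_comm]

theorem hdet_mul_one_sub (x : ℝ) : hdet (x * (1 - x)) = Real.binEntropy x := by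
  unfold hdet
  have : 1 - 4 * (x * (1 - x)) = (1 - 2 * x) ^ 2 := by ring
  rw [this, Real.sqrt_sq_eq_abs]
  rcases le_total 0 (1 - 2 * x) with h | h
  · rw [abs_of_nonneg h]
    have : (1 + (1 - 2 * x)) / 2 = 1 - x := by ring
    rw [this, Real.binEntropy_one_sub]
  · rw [abs_of_nonpos h]
    have : (1 + -(1 - 2 * x)) / 2 = x := by ring
    rw [this]

/-- `hdet` is monotone on `[0, ∞)` (constant `log 2` beyond `1/4`). -/
theorem hdet_mono {v w : ℝ} (hv : 0 ≤ v) (hvw : v ≤ w) : hdet v ≤ hdet w := by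
  unfold hdet
  have h1 : Real.sqrt (1 - 4 * w) ≤ Real.sqrt (1 - 4 * v) := Real.sqrt_le_sqrt (by linarith)
  have h2 : Real.sqrt (1 - 4 * v) ≤ 1 := by
    rw [Real.sqrt_le_left zero_le_one]; linarith
  apply Real.binEntropy_strictAntiOn.antitoneOn
  · constructor <;> nlinarith [Real.sqrt_nonneg (1 - 4 * w)]
  · constructor <;> nlinarith [Real.sqrt_nonneg (1 - 4 * v)]
  · linarith

theorem sFun_eq_hdet (γ ν p : ℝ) : SConvex.sFun γ ν p = hdet (SConvex.vFun γ ν p) := rfl

theorem gadRate_eq (γ ν p : ℝ) :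
    gadRate γ ν p = Real.binEntropy ((1 - γ) * p + γ * ν) - SConvex.sFun γ ν p := rfl

/-! ### entries of `gadMap` -/

@[simp] theorem gadMap_ff (γ ν : ℝ) (M : Matrix Bool Bool ℂ) :
    gadMap γ ν M false false =
      ((1 - γ * ν : ℝ) : ℂ) * M false false + ((γ * (1 - ν) : ℝ) : ℂ) * M true true := by
  simp [gadMap]

@[simp] theorem gadMap_tt (γ ν : ℝ) (M : Matrix Bool Bool ℂ) :
    gadMap γ ν M true true =
      ((γ * ν : ℝ) : ℂ) * M false false + ((1 - γ + γ * ν : ℝ) : ℂ) * M true true := by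
  simp [gadMap]

@[simp] theorem gadMap_ft (γ ν : ℝ) (M : Matrix Bool Bool ℂ) :
    gadMap γ ν M false true = ((Real.sqrt (1 - γ) : ℝ) : ℂ) * M false true := by
  simp [gadMap]

@[simp] theorem gadMap_tf (γ ν : ℝ) (M : Matrix Bool Bool ℂ) :
    gadMap γ ν M true false = ((Real.sqrt (1 - γ) : ℝ) : ℂ) * M true false := by
  simp [gadMap]

theorem gadMap_isHermitian (γ ν : ℝ) {M : Matrix Bool Bool ℂ} (hM : M.IsHermitian) :
    (gadMap γ ν M).IsHermitian := by
  have hff : (starRingEnd ℂ) (M false false) = M false false := hM.apply false false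
  have htt : (starRingEnd ℂ) (M true true) = M true true := hM.apply true true
  have hft : (starRingEnd ℂ) (M true false) = M false true := hM.apply false true
  have htf : (starRingEnd ℂ) (M false true) = M true false := hM.apply true false
  ext i j
  rw [Matrix.conjTranspose_apply]
  cases i <;> cases j <;>
    simp only [gadMap_ff, gadMap_tt, gadMap_ft, gadMap_tf, RCLike.star_def, map_add, map_mul,
      Complex.conj_ofReal, hff, htt, hft, htf]

theorem gadMap_trace (γ ν : ℝ) (M : Matrix Bool Bool ℂ) : (gadMap γ ν M).trace = M.trace := by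
  rw [trace_bool, trace_bool]; simp; ring

/-- entries of a qubit density matrix. -/
theorem density_entries {ρ : Matrix Bool Bool ℂ} (hρ : IsDensity ρ) :
    (ρ true true).re ∈ Set.Icc (0 : ℝ) 1 ∧
    Complex.normSq (ρ false true) ≤ (ρ true true).re * (1 - (ρ true true).re) ∧
    ρ false false = ((1 - (ρ true true).re : ℝ) : ℂ) ∧ ρ true true = (((ρ true true).re : ℝ) : ℂ) ∧
    ρ true false = (starRingEnd ℂ) (ρ false true) := by
  obtain ⟨hpsd, htr⟩ := hρ
  have hH := hpsd.isHermitian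
  have htt : (starRingEnd ℂ) (ρ true true) = ρ true true := hH.apply true true
  have htf : (starRingEnd ℂ) (ρ false true) = ρ true false := hH.apply true false
  have htt' : ρ true true = (((ρ true true).re : ℝ) : ℂ) := (Complex.conj_eq_iff_real.1 htt).choose_spec ▸ by
    simp
  rw [trace_bool] at htr
  have hff' : ρ false false = ((1 - (ρ true true).re : ℝ) : ℂ) := by
    have : ρ false false = 1 - ρ true true := by rw [← htr]; ring
    rw [this]; nth_rewrite 1 [htt']; push_cast; ring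
  have h0 : 0 ≤ ρ true true := hpsd.diag_nonneg
  have h1 : 0 ≤ ρ false false := hpsd.diag_nonneg
  have h0' : 0 ≤ (ρ true true).re := (Complex.le_def.1 h0).1
  have h1' : 0 ≤ 1 - (ρ true true).re := by
    have := (Complex.le_def.1 h1).1
    rw [hff'] at this
    simpa using this
  have hdet : 0 ≤ ρ.det := hpsd.det_nonneg
  rw [det_bool, ← htf, Complex.mul_conj, hff'] at hdet
  nth_rewrite 2 [htt'] at hdet
  have hdet' := (Complex.le_def.1 hdet).1
  simp only [Complex.zero_re, Complex.sub_re, Complex.mul_re, Complex.ofReal_re, Complex.ofReal_im,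
    mul_zero, sub_zero] at hdet'
  refine ⟨⟨h0', by linarith⟩, by nlinarith, hff', htt', htf.symm⟩

/-- determinant of the output of `gadMap` on a density matrix. -/
theorem gadMap_det {γ : ℝ} (hγ : γ ≤ 1) (ν : ℝ) {ρ : Matrix Bool Bool ℂ} (hρ : IsDensity ρ) :
    (gadMap γ ν ρ).det =
      ((((1 - γ) * (ρ true true).re + γ * ν) * (1 - ((1 - γ) * (ρ true true).re + γ * ν))
        - (1 - γ) * Complex.normSq (ρ false true) : ℝ) : ℂ) := by
  obtain ⟨-, -, hff, htt, htf⟩ := density_entries hρ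
  rw [det_bool, gadMap_ff, gadMap_tt, gadMap_ft, gadMap_tf, htf, hff]
  set p := (ρ true true).re with hp
  rw [htt]
  have hs : ((Real.sqrt (1 - γ) : ℝ) : ℂ) * ((Real.sqrt (1 - γ) : ℝ) : ℂ) = ((1 - γ : ℝ) : ℂ) := by
    rw [← Complex.ofReal_mul, Real.mul_self_sqrt (by linarith)]
  have hz : ρ false true * (starRingEnd ℂ) (ρ false true) = ((Complex.normSq (ρ false true) : ℝ) : ℂ) :=
    Complex.mul_conj _
  have : ((Real.sqrt (1 - γ) : ℝ) : ℂ) * ρ false true *
      (((Real.sqrt (1 - γ) : ℝ) : ℂ) * (starRingEnd ℂ) (ρ false true))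
      = ((1 - γ : ℝ) : ℂ) * ((Complex.normSq (ρ false true) : ℝ) : ℂ) := by
    rw [← hs, ← hz]; ring
  rw [this]
  push_cast
  ring

theorem vnEntropy_gadMap {γ : ℝ} (hγ : γ ≤ 1) (ν : ℝ) {ρ : Matrix Bool Bool ℂ} (hρ : IsDensity ρ) :
    vnEntropy (gadMap γ ν ρ) =
      hdet (((1 - γ) * (ρ true true).re + γ * ν) * (1 - ((1 - γ) * (ρ true true).re + γ * ν))
        - (1 - γ) * Complex.normSq (ρ false true)) :=
  vnEntropy_bool _ (gadMap_isHermitian γ ν hρ.1.isHermitian) (by rw [gadMap_trace, hρ.2]) _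
    (gadMap_det hγ ν hρ)

/-- (Q2) lower bound: the output entropy is at least that of the pure state of the same population. -/
theorem sFun_le_vnEntropy_gadMap {γ ν : ℝ} (hγ : γ ∈ Set.Icc (0 : ℝ) 1) (hν : ν ∈ Set.Icc (0 : ℝ) 1)
    {ρ : Matrix Bool Bool ℂ} (hρ : IsDensity ρ) :
    SConvex.sFun γ ν (ρ true true).re ≤ vnEntropy (gadMap γ ν ρ) := by
  rw [vnEntropy_gadMap hγ.2 ν hρ, sFun_eq_hdet]
  apply hdet_mono (SConvex.vFun_nonneg hγ hν _)
  rw [SConvex.vFun_eq]
  have := (density_entries hρ).2.1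
  have h1 : 0 ≤ 1 - γ := by linarith [hγ.2]
  nlinarith [mul_le_mul_of_nonneg_left this h1]

/-- (Q2) upper bound: dephasing increases the output entropy. -/
theorem vnEntropy_gadMap_le {γ ν : ℝ} (hγ : γ ∈ Set.Icc (0 : ℝ) 1) (hν : ν ∈ Set.Icc (0 : ℝ) 1)
    {ρ : Matrix Bool Bool ℂ} (hρ : IsDensity ρ) :
    vnEntropy (gadMap γ ν ρ) ≤ Real.binEntropy ((1 - γ) * (ρ true true).re + γ * ν) := by
  rw [vnEntropy_gadMap hγ.2 ν hρ, ← hdet_mul_one_sub]
  have h1 : 0 ≤ 1 - γ := by linarith [hγ.2]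
  have h2 := (density_entries hρ).2.1
  have h3 := SConvex.vFun_nonneg hγ hν (ρ true true).re
  rw [SConvex.vFun_eq] at h3
  apply hdet_mono
  · nlinarith [mul_le_mul_of_nonneg_left h2 h1]
  · nlinarith [mul_nonneg h1 (Complex.normSq_nonneg (ρ false true))]

/-- the pure qubit state `√(1-p)|0⟩ + σ √p |1⟩` (used with `σ = ±1`). -/
noncomputable def psi (p σ : ℝ) : Matrix Bool Bool ℂ :=
  Matrix.of fun s t =>
    if s = false ∧ t = false then ((1 - p : ℝ) : ℂ)
    else if s = true ∧ t = true then ((p : ℝ) : ℂ)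
    else ((σ * Real.sqrt (p * (1 - p)) : ℝ) : ℂ)

@[simp] theorem psi_ff (p σ : ℝ) : psi p σ false false = ((1 - p : ℝ) : ℂ) := by simp [psi]
@[simp] theorem psi_tt (p σ : ℝ) : psi p σ true true = ((p : ℝ) : ℂ) := by simp [psi]
@[simp] theorem psi_ft (p σ : ℝ) :
    psi p σ false true = ((σ * Real.sqrt (p * (1 - p)) : ℝ) : ℂ) := by simp [psi]
@[simp] theorem psi_tf (p σ : ℝ) :
    psi p σ true false = ((σ * Real.sqrt (p * (1 - p)) : ℝ) : ℂ) := by simp [psi]

theorem isDensity_psi {p σ : ℝ} (hp : p ∈ Set.Icc (0 : ℝ) 1) (hσ : σ * σ = 1) :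
    IsDensity (psi p σ) := by
  have h1 : 0 ≤ 1 - p := by linarith [hp.2]
  refine ⟨?_, by rw [trace_bool]; simp⟩
  let v : Bool → ℂ := fun b => if b then ((σ * Real.sqrt p : ℝ) : ℂ) else ((Real.sqrt (1 - p) : ℝ) : ℂ)
  have : psi p σ = Matrix.vecMulVec v (star v) := by
    ext i j
    cases i <;> cases j <;>
      simp only [psi_ff, psi_tt, psi_ft, psi_tf, Matrix.vecMulVec_apply, Pi.star_apply, v,
        RCLike.star_def, Complex.conj_ofReal, ← Complex.ofReal_mul, Bool.false_eq_true, if_false,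
        if_true]
    · rw [Real.mul_self_sqrt h1]
    · congr 1; rw [Real.sqrt_mul hp.1]; ring
    · congr 1; rw [Real.sqrt_mul hp.1]; ring
    · congr 1
      have := Real.mul_self_sqrt hp.1
      calc p = (σ * σ) * (Real.sqrt p * Real.sqrt p) := by rw [hσ, this]; ring
        _ = _ := by ring
  rw [this]
  exact Matrix.posSemidef_vecMulVec_self_star v

/-- (Q2) the output entropy of the pure state of excited population `p` is `s(p)`. -/
theorem vnEntropy_gadMap_psi {γ ν p σ : ℝ} (hγ : γ ∈ Set.Icc (0 : ℝ) 1)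
    (hp : p ∈ Set.Icc (0 : ℝ) 1) (hσ : σ * σ = 1) :
    vnEntropy (gadMap γ ν (psi p σ)) = SConvex.sFun γ ν p := by
  rw [vnEntropy_gadMap hγ.2 ν (isDensity_psi hp hσ), sFun_eq_hdet, SConvex.vFun_eq]
  congr 1
  simp only [psi_tt, psi_ft, Complex.ofReal_re, Complex.normSq_ofReal]
  have h : 0 ≤ p * (1 - p) := mul_nonneg hp.1 (by linarith [hp.2])
  have : σ * Real.sqrt (p * (1 - p)) * (σ * Real.sqrt (p * (1 - p))) = p * (1 - p) := by
    calc _ = (σ * σ) * (Real.sqrt (p * (1 - p)) * Real.sqrt (p * (1 - p))) := by ring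
      _ = _ := by rw [hσ, Real.mul_self_sqrt h]; ring
  rw [this]

/-- (Q4) the `Φ`-side ensemble `{q_a/2, ψ_{p_a,±}}`. -/
theorem exists_ensemble {γ ν : ℝ} (hγ : γ ∈ Set.Icc (0 : ℝ) 1)
    (m : ℕ) (q p : Fin m → ℝ) (hq : ∀ a, 0 ≤ q a) (hq1 : ∑ a, q a = 1)
    (hp : ∀ a, p a ∈ Set.Icc (0 : ℝ) 1) :
    ∃ (m₁ : ℕ) (q₁ : Fin m₁ → ℝ) (ρ₁ : Fin m₁ → Matrix Bool Bool ℂ), IsEnsemble q₁ ρ₁ ∧
      holevoInfo (gadMap γ ν) q₁ ρ₁ =
        Real.binEntropy ((1 - γ) * (∑ a, q a * p a) + γ * ν) - ∑ a, q a * SConvex.sFun γ ν (p a) := by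
  refine ⟨m + m, Fin.append (fun a => q a / 2) (fun a => q a / 2),
    Fin.append (fun a => psi (p a) 1) (fun a => psi (p a) (-1)), ⟨?_, ?_, ?_⟩, ?_⟩
  · intro a
    refine Fin.addCases (fun i => ?_) (fun i => ?_) a
    · rw [Fin.append_left]; linarith [hq i]
    · rw [Fin.append_right]; linarith [hq i]
  · rw [Fin.sum_univ_add]
    simp only [Fin.append_left, Fin.append_right]
    rw [← Finset.sum_add_distrib]
    simp only [add_halves, hq1]
  · intro a
    refine Fin.addCases (fun i => ?_) (fun i => ?_) a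
    · rw [Fin.append_left]; exact isDensity_psi (hp i) (by norm_num)
    · rw [Fin.append_right]; exact isDensity_psi (hp i) (by norm_num)
  · unfold holevoInfo
    rw [Fin.sum_univ_add, Fin.sum_univ_add]
    simp only [Fin.append_left, Fin.append_right]
    have hS : ∀ a, vnEntropy (gadMap γ ν (psi (p a) 1)) = SConvex.sFun γ ν (p a) :=
      fun a => vnEntropy_gadMap_psi hγ (hp a) (by norm_num)
    have hS' : ∀ a, vnEntropy (gadMap γ ν (psi (p a) (-1))) = SConvex.sFun γ ν (p a) :=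
      fun a => vnEntropy_gadMap_psi hγ (hp a) (by norm_num)
    simp only [hS, hS']
    rw [← Finset.sum_add_distrib, ← Finset.sum_add_distrib]
    have e2 : ∀ a, q a / 2 * SConvex.sFun γ ν (p a) + q a / 2 * SConvex.sFun γ ν (p a)
        = q a * SConvex.sFun γ ν (p a) := fun a => by ring
    simp only [e2]
    congr 1
    set Q : ℝ := (1 - γ) * (∑ a, q a * p a) + γ * ν with hQ
    set A : Matrix Bool Bool ℂ := ∑ a, (((q a / 2 : ℝ) : ℂ) • gadMap γ ν (psi (p a) 1) +
      ((q a / 2 : ℝ) : ℂ) • gadMap γ ν (psi (p a) (-1))) with hA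
    have hff : A false false = ((1 - Q : ℝ) : ℂ) := by
      simp only [hA, Matrix.add_apply, Matrix.sum_apply, Matrix.smul_apply, gadMap_ff, psi_ff, psi_tt,
        smul_eq_mul]
      have : ∀ a, ((q a / 2 : ℝ) : ℂ) * (((1 - γ * ν : ℝ) : ℂ) * ((1 - p a : ℝ) : ℂ) +
          ((γ * (1 - ν) : ℝ) : ℂ) * ((p a : ℝ) : ℂ)) + ((q a / 2 : ℝ) : ℂ) * (((1 - γ * ν : ℝ) : ℂ) *
          ((1 - p a : ℝ) : ℂ) + ((γ * (1 - ν) : ℝ) : ℂ) * ((p a : ℝ) : ℂ))
          = (((1 - γ * ν) * q a - (1 - γ) * (q a * p a) : ℝ) : ℂ) := by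
        intro a; push_cast; ring
      simp only [this]
      rw [← Complex.ofReal_sum, Finset.sum_sub_distrib, ← Finset.mul_sum, ← Finset.mul_sum, hq1, hQ]
      congr 1; ring
    have htt : A true true = ((Q : ℝ) : ℂ) := by
      simp only [hA, Matrix.add_apply, Matrix.sum_apply, Matrix.smul_apply, gadMap_tt, psi_ff, psi_tt,
        smul_eq_mul]
      have : ∀ a, ((q a / 2 : ℝ) : ℂ) * (((γ * ν : ℝ) : ℂ) * ((1 - p a : ℝ) : ℂ) +
          ((1 - γ + γ * ν : ℝ) : ℂ) * ((p a : ℝ) : ℂ)) + ((q a / 2 : ℝ) : ℂ) * (((γ * ν : ℝ) : ℂ) *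
          ((1 - p a : ℝ) : ℂ) + ((1 - γ + γ * ν : ℝ) : ℂ) * ((p a : ℝ) : ℂ))
          = (((γ * ν) * q a + (1 - γ) * (q a * p a) : ℝ) : ℂ) := by
        intro a; push_cast; ring
      simp only [this]
      rw [← Complex.ofReal_sum, Finset.sum_add_distrib, ← Finset.mul_sum, ← Finset.mul_sum, hq1, hQ]
      congr 1; ring
    have hft : A false true = 0 := by
      simp only [hA, Matrix.add_apply, Matrix.sum_apply, Matrix.smul_apply, gadMap_ft, psi_ft,
        smul_eq_mul]
      apply Finset.sum_eq_zero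
      intro a _; push_cast; ring
    have htf : A true false = 0 := by
      simp only [hA, Matrix.add_apply, Matrix.sum_apply, Matrix.smul_apply, gadMap_tf, psi_tf,
        smul_eq_mul]
      apply Finset.sum_eq_zero
      intro a _; push_cast; ring
    have hH : A.IsHermitian := by
      ext i j
      rw [Matrix.conjTranspose_apply]
      cases i <;> cases j <;> simp [hff, htt, hft, htf]
    rw [← hdet_mul_one_sub]
    apply vnEntropy_bool A hH
    · rw [trace_bool, hff, htt]; push_cast; ring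
    · rw [det_bool, hff, htt, hft, htf]; push_cast; ring

/-- `gadRate γ ν p` is attained by a two-state ensemble (`n = 1` achievability). -/
theorem exists_ensemble_gadRate {γ ν p : ℝ} (hγ : γ ∈ Set.Icc (0 : ℝ) 1)
    (hp : p ∈ Set.Icc (0 : ℝ) 1) :
    ∃ (m₁ : ℕ) (q₁ : Fin m₁ → ℝ) (ρ₁ : Fin m₁ → Matrix Bool Bool ℂ), IsEnsemble q₁ ρ₁ ∧
      holevoInfo (gadMap γ ν) q₁ ρ₁ = gadRate γ ν p := by
  obtain ⟨m₁, q₁, ρ₁, h1, h2⟩ := exists_ensemble (ν := ν) hγ 1 (fun _ => 1) (fun _ => p)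
    (fun _ => zero_le_one) (by simp) (fun _ => hp)
  refine ⟨m₁, q₁, ρ₁, h1, ?_⟩
  rw [h2, gadRate_eq]; simp

/-- Jensen: the value of the ensemble of `exists_ensemble` is at most the rate at the mean. -/
theorem binEntropy_sub_sum_le_gadRate {γ ν : ℝ} (hγ : γ ∈ Set.Icc (0 : ℝ) 1)
    (hν : ν ∈ Set.Icc (0 : ℝ) 1) {ι : Type*} (t : Finset ι) (q p : ι → ℝ) (hq : ∀ a ∈ t, 0 ≤ q a)
    (hq1 : ∑ a ∈ t, q a = 1) (hp : ∀ a ∈ t, p a ∈ Set.Icc (0 : ℝ) 1) :
    Real.binEntropy ((1 - γ) * (∑ a ∈ t, q a * p a) + γ * ν) - ∑ a ∈ t, q a * SConvex.sFun γ ν (p a)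
      ≤ gadRate γ ν (∑ a ∈ t, q a * p a) := by
  rw [gadRate_eq]
  have := SConvex.sFun_jensen hγ hν t q p hq hq1 hp
  linarith

end Crest.Agent.S0534Aux.QubitTwo
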