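import Mathlib
import Crest.Prelude.Def_QState

/-!
Ensembles indexed by an arbitrary finite type can be re-indexed by `Fin m`.
-/

set_option autoImplicit false

namespace Crest.Agent.S0534Aux.Ensemble

open Crest.Quantum

/-- Holevo information of an ensemble indexed by a finite type. -/
noncomputable def holevoInfo' {ι d e : Type*} [Fintype ι] [Fintype d] [Fintype e] [DecidableEq e]
    (Φ : Matrix d d ℂ → Matrix e e ℂ) (q : ι → ℝ) (ρ : ι → Matrix d d ℂ) : ℝ :=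
  vnEntropy (∑ a, (q a : ℂ) • Φ (ρ a)) - ∑ a, q a * vnEntropy (Φ (ρ a))

/-- Every ensemble indexed by a finite type is an ensemble indexed by some `Fin m`, with the same
Holevo information for all maps (into all output systems in a fixed universe). -/
theorem exists_fin {ι d : Type*} [Fintype ι] [Fintype d]
    (q : ι → ℝ) (ρ : ι → Matrix d d ℂ) (hq : ∀ a, 0 ≤ q a) (hq1 : ∑ a, q a = 1)
    (hρ : ∀ a, IsDensity (ρ a)) :
    ∃ (m : ℕ) (q' : Fin m → ℝ) (ρ' : Fin m → Matrix d d ℂ), IsEnsemble q' ρ' ∧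
      (∑ a, (q' a : ℂ) • ρ' a = ∑ a, (q a : ℂ) • ρ a) ∧
      ∀ (e : Type) [Fintype e] [DecidableEq e] (Φ : Matrix d d ℂ → Matrix e e ℂ),
        holevoInfo Φ q' ρ' = holevoInfo' Φ q ρ := by
  classical
  let E := (Fintype.equivFin ι).symm
  refine ⟨Fintype.card ι, q ∘ E, ρ ∘ E, ⟨fun a => hq _, ?_, fun a => hρ _⟩, ?_, ?_⟩
  · rw [← hq1]
    exact Equiv.sum_comp E q
  · exact Equiv.sum_comp E (fun a => (q a : ℂ) • ρ a)
  · intro e _ _ Φ
    unfold holevoInfo holevoInfo'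
    have h1 : ∑ a, ((q ∘ E) a : ℂ) • Φ ((ρ ∘ E) a) = ∑ a, (q a : ℂ) • Φ (ρ a) :=
      Equiv.sum_comp E (fun a => (q a : ℂ) • Φ (ρ a))
    have h2 : ∑ a, (q ∘ E) a * vnEntropy (Φ ((ρ ∘ E) a)) = ∑ a, q a * vnEntropy (Φ (ρ a)) :=
      Equiv.sum_comp E (fun a => q a * vnEntropy (Φ (ρ a)))
    rw [h1, h2]

end Crest.Agent.S0534Aux.Ensemble
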