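import Mathlib

/-!
Wootters' function `W t = binEntropy ((1 + √(1 - t^2)) / 2)` is convex and increasing on `[0,1]`.
-/

set_option autoImplicit false

namespace Crest.Agent.S0534Aux.Wootters

open Real Set

/-- Wootters' function. -/
noncomputable def W (t : ℝ) : ℝ := binEntropy ((1 + √(1 - t ^ 2)) / 2)

/-- `2 artanh r`. -/
noncomputable def L (r : ℝ) : ℝ := log (1 + r) - log (1 - r)

lemma two_mul_le_L {r : ℝ} (h0 : 0 ≤ r) (h1 : r < 1) : 2 * r ≤ L r := by
  have h1' : 0 < 1 - r := by linarith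
  have ha : 2 * r / (r + 2) ≤ log (1 + r) := Real.le_log_one_add_of_nonneg h0
  have hq : 0 ≤ r / (1 - r) := div_nonneg h0 h1'.le
  have hb : 2 * (r / (1 - r)) / (r / (1 - r) + 2) ≤ log (1 + r / (1 - r)) :=
    Real.le_log_one_add_of_nonneg hq
  have hc : 1 + r / (1 - r) = (1 - r)⁻¹ := by field_simp; ring
  rw [hc, Real.log_inv] at hb
  have hd : 2 * (r / (1 - r)) / (r / (1 - r) + 2) = 2 * r / (2 - r) := by
    have : (2 - r) ≠ 0 := by linarith
    field_simp
    ring
  rw [hd] at hb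
  have he : 2 * r ≤ 2 * r / (r + 2) + 2 * r / (2 - r) := by
    have h2 : 0 < r + 2 := by linarith
    have h3 : 0 < 2 - r := by linarith
    have : 2 * r / (r + 2) + 2 * r / (2 - r) = 8 * r / ((r + 2) * (2 - r)) := by
      field_simp; ring
    rw [this, le_div_iff₀ (mul_pos h2 h3)]
    nlinarith [mul_nonneg h0 (mul_nonneg h0 h0)]
  unfold L
  linarith

/-- the radius `r t = √(1 - t^2)` -/
noncomputable def r (t : ℝ) : ℝ := √(1 - t ^ 2)

lemma r_pos {t : ℝ} (ht : t ∈ Ioo (0:ℝ) 1) : 0 < r t := by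
  unfold r
  apply Real.sqrt_pos.mpr
  nlinarith [ht.1, ht.2]

lemma r_lt_one {t : ℝ} (ht : t ∈ Ioo (0:ℝ) 1) : r t < 1 := by
  unfold r
  rw [Real.sqrt_lt' one_pos]
  nlinarith [ht.1, ht.2]

lemma r_sq {t : ℝ} (ht : t ∈ Ioo (0:ℝ) 1) : r t ^ 2 = 1 - t ^ 2 := by
  unfold r
  apply Real.sq_sqrt
  nlinarith [ht.1, ht.2]

lemma hasDerivAt_r {t : ℝ} (ht : t ∈ Ioo (0:ℝ) 1) : HasDerivAt r (-t / r t) t := by
  have h1 : HasDerivAt (fun t : ℝ => 1 - t ^ 2) (-(2 * t)) t := by
    have := ((hasDerivAt_id t).pow 2).const_sub 1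
    simpa using this
  have hne : (1 - t ^ 2) ≠ 0 := by nlinarith [ht.1, ht.2]
  have h2 := h1.sqrt hne
  have : -(2 * t) / (2 * √(1 - t ^ 2)) = -t / r t := by
    unfold r
    have := (r_pos ht).ne'
    unfold r at this
    field_simp
  rw [this] at h2
  exact h2

/-- the derivative of `W` -/
noncomputable def D (t : ℝ) : ℝ := t * L (r t) / (2 * r t)

lemma hasDerivAt_W {t : ℝ} (ht : t ∈ Ioo (0:ℝ) 1) : HasDerivAt W (D t) t := by
  have hr0 := r_pos ht
  have hr1 := r_lt_one ht
  have hx0 : (1 + r t) / 2 ≠ 0 := by positivity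
  have hx1 : (1 + r t) / 2 ≠ 1 := by linarith
  have h1 : HasDerivAt (fun t => (1 + r t) / 2) ((-t / r t) / 2) t :=
    ((hasDerivAt_r ht).const_add 1).div_const 2
  have h2 := (hasDerivAt_binEntropy hx0 hx1).comp t h1
  have h3 : (log (1 - (1 + r t) / 2) - log ((1 + r t) / 2)) * (-t / r t / 2) = D t := by
    have e1 : 1 - (1 + r t) / 2 = (1 - r t) / 2 := by ring
    rw [e1, Real.log_div (by linarith) (by norm_num), Real.log_div (by linarith) (by norm_num)]
    unfold D L
    field_simp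
    ring
  rw [h3] at h2
  exact h2

lemma hasDerivAt_L {x : ℝ} (h0 : 0 < x) (h1 : x < 1) :
    HasDerivAt L (1 / (1 + x) + 1 / (1 - x)) x := by
  have a : HasDerivAt (fun x : ℝ => log (1 + x)) (1 / (1 + x)) x := by
    have := ((hasDerivAt_id x).const_add 1).log (by simp; linarith)
    simpa using this
  have b : HasDerivAt (fun x : ℝ => log (1 - x)) (-1 / (1 - x)) x := by
    have := ((hasDerivAt_id x).const_sub 1).log (by simp; linarith)
    simpa using this
  have := a.sub b
  have e : 1 / (1 + x) - -1 / (1 - x) = 1 / (1 + x) + 1 / (1 - x) := by ring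
  rw [e] at this
  exact this

lemma hasDerivAt_D {t : ℝ} (ht : t ∈ Ioo (0:ℝ) 1) :
    HasDerivAt D ((L (r t) - 2 * r t) / (2 * r t ^ 3)) t := by
  have hr0 := r_pos ht
  have hr1 := r_lt_one ht
  have hsq := r_sq ht
  have hr := hasDerivAt_r ht
  have hL : HasDerivAt (fun t => L (r t)) ((1 / (1 + r t) + 1 / (1 - r t)) * (-t / r t)) t :=
    (hasDerivAt_L hr0 hr1).comp t hr
  have hnum : HasDerivAt (fun t => t * L (r t))
      (1 * L (r t) + t * ((1 / (1 + r t) + 1 / (1 - r t)) * (-t / r t))) t :=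
    (hasDerivAt_id t).mul hL
  have hden : HasDerivAt (fun t => 2 * r t) (2 * (-t / r t)) t := hr.const_mul 2
  have h := hnum.div hden (by positivity)
  have e : ((1 * L (r t) + t * ((1 / (1 + r t) + 1 / (1 - r t)) * (-t / r t))) * (2 * r t)
      - t * L (r t) * (2 * (-t / r t))) / (2 * r t) ^ 2 = (L (r t) - 2 * r t) / (2 * r t ^ 3) := by
    have h1 : (1 + r t) ≠ 0 := by linarith
    have h2 : (1 - r t) ≠ 0 := by linarith
    have h3 : r t ≠ 0 := hr0.ne'
    have ht2 : t ^ 2 = 1 - r t ^ 2 := by linarith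
    have key : (1 / (1 + r t) + 1 / (1 - r t)) * t ^ 2 = 2 := by
      rw [ht2]; field_simp; ring
    have e1 : t * ((1 / (1 + r t) + 1 / (1 - r t)) * (-t / r t)) = - 2 / r t := by
      have : t * ((1 / (1 + r t) + 1 / (1 - r t)) * (-t / r t))
          = -((1 / (1 + r t) + 1 / (1 - r t)) * t ^ 2) / r t := by ring
      rw [this, key]
    rw [e1]
    have e2 : t * L (r t) * (2 * (-t / r t)) = - 2 * t ^ 2 * L (r t) / r t := by ring
    rw [e2, ht2]
    field_simp
    ring
  rw [e] at h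
  exact h

lemma D_monotoneOn : MonotoneOn D (Ioo (0:ℝ) 1) := by
  apply monotoneOn_of_deriv_nonneg (convex_Ioo 0 1)
  · intro t ht
    exact (hasDerivAt_D ht).continuousAt.continuousWithinAt
  · intro t ht
    rw [interior_Ioo] at ht
    exact (hasDerivAt_D ht).differentiableAt.differentiableWithinAt
  · intro t ht
    rw [interior_Ioo] at ht
    rw [(hasDerivAt_D ht).deriv]
    have hr0 := r_pos ht
    have hr1 := r_lt_one ht
    have := two_mul_le_L hr0.le hr1
    apply div_nonneg (by linarith) (by positivity)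

lemma W_continuous : Continuous W := by
  unfold W
  fun_prop

theorem W_convexOn : ConvexOn ℝ (Icc (0:ℝ) 1) W := by
  apply MonotoneOn.convexOn_of_deriv (convex_Icc 0 1) W_continuous.continuousOn
  · intro t ht
    rw [interior_Icc] at ht
    exact (hasDerivAt_W ht).differentiableAt.differentiableWithinAt
  · rw [interior_Icc]
    intro a ha b hb hab
    rw [(hasDerivAt_W ha).deriv, (hasDerivAt_W hb).deriv]
    exact D_monotoneOn ha hb hab

theorem W_monotoneOn : MonotoneOn W (Icc (0:ℝ) 1) := by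
  intro a ha b hb hab
  unfold W
  have h1 : √(1 - b ^ 2) ≤ √(1 - a ^ 2) := by
    apply Real.sqrt_le_sqrt
    nlinarith [ha.1, hb.1]
  have hb0 : 0 ≤ √(1 - b ^ 2) := Real.sqrt_nonneg _
  have ha1 : √(1 - a ^ 2) ≤ 1 := by
    rw [Real.sqrt_le_left (by norm_num : (0:ℝ) ≤ 1)]
    nlinarith [sq_nonneg a]
  apply binEntropy_strictAntiOn.antitoneOn
  · constructor <;> [skip; skip] <;> linarith
  · constructor <;> [skip; skip] <;> linarith
  · linarith

end Crest.Agent.S0534Aux.Wootters
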