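import Mathlib
import Crest.Prelude.Def_QState
import Crest.Prelude.Def_QChannel
import Crest.Prelude.Def_AmpDamp
import Crest.Agent.S0534Aux.Wootters

/-!
Scalar / single-qubit facts for the generalized amplitude damping channel.
-/

set_option autoImplicit false

namespace Crest.Agent.S0534Aux.Scalar

open Real Set Crest.Quantum Crest.MathPhysics.AmpDamp
open scoped ComplexOrder

/-- entropy of a `2 × 2` density matrix of determinant `v`. -/
noncomputable def hdet (v : ℝ) : ℝ := binEntropy ((1 + √(1 - 4 * v)) / 2)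

lemma hdet_mul_one_sub (x : ℝ) : hdet (x * (1 - x)) = binEntropy x := by
  unfold hdet
  have h : 1 - 4 * (x * (1 - x)) = (1 - 2 * x) ^ 2 := by ring
  rw [h, Real.sqrt_sq_eq_abs]
  rcases le_total 0 (1 - 2 * x) with h0 | h0
  · rw [abs_of_nonneg h0]
    have : (1 + (1 - 2 * x)) / 2 = 1 - x := by ring
    rw [this, binEntropy_one_sub]
  · rw [abs_of_nonpos h0]
    have : (1 + -(1 - 2 * x)) / 2 = x := by ring
    rw [this]

lemma hdet_monotoneOn : MonotoneOn hdet (Icc (0:ℝ) (1/4)) := by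
  intro a ha b hb hab
  unfold hdet
  have h1 : √(1 - 4 * b) ≤ √(1 - 4 * a) := Real.sqrt_le_sqrt (by linarith)
  have hb0 : 0 ≤ √(1 - 4 * b) := Real.sqrt_nonneg _
  have ha1 : √(1 - 4 * a) ≤ 1 := by
    rw [Real.sqrt_le_left (by norm_num : (0:ℝ) ≤ 1)]
    linarith [ha.1]
  apply binEntropy_strictAntiOn.antitoneOn
  · constructor <;> [skip; skip] <;> linarith
  · constructor <;> [skip; skip] <;> linarith
  · linarith

/-- The entropy of a Hermitian `2 × 2` matrix of trace one is `hdet` of its determinant. -/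
theorem vnEntropy_two (σ : Matrix Bool Bool ℂ) (hH : σ.IsHermitian) (htr : σ.trace = 1) :
    vnEntropy σ = hdet (σ.det).re := by
  unfold vnEntropy
  rw [dif_pos hH]
  have h1 := hH.trace_eq_sum_eigenvalues
  have h2 := hH.det_eq_prod_eigenvalues
  rw [Fintype.sum_bool] at h1
  rw [Fintype.prod_bool] at h2
  rw [htr] at h1
  set x := hH.eigenvalues true with hx
  set y := hH.eigenvalues false with hy
  have h1' : x + y = 1 := by
    have := congrArg Complex.re h1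
    simp at this
    linarith
  have h2' : (σ.det).re = x * y := by
    rw [h2]
    simp
  have hy' : y = 1 - x := by linarith
  rw [h2', Fintype.sum_bool, ← hx, ← hy, hy', hdet_mul_one_sub, binEntropy]
  simp only [Real.log_inv]
  ring

/-- the determinant of the output of the channel on a pure state of excited population `p`. -/
noncomputable def vdet (γ ν p : ℝ) : ℝ := γ * ν * (1 - ν) + γ * (1 - γ) * (p - ν) ^ 2

/-- output entropy of a pure input of excited population `p`. -/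
noncomputable def sfun (γ ν p : ℝ) : ℝ := hdet (vdet γ ν p)

lemma gadRate_eq (γ ν p : ℝ) :
    gadRate γ ν p = binEntropy ((1 - γ) * p + γ * ν) - sfun γ ν p := rfl

lemma vdet_eq (γ ν p : ℝ) :
    vdet γ ν p = ((1 - γ) * p + γ * ν) * (1 - ((1 - γ) * p + γ * ν)) - (1 - γ) * (p * (1 - p)) := by
  unfold vdet; ring

lemma vdet_nonneg {γ ν p : ℝ} (hγ : γ ∈ Icc (0:ℝ) 1) (hν : ν ∈ Icc (0:ℝ) 1) : 0 ≤ vdet γ ν p := by
  unfold vdet
  have h1 : 0 ≤ γ * ν * (1 - ν) :=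
    mul_nonneg (mul_nonneg hγ.1 hν.1) (by linarith [hν.2])
  have h2 : 0 ≤ γ * (1 - γ) * (p - ν) ^ 2 :=
    mul_nonneg (mul_nonneg hγ.1 (by linarith [hγ.2])) (sq_nonneg _)
  linarith

lemma vdet_le {γ ν p : ℝ} (hγ : γ ∈ Icc (0:ℝ) 1) (hp : p ∈ Icc (0:ℝ) 1) :
    vdet γ ν p ≤ 1 / 4 := by
  rw [vdet_eq]
  have h1 : 0 ≤ (1 - γ) * (p * (1 - p)) :=
    mul_nonneg (by linarith [hγ.2]) (mul_nonneg hp.1 (by linarith [hp.2]))
  nlinarith [sq_nonneg (((1 - γ) * p + γ * ν) - 1 / 2)]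

/-- the convex "norm" function -/
noncomputable def Nfun (γ ν p : ℝ) : ℝ := √(4 * vdet γ ν p)

lemma sfun_eq_W {γ ν p : ℝ} (hγ : γ ∈ Icc (0:ℝ) 1) (hν : ν ∈ Icc (0:ℝ) 1) :
    sfun γ ν p = Wootters.W (Nfun γ ν p) := by
  unfold sfun hdet Wootters.W Nfun
  rw [Real.sq_sqrt (by linarith [vdet_nonneg (p := p) hγ hν])]

lemma Nfun_mem {γ ν p : ℝ} (hγ : γ ∈ Icc (0:ℝ) 1) (hp : p ∈ Icc (0:ℝ) 1) :
    Nfun γ ν p ∈ Icc (0:ℝ) 1 := by
  refine ⟨Real.sqrt_nonneg _, ?_⟩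
  unfold Nfun
  rw [Real.sqrt_le_left (by norm_num : (0:ℝ) ≤ 1)]
  linarith [vdet_le (ν := ν) hγ hp]

lemma sqrt_quad_convex {w k : ℝ} (hw : 0 ≤ w) (hk : 0 ≤ k) (x y a b : ℝ) (ha : 0 ≤ a) (hb : 0 ≤ b)
    (hab : a + b = 1) :
    √(w + k * (a * x + b * y) ^ 2) ≤ a * √(w + k * x ^ 2) + b * √(w + k * y ^ 2) := by
  have hx : 0 ≤ w + k * x ^ 2 := by positivity
  have hy : 0 ≤ w + k * y ^ 2 := by positivity
  set X := √(w + k * x ^ 2) with hX
  set Y := √(w + k * y ^ 2) with hY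
  have hX0 : 0 ≤ X := Real.sqrt_nonneg _
  have hY0 : 0 ≤ Y := Real.sqrt_nonneg _
  have hX2 : X ^ 2 = w + k * x ^ 2 := Real.sq_sqrt hx
  have hY2 : Y ^ 2 = w + k * y ^ 2 := Real.sq_sqrt hy
  have hcs : w + k * (x * y) ≤ X * Y := by
    have h1 : (w + k * (x * y)) ^ 2 ≤ (X * Y) ^ 2 := by
      rw [mul_pow, hX2, hY2]
      nlinarith [mul_nonneg (mul_nonneg hw hk) (sq_nonneg (x - y))]
    exact le_of_sq_le_sq' h1 (mul_nonneg hX0 hY0)
  rw [Real.sqrt_le_left (by positivity)]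
  have hb' : b = 1 - a := by linarith
  have hab0 : 0 ≤ a * b := mul_nonneg ha hb
  have e1 : (a * X + b * Y) ^ 2 = a ^ 2 * X ^ 2 + b ^ 2 * Y ^ 2 + 2 * (a * b) * (X * Y) := by ring
  rw [e1, hX2, hY2]
  have e2 : w + k * (a * x + b * y) ^ 2
      = a ^ 2 * (w + k * x ^ 2) + b ^ 2 * (w + k * y ^ 2) + 2 * (a * b) * (w + k * (x * y)) := by
    have : w = (a + b) ^ 2 * w := by rw [hab]; ring
    calc w + k * (a * x + b * y) ^ 2 = (a + b) ^ 2 * w + k * (a * x + b * y) ^ 2 := by rw [← this]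
      _ = _ := by ring
  rw [e2]
  nlinarith [mul_le_mul_of_nonneg_left hcs hab0]
where
  le_of_sq_le_sq' {u v : ℝ} (h : u ^ 2 ≤ v ^ 2) (hv : 0 ≤ v) : u ≤ v := by
    exact le_trans (le_abs_self u) (abs_le_of_sq_le_sq h hv)

theorem sfun_convexOn {γ ν : ℝ} (hγ : γ ∈ Icc (0:ℝ) 1) (hν : ν ∈ Icc (0:ℝ) 1) :
    ConvexOn ℝ (Icc (0:ℝ) 1) (sfun γ ν) := by
  refine ⟨convex_Icc 0 1, ?_⟩
  intro x hx y hy a b ha hb hab
  have hz : a • x + b • y ∈ Icc (0:ℝ) 1 := (convex_Icc 0 1) hx hy ha hb hab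
  rw [sfun_eq_W hγ hν, sfun_eq_W hγ hν, sfun_eq_W hγ hν]
  have hN : Nfun γ ν (a • x + b • y) ≤ a * Nfun γ ν x + b * Nfun γ ν y := by
    have hw : 0 ≤ 4 * (γ * ν * (1 - ν)) := by
      have : 0 ≤ γ * ν * (1 - ν) := mul_nonneg (mul_nonneg hγ.1 hν.1) (by linarith [hν.2])
      linarith
    have hk : 0 ≤ 4 * (γ * (1 - γ)) := by
      have : 0 ≤ γ * (1 - γ) := mul_nonneg hγ.1 (by linarith [hγ.2])
      linarith
    have := sqrt_quad_convex hw hk (x - ν) (y - ν) a b ha hb hab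
    have e (p : ℝ) : 4 * vdet γ ν p = 4 * (γ * ν * (1 - ν)) + 4 * (γ * (1 - γ)) * (p - ν) ^ 2 := by
      unfold vdet; ring
    unfold Nfun
    rw [e, e, e]
    have e3 : a • x + b • y - ν = a * (x - ν) + b * (y - ν) := by
      simp only [smul_eq_mul]
      have : ν = (a + b) * ν := by rw [hab]; ring
      nlinarith
    rw [e3]
    exact this
  have hmem : a * Nfun γ ν x + b * Nfun γ ν y ∈ Icc (0:ℝ) 1 :=
    (convex_Icc 0 1) (Nfun_mem hγ hx) (Nfun_mem hγ hy) ha hb hab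
  calc Wootters.W (Nfun γ ν (a • x + b • y))
      ≤ Wootters.W (a * Nfun γ ν x + b * Nfun γ ν y) :=
        Wootters.W_monotoneOn (Nfun_mem hγ hz) hmem hN
    _ ≤ a • Wootters.W (Nfun γ ν x) + b • Wootters.W (Nfun γ ν y) :=
        Wootters.W_convexOn.2 (Nfun_mem hγ hx) (Nfun_mem hγ hy) ha hb hab

/-- finite Jensen inequality for `sfun`. -/
theorem sfun_jensen {γ ν : ℝ} (hγ : γ ∈ Icc (0:ℝ) 1) (hν : ν ∈ Icc (0:ℝ) 1)
    {ι : Type*} [Fintype ι] (q p : ι → ℝ) (hq : ∀ a, 0 ≤ q a) (hq1 : ∑ a, q a = 1)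
    (hp : ∀ a, p a ∈ Icc (0:ℝ) 1) :
    sfun γ ν (∑ a, q a * p a) ≤ ∑ a, q a * sfun γ ν (p a) := by
  have := (sfun_convexOn hγ hν).map_sum_le (t := Finset.univ) (w := q) (p := p)
    (fun a _ => hq a) hq1 (fun a _ => hp a)
  simpa [smul_eq_mul] using this

end Crest.Agent.S0534Aux.Scalar
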