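import Mathlib
import Crest.Prelude.Def_QState
import Crest.Prelude.Def_QChannel
import Crest.Prelude.Def_AmpDamp
import Crest.Agent.S0534Aux.Scalar
import Crest.Agent.S0534Aux.Ensemble

/-!
Single-qubit facts for the generalized amplitude damping channel.
-/

set_option autoImplicit false

namespace Crest.Agent.S0534Aux.Qubit

open Real Set Crest.Quantum Crest.MathPhysics.AmpDamp Crest.Agent.S0534Aux.Scalar
open scoped ComplexOrder

/-- entries of `gadMap`. -/
lemma gadMap_ff (γ ν : ℝ) (M : Matrix Bool Bool ℂ) : gadMap γ ν M false false =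
    ((1 - γ * ν : ℝ) : ℂ) * M false false + ((γ * (1 - ν) : ℝ) : ℂ) * M true true := by
  simp [gadMap]

lemma gadMap_tt (γ ν : ℝ) (M : Matrix Bool Bool ℂ) : gadMap γ ν M true true =
    ((γ * ν : ℝ) : ℂ) * M false false + ((1 - γ + γ * ν : ℝ) : ℂ) * M true true := by
  simp [gadMap]

lemma gadMap_ft (γ ν : ℝ) (M : Matrix Bool Bool ℂ) : gadMap γ ν M false true =
    ((Real.sqrt (1 - γ) : ℝ) : ℂ) * M false true := by
  simp [gadMap]

lemma gadMap_tf (γ ν : ℝ) (M : Matrix Bool Bool ℂ) : gadMap γ ν M true false =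
    ((Real.sqrt (1 - γ) : ℝ) : ℂ) * M true false := by
  simp [gadMap]

lemma gadMap_trace (γ ν : ℝ) (M : Matrix Bool Bool ℂ) : (gadMap γ ν M).trace = M.trace := by
  simp only [Matrix.trace, Matrix.diag, Fintype.sum_bool, gadMap_ff, gadMap_tt]
  push_cast
  ring

lemma gadMap_isHermitian (γ ν : ℝ) {M : Matrix Bool Bool ℂ} (hM : M.IsHermitian) :
    (gadMap γ ν M).IsHermitian := by
  have h (s t : Bool) : star (M s t) = M t s := by
    have := congrFun (congrFun hM t) s
    simpa [Matrix.conjTranspose_apply] using this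
  ext s t
  rw [Matrix.conjTranspose_apply]
  cases s <;> cases t <;>
    simp only [gadMap_ff, gadMap_tt, gadMap_ft, gadMap_tf, star_add, star_mul', h,
      Complex.star_def, Complex.conj_ofReal]

lemma gadMap_add (γ ν : ℝ) (M N : Matrix Bool Bool ℂ) :
    gadMap γ ν (M + N) = gadMap γ ν M + gadMap γ ν N := by
  ext s t
  cases s <;> cases t <;>
    simp only [gadMap_ff, gadMap_tt, gadMap_ft, gadMap_tf, Matrix.add_apply] <;> ring

lemma gadMap_smul (γ ν : ℝ) (c : ℂ) (M : Matrix Bool Bool ℂ) :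
    gadMap γ ν (c • M) = c • gadMap γ ν M := by
  ext s t
  cases s <;> cases t <;>
    simp only [gadMap_ff, gadMap_tt, gadMap_ft, gadMap_tf, Matrix.smul_apply, smul_eq_mul] <;> ring

lemma gadMap_isLinearMap (γ ν : ℝ) : IsLinearMap ℂ (gadMap γ ν) :=
  ⟨gadMap_add γ ν, gadMap_smul γ ν⟩

/-- data of a qubit density matrix -/
lemma density_data {ρ : Matrix Bool Bool ℂ} (h : IsDensity ρ) :
    ∃ (p : ℝ) (z : ℂ), p ∈ Icc (0:ℝ) 1 ∧ ρ false false = ((1 - p : ℝ) : ℂ) ∧
      ρ true true = (p : ℂ) ∧ ρ false true = z ∧ ρ true false = star z ∧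
      Complex.normSq z ≤ p * (1 - p) := by
  obtain ⟨hps, htr⟩ := h
  have hH := hps.isHermitian
  have hst (s t : Bool) : star (ρ s t) = ρ t s := by
    have := congrFun (congrFun hH t) s
    simpa [Matrix.conjTranspose_apply] using this
  have hd (s : Bool) : (0 : ℂ) ≤ ρ s s := hps.diag_nonneg
  have htr' : ρ true true + ρ false false = 1 := by
    simpa [Matrix.trace, Fintype.sum_bool] using htr
  obtain ⟨ht0, ht1⟩ := Complex.le_def.mp (hd true)
  obtain ⟨hf0, hf1⟩ := Complex.le_def.mp (hd false)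
  simp only [Complex.zero_re, Complex.zero_im] at ht0 ht1 hf0 hf1
  set p := (ρ true true).re with hp
  have htt : ρ true true = (p : ℂ) := by
    apply Complex.ext <;> simp [hp, ← ht1]
  have hre : p + (ρ false false).re = 1 := by
    have := congrArg Complex.re htr'
    simpa using this
  have hff : ρ false false = ((1 - p : ℝ) : ℂ) := by
    apply Complex.ext
    · simp; linarith
    · simp [← hf1]
  have hdet : (0 : ℂ) ≤ ρ.det := hps.det_nonneg
  have hdet' : ρ.det = ((p * (1 - p) - Complex.normSq (ρ false true) : ℝ) : ℂ) := by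
    have e : ρ.det = ρ true true * ρ false false - ρ true false * ρ false true := by
      rw [Matrix.det_apply]
      have : (Finset.univ : Finset (Equiv.Perm Bool)) = {1, Equiv.swap true false} := by
        decide
      rw [this, Finset.sum_pair (by decide)]
      simp
      ring
    rw [e, htt, hff, ← hst false true, Complex.star_def, ← Complex.normSq_eq_conj_mul_self]
    push_cast
    ring
  rw [hdet'] at hdet
  have hdet'' : 0 ≤ p * (1 - p) - Complex.normSq (ρ false true) := by exact_mod_cast hdet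
  refine ⟨p, ρ false true, ⟨ht0, by linarith⟩, hff, htt, rfl, (hst false true).symm, by linarith⟩

lemma det_bool (A : Matrix Bool Bool ℂ) :
    A.det = A true true * A false false - A true false * A false true := by
  rw [Matrix.det_apply]
  have : (Finset.univ : Finset (Equiv.Perm Bool)) = {1, Equiv.swap true false} := by
    decide
  rw [this, Finset.sum_pair (by decide)]
  simp
  ring

/-- determinant of the output for a qubit matrix given by its data. -/
lemma gadMap_det_re {γ ν : ℝ} (hγ : γ ≤ 1) {ρ : Matrix Bool Bool ℂ} {p : ℝ} {z : ℂ}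
    (hff : ρ false false = ((1 - p : ℝ) : ℂ)) (htt : ρ true true = (p : ℂ))
    (hft : ρ false true = z) (htf : ρ true false = star z) :
    ((gadMap γ ν ρ).det).re = ((1 - γ) * p + γ * ν) * (1 - ((1 - γ) * p + γ * ν))
      - (1 - γ) * Complex.normSq z := by
  rw [det_bool, gadMap_ff, gadMap_tt, gadMap_ft, gadMap_tf, hff, htt, hft, htf]
  have hs : (Real.sqrt (1 - γ)) * (Real.sqrt (1 - γ)) = 1 - γ :=
    Real.mul_self_sqrt (by linarith)
  have e : ((Real.sqrt (1 - γ) : ℝ) : ℂ) * star z * (((Real.sqrt (1 - γ) : ℝ) : ℂ) * z)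
      = (((1 - γ) * Complex.normSq z : ℝ) : ℂ) := by
    have : star z * z = (Complex.normSq z : ℂ) := by
      rw [Complex.star_def, Complex.normSq_eq_conj_mul_self]
    calc ((Real.sqrt (1 - γ) : ℝ) : ℂ) * star z * (((Real.sqrt (1 - γ) : ℝ) : ℂ) * z)
        = (((Real.sqrt (1 - γ)) * (Real.sqrt (1 - γ)) : ℝ) : ℂ) * (star z * z) := by
          push_cast; ring
      _ = _ := by rw [hs, this]; push_cast; ring
  rw [e]
  have e2 : (((γ * ν : ℝ) : ℂ) * ((1 - p : ℝ) : ℂ) + ((1 - γ + γ * ν : ℝ) : ℂ) * (p : ℂ)) *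
      (((1 - γ * ν : ℝ) : ℂ) * ((1 - p : ℝ) : ℂ) + ((γ * (1 - ν) : ℝ) : ℂ) * (p : ℂ))
      = ((((γ * ν) * (1 - p) + (1 - γ + γ * ν) * p) *
        ((1 - γ * ν) * (1 - p) + (γ * (1 - ν)) * p) : ℝ) : ℂ) := by
    push_cast; ring
  rw [e2, ← Complex.ofReal_sub, Complex.ofReal_re]
  ring

/-- Output entropy is at most the entropy of the output populations. -/
theorem vnEntropy_gadMap_le {γ ν : ℝ} (hγ : γ ∈ Icc (0:ℝ) 1) (hν : ν ∈ Icc (0:ℝ) 1)
    {ρ : Matrix Bool Bool ℂ} (h : IsDensity ρ) :
    vnEntropy (gadMap γ ν ρ) ≤ binEntropy ((1 - γ) * (ρ true true).re + γ * ν) := by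
  obtain ⟨p, z, hp, hff, htt, hft, htf, hz⟩ := density_data h
  have hH := gadMap_isHermitian γ ν h.1.isHermitian
  have htr : (gadMap γ ν ρ).trace = 1 := by rw [gadMap_trace, h.2]
  rw [vnEntropy_two _ hH htr, gadMap_det_re hγ.2 hff htt hft htf, htt, Complex.ofReal_re,
    ← hdet_mul_one_sub]
  have h1 : 0 ≤ (1 - γ) * Complex.normSq z :=
    mul_nonneg (by linarith [hγ.2]) (Complex.normSq_nonneg z)
  have h2 : (1 - γ) * Complex.normSq z ≤ (1 - γ) * (p * (1 - p)) :=
    mul_le_mul_of_nonneg_left hz (by linarith [hγ.2])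
  have h3 := vdet_nonneg (p := p) hγ hν
  rw [vdet_eq] at h3
  apply hdet_monotoneOn
  · constructor
    · linarith
    · nlinarith [sq_nonneg (((1 - γ) * p + γ * ν) - 1 / 2)]
  · constructor
    · linarith
    · nlinarith [sq_nonneg (((1 - γ) * p + γ * ν) - 1 / 2)]
  · linarith

/-- Output entropy is at least that of a pure state with the same population. -/
theorem sfun_le_vnEntropy_gadMap {γ ν : ℝ} (hγ : γ ∈ Icc (0:ℝ) 1) (hν : ν ∈ Icc (0:ℝ) 1)
    {ρ : Matrix Bool Bool ℂ} (h : IsDensity ρ) :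
    sfun γ ν (ρ true true).re ≤ vnEntropy (gadMap γ ν ρ) := by
  obtain ⟨p, z, hp, hff, htt, hft, htf, hz⟩ := density_data h
  have hH := gadMap_isHermitian γ ν h.1.isHermitian
  have htr : (gadMap γ ν ρ).trace = 1 := by rw [gadMap_trace, h.2]
  rw [vnEntropy_two _ hH htr, gadMap_det_re hγ.2 hff htt hft htf, htt, Complex.ofReal_re]
  unfold sfun
  have h1 : 0 ≤ (1 - γ) * Complex.normSq z :=
    mul_nonneg (by linarith [hγ.2]) (Complex.normSq_nonneg z)
  have h2 : (1 - γ) * Complex.normSq z ≤ (1 - γ) * (p * (1 - p)) :=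
    mul_le_mul_of_nonneg_left hz (by linarith [hγ.2])
  have h3 := vdet_nonneg (p := p) hγ hν
  apply hdet_monotoneOn
  · exact ⟨h3, vdet_le hγ hp⟩
  · rw [vdet_eq] at h3
    constructor
    · linarith
    · nlinarith [sq_nonneg (((1 - γ) * p + γ * ν) - 1 / 2)]
  · rw [vdet_eq]; linarith

/-- the pure qubit state of excited population `p` with real coherence of sign `b`. -/
noncomputable def psi (p : ℝ) (b : Bool) : Matrix Bool Bool ℂ :=
  Matrix.vecMulVec
    (fun s => if s then (((if b then 1 else -1) * √p : ℝ) : ℂ) else ((√(1 - p) : ℝ) : ℂ))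
    (star fun s => if s then (((if b then 1 else -1) * √p : ℝ) : ℂ) else ((√(1 - p) : ℝ) : ℂ))

lemma psi_ff {p : ℝ} (hp : p ∈ Icc (0:ℝ) 1) (b : Bool) : psi p b false false = ((1 - p : ℝ) : ℂ) := by
  simp only [psi, Matrix.vecMulVec_apply, Pi.star_apply]
  simp only [Bool.false_eq_true, if_false, Complex.star_def, Complex.conj_ofReal]
  rw [← Complex.ofReal_mul, Real.mul_self_sqrt (by linarith [hp.2])]

lemma psi_tt {p : ℝ} (hp : p ∈ Icc (0:ℝ) 1) (b : Bool) : psi p b true true = (p : ℂ) := by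
  simp only [psi, Matrix.vecMulVec_apply, Pi.star_apply]
  simp only [if_true, Complex.star_def, Complex.conj_ofReal]
  rw [← Complex.ofReal_mul]
  congr 1
  have := Real.mul_self_sqrt hp.1
  cases b <;> simp <;> linarith

lemma psi_ft (p : ℝ) (b : Bool) :
    psi p b false true = (((if b then 1 else -1) * (√(1 - p) * √p) : ℝ) : ℂ) := by
  simp only [psi, Matrix.vecMulVec_apply, Pi.star_apply]
  simp only [Bool.false_eq_true, if_false, if_true, Complex.star_def, Complex.conj_ofReal]
  rw [← Complex.ofReal_mul]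
  congr 1
  ring

lemma psi_tf (p : ℝ) (b : Bool) :
    psi p b true false = (((if b then 1 else -1) * (√(1 - p) * √p) : ℝ) : ℂ) := by
  simp only [psi, Matrix.vecMulVec_apply, Pi.star_apply]
  simp only [Bool.false_eq_true, if_false, if_true, Complex.star_def, Complex.conj_ofReal]
  rw [← Complex.ofReal_mul]
  congr 1
  ring

lemma psi_isDensity {p : ℝ} (hp : p ∈ Icc (0:ℝ) 1) (b : Bool) : IsDensity (psi p b) := by
  refine ⟨Matrix.posSemidef_vecMulVec_self_star _, ?_⟩
  simp only [Matrix.trace, Matrix.diag, Fintype.sum_bool, psi_ff hp, psi_tt hp]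
  push_cast
  ring

/-- the output entropy of the pure state `psi p b` is `sfun γ ν p`. -/
theorem vnEntropy_gadMap_psi {γ ν : ℝ} (hγ : γ ∈ Icc (0:ℝ) 1) {p : ℝ} (hp : p ∈ Icc (0:ℝ) 1)
    (b : Bool) : vnEntropy (gadMap γ ν (psi p b)) = sfun γ ν p := by
  have h := psi_isDensity hp b
  have hH := gadMap_isHermitian γ ν h.1.isHermitian
  have htr : (gadMap γ ν (psi p b)).trace = 1 := by rw [gadMap_trace, h.2]
  have htf : psi p b true false
      = star ((((if b then 1 else -1) * (√(1 - p) * √p) : ℝ) : ℂ)) := by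
    rw [psi_tf, Complex.star_def, Complex.conj_ofReal]
  rw [vnEntropy_two _ hH htr, gadMap_det_re hγ.2 (psi_ff hp b) (psi_tt hp b) (psi_ft p b) htf]
  unfold sfun
  rw [vdet_eq, Complex.normSq_ofReal]
  congr 2
  have h1 := Real.mul_self_sqrt hp.1
  have h2 := Real.mul_self_sqrt (show 0 ≤ 1 - p by linarith [hp.2])
  have hpp : (√(1 - p) * √p) * (√(1 - p) * √p) = p * (1 - p) := by
    calc (√(1 - p) * √p) * (√(1 - p) * √p) = (√p * √p) * (√(1 - p) * √(1 - p)) := by ring
      _ = _ := by rw [h1, h2]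
  cases b
  · have : (if false = true then (1:ℝ) else -1) * (√(1 - p) * √p) *
        ((if false = true then (1:ℝ) else -1) * (√(1 - p) * √p))
        = (√(1 - p) * √p) * (√(1 - p) * √p) := by simp
    rw [this, hpp]
  · have : (if true = true then (1:ℝ) else -1) * (√(1 - p) * √p) *
        ((if true = true then (1:ℝ) else -1) * (√(1 - p) * √p))
        = (√(1 - p) * √p) * (√(1 - p) * √p) := by simp
    rw [this, hpp]

/-- entropy of a diagonal qubit matrix. -/
lemma vnEntropy_of_diag {A : Matrix Bool Bool ℂ} {x : ℝ} (hff : A false false = ((1 - x : ℝ) : ℂ))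
    (htt : A true true = (x : ℂ)) (hft : A false true = 0) (htf : A true false = 0) :
    vnEntropy A = binEntropy x := by
  have hH : A.IsHermitian := by
    ext s t
    rw [Matrix.conjTranspose_apply]
    cases s <;> cases t <;> simp [hff, htt, hft, htf]
  have htr : A.trace = 1 := by
    simp only [Matrix.trace, Matrix.diag, Fintype.sum_bool, hff, htt]
    push_cast; ring
  rw [vnEntropy_two _ hH htr, det_bool, hff, htt, hft, htf, ← hdet_mul_one_sub]
  congr 1
  simp

/-- The symmetric pure-state ensemble `{q_a / 2, psi (p_a) ±}` for the qubit channel. -/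
theorem exists_qubit_ensemble {γ ν : ℝ} (hγ : γ ∈ Icc (0:ℝ) 1)
    {ι : Type*} [Fintype ι] (q p : ι → ℝ) (hq : ∀ a, 0 ≤ q a) (hq1 : ∑ a, q a = 1)
    (hp : ∀ a, p a ∈ Icc (0:ℝ) 1) :
    ∃ (m : ℕ) (q₁ : Fin m → ℝ) (ρ₁ : Fin m → Matrix Bool Bool ℂ), IsEnsemble q₁ ρ₁ ∧
      holevoInfo (gadMap γ ν) q₁ ρ₁ =
        binEntropy ((1 - γ) * (∑ a, q a * p a) + γ * ν) - ∑ a, q a * sfun γ ν (p a) := by
  classical
  obtain ⟨m, q₁, ρ₁, hE, -, hH⟩ := Ensemble.exists_fin (ι := ι × Bool)
    (fun x => q x.1 / 2) (fun x => psi (p x.1) x.2)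
    (fun x => by have := hq x.1; positivity)
    (by
      rw [Fintype.sum_prod_type]
      simp only [Fintype.sum_bool]
      rw [← hq1]
      apply Finset.sum_congr rfl
      intro a _
      ring)
    (fun x => psi_isDensity (hp x.1) x.2)
  refine ⟨m, q₁, ρ₁, hE, ?_⟩
  rw [hH Bool (gadMap γ ν)]
  unfold Ensemble.holevoInfo'
  congr 1
  · apply vnEntropy_of_diag
    · simp only [Matrix.sum_apply, Matrix.smul_apply, smul_eq_mul, gadMap_ff]
      rw [Fintype.sum_prod_type]
      simp only [Fintype.sum_bool, psi_ff (hp _), psi_tt (hp _)]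
      have : ((1 - ((1 - γ) * (∑ a, q a * p a) + γ * ν) : ℝ) : ℂ)
          = ((∑ a, (q a * ((1 - γ * ν) * (1 - p a) + γ * (1 - ν) * p a)) : ℝ) : ℂ) := by
        congr 1
        have e : ∑ a, (q a * ((1 - γ * ν) * (1 - p a) + γ * (1 - ν) * p a))
            = (1 - γ * ν) * ∑ a, q a - (1 - γ) * ∑ a, q a * p a := by
          rw [Finset.mul_sum, Finset.mul_sum, ← Finset.sum_sub_distrib]
          apply Finset.sum_congr rfl
          intro a _
          ring
        rw [e, hq1]; ring
      rw [this]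
      push_cast
      apply Finset.sum_congr rfl
      intro a _
      ring
    · simp only [Matrix.sum_apply, Matrix.smul_apply, smul_eq_mul, gadMap_tt]
      rw [Fintype.sum_prod_type]
      simp only [Fintype.sum_bool, psi_ff (hp _), psi_tt (hp _)]
      have : (((1 - γ) * (∑ a, q a * p a) + γ * ν : ℝ) : ℂ)
          = ((∑ a, (q a * ((γ * ν) * (1 - p a) + (1 - γ + γ * ν) * p a)) : ℝ) : ℂ) := by
        congr 1
        have e : ∑ a, (q a * ((γ * ν) * (1 - p a) + (1 - γ + γ * ν) * p a))
            = (γ * ν) * ∑ a, q a + (1 - γ) * ∑ a, q a * p a := by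
          rw [Finset.mul_sum, Finset.mul_sum, ← Finset.sum_add_distrib]
          apply Finset.sum_congr rfl
          intro a _
          ring
        rw [e, hq1]; ring
      rw [this]
      push_cast
      apply Finset.sum_congr rfl
      intro a _
      ring
    · simp only [Matrix.sum_apply, Matrix.smul_apply, smul_eq_mul, gadMap_ft]
      rw [Fintype.sum_prod_type]
      simp only [Fintype.sum_bool, psi_ft]
      apply Finset.sum_eq_zero
      intro a _
      simp
    · simp only [Matrix.sum_apply, Matrix.smul_apply, smul_eq_mul, gadMap_tf]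
      rw [Fintype.sum_prod_type]
      simp only [Fintype.sum_bool, psi_tf]
      apply Finset.sum_eq_zero
      intro a _
      simp
  · rw [Fintype.sum_prod_type]
    simp only [Fintype.sum_bool, vnEntropy_gadMap_psi hγ (hp _)]
    apply Finset.sum_congr rfl
    intro a _
    ring

end Crest.Agent.S0534Aux.Qubit
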