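import Mathlib
import Crest.Prelude.Def_QState
import Crest.Prelude.Def_QChannel
import Crest.Prelude.Def_AmpDamp
import Crest.Agent.S0534Aux.Qubit

/-!
# Single-letter facts for the generalized amplitude damping channel

* `single_letter` : every qubit ensemble has Holevo information at most `gadRate γ ν p̄`.
* `achieve` : `gadRate γ ν p` is attained by an ensemble.
-/

set_option autoImplicit false

namespace Crest.Agent.S0534Aux.SingleLetter

open Real Set Crest.Quantum Crest.MathPhysics.AmpDamp Crest.Agent.S0534Aux.Scalar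
  Crest.Agent.S0534Aux.Qubit
open scoped ComplexOrder

lemma isDensity_avg {d : Type*} [Fintype d] {m : ℕ} {q : Fin m → ℝ} {ρ : Fin m → Matrix d d ℂ}
    (h : IsEnsemble q ρ) : IsDensity (∑ a, (q a : ℂ) • ρ a) := by
  refine ⟨Matrix.posSemidef_sum _ fun a _ => (h.2.2 a).1.smul (by exact_mod_cast h.1 a), ?_⟩
  rw [Matrix.trace_sum]
  simp only [Matrix.trace_smul, (h.2.2 _).2, smul_eq_mul, mul_one]
  exact_mod_cast h.2.1

theorem single_letter {γ ν : ℝ} (hγ : γ ∈ Icc (0:ℝ) 1) (hν : ν ∈ Icc (0:ℝ) 1)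
    (m : ℕ) (q : Fin m → ℝ) (ρ : Fin m → Matrix Bool Bool ℂ) (h : IsEnsemble q ρ) :
    ∃ p ∈ Icc (0 : ℝ) 1, holevoInfo (gadMap γ ν) q ρ ≤ gadRate γ ν p := by
  have hp : ∀ a, ((ρ a) true true).re ∈ Icc (0:ℝ) 1 := by
    intro a
    obtain ⟨p, z, hp, -, htt, -⟩ := density_data (h.2.2 a)
    rw [htt]; simpa using hp
  have havg := isDensity_avg h
  have hbar : ((∑ a, (q a : ℂ) • ρ a) true true).re = ∑ a, q a * ((ρ a) true true).re := by
    simp [Matrix.sum_apply]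
  have hpbar : (∑ a, q a * ((ρ a) true true).re) ∈ Icc (0:ℝ) 1 := by
    obtain ⟨p, z, hp', -, htt, -⟩ := density_data havg
    rw [← hbar, htt]; simpa using hp'
  refine ⟨_, hpbar, ?_⟩
  have hlin : ∑ a, (q a : ℂ) • gadMap γ ν (ρ a) = gadMap γ ν (∑ a, (q a : ℂ) • ρ a) := by
    have hL := gadMap_isLinearMap γ ν
    have := map_sum (hL.mk' _) (fun a => (q a : ℂ) • ρ a) Finset.univ
    simp only [IsLinearMap.mk'_apply] at this
    rw [this]
    exact Finset.sum_congr rfl fun a _ => (hL.map_smul _ _).symm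
  unfold holevoInfo
  rw [hlin, gadRate_eq]
  have h1 := vnEntropy_gadMap_le hγ hν havg
  rw [hbar] at h1
  have h2 := sfun_jensen hγ hν q (fun a => ((ρ a) true true).re) h.1 h.2.1 hp
  have h3 : ∑ a, q a * sfun γ ν ((ρ a) true true).re ≤ ∑ a, q a * vnEntropy (gadMap γ ν (ρ a)) :=
    Finset.sum_le_sum fun a _ =>
      mul_le_mul_of_nonneg_left (sfun_le_vnEntropy_gadMap hγ hν (h.2.2 a)) (h.1 a)
  linarith

theorem achieve {γ ν : ℝ} (hγ : γ ∈ Icc (0:ℝ) 1) {p : ℝ} (hp : p ∈ Icc (0:ℝ) 1) :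
    ∃ (m : ℕ) (q : Fin m → ℝ) (ρ : Fin m → Matrix Bool Bool ℂ), IsEnsemble q ρ ∧
      gadRate γ ν p ≤ holevoInfo (gadMap γ ν) q ρ := by
  obtain ⟨m, q, ρ, hE, hH⟩ := exists_qubit_ensemble (ν := ν) hγ (ι := Unit) (fun _ => 1)
    (fun _ => p) (fun _ => zero_le_one) (by simp) (fun _ => hp)
  refine ⟨m, q, ρ, hE, ?_⟩
  rw [hH, gadRate_eq]
  simp

end Crest.Agent.S0534Aux.SingleLetter
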