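import Crest.Agent.S0534Aux.Top2
import Crest.Agent.S0534Aux.EntBasic
import Crest.Agent.S0534Aux.QubitTwo
import Crest.Agent.S0534Aux.Product
import Crest.Agent.S0534Aux.PowerTop
import Crest.Agent.S0534Aux.SingleLetter
import Crest.Agent.S0534Aux.Plumbing

/-!
Top-level assembly for S0534 / S0535 (helper15): both statements from the core inequality
`Core γ ν` (= interface (A): the tilted 3-edge inequality for `gadMap ⊗ id`).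
-/

set_option autoImplicit false
set_option linter.unusedSectionVars false
set_option linter.unusedSimpArgs false

namespace Crest.Agent.S0534Aux.Top

open Crest.Quantum Crest.MathPhysics.AmpDamp Matrix
open scoped ComplexOrder Kronecker

/-- Interface (A). -/
def Core (γ ν : ℝ) : Prop :=
  ∀ (n : Type) [Fintype n] [DecidableEq n] (M : Matrix (Bool × n) (Bool × n) ℂ),
      M.PosSemidef → M.trace = 1 →
      ∃ (k : ℕ) (E : Fin k → Matrix Bool Bool ℂ), (∀ j, (E j).PosSemidef) ∧ ∑ j, E j = 1 ∧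
        sFun γ ν (block M true true).trace.re
          + ∑ j, (vnEntropy (steer (E j) M) - Real.negMulLog (steer (E j) M).trace.re)
          ≤ vnEntropy (qubitTensor (gadMap γ ν) id M)

theorem kit_of_core {γ ν : ℝ} (hγ : γ ∈ Set.Icc (0 : ℝ) 1) (hν : ν ∈ Set.Icc (0 : ℝ) 1)
    (hcore : Core γ ν) : Kit γ ν where
  hγ := hγ
  hν := hν
  ent_smul := by
    intro n _ _ σ t hσ _
    rw [EntBasic.vnEntropy_smul hσ.1.1, hσ.2]
    simp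
  ent_sub := by
    intro n _ _ ω hω
    exact EntBasic.vnEntropy_le_binEntropy_add hω.1 hω.2
  core := hcore
  q_pure := by
    intro p hp
    exact ⟨QubitTwo.psi p 1, QubitTwo.isDensity_psi hp (by norm_num),
      QubitTwo.vnEntropy_gadMap_psi hγ hp (by norm_num)⟩
  q_ens := by
    intro m w p hw hw1 hp
    exact QubitTwo.exists_ensemble hγ m w p hw hw1 hp

/-- S0535 from the core inequality. -/
theorem S0535_of_core (γ ν : ℝ)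
    (hγ : γ ∈ Set.Icc (0 : ℝ) 1) (hν : ν ∈ Set.Icc (0 : ℝ) 1) (hcore : Core γ ν)
    (d e : Type) [Fintype d] [Fintype e] [DecidableEq d] [DecidableEq e] [Nonempty d] [Nonempty e]
    (Ψ : Matrix d d ℂ → Matrix e e ℂ) (hΨ : IsChannel Ψ) :
    (∀ (m : ℕ) (q : Fin m → ℝ) (ρ : Fin m → Matrix (Bool × d) (Bool × d) ℂ), IsEnsemble q ρ →
      ∀ ε > (0 : ℝ), ∃ (m₁ : ℕ) (q₁ : Fin m₁ → ℝ) (ρ₁ : Fin m₁ → Matrix Bool Bool ℂ)
        (m₂ : ℕ) (q₂ : Fin m₂ → ℝ) (ρ₂ : Fin m₂ → Matrix d d ℂ),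
        IsEnsemble q₁ ρ₁ ∧ IsEnsemble q₂ ρ₂ ∧
          holevoInfo (qubitTensor (gadMap γ ν) Ψ) q ρ ≤
            holevoInfo (gadMap γ ν) q₁ ρ₁ + holevoInfo Ψ q₂ ρ₂ + ε) ∧
    (∀ (m₁ : ℕ) (q₁ : Fin m₁ → ℝ) (ρ₁ : Fin m₁ → Matrix Bool Bool ℂ)
      (m₂ : ℕ) (q₂ : Fin m₂ → ℝ) (ρ₂ : Fin m₂ → Matrix d d ℂ), IsEnsemble q₁ ρ₁ → IsEnsemble q₂ ρ₂ →
      ∃ (m : ℕ) (q : Fin m → ℝ) (ρ : Fin m → Matrix (Bool × d) (Bool × d) ℂ), IsEnsemble q ρ ∧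
        holevoInfo (gadMap γ ν) q₁ ρ₁ + holevoInfo Ψ q₂ ρ₂ ≤
          holevoInfo (qubitTensor (gadMap γ ν) Ψ) q ρ) ∧
    (∀ ρ : Matrix (Bool × d) (Bool × d) ℂ, IsDensity ρ → ∀ ε > (0 : ℝ),
      ∃ (ρ₁ : Matrix Bool Bool ℂ) (ρ₂ : Matrix d d ℂ), IsDensity ρ₁ ∧ IsDensity ρ₂ ∧
        vnEntropy (gadMap γ ν ρ₁) + vnEntropy (Ψ ρ₂) ≤ vnEntropy (qubitTensor (gadMap γ ν) Ψ ρ) + ε) ∧
    (∀ (ρ₁ : Matrix Bool Bool ℂ) (ρ₂ : Matrix d d ℂ), IsDensity ρ₁ → IsDensity ρ₂ →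
      ∃ ρ : Matrix (Bool × d) (Bool × d) ℂ, IsDensity ρ ∧
        vnEntropy (qubitTensor (gadMap γ ν) Ψ ρ) ≤ vnEntropy (gadMap γ ν ρ₁) + vnEntropy (Ψ ρ₂)) := by
  have K := kit_of_core hγ hν hcore
  refine ⟨?_, Product.clause2 γ ν Ψ hΨ, ?_, Product.clause4 γ ν Ψ hΨ⟩
  · intro m q ρ hens ε hε
    obtain ⟨m₁, q₁, ρ₁, m₂, q₂, ρ₂, h1, h2, h⟩ := holevo_le K Ψ hΨ m q ρ hens
    exact ⟨m₁, q₁, ρ₁, m₂, q₂, ρ₂, h1, h2, by linarith⟩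
  · intro ρ hρ ε hε
    obtain ⟨ρ₁, ρ₂, h1, h2, h⟩ := minEntropy_le K Ψ hΨ ρ hρ
    exact ⟨ρ₁, ρ₂, h1, h2, by linarith⟩

/-- S0534 from the core inequality. -/
theorem S0534_of_core (γ ν : ℝ) (hγ : γ ∈ Set.Icc (0 : ℝ) 1)
    (hν : ν ∈ Set.Icc (0 : ℝ) 1) (hcore : Core γ ν) (n : ℕ) :
    (∀ (m : ℕ) (q : Fin m → ℝ) (ρ : Fin m → Matrix (Fin n → Bool) (Fin n → Bool) ℂ),
        IsEnsemble q ρ → ∃ p ∈ Set.Icc (0 : ℝ) 1,
          holevoInfo (qubitPower n (gadMap γ ν)) q ρ ≤ n * gadRate γ ν p) ∧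
    (∀ p ∈ Set.Icc (0 : ℝ) 1, ∃ (m : ℕ) (q : Fin m → ℝ)
        (ρ : Fin m → Matrix (Fin n → Bool) (Fin n → Bool) ℂ),
        IsEnsemble q ρ ∧ n * gadRate γ ν p ≤ holevoInfo (qubitPower n (gadMap γ ν)) q ρ) := by
  have hch : ∀ n, IsChannel (qubitPower n (gadMap γ ν)) := fun n =>
    Plumbing.qubitPower_isChannel (Plumbing.gadMap_isChannel γ ν hγ hν) n
  refine ⟨?_, ?_⟩
  · intro m q ρ hens
    exact PowerTop.upper γ ν hch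
      (fun d e _ _ _ _ _ _ Ψ hΨ => (S0535_of_core γ ν hγ hν hcore d e Ψ hΨ).1)
      (fun m q ρ h => SingleLetter.single_letter hγ hν m q ρ h) n m q ρ hens
  · intro p hp
    exact PowerTop.lower γ ν hch
      (fun d e _ _ _ _ _ _ Ψ hΨ => (S0535_of_core γ ν hγ hν hcore d e Ψ hΨ).2.1)
      p (SingleLetter.achieve hγ hp) n

end Crest.Agent.S0534Aux.Top
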