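import Crest.Agent.S0534Aux.TiltB
import Crest.Agent.S0534Aux.H3fromE3
import Crest.Agent.S0534Aux.Top3

/-!
`Top.Core γ ν` (interface (A)) from `TiltB.tilt_main` and the three-edge theorem.
-/

set_option autoImplicit false

namespace Crest.Agent.S0534Aux.TiltCore

open Crest.Quantum Crest.MathPhysics.AmpDamp
open scoped ComplexOrder Matrix Kronecker

theorem h3Bool (e : Type) [Fintype e] [DecidableEq e] : TiltB.H3Bool e := by
  intro N Q hN hQ
  have h := H3fromE3.H3_bool' Q N hQ hN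
  have e1 : (Matrix.single false false (1 : ℂ)) ⊗ₖ Q = H3fromE3.placeFF Q := by
    ext ⟨s, i⟩ ⟨t, j⟩
    cases s <;> cases t <;> simp [H3fromE3.placeFF, Matrix.kroneckerMap_apply, Matrix.single]
  rw [e1]
  exact h

theorem core {γ ν : ℝ} (hγ : γ ∈ Set.Icc (0 : ℝ) 1) (hν : ν ∈ Set.Icc (0 : ℝ) 1) :
    Top.Core γ ν := by
  intro n _ _ M hM htr
  obtain ⟨E, hE, hsum, hineq⟩ := TiltB.tilt_main (h3Bool n) hγ hν hM htr
  exact ⟨3, E, hE, hsum, hineq⟩

end Crest.Agent.S0534Aux.TiltCore
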