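import Mathlib
import Crest.Prelude.Def_QState
import Crest.Prelude.Def_QChannel
import Crest.Prelude.Def_AmpDamp
import Crest.Agent.S0534Aux.EntBasic
import Crest.Agent.S0534Aux.Product
import Crest.Agent.S0534Aux.Plumbing
import Crest.Agent.S0534Aux.Qubit

/-!
Achievability for the tensor powers (S0534, part 2): product ensembles reach `n * gadRate γ ν p`.
-/

set_option autoImplicit false
set_option linter.unusedSectionVars false

open scoped ComplexOrder Kronecker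
open Matrix Crest.Quantum Crest.MathPhysics.AmpDamp

namespace Crest.Agent.S0534Aux.Achieve

open Crest.Agent.S0534Aux.Product Crest.Agent.S0534Aux.Plumbing

lemma isDensity_submatrix_equiv {a b : Type*} [Fintype a] [Fintype b] (f : a ≃ b)
    {ρ : Matrix b b ℂ} (h : IsDensity ρ) : IsDensity (ρ.submatrix f f) := by
  refine ⟨h.1.submatrix f, ?_⟩
  rw [← h.2]
  simp only [Matrix.trace, Matrix.diag, Matrix.submatrix_apply]
  exact Equiv.sum_comp f (fun i => ρ i i)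

lemma holevo_reindex {a b b' : Type*} [Fintype a] [Fintype b] [Fintype b'] [DecidableEq b]
    [DecidableEq b'] (f : b' ≃ b) (T : Matrix a a ℂ → Matrix b b ℂ) {m : ℕ} (q : Fin m → ℝ)
    (ρ : Fin m → Matrix a a ℂ) :
    holevoInfo (fun M => (T M).submatrix f f) q ρ = holevoInfo T q ρ := by
  unfold holevoInfo
  have h1 : ∑ c, (q c : ℂ) • (T (ρ c)).submatrix f f = (∑ c, (q c : ℂ) • T (ρ c)).submatrix f f := by
    ext i j
    simp [Matrix.sum_apply]
  rw [h1, EntBasic.vnEntropy_submatrix_equiv]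
  simp only [EntBasic.vnEntropy_submatrix_equiv]

/-- single-use achievability -/
theorem achieve_one {γ ν : ℝ} (hγ : γ ∈ Set.Icc (0 : ℝ) 1) {p : ℝ} (hp : p ∈ Set.Icc (0 : ℝ) 1) :
    ∃ (m : ℕ) (q : Fin m → ℝ) (ρ : Fin m → Matrix Bool Bool ℂ), IsEnsemble q ρ ∧
      holevoInfo (gadMap γ ν) q ρ = gadRate γ ν p := by
  obtain ⟨m, q, ρ, hE, hH⟩ := Qubit.exists_qubit_ensemble (ν := ν) hγ (ι := Unit) (fun _ => 1)
    (fun _ => p) (fun _ => zero_le_one) (by simp) (fun _ => hp)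
  refine ⟨m, q, ρ, hE, ?_⟩
  rw [hH, Scalar.gadRate_eq]
  simp

/-- S0534, part 2, for every `n` (including `n = 0`). -/
theorem achieve {γ ν : ℝ} (hγ : γ ∈ Set.Icc (0 : ℝ) 1) (hν : ν ∈ Set.Icc (0 : ℝ) 1) (n : ℕ) :
    ∀ p ∈ Set.Icc (0 : ℝ) 1, ∃ (m : ℕ) (q : Fin m → ℝ)
        (ρ : Fin m → Matrix (Fin n → Bool) (Fin n → Bool) ℂ),
        IsEnsemble q ρ ∧ n * gadRate γ ν p ≤ holevoInfo (qubitPower n (gadMap γ ν)) q ρ := by
  intro p hp
  induction n with
  | zero =>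
    refine ⟨1, fun _ => 1, fun _ => 1, ⟨fun _ => zero_le_one, by simp, fun _ => ⟨PosSemidef.one, ?_⟩⟩, ?_⟩
    · simp [Matrix.trace_one]
    · simp [holevoInfo]
  | succ n ih =>
    obtain ⟨m₂, q₂, ρ₂, h₂, hH₂⟩ := ih
    obtain ⟨m₁, q₁, ρ₁, h₁, hH₁⟩ := achieve_one (ν := ν) hγ hp
    have hch : IsChannel (qubitPower n (gadMap γ ν)) :=
      qubitPower_isChannel (gadMap_isChannel γ ν hγ hν) n
    obtain ⟨hE, _, hH⟩ := holevo_product (Product.gadMap_isLinearMap γ ν) hch.1 q₁ ρ₁ q₂ ρ₂ h₁ h₂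
      (fun a => gadMap_ht γ ν (IsDensity.ht (h₁.2.2 a)))
      (fun b => IsDensity.ht (channel_isDensity hch (h₂.2.2 b)))
    refine ⟨_, prodQ q₁ q₂, fun c => (prodRho ρ₁ ρ₂ c).submatrix (cE n).symm (cE n).symm,
      ⟨hE.1, hE.2.1, fun c => isDensity_submatrix_equiv _ (hE.2.2 c)⟩, ?_⟩
    rw [qubitPower_succ']
    rw [holevo_reindex (cE n).symm
      (fun M => qubitTensor (gadMap γ ν) (qubitPower n (gadMap γ ν)) (M.submatrix (cE n) (cE n)))]
    have h3 : holevoInfo (fun M : Matrix (Fin (n + 1) → Bool) (Fin (n + 1) → Bool) ℂ =>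
          qubitTensor (gadMap γ ν) (qubitPower n (gadMap γ ν)) (M.submatrix (cE n) (cE n)))
        (prodQ q₁ q₂) (fun c => (prodRho ρ₁ ρ₂ c).submatrix (cE n).symm (cE n).symm) =
        holevoInfo (qubitTensor (gadMap γ ν) (qubitPower n (gadMap γ ν)))
          (prodQ q₁ q₂) (prodRho ρ₁ ρ₂) := by
      unfold holevoInfo
      simp
    rw [h3, hH, hH₁]
    push_cast
    linarith

end Crest.Agent.S0534Aux.Achieve
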