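import Crest.Prelude.Def_QState
import Crest.Prelude.Def_QChannel

/-!
# Entropy toolkit for S0534 / S0535 : basic facts on `vnEntropy`

`specSum f A` : the sum of `f` over the (real parts of the) roots of the characteristic polynomial.
For Hermitian `A` this is `∑ i, f (eigenvalues i)`; it makes "depends only on the spectrum" arguments
independent of the index type.
-/

set_option autoImplicit false

namespace Crest.Agent.S0534Aux

open Matrix Crest.Quantum
open scoped ComplexOrder

variable {n m : Type*} [Fintype n] [DecidableEq n] [Fintype m] [DecidableEq m]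

/-- Sum of `f` over the real parts of the roots of the characteristic polynomial. -/
noncomputable def specSum (f : ℝ → ℝ) (A : Matrix n n ℂ) : ℝ :=
  (A.charpoly.roots.map (fun z : ℂ => f z.re)).sum

lemma specSum_eq_sum_eigenvalues (f : ℝ → ℝ) {A : Matrix n n ℂ} (hA : A.IsHermitian) :
    specSum f A = ∑ i, f (hA.eigenvalues i) := by
  unfold specSum
  rw [hA.roots_charpoly_eq_eigenvalues, Multiset.map_map]
  simp

lemma vnEntropy_eq_specSum {A : Matrix n n ℂ} (hA : A.IsHermitian) :
    vnEntropy A = specSum Real.negMulLog A := by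
  rw [specSum_eq_sum_eigenvalues _ hA, vnEntropy, dif_pos hA, ← Finset.sum_neg_distrib]
  refine Finset.sum_congr rfl fun i _ => ?_
  simp [Real.negMulLog]

lemma vnEntropy_eq_sum {A : Matrix n n ℂ} (hA : A.IsHermitian) :
    vnEntropy A = ∑ i, Real.negMulLog (hA.eigenvalues i) := by
  rw [vnEntropy_eq_specSum hA, specSum_eq_sum_eigenvalues _ hA]

/-- `specSum` only depends on the characteristic polynomial. -/
lemma specSum_congr_charpoly (f : ℝ → ℝ) {A B : Matrix n n ℂ} (h : A.charpoly = B.charpoly) :
    specSum f A = specSum f B := by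
  unfold specSum; rw [h]

lemma specSum_diagonal (f : ℝ → ℝ) (d : n → ℝ) :
    specSum f (diagonal (fun i => (d i : ℂ))) = ∑ i, f (d i) := by
  unfold specSum
  rw [charpoly_diagonal, Polynomial.roots_prod]
  · simp [Multiset.bind_singleton, Multiset.map_map]
  · simp [Finset.prod_ne_zero_iff, Polynomial.X_sub_C_ne_zero]

/-- invariance under conjugation by a unit. -/
lemma specSum_conj (f : ℝ → ℝ) (A U V : Matrix n n ℂ) (hVU : V * U = 1) :
    specSum f (U * A * V) = specSum f A := by
  apply specSum_congr_charpoly
  rw [charpoly_mul_comm, ← mul_assoc, hVU, one_mul]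

lemma specSum_reindex (f : ℝ → ℝ) (e : n ≃ m) (A : Matrix n n ℂ) :
    specSum f (A.submatrix e.symm e.symm) = specSum f A := by
  unfold specSum
  have : (A.submatrix e.symm e.symm).charpoly = A.charpoly := by
    simpa using Matrix.charpoly_reindex e A
  rw [this]

end Crest.Agent.S0534Aux
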