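import Mathlib

/-!
# Bridge lemma (rid 341, S0534/S0535)

`bridge`: for a finite family of real coefficients `c i` and nonnegative reals `x i` with
`∑ c i * x i = 0`, a pointwise inequality `0 ≤ ∑ c i * log (1 + x i / l)` for all `l > 0`
implies the entropy inequality `0 ≤ ∑ c i * negMulLog (x i)`.
No integral is used: `Ξ l = ∑ c i * ((l + x i) log (l + x i) - l log l)` is monotone on `[0, ∞)`.
-/

namespace Crest.Agent.S0534Aux

open Real Filter Topology

/-- `Θ x l = (l + x) log (l + x) - l log l`, an antiderivative in `l` of `log (1 + x / l)`. -/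
noncomputable def theta (x l : ℝ) : ℝ := (l + x) * Real.log (l + x) - l * Real.log l

lemma continuous_theta (x : ℝ) : Continuous (theta x) := by
  unfold theta
  have h1 : Continuous fun l : ℝ => (l + x) * Real.log (l + x) :=
    Real.continuous_mul_log.comp (continuous_id.add continuous_const)
  exact h1.sub Real.continuous_mul_log

lemma hasDerivAt_theta {x l : ℝ} (hx : 0 ≤ x) (hl : 0 < l) :
    HasDerivAt (theta x) (Real.log (1 + x / l)) l := by
  have hlx : l + x ≠ 0 := by positivity
  have h1 : HasDerivAt (fun l : ℝ => (l + x) * Real.log (l + x)) (Real.log (l + x) + 1) l := by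
    have := (Real.hasDerivAt_mul_log hlx).comp l ((hasDerivAt_id l).add_const x)
    simpa [Function.comp_def] using this
  have h2 : HasDerivAt (fun l : ℝ => l * Real.log l) (Real.log l + 1) l :=
    Real.hasDerivAt_mul_log hl.ne'
  have h3 := h1.sub h2
  have e : Real.log (l + x) + 1 - (Real.log l + 1) = Real.log (1 + x / l) := by
    have : 1 + x / l = (l + x) / l := by field_simp
    rw [this, Real.log_div hlx hl.ne']
    ring
  rw [e] at h3
  exact h3

lemma theta_zero (x : ℝ) : theta x 0 = x * Real.log x := by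
  simp [theta]

lemma theta_eq {x l : ℝ} (hx : 0 ≤ x) (hl : 0 < l) :
    theta x l = (l + x) * Real.log (1 + x / l) + x * Real.log l := by
  have hlx : l + x ≠ 0 := by positivity
  have : 1 + x / l = (l + x) / l := by field_simp
  rw [this, Real.log_div hlx hl.ne']
  unfold theta
  ring

lemma tendsto_aux (x : ℝ) :
    Tendsto (fun l : ℝ => (l + x) * Real.log (1 + x / l)) atTop (𝓝 x) := by
  have h1 : Tendsto (fun l : ℝ => l * Real.log (1 + x / l)) atTop (𝓝 x) :=
    Real.tendsto_mul_log_one_add_div_atTop x
  have h2 : Tendsto (fun l : ℝ => Real.log (1 + x / l)) atTop (𝓝 0) := by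
    have h3 : Tendsto (fun l : ℝ => 1 + x / l) atTop (𝓝 (1 + 0)) :=
      tendsto_const_nhds.add (tendsto_const_nhds.div_atTop tendsto_id)
    have h4 := (Real.continuousAt_log (x := (1 : ℝ) + 0) (by norm_num)).tendsto.comp h3
    simpa [Function.comp_def] using h4
  have h5 : Tendsto (fun l : ℝ => l * Real.log (1 + x / l) + x * Real.log (1 + x / l)) atTop
      (𝓝 (x + x * 0)) := h1.add (h2.const_mul x)
  simp only [mul_zero, add_zero] at h5
  refine h5.congr fun l => ?_
  ring

/-- **Bridge lemma.** -/
theorem bridge {ι : Type*} (s : Finset ι) (c x : ι → ℝ) (hx : ∀ i ∈ s, 0 ≤ x i)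
    (h0 : ∑ i ∈ s, c i * x i = 0)
    (h : ∀ l : ℝ, 0 < l → 0 ≤ ∑ i ∈ s, c i * Real.log (1 + x i / l)) :
    0 ≤ ∑ i ∈ s, c i * Real.negMulLog (x i) := by
  set Xi : ℝ → ℝ := fun l => ∑ i ∈ s, c i * theta (x i) l with hXi
  have hcont : Continuous Xi :=
    continuous_finsetSum _ fun i _ => continuous_const.mul (continuous_theta (x i))
  have hder : ∀ l : ℝ, 0 < l →
      HasDerivAt Xi (∑ i ∈ s, c i * Real.log (1 + x i / l)) l := by
    intro l hl
    have := HasDerivAt.fun_sum (u := s) (A := fun i l => c i * theta (x i) l)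
      (A' := fun i => c i * Real.log (1 + x i / l)) (x := l)
      (fun i hi => (hasDerivAt_theta (hx i hi) hl).const_mul (c i))
    exact this
  have hmono : MonotoneOn Xi (Set.Ici 0) := by
    apply monotoneOn_of_deriv_nonneg (convex_Ici 0) hcont.continuousOn
    · intro l hl
      rw [interior_Ici] at hl
      exact (hder l hl).differentiableAt.differentiableWithinAt
    · intro l hl
      rw [interior_Ici] at hl
      rw [(hder l hl).deriv]
      exact h l hl
  have hlim : Tendsto Xi atTop (𝓝 0) := by
    have h1 : Tendsto (fun l : ℝ => ∑ i ∈ s, c i * ((l + x i) * Real.log (1 + x i / l))) atTop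
        (𝓝 (∑ i ∈ s, c i * x i)) :=
      tendsto_finsetSum _ fun i _ => (tendsto_aux (x i)).const_mul (c i)
    rw [h0] at h1
    refine h1.congr' ?_
    filter_upwards [eventually_gt_atTop 0] with l hl
    have : Xi l = ∑ i ∈ s, c i * ((l + x i) * Real.log (1 + x i / l))
        + (∑ i ∈ s, c i * x i) * Real.log l := by
      rw [hXi, Finset.sum_mul, ← Finset.sum_add_distrib]
      refine Finset.sum_congr rfl fun i hi => ?_
      rw [theta_eq (hx i hi) hl]
      ring
    rw [this, h0]
    ring
  have hle : Xi 0 ≤ 0 := by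
    refine ge_of_tendsto hlim ?_
    filter_upwards [eventually_ge_atTop 0] with l hl
    exact hmono (Set.mem_Ici.2 le_rfl) (Set.mem_Ici.2 hl) hl
  have hX0 : Xi 0 = ∑ i ∈ s, c i * (x i * Real.log (x i)) := by
    simp [hXi, theta_zero]
  have : ∑ i ∈ s, c i * Real.negMulLog (x i) = - Xi 0 := by
    rw [hX0, ← Finset.sum_neg_distrib]
    refine Finset.sum_congr rfl fun i _ => ?_
    simp [Real.negMulLog]
  rw [this]
  linarith

end Crest.Agent.S0534Aux
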