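import Crest.Prelude.Def_QState
import Crest.Prelude.Def_QChannel
import Crest.Prelude.Def_AmpDamp

set_option autoImplicit false
set_option linter.unusedSectionVars false

namespace Crest.Agent.S0534Aux.Channel

open Crest.Quantum Crest.MathPhysics.AmpDamp
open scoped ComplexOrder Matrix Kronecker

variable {d e : Type*} [Fintype d] [Fintype e] [DecidableEq d] [DecidableEq e]

/-! ### gadMap: coefficient table, linearity, trace -/

theorem gadMap_ff (γ ν : ℝ) (M : Matrix Bool Bool ℂ) :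
    gadMap γ ν M false false =
      ((1 - γ * ν : ℝ) : ℂ) * M false false + ((γ * (1 - ν) : ℝ) : ℂ) * M true true := by
  simp [gadMap]

theorem gadMap_tt (γ ν : ℝ) (M : Matrix Bool Bool ℂ) :
    gadMap γ ν M true true =
      ((γ * ν : ℝ) : ℂ) * M false false + ((1 - γ + γ * ν : ℝ) : ℂ) * M true true := by
  simp [gadMap]

theorem gadMap_ft (γ ν : ℝ) (M : Matrix Bool Bool ℂ) :
    gadMap γ ν M false true = ((Real.sqrt (1 - γ) : ℝ) : ℂ) * M false true := by
  simp [gadMap]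

theorem gadMap_tf (γ ν : ℝ) (M : Matrix Bool Bool ℂ) :
    gadMap γ ν M true false = ((Real.sqrt (1 - γ) : ℝ) : ℂ) * M true false := by
  simp [gadMap]

theorem gadMap_isLinearMap (γ ν : ℝ) : IsLinearMap ℂ (gadMap γ ν) := by
  constructor
  · intro A B
    ext s t
    cases s <;> cases t <;>
      simp only [gadMap_ff, gadMap_tt, gadMap_ft, gadMap_tf, Matrix.add_apply] <;> ring
  · intro c A
    ext s t
    cases s <;> cases t <;>
      simp only [gadMap_ff, gadMap_tt, gadMap_ft, gadMap_tf, Matrix.smul_apply, smul_eq_mul] <;> ring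

theorem gadMap_trace (γ ν : ℝ) (M : Matrix Bool Bool ℂ) : (gadMap γ ν M).trace = M.trace := by
  simp only [Matrix.trace, Matrix.diag, Fintype.sum_bool, gadMap_ff, gadMap_tt]
  push_cast
  ring


/-! ### general facts on `block`, `blockwise`, `qubitTensor` -/

/-- `Φ ⊗ Ψ = (Φ ⊗ id) ∘ (id ⊗ Ψ)`. -/
theorem qubitTensor_eq_id_blockwise (Φ : Matrix Bool Bool ℂ → Matrix Bool Bool ℂ)
    (Ψ : Matrix d d ℂ → Matrix e e ℂ) (M : Matrix (Bool × d) (Bool × d) ℂ) :
    qubitTensor Φ Ψ M = qubitTensor Φ (fun X : Matrix e e ℂ => X) (blockwise (k := Bool) Ψ M) := by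
  ext p q
  simp [qubitTensor, blockwise, block]

/-- complete positivity with an arbitrary finite index type for the auxiliary levels. -/
theorem blockwise_posSemidef {k : Type*} [Fintype k] [DecidableEq k]
    {Ψ : Matrix d d ℂ → Matrix e e ℂ} (hΨ : IsCompletelyPositive Ψ)
    {M : Matrix (k × d) (k × d) ℂ} (hM : M.PosSemidef) :
    (blockwise (k := k) Ψ M).PosSemidef := by
  classical
  let f := Fintype.equivFin k
  have h1 : (M.submatrix (fun p : Fin (Fintype.card k) × d => (f.symm p.1, p.2))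
      (fun p : Fin (Fintype.card k) × d => (f.symm p.1, p.2))).PosSemidef := hM.submatrix _
  have h2 := hΨ _ _ h1
  have h3 := h2.submatrix (fun p : k × e => (f p.1, p.2))
  convert h3 using 1
  ext p q
  simp [blockwise, block, Matrix.submatrix]


/-! ### block formula for `gadMap ⊗ Ψ` -/

section gadBlocks
variable (γ ν : ℝ) (Ψ : Matrix d d ℂ → Matrix e e ℂ) (M : Matrix (Bool × d) (Bool × d) ℂ)

theorem qubitTensor_gad_ff (i j : e) :
    qubitTensor (gadMap γ ν) Ψ M (false, i) (false, j) =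
      ((1 - γ * ν : ℝ) : ℂ) * Ψ (block M false false) i j +
        ((γ * (1 - ν) : ℝ) : ℂ) * Ψ (block M true true) i j := by
  simp [qubitTensor, qubitCoeff, gadMap_ff]
  ring

theorem qubitTensor_gad_tt (i j : e) :
    qubitTensor (gadMap γ ν) Ψ M (true, i) (true, j) =
      ((γ * ν : ℝ) : ℂ) * Ψ (block M false false) i j +
        ((1 - γ + γ * ν : ℝ) : ℂ) * Ψ (block M true true) i j := by
  simp [qubitTensor, qubitCoeff, gadMap_tt]
  ring

theorem qubitTensor_gad_ft (i j : e) :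
    qubitTensor (gadMap γ ν) Ψ M (false, i) (true, j) =
      ((Real.sqrt (1 - γ) : ℝ) : ℂ) * Ψ (block M false true) i j := by
  simp [qubitTensor, qubitCoeff, gadMap_ft]

theorem qubitTensor_gad_tf (i j : e) :
    qubitTensor (gadMap γ ν) Ψ M (true, i) (false, j) =
      ((Real.sqrt (1 - γ) : ℝ) : ℂ) * Ψ (block M true false) i j := by
  simp [qubitTensor, qubitCoeff, gadMap_tf]

end gadBlocks

/-- `[[a,b],[c,d]]` indexed by `Bool` (`false = 0`). -/
def bmat (a b c d : ℂ) : Matrix Bool Bool ℂ :=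
  Matrix.of fun s t => cond s (cond t d c) (cond t b a)

theorem kron_conj_apply (k : Matrix Bool Bool ℂ) (N : Matrix (Bool × e) (Bool × e) ℂ)
    (s t : Bool) (i j : e) :
    ((k ⊗ₖ (1 : Matrix e e ℂ)) * N * (k ⊗ₖ (1 : Matrix e e ℂ))ᴴ) (s, i) (t, j) =
      ∑ s', ∑ t', k s s' * star (k t t') * N (s', i) (t', j) := by
  simp only [Matrix.mul_apply, Matrix.conjTranspose_apply, Matrix.kroneckerMap_apply,
    Fintype.sum_prod_type, Matrix.one_apply, Fintype.sum_bool]
  simp [apply_ite (starRingEnd ℂ)]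
  ring


/-- conjugation of `N` by `k ⊗ 1`. -/
noncomputable def kconj (k : Matrix Bool Bool ℂ) (N : Matrix (Bool × e) (Bool × e) ℂ) :
    Matrix (Bool × e) (Bool × e) ℂ :=
  (k ⊗ₖ (1 : Matrix e e ℂ)) * N * (k ⊗ₖ (1 : Matrix e e ℂ))ᴴ

theorem kconj_posSemidef (k : Matrix Bool Bool ℂ) {N : Matrix (Bool × e) (Bool × e) ℂ}
    (hN : N.PosSemidef) : (kconj k N).PosSemidef :=
  hN.mul_mul_conjTranspose_same _

/-- Kraus-type decomposition of `(gadMap γ ν) ⊗ id`. -/
theorem gad_id_eq_kraus (γ ν : ℝ) (hγ : γ ≤ 1) (N : Matrix (Bool × e) (Bool × e) ℂ) :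
    qubitTensor (gadMap γ ν) (fun X : Matrix e e ℂ => X) N =
      ((1 - ν : ℝ) : ℂ) • (kconj (bmat 1 0 0 (Real.sqrt (1 - γ) : ℝ)) N +
          ((γ : ℝ) : ℂ) • kconj (bmat 0 1 0 0) N) +
        ((ν : ℝ) : ℂ) • (kconj (bmat (Real.sqrt (1 - γ) : ℝ) 0 0 1) N +
          ((γ : ℝ) : ℂ) • kconj (bmat 0 0 1 0) N) := by
  have hc : ((Real.sqrt (1 - γ) : ℝ) : ℂ) * ((Real.sqrt (1 - γ) : ℝ) : ℂ) = 1 - (γ : ℂ) := by
    rw [← Complex.ofReal_mul, Real.mul_self_sqrt (by linarith)]
    push_cast; ring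
  ext ⟨s, i⟩ ⟨t, j⟩
  simp only [Matrix.add_apply, Matrix.smul_apply, smul_eq_mul, kconj, kron_conj_apply,
    Fintype.sum_bool]
  cases s <;> cases t
  · rw [qubitTensor_gad_ff]
    simp [bmat, block]
    linear_combination (-(ν : ℂ) * N (false, i) (false, j)) * hc
  · rw [qubitTensor_gad_ft]
    simp [bmat, block]
    ring
  · rw [qubitTensor_gad_tf]
    simp [bmat, block]
    ring
  · rw [qubitTensor_gad_tt]
    simp [bmat, block]
    linear_combination (-(1 - (ν : ℂ)) * N (true, i) (true, j)) * hc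

theorem gad_id_posSemidef {γ ν : ℝ} (hγ : γ ∈ Set.Icc (0 : ℝ) 1) (hν : ν ∈ Set.Icc (0 : ℝ) 1)
    {N : Matrix (Bool × e) (Bool × e) ℂ} (hN : N.PosSemidef) :
    (qubitTensor (gadMap γ ν) (fun X : Matrix e e ℂ => X) N).PosSemidef := by
  rw [gad_id_eq_kraus γ ν hγ.2 N]
  have h1 : (0 : ℂ) ≤ ((1 - ν : ℝ) : ℂ) := by exact_mod_cast sub_nonneg.2 hν.2
  have h2 : (0 : ℂ) ≤ ((ν : ℝ) : ℂ) := by exact_mod_cast hν.1
  have h3 : (0 : ℂ) ≤ ((γ : ℝ) : ℂ) := by exact_mod_cast hγ.1
  exact (((kconj_posSemidef _ hN).add ((kconj_posSemidef _ hN).smul h3)).smul h1).add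
    (((kconj_posSemidef _ hN).add ((kconj_posSemidef _ hN).smul h3)).smul h2)


/-! ### `gadMap ⊗ Ψ` is a channel -/

theorem block_add {k : Type*} (A B : Matrix (k × d) (k × d) ℂ) (s t : k) :
    block (A + B) s t = block A s t + block B s t := by
  ext i j; simp [block]

theorem block_smul {k : Type*} (c : ℂ) (A : Matrix (k × d) (k × d) ℂ) (s t : k) :
    block (c • A) s t = c • block A s t := by
  ext i j; simp [block]

theorem qubitTensor_isLinearMap (Φ : Matrix Bool Bool ℂ → Matrix Bool Bool ℂ)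
    {Ψ : Matrix d d ℂ → Matrix e e ℂ} (hΨ : IsLinearMap ℂ Ψ) :
    IsLinearMap ℂ (qubitTensor Φ Ψ) := by
  constructor
  · intro A B
    ext p q
    simp only [qubitTensor, Matrix.of_apply, block_add, hΨ.map_add, Matrix.add_apply,
      Fintype.sum_bool]
    ring
  · intro c A
    ext p q
    simp only [qubitTensor, Matrix.of_apply, block_smul, hΨ.map_smul, Matrix.smul_apply,
      Fintype.sum_bool, smul_eq_mul]
    ring

theorem trace_eq_sum_block (M : Matrix (Bool × d) (Bool × d) ℂ) :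
    M.trace = (block M false false).trace + (block M true true).trace := by
  simp [Matrix.trace, Fintype.sum_prod_type, block, add_comm]

theorem qubitTensor_gad_trace (γ ν : ℝ) {Ψ : Matrix d d ℂ → Matrix e e ℂ}
    (hΨ : IsTracePreserving Ψ) (M : Matrix (Bool × d) (Bool × d) ℂ) :
    (qubitTensor (gadMap γ ν) Ψ M).trace = M.trace := by
  rw [trace_eq_sum_block M, ← hΨ, ← hΨ]
  simp only [Matrix.trace, Matrix.diag, Fintype.sum_prod_type, Fintype.sum_bool,
    qubitTensor_gad_ff, qubitTensor_gad_tt, Finset.sum_add_distrib, ← Finset.mul_sum]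
  push_cast
  ring

theorem qubitTensor_gad_isCompletelyPositive {γ ν : ℝ} (hγ : γ ∈ Set.Icc (0 : ℝ) 1)
    (hν : ν ∈ Set.Icc (0 : ℝ) 1) {Ψ : Matrix d d ℂ → Matrix e e ℂ}
    (hΨ : IsCompletelyPositive Ψ) : IsCompletelyPositive (qubitTensor (gadMap γ ν) Ψ) := by
  intro k M hM
  -- regroup `Fin k × (Bool × d)` as `(Bool × Fin k) × d`
  have h1 : (M.submatrix (fun p : (Bool × Fin k) × d => (p.1.2, (p.1.1, p.2)))
      (fun p : (Bool × Fin k) × d => (p.1.2, (p.1.1, p.2)))).PosSemidef := hM.submatrix _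
  have h2 := blockwise_posSemidef (k := Bool × Fin k) hΨ h1
  have h3 := h2.submatrix (fun p : Bool × (Fin k × e) => ((p.1, p.2.1), p.2.2))
  have h4 := gad_id_posSemidef hγ hν h3
  have h5 := h4.submatrix (fun p : Fin k × (Bool × e) => (p.2.1, (p.1, p.2.2)))
  convert h5 using 1
  ext ⟨a, s, i⟩ ⟨b, t, j⟩
  simp only [blockwise, Matrix.of_apply, Matrix.submatrix_apply]
  cases s <;> cases t <;>
    simp only [qubitTensor_gad_ff, qubitTensor_gad_ft, qubitTensor_gad_tf, qubitTensor_gad_tt] <;>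
    rfl

theorem qubitTensor_gad_isChannel {γ ν : ℝ} (hγ : γ ∈ Set.Icc (0 : ℝ) 1)
    (hν : ν ∈ Set.Icc (0 : ℝ) 1) {Ψ : Matrix d d ℂ → Matrix e e ℂ} (hΨ : IsChannel Ψ) :
    IsChannel (qubitTensor (gadMap γ ν) Ψ) :=
  ⟨qubitTensor_isLinearMap _ hΨ.1, qubitTensor_gad_isCompletelyPositive hγ hν hΨ.2.1,
    qubitTensor_gad_trace γ ν hΨ.2.2⟩


/-! ### transport of maps along reindexings -/

/-- transport a map on matrices along equivalences of the index types. -/
def reindexMap {d' e' : Type*} (f : d' ≃ d) (g : e' ≃ e) (Ψ : Matrix d d ℂ → Matrix e e ℂ)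
    (M : Matrix d' d' ℂ) : Matrix e' e' ℂ :=
  (Ψ (M.submatrix f.symm f.symm)).submatrix g g

theorem trace_submatrix_equiv' {a b : Type*} [Fintype a] [Fintype b] (g : a ≃ b)
    (M : Matrix b b ℂ) : (M.submatrix g g).trace = M.trace := by
  simp only [Matrix.trace, Matrix.diag, Matrix.submatrix_apply]
  exact g.sum_comp (fun i => M i i)

theorem reindexMap_isChannel {d' e' : Type*} [Fintype d'] [Fintype e'] [DecidableEq d']
    [DecidableEq e'] (f : d' ≃ d) (g : e' ≃ e) {Ψ : Matrix d d ℂ → Matrix e e ℂ}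
    (hΨ : IsChannel Ψ) : IsChannel (reindexMap f g Ψ) := by
  refine ⟨⟨?_, ?_⟩, ?_, ?_⟩
  · intro A B
    have : (A + B).submatrix f.symm f.symm = A.submatrix f.symm f.symm + B.submatrix f.symm f.symm :=
      rfl
    simp only [reindexMap, this, hΨ.1.map_add]
    rfl
  · intro c A
    have : (c • A).submatrix f.symm f.symm = c • A.submatrix f.symm f.symm := rfl
    simp only [reindexMap, this, hΨ.1.map_smul]
    rfl
  · intro k M hM
    have h1 : (M.submatrix (fun p : Fin k × d => (p.1, f.symm p.2))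
      (fun p : Fin k × d => (p.1, f.symm p.2))).PosSemidef := hM.submatrix _
    have h2 := hΨ.2.1 k _ h1
    have h3 := h2.submatrix (fun p : Fin k × e' => (p.1, g p.2))
    convert h3 using 1
    ext p q
    rfl
  · intro M
    simp only [reindexMap, trace_submatrix_equiv', hΨ.2.2 _]

/-! ### `qubitPower` -/

/-- split off the first qubit. -/
def splitEquiv (n : ℕ) : (Fin (n + 1) → Bool) ≃ Bool × (Fin n → Bool) :=
  (Fin.consEquiv (fun _ => Bool)).symm

theorem qubitPower_succ (n : ℕ) (Φ : Matrix Bool Bool ℂ → Matrix Bool Bool ℂ) :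
    qubitPower (n + 1) Φ =
      reindexMap (splitEquiv n) (splitEquiv n) (qubitTensor Φ (qubitPower n Φ)) := by
  funext M
  ext σ τ
  simp only [reindexMap, qubitPower, qubitTensor, Matrix.of_apply, Matrix.submatrix_apply, block]
  rw [← (splitEquiv n).symm.sum_comp]
  simp only [Fintype.sum_prod_type]
  refine Finset.sum_congr rfl fun s' _ => ?_
  have h : ∀ y : Fin n → Bool,
      ∑ τ', (∏ i, qubitCoeff Φ (σ i) (τ i) ((splitEquiv n).symm (s', y) i) (τ' i)) *
          M ((splitEquiv n).symm (s', y)) τ' =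
        ∑ t', ∑ τ'' : Fin n → Bool,
          (∏ i, qubitCoeff Φ (σ i) (τ i) ((splitEquiv n).symm (s', y) i)
            ((splitEquiv n).symm (t', τ'') i)) *
          M ((splitEquiv n).symm (s', y)) ((splitEquiv n).symm (t', τ'')) := by
    intro y
    rw [← (splitEquiv n).symm.sum_comp]
    simp only [Fintype.sum_prod_type]
  simp only [h]
  rw [Finset.sum_comm]
  refine Finset.sum_congr rfl fun t' _ => ?_
  rw [Finset.mul_sum]
  refine Finset.sum_congr rfl fun σ' _ => ?_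
  rw [Finset.mul_sum]
  refine Finset.sum_congr rfl fun τ' _ => ?_
  rw [Fin.prod_univ_succ, ← mul_assoc]
  rfl


theorem qubitPower_zero (Φ : Matrix Bool Bool ℂ → Matrix Bool Bool ℂ)
    (M : Matrix (Fin 0 → Bool) (Fin 0 → Bool) ℂ) : qubitPower 0 Φ M = M := by
  ext σ τ
  simp only [qubitPower, Matrix.of_apply, Finset.univ_eq_empty, Finset.prod_empty, one_mul,
    Fintype.sum_unique]
  congr 1 <;> exact Subsingleton.elim _ _

theorem id_isChannel : IsChannel (fun M : Matrix d d ℂ => M) := by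
  refine ⟨⟨fun _ _ => rfl, fun _ _ => rfl⟩, ?_, fun _ => rfl⟩
  intro k M hM
  convert hM using 1
  ext p q
  rfl

theorem gadMap_isCompletelyPositive {γ ν : ℝ} (hγ : γ ∈ Set.Icc (0 : ℝ) 1)
    (hν : ν ∈ Set.Icc (0 : ℝ) 1) : IsCompletelyPositive (gadMap γ ν) := by
  intro k M hM
  have h1 : (M.submatrix (fun p : Bool × Fin k => (p.2, p.1))
      (fun p : Bool × Fin k => (p.2, p.1))).PosSemidef := hM.submatrix _
  have h2 := gad_id_posSemidef hγ hν h1
  have h3 := h2.submatrix (fun p : Fin k × Bool => (p.2, p.1))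
  convert h3 using 1
  ext ⟨a, s⟩ ⟨b, t⟩
  simp only [blockwise, Matrix.of_apply, Matrix.submatrix_apply]
  cases s <;> cases t <;>
    simp only [qubitTensor_gad_ff, qubitTensor_gad_ft, qubitTensor_gad_tf, qubitTensor_gad_tt,
      gadMap_ff, gadMap_ft, gadMap_tf, gadMap_tt] <;>
    rfl

theorem gadMap_isChannel {γ ν : ℝ} (hγ : γ ∈ Set.Icc (0 : ℝ) 1)
    (hν : ν ∈ Set.Icc (0 : ℝ) 1) : IsChannel (gadMap γ ν) :=
  ⟨gadMap_isLinearMap γ ν, gadMap_isCompletelyPositive hγ hν, gadMap_trace γ ν⟩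

theorem qubitPower_gad_isChannel {γ ν : ℝ} (hγ : γ ∈ Set.Icc (0 : ℝ) 1)
    (hν : ν ∈ Set.Icc (0 : ℝ) 1) (n : ℕ) : IsChannel (qubitPower n (gadMap γ ν)) := by
  induction n with
  | zero =>
    have : qubitPower 0 (gadMap γ ν) = fun M => M := funext (qubitPower_zero _)
    rw [this]
    exact id_isChannel
  | succ n ih =>
    rw [qubitPower_succ]
    exact reindexMap_isChannel _ _ (qubitTensor_gad_isChannel hγ hν ih)

/-! ### product inputs -/

theorem qubitCoeff_sum {Φ : Matrix Bool Bool ℂ → Matrix Bool Bool ℂ} (hΦ : IsLinearMap ℂ Φ)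
    (A : Matrix Bool Bool ℂ) (s t : Bool) :
    ∑ s', ∑ t', qubitCoeff Φ s t s' t' * A s' t' = Φ A s t := by
  have hA : A = ∑ s', ∑ t', A s' t' • Matrix.single s' t' (1 : ℂ) := by
    ext a b
    cases a <;> cases b <;> simp
  conv_rhs => rw [hA]
  simp only [Fintype.sum_bool, hΦ.map_add, hΦ.map_smul, Matrix.add_apply, Matrix.smul_apply,
    smul_eq_mul, qubitCoeff]
  ring

theorem qubitTensor_kronecker {Φ : Matrix Bool Bool ℂ → Matrix Bool Bool ℂ}
    (hΦ : IsLinearMap ℂ Φ) {Ψ : Matrix d d ℂ → Matrix e e ℂ} (hΨ : IsLinearMap ℂ Ψ)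
    (A : Matrix Bool Bool ℂ) (B : Matrix d d ℂ) :
    qubitTensor Φ Ψ (A ⊗ₖ B) = Φ A ⊗ₖ Ψ B := by
  ext ⟨s, i⟩ ⟨t, j⟩
  have hb : ∀ s' t', block (A ⊗ₖ B) s' t' = A s' t' • B := by
    intro s' t'
    ext a b
    simp [block, Matrix.kroneckerMap_apply]
  simp only [qubitTensor, Matrix.of_apply, hb, hΨ.map_smul, Matrix.smul_apply, smul_eq_mul,
    Matrix.kroneckerMap_apply, ← qubitCoeff_sum hΦ A s t, Finset.sum_mul]
  refine Finset.sum_congr rfl fun s' _ => Finset.sum_congr rfl fun t' _ => ?_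
  ring

/-! ### partial traces -/

/-- trace out the first factor. -/
def ptr1 {k : Type*} [Fintype k] (M : Matrix (k × d) (k × d) ℂ) : Matrix d d ℂ :=
  Matrix.of fun i j => ∑ s, M (s, i) (s, j)

/-- trace out the second factor. -/
def ptr2 {k : Type*} (M : Matrix (k × d) (k × d) ℂ) : Matrix k k ℂ :=
  Matrix.of fun s t => ∑ i, M (s, i) (t, i)

theorem ptr1_eq_sum_block (M : Matrix (Bool × d) (Bool × d) ℂ) :
    ptr1 M = block M false false + block M true true := by
  ext i j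
  simp [ptr1, block, add_comm]

theorem ptr2_apply_eq_trace_block {k : Type*} (M : Matrix (k × d) (k × d) ℂ) (s t : k) :
    ptr2 M s t = (block M s t).trace := rfl

theorem ptr1_qubitTensor_gad (γ ν : ℝ) {Ψ : Matrix d d ℂ → Matrix e e ℂ} (hΨ : IsLinearMap ℂ Ψ)
    (M : Matrix (Bool × d) (Bool × d) ℂ) :
    ptr1 (qubitTensor (gadMap γ ν) Ψ M) = Ψ (ptr1 M) := by
  rw [ptr1_eq_sum_block M, hΨ.map_add]
  ext i j
  simp only [ptr1, Matrix.of_apply, Fintype.sum_bool, qubitTensor_gad_ff, qubitTensor_gad_tt,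
    Matrix.add_apply]
  push_cast
  ring

theorem ptr2_qubitTensor_gad (γ ν : ℝ) {Ψ : Matrix d d ℂ → Matrix e e ℂ}
    (hΨ : IsTracePreserving Ψ) (M : Matrix (Bool × d) (Bool × d) ℂ) :
    ptr2 (qubitTensor (gadMap γ ν) Ψ M) = gadMap γ ν (ptr2 M) := by
  ext s t
  cases s <;> cases t <;>
    simp only [gadMap_ff, gadMap_ft, gadMap_tf, gadMap_tt, ptr2_apply_eq_trace_block, ← hΨ (block M _ _)] <;>
    simp only [Matrix.trace, Matrix.diag, block, Matrix.of_apply, qubitTensor_gad_ff,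
      qubitTensor_gad_ft, qubitTensor_gad_tf, qubitTensor_gad_tt, Finset.sum_add_distrib,
      Finset.mul_sum]


/-! ### positivity / density bookkeeping -/

theorem IsCompletelyPositive.posSemidef {Ψ : Matrix d d ℂ → Matrix e e ℂ}
    (hΨ : IsCompletelyPositive Ψ) {ρ : Matrix d d ℂ} (hρ : ρ.PosSemidef) : (Ψ ρ).PosSemidef := by
  have h1 : (ρ.submatrix (fun p : Unit × d => p.2) (fun p : Unit × d => p.2)).PosSemidef :=
    hρ.submatrix _
  have h2 := blockwise_posSemidef (k := Unit) hΨ h1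
  have h3 := h2.submatrix (fun i : e => ((), i))
  convert h3 using 1
  ext i j
  rfl

theorem IsChannel.isDensity {Ψ : Matrix d d ℂ → Matrix e e ℂ} (hΨ : IsChannel Ψ)
    {ρ : Matrix d d ℂ} (hρ : IsDensity ρ) : IsDensity (Ψ ρ) :=
  ⟨IsCompletelyPositive.posSemidef hΨ.2.1 hρ.1, by rw [hΨ.2.2, hρ.2]⟩

theorem block_diag_posSemidef {k : Type*} [Fintype k] {M : Matrix (k × d) (k × d) ℂ}
    (hM : M.PosSemidef) (s : k) : (block M s s).PosSemidef := by
  have := hM.submatrix (fun i : d => (s, i))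
  convert this using 1
  ext i j
  rfl

theorem ptr1_posSemidef {k : Type*} [Fintype k] {M : Matrix (k × d) (k × d) ℂ}
    (hM : M.PosSemidef) : (ptr1 M).PosSemidef := by
  have : ptr1 M = ∑ s, block M s s := by
    ext i j
    simp [ptr1, block, Matrix.sum_apply]
  rw [this]
  exact Matrix.posSemidef_sum _ fun s _ => block_diag_posSemidef hM s

theorem ptr2_posSemidef {k : Type*} [Fintype k] {M : Matrix (k × d) (k × d) ℂ}
    (hM : M.PosSemidef) : (ptr2 M).PosSemidef := by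
  have : ptr2 M = ∑ i, M.submatrix (fun s : k => (s, i)) (fun s : k => (s, i)) := by
    ext s t
    simp [ptr2, Matrix.sum_apply]
  rw [this]
  exact Matrix.posSemidef_sum _ fun i _ => hM.submatrix _

theorem trace_ptr1 {k : Type*} [Fintype k] (M : Matrix (k × d) (k × d) ℂ) :
    (ptr1 M).trace = M.trace := by
  simp only [Matrix.trace, Matrix.diag, ptr1, Matrix.of_apply, Fintype.sum_prod_type]
  exact Finset.sum_comm

theorem trace_ptr2 {k : Type*} [Fintype k] (M : Matrix (k × d) (k × d) ℂ) :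
    (ptr2 M).trace = M.trace := by
  simp only [Matrix.trace, Matrix.diag, ptr2, Matrix.of_apply, Fintype.sum_prod_type]

theorem ptr1_isDensity {k : Type*} [Fintype k] {M : Matrix (k × d) (k × d) ℂ}
    (hM : IsDensity M) : IsDensity (ptr1 M) := ⟨ptr1_posSemidef hM.1, by rw [trace_ptr1, hM.2]⟩

theorem ptr2_isDensity {k : Type*} [Fintype k] {M : Matrix (k × d) (k × d) ℂ}
    (hM : IsDensity M) : IsDensity (ptr2 M) := ⟨ptr2_posSemidef hM.1, by rw [trace_ptr2, hM.2]⟩

theorem isDensity_submatrix_equiv {d' : Type*} [Fintype d'] (f : d' ≃ d) {ρ : Matrix d d ℂ}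
    (hρ : IsDensity ρ) : IsDensity (ρ.submatrix f f) :=
  ⟨hρ.1.submatrix _, by rw [trace_submatrix_equiv', hρ.2]⟩

theorem isDensity_kronecker {k : Type*} [Fintype k] [DecidableEq k] {A : Matrix k k ℂ}
    {B : Matrix d d ℂ} (hA : IsDensity A) (hB : IsDensity B) : IsDensity (A ⊗ₖ B) :=
  ⟨hA.1.kronecker hB.1, by rw [Matrix.trace_kronecker, hA.2, hB.2, one_mul]⟩

/-- the matrix `M = (id ⊗ Ψ) ρ` to which the key inequality is applied. -/
theorem blockwise_bool_posSemidef {Ψ : Matrix d d ℂ → Matrix e e ℂ} (hΨ : IsChannel Ψ)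
    {ρ : Matrix (Bool × d) (Bool × d) ℂ} (hρ : ρ.PosSemidef) :
    (blockwise (k := Bool) Ψ ρ).PosSemidef := blockwise_posSemidef hΨ.2.1 hρ

theorem block_blockwise {k : Type*} (Ψ : Matrix d d ℂ → Matrix e e ℂ)
    (ρ : Matrix (k × d) (k × d) ℂ) (s t : k) :
    block (blockwise (k := k) Ψ ρ) s t = Ψ (block ρ s t) := rfl

theorem trace_blockwise {k : Type*} [Fintype k] {Ψ : Matrix d d ℂ → Matrix e e ℂ}
    (hΨ : IsTracePreserving Ψ) (ρ : Matrix (k × d) (k × d) ℂ) :
    (blockwise (k := k) Ψ ρ).trace = ρ.trace := by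
  have h1 : (blockwise (k := k) Ψ ρ).trace = ∑ s, (block (blockwise (k := k) Ψ ρ) s s).trace := by
    simp [Matrix.trace, Fintype.sum_prod_type, block]
  have h2 : ρ.trace = ∑ s, (block ρ s s).trace := by
    simp [Matrix.trace, Fintype.sum_prod_type, block]
  rw [h1, h2]
  simp only [block_blockwise, hΨ _]

end Crest.Agent.S0534Aux.Channel
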