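import Crest.Agent.S0534Aux.Channel
import Crest.Agent.S0534Aux.EntBasic
import Crest.Agent.S0534Aux.Gsc
import Crest.Agent.S0534Aux.SConvex

/-!
# Tilt algebra for the generalized amplitude damping channel (helper87)

From the three-edge theorem (`H3Statement`, block form) we derive the key inequality
`sFun γ ν p + ∑_j St (steer (E j) M) ≤ vnEntropy ((gad ⊗ id) M)` for a suitable three-outcome
POVM `E` on the input qubit.
-/

set_option autoImplicit false

open scoped ComplexOrder Kronecker MatrixOrder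
open Matrix Crest.Quantum Crest.MathPhysics.AmpDamp
open Crest.Agent.S0534Aux.Channel Crest.Agent.S0534Aux.EntBasic Crest.Agent.S0534Aux.SConvex

namespace Crest.Agent.S0534Aux.Tilt87

variable {e : Type*} [Fintype e] [DecidableEq e]

/-- `Tr_A[(E ⊗ 1) M]`. -/
def steer (E : Matrix Bool Bool ℂ) (M : Matrix (Bool × e) (Bool × e) ℂ) : Matrix e e ℂ :=
  ∑ s : Bool, ∑ t : Bool, E t s • block M s t

/-- entropy of the normalised matrix times its trace. -/
noncomputable def St (T : Matrix e e ℂ) : ℝ := vnEntropy T - Real.negMulLog (T.trace).re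

/-- the block matrix whose `(i,j)` block is `steer (C i j) M`. -/
def asm (C : Bool → Bool → Matrix Bool Bool ℂ) (M : Matrix (Bool × e) (Bool × e) ℂ) :
    Matrix (Bool × e) (Bool × e) ℂ :=
  Matrix.of fun p q => steer (C p.1 q.1) M p.2 q.2

/-- `Q` placed in the `(false,false)` corner. -/
def corner (Q : Matrix e e ℂ) : Matrix (Bool × e) (Bool × e) ℂ :=
  Matrix.of fun p q => if p.1 = false ∧ q.1 = false then Q p.2 q.2 else 0

omit [Fintype e] [DecidableEq e] in
theorem steer_apply (E : Matrix Bool Bool ℂ) (M : Matrix (Bool × e) (Bool × e) ℂ) (x y : e) :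
    steer E M x y = E false false * M (false, x) (false, y) + E true false * M (false, x) (true, y)
      + E false true * M (true, x) (false, y) + E true true * M (true, x) (true, y) := by
  simp [steer, block, Matrix.add_apply]
  ring

omit [Fintype e] [DecidableEq e] in
theorem asm_apply (C : Bool → Bool → Matrix Bool Bool ℂ) (M : Matrix (Bool × e) (Bool × e) ℂ)
    (i j : Bool) (x y : e) : asm C M (i, x) (j, y) = steer (C i j) M x y := rfl

omit [Fintype e] [DecidableEq e] in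
theorem block_asm (C : Bool → Bool → Matrix Bool Bool ℂ) (M : Matrix (Bool × e) (Bool × e) ℂ)
    (i j : Bool) : block (asm C M) i j = steer (C i j) M := rfl

omit [DecidableEq e] in
theorem trace_steer (E : Matrix Bool Bool ℂ) (M : Matrix (Bool × e) (Bool × e) ℂ) :
    (steer E M).trace = E false false * (block M false false).trace
      + E true false * (block M false true).trace
      + E false true * (block M true false).trace + E true true * (block M true true).trace := by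
  simp only [Matrix.trace, Matrix.diag, steer_apply, block, Matrix.of_apply,
    Finset.sum_add_distrib, Finset.mul_sum]

omit [Fintype e] [DecidableEq e] in
theorem steer_add (E E' : Matrix Bool Bool ℂ) (M : Matrix (Bool × e) (Bool × e) ℂ) :
    steer (E + E') M = steer E M + steer E' M := by
  ext x y
  simp only [steer_apply, Matrix.add_apply]
  ring

omit [Fintype e] [DecidableEq e] in
theorem steer_one (M : Matrix (Bool × e) (Bool × e) ℂ) :
    steer 1 M = block M false false + block M true true := by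
  ext x y
  simp [steer_apply, block]

/-- `kconj K M` in `asm` form. -/
theorem kconj_eq_asm (K : Matrix Bool Bool ℂ) (M : Matrix (Bool × e) (Bool × e) ℂ) :
    kconj K M = asm (fun i j => Matrix.of fun t s => K i s * star (K j t)) M := by
  ext ⟨i, x⟩ ⟨j, y⟩
  rw [kconj, kron_conj_apply, asm_apply, steer_apply]
  simp only [Fintype.sum_bool, Matrix.of_apply]
  ring

/-- complete positivity in `steer` form. -/
theorem asm_posSemidef {E : Matrix Bool Bool ℂ} (hE : E.PosSemidef) (F : Bool → Matrix Bool Bool ℂ)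
    {M : Matrix (Bool × e) (Bool × e) ℂ} (hM : M.PosSemidef) :
    (asm (fun i j => (F j)ᴴ * E * F i) M).PosSemidef := by
  obtain ⟨a, rfl⟩ := CStarAlgebra.nonneg_iff_eq_star_mul_self.mp hE.nonneg
  have h : asm (fun i j => (F j)ᴴ * (star a * a) * F i) M =
      ∑ r : Bool, kconj (Matrix.of fun i s => (a * F i) r s) M := by
    ext ⟨i, x⟩ ⟨j, y⟩
    rw [Matrix.sum_apply]
    simp only [kconj_eq_asm, asm_apply, steer_apply, Matrix.of_apply]
    have key : ∀ t s, ((F j)ᴴ * (star a * a) * F i) t s =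
        ∑ r : Bool, (a * F i) r s * star ((a * F j) r t) := by
      intro t s
      have : (F j)ᴴ * (star a * a) * F i = (a * F j)ᴴ * (a * F i) := by
        rw [Matrix.conjTranspose_mul, star_eq_conjTranspose]
        simp only [Matrix.mul_assoc]
      rw [this, Matrix.mul_apply]
      refine Finset.sum_congr rfl fun r _ => ?_
      rw [Matrix.conjTranspose_apply, mul_comm]
    simp only [key, Fintype.sum_bool]
    ring
  rw [h]
  exact Matrix.posSemidef_sum _ fun r _ => kconj_posSemidef _ hM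

/-- unitary invariance for `kconj`. -/
theorem vnEntropy_kconj {U : Matrix Bool Bool ℂ} (hU : U ∈ unitaryGroup Bool ℂ)
    (ω : Matrix (Bool × e) (Bool × e) ℂ) : vnEntropy (kconj U ω) = vnEntropy ω := by
  have h1 : U ⊗ₖ (1 : Matrix e e ℂ) ∈ unitaryGroup (Bool × e) ℂ :=
    kronecker_mem_unitary hU (one_mem _)
  have := vnEntropy_unitary_conj h1 ω
  rwa [star_eq_conjTranspose] at this

/-- The three-edge theorem in block form (interface with `H3.lean`). -/
def H3Statement (e : Type*) [Fintype e] [DecidableEq e] : Prop :=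
  ∀ (Q : Matrix e e ℂ) (N : Matrix (Bool × e) (Bool × e) ℂ), Q.PosSemidef → N.PosSemidef →
    vnEntropy Q + vnEntropy (block N false false) + vnEntropy (block N true true)
      + Gsc Q.trace.re (block N false false).trace.re (block N true true).trace.re
      ≤ vnEntropy (N + corner Q)

/-- scalar part: `Gsc` plus the three `negMulLog`'s is a binary entropy. -/
theorem Gsc_add_eq {p1 p2 p3 : ℝ} (h : p1 + p2 + p3 = 1) :
    Gsc p1 p2 p3 + Real.negMulLog p1 + Real.negMulLog p2 + Real.negMulLog p3 =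
      Real.binEntropy ((1 + Real.sqrt (1 - 4 * (p1 * p3))) / 2) := by
  rw [Real.binEntropy_eq_negMulLog_add_negMulLog_one_sub]
  unfold Gsc lamP lamM
  rw [h]
  have e1 : (1:ℝ) ^ 2 - 4 * p1 * p3 = 1 - 4 * (p1 * p3) := by ring
  have e2 : 1 - (1 + Real.sqrt (1 - 4 * (p1 * p3))) / 2 = (1 - Real.sqrt (1 - 4 * (p1 * p3))) / 2 := by
    ring
  rw [e1, e2]
  ring

/-- Core lemma: from a decomposition of the rotated output. -/
theorem core (h3 : H3Statement e) {U : Matrix Bool Bool ℂ} (hU : U ∈ unitaryGroup Bool ℂ)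
    {ω N : Matrix (Bool × e) (Bool × e) ℂ} {Q : Matrix e e ℂ} (hQ : Q.PosSemidef)
    (hN : N.PosSemidef) (hdec : kconj U ω = N + corner Q) {v : ℝ}
    (hsum : Q.trace.re + (block N false false).trace.re + (block N true true).trace.re = 1)
    (hv : Q.trace.re * (block N true true).trace.re = v) :
    Real.binEntropy ((1 + Real.sqrt (1 - 4 * v)) / 2) + (St Q + St (block N false false)
      + St (block N true true)) ≤ vnEntropy ω := by
  have h := h3 Q N hQ hN
  rw [← hdec, vnEntropy_kconj hU] at h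
  have hg := Gsc_add_eq hsum
  rw [hv] at hg
  unfold St
  linarith

/-! ### real `2 × 2` matrices -/

/-- real `2 × 2` matrix `[[a,b],[c,d]]` as a complex matrix. -/
noncomputable def rb (a b c d : ℝ) : Matrix Bool Bool ℂ := bmat (a : ℂ) (b : ℂ) (c : ℂ) (d : ℂ)

@[simp] theorem rb_ff (a b c d : ℝ) : rb a b c d false false = (a : ℂ) := rfl
@[simp] theorem rb_ft (a b c d : ℝ) : rb a b c d false true = (b : ℂ) := rfl
@[simp] theorem rb_tf (a b c d : ℝ) : rb a b c d true false = (c : ℂ) := rfl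
@[simp] theorem rb_tt (a b c d : ℝ) : rb a b c d true true = (d : ℂ) := rfl

theorem rb_mul (a b c d a' b' c' d' : ℝ) : rb a b c d * rb a' b' c' d' =
    rb (a * a' + b * c') (a * b' + b * d') (c * a' + d * c') (c * b' + d * d') := by
  ext i j
  cases i <;> cases j <;> simp [Matrix.mul_apply] <;> ring

theorem rb_add (a b c d a' b' c' d' : ℝ) : rb a b c d + rb a' b' c' d' =
    rb (a + a') (b + b') (c + c') (d + d') := by
  ext i j
  cases i <;> cases j <;> simp

theorem rb_conjTranspose (a b c d : ℝ) : (rb a b c d)ᴴ = rb a c b d := by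
  ext i j
  cases i <;> cases j <;> simp [Matrix.conjTranspose_apply]

theorem rb_one : rb 1 0 0 1 = 1 := by
  ext i j
  cases i <;> cases j <;> simp

theorem rb_posSemidef {a b d : ℝ} (ha : 0 < a) (hdet : 0 ≤ a * d - b ^ 2) :
    (rb a b b d).PosSemidef := by
  have hsa : Real.sqrt a * Real.sqrt a = a := Real.mul_self_sqrt ha.le
  have hsa0 : Real.sqrt a ≠ 0 := (Real.sqrt_pos.2 ha).ne'
  have hq : 0 ≤ (a * d - b ^ 2) / a := div_nonneg hdet ha.le
  have hsq := Real.mul_self_sqrt hq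
  have h : rb a b b d = (rb (Real.sqrt a) (b / Real.sqrt a) 0 (Real.sqrt ((a * d - b ^ 2) / a)))ᴴ *
      rb (Real.sqrt a) (b / Real.sqrt a) 0 (Real.sqrt ((a * d - b ^ 2) / a)) := by
    rw [rb_conjTranspose, rb_mul]
    congr 1
    · rw [hsa]; ring
    · field_simp
      ring
    · field_simp
      ring
    · rw [hsq]
      have : b / Real.sqrt a * (b / Real.sqrt a) = b ^ 2 / a := by
        rw [div_mul_div_comm, hsa]; ring
      rw [this]
      field_simp
      ring
  rw [h]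
  exact Matrix.posSemidef_conjTranspose_mul_self _

theorem steer_posSemidef {E : Matrix Bool Bool ℂ} (hE : E.PosSemidef)
    {M : Matrix (Bool × e) (Bool × e) ℂ} (hM : M.PosSemidef) : (steer E M).PosSemidef := by
  have h := block_diag_posSemidef (asm_posSemidef hE (fun _ => 1) hM) false
  rw [block_asm] at h
  simpa using h

theorem trace_data {M : Matrix (Bool × e) (Bool × e) ℂ} (hM : M.PosSemidef) (htr : M.trace = 1) :
    ∃ p : ℝ, 0 ≤ p ∧ p ≤ 1 ∧ (block M true true).trace = (p : ℂ) ∧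
      (block M false false).trace = ((1 - p : ℝ) : ℂ) ∧
      (block M true false).trace = star (block M false true).trace := by
  have hZ := (block_diag_posSemidef hM true).trace_nonneg
  have hX := (block_diag_posSemidef hM false).trace_nonneg
  rw [trace_eq_sum_block] at htr
  rw [Complex.le_def] at hZ hX
  have hZc : (block M true true).trace = (((block M true true).trace.re : ℝ) : ℂ) := by
    apply Complex.ext
    · simp
    · simpa using hZ.2.symm
  have hre := congrArg Complex.re htr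
  simp only [Complex.add_re, Complex.one_re] at hre
  refine ⟨(block M true true).trace.re, by simpa using hZ.1, ?_, hZc, ?_, ?_⟩
  · have := hX.1
    simp only [Complex.zero_re] at this
    linarith
  · have : (block M false false).trace = 1 - (block M true true).trace := by
      rw [← htr]; ring
    rw [this, hZc]
    push_cast
    simp
  · have : block M true false = (block M false true)ᴴ := by
      ext i j
      have := congrFun (congrFun hM.isHermitian (true, i)) (false, j)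
      simp only [Matrix.conjTranspose_apply] at this
      simp [block, Matrix.conjTranspose_apply, this]
    rw [this, Matrix.trace_conjTranspose]

omit [DecidableEq e] in
theorem trace_steer_rb {M : Matrix (Bool × e) (Bool × e) ℂ} {p : ℝ}
    (hZ : (block M true true).trace = (p : ℂ))
    (hX : (block M false false).trace = ((1 - p : ℝ) : ℂ))
    (hY' : (block M true false).trace = star (block M false true).trace)
    (hY : (block M false true).trace.re = 0) (a b d : ℝ) :
    (steer (rb a b b d) M).trace.re = a * (1 - p) + d * p := by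
  rw [trace_steer, hZ, hX, hY']
  simp [hY]

theorem core2 (h3 : H3Statement e) {U : Matrix Bool Bool ℂ} (hU : U ∈ unitaryGroup Bool ℂ)
    {M ω N : Matrix (Bool × e) (Bool × e) ℂ} (hM : M.PosSemidef) (htr : M.trace = 1)
    {El Em E0 : Matrix Bool Bool ℂ} (hEl : El.PosSemidef) (hsumE : El + Em + E0 = 1)
    (hN : N.PosSemidef) (hNff : block N false false = steer Em M)
    (hNtt : block N true true = steer E0 M) (hdec : kconj U ω = N + corner (steer El M)) {v : ℝ}
    (hv : (steer El M).trace.re * (steer E0 M).trace.re = v) :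
    Real.binEntropy ((1 + Real.sqrt (1 - 4 * v)) / 2) +
      (St (steer El M) + St (steer Em M) + St (steer E0 M)) ≤ vnEntropy ω := by
  have h := core h3 hU (steer_posSemidef hEl hM) hN hdec (v := v) ?_ ?_
  · rwa [hNff, hNtt] at h
  · rw [hNff, hNtt, ← Complex.add_re, ← Complex.add_re, ← Matrix.trace_add, ← Matrix.trace_add,
      ← steer_add, ← steer_add, hsumE, steer_one, Matrix.trace_add, ← trace_eq_sum_block, htr]
    simp
  · rw [hNtt]; exact hv


section tiltdefs
variable (x y c A B : ℝ)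

/-- determinant of `E0`. -/
def Dl : ℝ := (x^2*(1-A)+y^2*A) * (x^2*B+y^2*(1-B)) - c^2*x^2*y^2

noncomputable def E0 : Matrix Bool Bool ℂ :=
  rb (x^2*(1-A)+y^2*A) (-(c*x*y)) (-(c*x*y)) (x^2*B+y^2*(1-B))

noncomputable def Wm : Matrix Bool Bool ℂ :=
  rb (-((1-2*A)*x*y)) (-(c*x^2)) (c*y^2) ((1-2*B)*x*y)

noncomputable def Fm : Matrix Bool Bool ℂ :=
  rb ((Dl x y c A B)⁻¹ * ((x^2*B+y^2*(1-B))*(-((1-2*A)*x*y)) + c*x*y*(c*y^2)))
     ((Dl x y c A B)⁻¹ * ((x^2*B+y^2*(1-B))*(-(c*x^2)) + c*x*y*((1-2*B)*x*y)))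
     ((Dl x y c A B)⁻¹ * (c*x*y*(-((1-2*A)*x*y)) + (x^2*(1-A)+y^2*A)*(c*y^2)))
     ((Dl x y c A B)⁻¹ * (c*x*y*(-(c*x^2)) + (x^2*(1-A)+y^2*A)*((1-2*B)*x*y)))

noncomputable def El : Matrix Bool Bool ℂ :=
  rb (A*B*(Dl x y c A B)⁻¹*(x^2*(1-A)+y^2*A)) (A*B*(Dl x y c A B)⁻¹*(c*x*y))
     (A*B*(Dl x y c A B)⁻¹*(c*x*y)) (A*B*(Dl x y c A B)⁻¹*(x^2*B+y^2*(1-B)))

noncomputable def P00 : Matrix Bool Bool ℂ :=
  rb (y^2*(1-A)+x^2*A) (c*x*y) (c*x*y) (y^2*B+x^2*(1-B))

variable {x y c A B}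

theorem E0_mul_Fm (hD : Dl x y c A B ≠ 0) : E0 x y c A B * Fm x y c A B = Wm x y c A B := by
  unfold E0 Fm Wm
  rw [rb_mul]
  congr 1 <;> (field_simp; unfold Dl; ring)

theorem E0_conjTranspose : (E0 x y c A B)ᴴ = E0 x y c A B := by
  unfold E0; rw [rb_conjTranspose]

theorem Fm_E0_Fm_add_El (hD : Dl x y c A B ≠ 0) (h1 : x^2 + y^2 = 1) (h2 : c^2 = 1 - A - B) :
    (Fm x y c A B)ᴴ * E0 x y c A B * Fm x y c A B + El x y c A B = P00 x y c A B := by
  rw [Matrix.mul_assoc, E0_mul_Fm hD]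
  obtain rfl : A = 1 - B - c^2 := by linear_combination h2
  unfold Fm Wm El P00
  rw [rb_conjTranspose, rb_mul, rb_add]
  congr 1
  · field_simp
    unfold Dl
    linear_combination (-((1 - B - c^2)*B*(x^2*(1-(1 - B - c^2))+y^2*(1 - B - c^2))*(1+x^2+y^2))) * h1
  · field_simp
    unfold Dl
    linear_combination (-((1 - B - c^2)*B*(c*x*y)*(1+x^2+y^2))) * h1
  · field_simp
    unfold Dl
    linear_combination (-((1 - B - c^2)*B*(c*x*y)*(1+x^2+y^2))) * h1
  · field_simp
    unfold Dl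
    linear_combination (-((1 - B - c^2)*B*(x^2*B+y^2*(1-B))*(1+x^2+y^2))) * h1


/-- the two "frames". -/
noncomputable def Fs (x y c A B : ℝ) (i : Bool) : Matrix Bool Bool ℂ :=
  cond i 1 (Fm x y c A B)

theorem Wm_conjTranspose : (Wm x y c A B)ᴴ =
    rb (-((1-2*A)*x*y)) (c*y^2) (-(c*x^2)) ((1-2*B)*x*y) := by
  unfold Wm; rw [rb_conjTranspose]

end tiltdefs


/-- `(gad ⊗ id) M`. -/
noncomputable def gadB (γ ν : ℝ) (M : Matrix (Bool × e) (Bool × e) ℂ) :
    Matrix (Bool × e) (Bool × e) ℂ :=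
  qubitTensor (gadMap γ ν) (fun X : Matrix e e ℂ => X) M


theorem gadB_ff (γ ν : ℝ) (M : Matrix (Bool × e) (Bool × e) ℂ) (a b : e) :
    gadB γ ν M (false, a) (false, b) = ((1 - γ * ν : ℝ) : ℂ) * M (false, a) (false, b) +
      ((γ * (1 - ν) : ℝ) : ℂ) * M (true, a) (true, b) := by
  unfold gadB; rw [qubitTensor_gad_ff]; rfl


theorem gadB_tt (γ ν : ℝ) (M : Matrix (Bool × e) (Bool × e) ℂ) (a b : e) :
    gadB γ ν M (true, a) (true, b) = ((γ * ν : ℝ) : ℂ) * M (false, a) (false, b) +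
      ((1 - γ + γ * ν : ℝ) : ℂ) * M (true, a) (true, b) := by
  unfold gadB; rw [qubitTensor_gad_tt]; rfl


theorem gadB_ft (γ ν : ℝ) (M : Matrix (Bool × e) (Bool × e) ℂ) (a b : e) :
    gadB γ ν M (false, a) (true, b) = ((Real.sqrt (1 - γ) : ℝ) : ℂ) * M (false, a) (true, b) := by
  unfold gadB; rw [qubitTensor_gad_ft]; rfl


theorem gadB_tf (γ ν : ℝ) (M : Matrix (Bool × e) (Bool × e) ℂ) (a b : e) :
    gadB γ ν M (true, a) (false, b) = ((Real.sqrt (1 - γ) : ℝ) : ℂ) * M (true, a) (false, b) := by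
  unfold gadB; rw [qubitTensor_gad_tf]; rfl

theorem tilt_decomp {γ ν x y : ℝ} (hγ : γ ≤ 1)
    (hD : Dl x y (Real.sqrt (1 - γ)) (γ * ν) (γ * (1 - ν)) ≠ 0) (h1 : x ^ 2 + y ^ 2 = 1)
    (M : Matrix (Bool × e) (Bool × e) ℂ) :
    kconj (rb y x (-x) y) (gadB γ ν M) =
      asm (fun i j => (Fs x y (Real.sqrt (1 - γ)) (γ * ν) (γ * (1 - ν)) j)ᴴ *
        E0 x y (Real.sqrt (1 - γ)) (γ * ν) (γ * (1 - ν)) *
        Fs x y (Real.sqrt (1 - γ)) (γ * ν) (γ * (1 - ν)) i) M +
      corner (steer (El x y (Real.sqrt (1 - γ)) (γ * ν) (γ * (1 - ν))) M) := by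
  have h2 : (Real.sqrt (1 - γ)) ^ 2 = 1 - γ * ν - γ * (1 - ν) := by
    rw [Real.sq_sqrt (by linarith)]; ring
  set c := Real.sqrt (1 - γ) with hc
  ext ⟨i, a⟩ ⟨j, b⟩
  rw [kconj, kron_conj_apply, Matrix.add_apply, asm_apply]
  simp only [Fintype.sum_bool, gadB_ff, gadB_tt, gadB_ft, gadB_tf, ← hc]
  cases i <;> cases j
  · have : steer ((Fs x y c (γ * ν) (γ * (1 - ν)) false)ᴴ * E0 x y c (γ * ν) (γ * (1 - ν)) *
        Fs x y c (γ * ν) (γ * (1 - ν)) false) M a b +
        corner (steer (El x y c (γ * ν) (γ * (1 - ν))) M) (false, a) (false, b) =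
        steer (P00 x y c (γ * ν) (γ * (1 - ν))) M a b := by
      rw [← Fm_E0_Fm_add_El hD h1 h2, steer_add]
      simp [corner, Fs]
    rw [this, steer_apply]
    simp only [P00, rb_ff, rb_ft, rb_tf, rb_tt, Complex.star_def, Complex.conj_ofReal]
    push_cast
    ring
  · have : (Fs x y c (γ * ν) (γ * (1 - ν)) true)ᴴ * E0 x y c (γ * ν) (γ * (1 - ν)) *
        Fs x y c (γ * ν) (γ * (1 - ν)) false = Wm x y c (γ * ν) (γ * (1 - ν)) := by
      simp only [Fs, cond_true, cond_false, Matrix.conjTranspose_one, Matrix.one_mul]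
      exact E0_mul_Fm hD
    rw [this, steer_apply]
    simp only [Wm, corner, Matrix.of_apply, rb_ff, rb_ft, rb_tf, rb_tt, Complex.star_def,
      Complex.conj_ofReal]
    simp
    ring
  · have : (Fs x y c (γ * ν) (γ * (1 - ν)) false)ᴴ * E0 x y c (γ * ν) (γ * (1 - ν)) *
        Fs x y c (γ * ν) (γ * (1 - ν)) true = (Wm x y c (γ * ν) (γ * (1 - ν)))ᴴ := by
      simp only [Fs, cond_true, cond_false, Matrix.mul_one]
      rw [← E0_mul_Fm hD, Matrix.conjTranspose_mul, E0_conjTranspose]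
    rw [this, Wm_conjTranspose, steer_apply]
    simp only [corner, Matrix.of_apply, rb_ff, rb_ft, rb_tf, rb_tt, Complex.star_def,
      Complex.conj_ofReal]
    simp
    ring
  · have : (Fs x y c (γ * ν) (γ * (1 - ν)) true)ᴴ * E0 x y c (γ * ν) (γ * (1 - ν)) *
        Fs x y c (γ * ν) (γ * (1 - ν)) true = E0 x y c (γ * ν) (γ * (1 - ν)) := by
      simp only [Fs, cond_true, Matrix.conjTranspose_one, Matrix.one_mul, Matrix.mul_one]
    rw [this, steer_apply]
    simp only [E0, corner, Matrix.of_apply, rb_ff, rb_ft, rb_tf, rb_tt, Complex.star_def,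
      Complex.conj_ofReal]
    simp
    ring


theorem rot_mem_unitary {x y : ℝ} (h1 : x ^ 2 + y ^ 2 = 1) :
    rb y x (-x) y ∈ unitaryGroup Bool ℂ := by
  rw [mem_unitaryGroup_iff, star_eq_conjTranspose, rb_conjTranspose, rb_mul, ← rb_one]
  congr 1 <;> nlinarith

/-- scalar facts of the tilt. -/
theorem tilt_scalars {γ ν p : ℝ} (hγ1 : γ ≤ 1) (hA : 0 < γ * ν) (hB : 0 < γ * (1 - ν))
    (hp0 : 0 ≤ p) (hp1 : p ≤ 1) :
    ∃ x y : ℝ, x ^ 2 + y ^ 2 = 1 ∧ 0 < Dl x y (Real.sqrt (1 - γ)) (γ * ν) (γ * (1 - ν)) ∧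
      0 < x ^ 2 * (1 - γ * ν) + y ^ 2 * (γ * ν) ∧
      (γ * ν * (γ * (1 - ν)) * (Dl x y (Real.sqrt (1 - γ)) (γ * ν) (γ * (1 - ν)))⁻¹ *
          (x ^ 2 * (1 - γ * ν) + y ^ 2 * (γ * ν)) * (1 - p) +
        γ * ν * (γ * (1 - ν)) * (Dl x y (Real.sqrt (1 - γ)) (γ * ν) (γ * (1 - ν)))⁻¹ *
          (x ^ 2 * (γ * (1 - ν)) + y ^ 2 * (1 - γ * (1 - ν))) * p) *
        ((x ^ 2 * (1 - γ * ν) + y ^ 2 * (γ * ν)) * (1 - p) +
          (x ^ 2 * (γ * (1 - ν)) + y ^ 2 * (1 - γ * (1 - ν))) * p) =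
        γ * ν * (1 - ν) + γ * (1 - γ) * (p - ν) ^ 2 := by
  have h2 : (Real.sqrt (1 - γ)) ^ 2 = 1 - γ := Real.sq_sqrt (by linarith)
  set c := Real.sqrt (1 - γ) with hc
  set A := γ * ν with hAdef
  set B := γ * (1 - ν) with hBdef
  have hAB : A + B = γ := by rw [hAdef, hBdef]; ring
  have hw : 0 < A * (1 - p) + B * p := by
    rcases eq_or_lt_of_le hp0 with h | h
    · rw [← h]; simpa using hA
    · have : 0 ≤ A * (1 - p) := mul_nonneg hA.le (by linarith)
      have : 0 < B * p := mul_pos hB h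
      linarith
  set w := A * (1 - p) + B * p with hwdef
  have hx0 : 0 ≤ A * (1 - p) / w := div_nonneg (mul_nonneg hA.le (by linarith)) hw.le
  have hy0 : 0 ≤ B * p / w := div_nonneg (mul_nonneg hB.le hp0) hw.le
  refine ⟨Real.sqrt (A * (1 - p) / w), Real.sqrt (B * p / w), ?_⟩
  have hx2 := Real.sq_sqrt hx0
  have hy2 := Real.sq_sqrt hy0
  set x := Real.sqrt (A * (1 - p) / w)
  set y := Real.sqrt (B * p / w)
  have hxw : x ^ 2 * w = A * (1 - p) := by rw [hx2]; field_simp
  have hyw : y ^ 2 * w = B * p := by rw [hy2]; field_simp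
  have h1 : x ^ 2 + y ^ 2 = 1 := by
    rw [hx2, hy2, ← add_div, ← hwdef, div_self hw.ne']
  have hA1 : A < 1 := by linarith
  have hB1 : B < 1 := by linarith
  have hDl : Dl x y c A B = B * (1 - A) * (x ^ 2) ^ 2 + 2 * A * B * (x ^ 2 * y ^ 2)
      + A * (1 - B) * (y ^ 2) ^ 2 := by
    unfold Dl
    rw [h2, ← hAB]; ring
  have hx2n : 0 ≤ x ^ 2 := sq_nonneg x
  have hy2n : 0 ≤ y ^ 2 := sq_nonneg y
  have hDpos : 0 < Dl x y c A B := by
    rw [hDl]
    have t1 : 0 ≤ B * (1 - A) * (x ^ 2) ^ 2 := by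
      apply mul_nonneg (mul_nonneg hB.le (by linarith)) (sq_nonneg _)
    have t2 : 0 ≤ 2 * A * B * (x ^ 2 * y ^ 2) := by positivity
    have t3 : 0 ≤ A * (1 - B) * (y ^ 2) ^ 2 := by
      apply mul_nonneg (mul_nonneg hA.le (by linarith)) (sq_nonneg _)
    rcases eq_or_lt_of_le hx2n with h | h
    · have hy1 : y ^ 2 = 1 := by linarith
      rw [← h, hy1]
      have : 0 < A * (1 - B) := mul_pos hA (by linarith)
      nlinarith
    · have : 0 < B * (1 - A) * (x ^ 2) ^ 2 := by
        apply mul_pos (mul_pos hB (by linarith)) (by positivity)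
      linarith
  refine ⟨h1, hDpos, ?_, ?_⟩
  · rcases eq_or_lt_of_le hx2n with h | h
    · have hy1 : y ^ 2 = 1 := by linarith
      rw [← h, hy1]; linarith
    · have : 0 < x ^ 2 * (1 - A) := mul_pos h (by linarith)
      have : 0 ≤ y ^ 2 * A := mul_nonneg hy2n hA.le
      linarith
  · set v := γ * ν * (1 - ν) + γ * (1 - γ) * (p - ν) ^ 2 with hv
    set P0 := (x ^ 2 * (1 - A) + y ^ 2 * A) * (1 - p) + (x ^ 2 * B + y ^ 2 * (1 - B)) * p with hP0
    have ha : P0 * w = v := by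
      have : P0 * w = ((x ^ 2 * w) * (1 - A) + (y ^ 2 * w) * A) * (1 - p)
          + ((x ^ 2 * w) * B + (y ^ 2 * w) * (1 - B)) * p := by rw [hP0]; ring
      rw [this, hxw, hyw, hv, hAdef, hBdef]; ring
    have hb : Dl x y c A B * w ^ 2 = A * B * v := by
      have : Dl x y c A B * w ^ 2 = ((x ^ 2 * w) * (1 - A) + (y ^ 2 * w) * A) *
          ((x ^ 2 * w) * B + (y ^ 2 * w) * (1 - B)) - c ^ 2 * (x ^ 2 * w) * (y ^ 2 * w) := by
        unfold Dl; ring
      rw [this, hxw, hyw, h2, hv, hAdef, hBdef]; ring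
    have hz : (A * B * P0 ^ 2 - v * Dl x y c A B) * w ^ 2 = 0 := by
      linear_combination (A * B * (P0 * w + v)) * ha - v * hb
    have hz' : A * B * P0 ^ 2 - v * Dl x y c A B = 0 := by
      rcases mul_eq_zero.1 hz with h | h
      · exact h
      · exact absurd h (by positivity)
    have : (A * B * (Dl x y c A B)⁻¹ * (x ^ 2 * (1 - A) + y ^ 2 * A) * (1 - p) +
        A * B * (Dl x y c A B)⁻¹ * (x ^ 2 * B + y ^ 2 * (1 - B)) * p) * P0 =
        A * B * P0 ^ 2 * (Dl x y c A B)⁻¹ := by rw [hP0]; ring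
    rw [this]
    have hD0 := hDpos.ne'
    field_simp
    linarith


/-- the conclusion we are after, for a given `M`. -/
def Goal (γ ν : ℝ) (M : Matrix (Bool × e) (Bool × e) ℂ) : Prop :=
  ∃ El Em E0 : Matrix Bool Bool ℂ, El.PosSemidef ∧ Em.PosSemidef ∧ E0.PosSemidef ∧
    El + Em + E0 = 1 ∧
    sFun γ ν (block M true true).trace.re +
      (St (steer El M) + St (steer Em M) + St (steer E0 M)) ≤ vnEntropy (gadB γ ν M)

/-- main case, `Re Tr Y = 0`. -/
theorem tilt_real (h3 : H3Statement e) {γ ν : ℝ} (hγ1 : γ ≤ 1) (hA : 0 < γ * ν)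
    (hB : 0 < γ * (1 - ν)) {M : Matrix (Bool × e) (Bool × e) ℂ} (hM : M.PosSemidef)
    (htr : M.trace = 1) (hY : (block M false true).trace.re = 0) : Goal γ ν M := by
  obtain ⟨p, hp0, hp1, hZ, hX, hY'⟩ := trace_data hM htr
  obtain ⟨x, y, h1, hD, he00, hv⟩ := tilt_scalars hγ1 hA hB hp0 hp1
  set c := Real.sqrt (1 - γ) with hc
  set A := γ * ν with hAdef
  set B := γ * (1 - ν) with hBdef
  have h2 : c ^ 2 = 1 - A - B := by
    rw [hc, Real.sq_sqrt (by linarith), hAdef, hBdef]; ring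
  have hE0 : (E0 x y c A B).PosSemidef := by
    unfold E0
    apply rb_posSemidef he00
    have : (x ^ 2 * (1 - A) + y ^ 2 * A) * (x ^ 2 * B + y ^ 2 * (1 - B)) - (-(c * x * y)) ^ 2 =
        Dl x y c A B := by unfold Dl; ring
    rw [this]; exact hD.le
  have hEl : (El x y c A B).PosSemidef := by
    unfold El
    have hk : 0 < A * B * (Dl x y c A B)⁻¹ := mul_pos (mul_pos hA hB) (inv_pos.2 hD)
    apply rb_posSemidef (mul_pos hk he00)
    have : A * B * (Dl x y c A B)⁻¹ * (x ^ 2 * (1 - A) + y ^ 2 * A) *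
        (A * B * (Dl x y c A B)⁻¹ * (x ^ 2 * B + y ^ 2 * (1 - B))) -
        (A * B * (Dl x y c A B)⁻¹ * (c * x * y)) ^ 2 =
        (A * B * (Dl x y c A B)⁻¹) ^ 2 * Dl x y c A B := by unfold Dl; ring
    rw [this]; positivity
  have hEm : ((Fm x y c A B)ᴴ * E0 x y c A B * Fm x y c A B).PosSemidef :=
    hE0.conjTranspose_mul_mul_same _
  have hsum : El x y c A B + (Fm x y c A B)ᴴ * E0 x y c A B * Fm x y c A B + E0 x y c A B = 1 := by
    rw [add_comm (El x y c A B), Fm_E0_Fm_add_El hD.ne' h1 h2]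
    unfold P00 E0
    rw [rb_add, ← rb_one]
    congr 1 <;> nlinarith
  refine ⟨El x y c A B, _, E0 x y c A B, hEl, hEm, hE0, hsum, ?_⟩
  have hN := asm_posSemidef hE0 (Fs x y c A B) hM
  have hdec := tilt_decomp hγ1 hD.ne' h1 M
  have key := core2 h3 (rot_mem_unitary h1) hM htr hEl hsum hN (by
      rw [block_asm]; simp [Fs]) (by rw [block_asm]; simp [Fs]) hdec
      (v := γ * ν * (1 - ν) + γ * (1 - γ) * (p - ν) ^ 2) (by
      unfold El E0
      rw [trace_steer_rb hZ hX hY' hY, trace_steer_rb hZ hX hY' hY]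
      exact hv)
  have hpre : (block M true true).trace.re = p := by rw [hZ]; simp
  rw [hpre]
  exact key


theorem rb_diag_posSemidef {a d : ℝ} (ha : 0 ≤ a) (hd : 0 ≤ d) : (rb a 0 0 d).PosSemidef := by
  have h : rb a 0 0 d = (rb (Real.sqrt a) 0 0 (Real.sqrt d))ᴴ * rb (Real.sqrt a) 0 0 (Real.sqrt d) := by
    rw [rb_conjTranspose, rb_mul]
    congr 1 <;> simp [Real.mul_self_sqrt, ha, hd]
  rw [h]
  exact Matrix.posSemidef_conjTranspose_mul_self _

omit [DecidableEq e] in
theorem trace_steer_diag {M : Matrix (Bool × e) (Bool × e) ℂ} {p : ℝ}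
    (hZ : (block M true true).trace = (p : ℂ))
    (hX : (block M false false).trace = ((1 - p : ℝ) : ℂ)) (a d : ℝ) :
    (steer (rb a 0 0 d) M).trace.re = a * (1 - p) + d * p := by
  rw [trace_steer, hZ, hX]
  simp

theorem block_kconj (K : Matrix Bool Bool ℂ) (M : Matrix (Bool × e) (Bool × e) ℂ) (i j : Bool) :
    block (kconj K M) i j = steer (Matrix.of fun t s => K i s * star (K j t)) M := by
  rw [kconj_eq_asm, block_asm]

/-- case `γ ν = 0`. -/
theorem tilt_A0 (h3 : H3Statement e) {γ ν : ℝ} (hγ0 : 0 ≤ γ) (hγ1 : γ ≤ 1) (hν1 : ν ≤ 1)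
    (hA : γ * ν = 0) {M : Matrix (Bool × e) (Bool × e) ℂ} (hM : M.PosSemidef)
    (htr : M.trace = 1) : Goal γ ν M := by
  obtain ⟨p, hp0, hp1, hZ, hX, hY'⟩ := trace_data hM htr
  have hc2 : Real.sqrt (1 - γ) * Real.sqrt (1 - γ) = 1 - γ := Real.mul_self_sqrt (by linarith)
  set c := Real.sqrt (1 - γ) with hc
  have hEl : (rb 0 0 0 (γ * (1 - ν))).PosSemidef :=
    rb_diag_posSemidef le_rfl (mul_nonneg hγ0 (by linarith))
  have hsum : rb 0 0 0 (γ * (1 - ν)) + rb 1 0 0 0 + rb 0 0 0 (1 - γ) = 1 := by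
    rw [rb_add, rb_add, ← rb_one]
    congr 1 <;> linarith
  refine ⟨rb 0 0 0 (γ * (1 - ν)), rb 1 0 0 0, rb 0 0 0 (1 - γ), hEl,
    rb_diag_posSemidef zero_le_one le_rfl, rb_diag_posSemidef le_rfl (by linarith), hsum, ?_⟩
  have key := core2 h3 (one_mem (unitaryGroup Bool ℂ)) hM htr hEl hsum
    (kconj_posSemidef (rb 1 0 0 c) hM) (ω := gadB γ ν M)
    (v := γ * ν * (1 - ν) + γ * (1 - γ) * (p - ν) ^ 2) ?_ ?_ ?_ ?_
  · have hpre : (block M true true).trace.re = p := by rw [hZ]; simp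
    rw [hpre]
    exact key
  · rw [block_kconj]
    congr 1
    ext i j
    cases i <;> cases j <;> simp
  · rw [block_kconj]
    congr 1
    ext i j
    cases i <;> cases j <;> simp
    rw [← Complex.ofReal_mul, hc2]; simp
  · ext ⟨i, a⟩ ⟨j, b⟩
    rw [kconj, kron_conj_apply, Matrix.add_apply, kconj, kron_conj_apply]
    have hAc : (γ : ℂ) * (ν : ℂ) = 0 := by exact_mod_cast hA
    have hcc : (c : ℂ) * (c : ℂ) = 1 - (γ : ℂ) := by exact_mod_cast hc2
    cases i <;> cases j <;>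
      simp [gadB_ff, gadB_tt, gadB_ft, gadB_tf, corner, steer_apply, ← hc, hAc, hcc]
  · rw [trace_steer_diag hZ hX, trace_steer_diag hZ hX]
    linear_combination (-(1 - γ) * p ^ 2 - (1 - ν) + 2 * p * (1 - γ) - (1 - γ) * ν) * hA


/-- case `γ (1 - ν) = 0`. -/
theorem tilt_B0 (h3 : H3Statement e) {γ ν : ℝ} (hγ0 : 0 ≤ γ) (hγ1 : γ ≤ 1) (hν0 : 0 ≤ ν)
    (hB : γ * (1 - ν) = 0) {M : Matrix (Bool × e) (Bool × e) ℂ} (hM : M.PosSemidef)
    (htr : M.trace = 1) : Goal γ ν M := by
  obtain ⟨p, hp0, hp1, hZ, hX, hY'⟩ := trace_data hM htr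
  have hc2 : Real.sqrt (1 - γ) * Real.sqrt (1 - γ) = 1 - γ := Real.mul_self_sqrt (by linarith)
  set c := Real.sqrt (1 - γ) with hc
  have hEl : (rb (γ * ν) 0 0 0).PosSemidef :=
    rb_diag_posSemidef (mul_nonneg hγ0 hν0) le_rfl
  have hsum : rb (γ * ν) 0 0 0 + rb 0 0 0 1 + rb (1 - γ) 0 0 0 = 1 := by
    rw [rb_add, rb_add, ← rb_one]
    congr 1 <;> linarith
  have hU : rb 0 1 1 0 ∈ unitaryGroup Bool ℂ := by
    rw [mem_unitaryGroup_iff, star_eq_conjTranspose, rb_conjTranspose, rb_mul, ← rb_one]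
    congr 1 <;> norm_num
  refine ⟨rb (γ * ν) 0 0 0, rb 0 0 0 1, rb (1 - γ) 0 0 0, hEl,
    rb_diag_posSemidef le_rfl zero_le_one, rb_diag_posSemidef (by linarith) le_rfl, hsum, ?_⟩
  have key := core2 h3 hU hM htr hEl hsum
    (kconj_posSemidef (rb 0 1 c 0) hM) (ω := gadB γ ν M)
    (v := γ * ν * (1 - ν) + γ * (1 - γ) * (p - ν) ^ 2) ?_ ?_ ?_ ?_
  · have hpre : (block M true true).trace.re = p := by rw [hZ]; simp
    rw [hpre]
    exact key
  · rw [block_kconj]
    congr 1
    ext i j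
    cases i <;> cases j <;> simp
  · rw [block_kconj]
    congr 1
    ext i j
    cases i <;> cases j <;> simp
    rw [← Complex.ofReal_mul, hc2]; simp
  · ext ⟨i, a⟩ ⟨j, b⟩
    rw [kconj, kron_conj_apply, Matrix.add_apply, kconj, kron_conj_apply]
    have hBc : (γ : ℂ) * (1 - (ν : ℂ)) = 0 := by exact_mod_cast hB
    have hBc' : (γ : ℂ) * (ν : ℂ) = γ := by linear_combination -hBc
    have hcc : (c : ℂ) * (c : ℂ) = 1 - (γ : ℂ) := by exact_mod_cast hc2
    cases i <;> cases j <;>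
      simp [gadB_ff, gadB_tt, gadB_ft, gadB_tf, corner, steer_apply, ← hc, hBc, hBc', hcc]
    ring
  · rw [trace_steer_diag hZ hX, trace_steer_diag hZ hX]
    linear_combination (-(1 - γ) * (1 - p) ^ 2 - ν - 2 * (p - 1) * (1 - γ) - (1 - γ) * (1 - ν)) * hB

/-! ### phase rotation -/

theorem kconj_apply (K : Matrix Bool Bool ℂ) (M : Matrix (Bool × e) (Bool × e) ℂ) (i j : Bool)
    (a b : e) : kconj K M (i, a) (j, b) =
      K i false * star (K j false) * M (false, a) (false, b) +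
      K i false * star (K j true) * M (false, a) (true, b) +
      K i true * star (K j false) * M (true, a) (false, b) +
      K i true * star (K j true) * M (true, a) (true, b) := by
  rw [kconj, kron_conj_apply]
  simp only [Fintype.sum_bool]
  ring

theorem steer_kconj (E K : Matrix Bool Bool ℂ) (M : Matrix (Bool × e) (Bool × e) ℂ) :
    steer E (kconj K M) = steer (Kᴴ * E * K) M := by
  ext a b
  simp only [steer_apply, kconj_apply]
  simp only [Matrix.mul_apply, Fintype.sum_bool, Matrix.conjTranspose_apply]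
  ring

theorem gadB_kconj_diag (γ ν : ℝ) {ζ : ℂ} (hζ : ζ * star ζ = 1)
    (M : Matrix (Bool × e) (Bool × e) ℂ) :
    gadB γ ν (kconj (bmat 1 0 0 ζ) M) = kconj (bmat 1 0 0 ζ) (gadB γ ν M) := by
  ext ⟨i, a⟩ ⟨j, b⟩
  cases i <;> cases j <;>
    simp only [gadB_ff, gadB_tt, gadB_ft, gadB_tf, kconj_apply, bmat, Matrix.of_apply, cond_true,
      cond_false, star_one, star_zero, hζ] <;> ring


theorem exists_phase (z : ℂ) : ∃ ζ : ℂ, ζ * star ζ = 1 ∧ (star ζ * z).re = 0 := by
  by_cases hz : z = 0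
  · exact ⟨1, by simp, by simp [hz]⟩
  · have hn : (‖z‖ : ℂ) ≠ 0 := by
      exact_mod_cast (norm_pos_iff.2 hz).ne'
    have hzz : z * (starRingEnd ℂ) z = (‖z‖ : ℂ) ^ 2 := by
      rw [Complex.mul_conj, Complex.normSq_eq_norm_sq]; push_cast; rfl
    refine ⟨Complex.I * (z / (‖z‖ : ℂ)), ?_, ?_⟩
    · simp only [Complex.star_def, map_mul, map_div₀, Complex.conj_I, Complex.conj_ofReal]
      have : Complex.I * (z / (‖z‖ : ℂ)) * (-Complex.I * ((starRingEnd ℂ) z / (‖z‖ : ℂ))) =
          -(Complex.I * Complex.I) * (z * (starRingEnd ℂ) z) / (‖z‖ : ℂ) ^ 2 := by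
        field_simp
      rw [this, hzz, Complex.I_mul_I]
      field_simp
    · simp only [Complex.star_def, map_mul, map_div₀, Complex.conj_I, Complex.conj_ofReal]
      have : -Complex.I * ((starRingEnd ℂ) z / (‖z‖ : ℂ)) * z =
          -Complex.I * ((z * (starRingEnd ℂ) z) / (‖z‖ : ℂ)) := by
        field_simp
      rw [this, hzz]
      have : (‖z‖ : ℂ) ^ 2 / (‖z‖ : ℂ) = (‖z‖ : ℂ) := by field_simp
      rw [this]
      simp

theorem diag_mem_unitary {ζ : ℂ} (hζ : ζ * star ζ = 1) : bmat 1 0 0 ζ ∈ unitaryGroup Bool ℂ := by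
  rw [mem_unitaryGroup_iff]
  ext i j
  cases i <;> cases j <;> simp [Matrix.mul_apply, bmat, star_apply]
  simpa using hζ

theorem Goal_of_kconj {γ ν : ℝ} {ζ : ℂ} (hζ : ζ * star ζ = 1)
    {M : Matrix (Bool × e) (Bool × e) ℂ} (h : Goal γ ν (kconj (bmat 1 0 0 ζ) M)) : Goal γ ν M := by
  obtain ⟨El, Em, E0, h1, h2, h3, hs, hineq⟩ := h
  have hU := diag_mem_unitary hζ
  set D := bmat 1 0 0 ζ with hD
  refine ⟨Dᴴ * El * D, Dᴴ * Em * D, Dᴴ * E0 * D, h1.conjTranspose_mul_mul_same _,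
    h2.conjTranspose_mul_mul_same _, h3.conjTranspose_mul_mul_same _, ?_, ?_⟩
  · rw [← Matrix.add_mul, ← Matrix.add_mul, ← Matrix.mul_add, ← Matrix.mul_add, hs, Matrix.mul_one]
    have := (mem_unitaryGroup_iff').1 hU
    rwa [star_eq_conjTranspose] at this
  · rw [steer_kconj, steer_kconj, steer_kconj, gadB_kconj_diag γ ν hζ, vnEntropy_kconj hU] at hineq
    have hb : block (kconj D M) true true = block M true true := by
      ext a b
      simp only [block, Matrix.of_apply, kconj_apply, hD, bmat, cond_true, cond_false, star_zero, hζ]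
      ring
    rwa [hb] at hineq

/-- **Tilt theorem.** -/
theorem tilt (h3 : H3Statement e) {γ ν : ℝ} (hγ : γ ∈ Set.Icc (0 : ℝ) 1)
    (hν : ν ∈ Set.Icc (0 : ℝ) 1) {M : Matrix (Bool × e) (Bool × e) ℂ} (hM : M.PosSemidef)
    (htr : M.trace = 1) : Goal γ ν M := by
  rcases eq_or_lt_of_le (mul_nonneg hγ.1 hν.1) with hA | hA
  · exact tilt_A0 h3 hγ.1 hγ.2 hν.2 hA.symm hM htr
  rcases eq_or_lt_of_le (mul_nonneg hγ.1 (sub_nonneg.2 hν.2)) with hB | hB
  · exact tilt_B0 h3 hγ.1 hγ.2 hν.1 hB.symm hM htr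
  obtain ⟨ζ, hζ, hre⟩ := exists_phase (block M false true).trace
  apply Goal_of_kconj hζ
  have hM' := kconj_posSemidef (bmat 1 0 0 ζ) hM
  have hbt : ∀ i j, (block (kconj (bmat 1 0 0 ζ) M) i j).trace =
      (bmat 1 0 0 ζ) i i * star ((bmat 1 0 0 ζ) j j) * (block M i j).trace := by
    intro i j
    simp only [Matrix.trace, Matrix.diag, block, Matrix.of_apply, Finset.mul_sum]
    refine Finset.sum_congr rfl fun a _ => ?_
    rw [kconj_apply]
    cases i <;> cases j <;> simp [bmat]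
  apply tilt_real h3 hγ.2 hA hB hM'
  · have h := htr
    rw [trace_eq_sum_block] at h
    rw [trace_eq_sum_block, hbt, hbt]
    simp only [bmat, Matrix.of_apply, cond_true, cond_false, star_one, hζ, one_mul]
    exact h
  · rw [hbt]
    simpa [bmat] using hre

/-- interface (A) of note 551. -/
theorem tilt_fin (h3 : H3Statement e) {γ ν : ℝ} (hγ : γ ∈ Set.Icc (0 : ℝ) 1)
    (hν : ν ∈ Set.Icc (0 : ℝ) 1) {M : Matrix (Bool × e) (Bool × e) ℂ} (hM : M.PosSemidef)
    (htr : M.trace = 1) :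
    ∃ E : Fin 3 → Matrix Bool Bool ℂ, (∀ j, (E j).PosSemidef) ∧ ∑ j, E j = 1 ∧
      sFun γ ν (block M true true).trace.re + ∑ j, St (steer (E j) M) ≤
        vnEntropy (qubitTensor (gadMap γ ν) (fun X : Matrix e e ℂ => X) M) := by
  obtain ⟨El, Em, E0, h1, h2, h3', hs, hineq⟩ := tilt h3 hγ hν hM htr
  refine ⟨![El, Em, E0], ?_, ?_, ?_⟩
  · intro j
    fin_cases j
    · exact h1
    · exact h2
    · exact h3'
  · simpa [Fin.sum_univ_three] using hs
  · simpa [Fin.sum_univ_three, gadB] using hineq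

end Crest.Agent.S0534Aux.Tilt87
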