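import Crest.Agent.S0534Aux.Top3
import Crest.Agent.S0534Aux.Tilt87
import Crest.Agent.S0534Aux.H3fromE3

set_option autoImplicit false

namespace Crest.Agent.S0534Aux.CoreFinal97

open Matrix Crest.Quantum Crest.MathPhysics.AmpDamp
open scoped ComplexOrder

theorem h3 (e : Type) [Fintype e] [DecidableEq e] : Tilt87.H3Statement e := by
  intro Q N hQ hN
  refine H3fromE3.H3_bool Q N _ hQ hN ?_ ?_ ?_ ?_ <;> ext i j <;>
    simp [block, Tilt87.corner, add_comm]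

theorem core {γ ν : ℝ} (hγ : γ ∈ Set.Icc (0 : ℝ) 1) (hν : ν ∈ Set.Icc (0 : ℝ) 1) :
    Top.Core γ ν := by
  intro n _ _ M hM htr
  obtain ⟨E, h1, h2, h3'⟩ := Tilt87.tilt_fin (h3 n) hγ hν hM htr
  exact ⟨3, E, h1, h2, h3'⟩

end Crest.Agent.S0534Aux.CoreFinal97
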