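import Crest.Agent.S0534Aux.Subadd

/-!
# Operations on `vnEntropy`: unitary conjugation, reindexing, scaling, Kronecker products,
block-diagonal sums.
-/

set_option autoImplicit false
set_option linter.unusedSectionVars false

namespace Crest.Agent.S0534Aux

open Matrix Crest.Quantum Kronecker
open scoped ComplexOrder

variable {n m a b : Type*} [Fintype n] [DecidableEq n] [Fintype m] [DecidableEq m]
  [Fintype a] [DecidableEq a] [Fintype b] [DecidableEq b]

/-- If `A = U * diagonal d * V` with `V * U = 1`, spectral sums are sums over `d`. -/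
lemma specSum_of_diagonalization (f : ℝ → ℝ) (U V : Matrix n n ℂ) (hVU : V * U = 1) (d : n → ℝ) :
    specSum f (U * diagonal (fun i => (d i : ℂ)) * V) = ∑ i, f (d i) := by
  rw [specSum_conj f _ U V hVU, specSum_diagonal]

lemma isHermitian_conj_iff {U : Matrix n n ℂ} (hU : star U * U = 1) (A : Matrix n n ℂ) :
    (U * A * star U).IsHermitian ↔ A.IsHermitian := by
  constructor
  · intro h
    have h2 : (star U * (U * A * star U) * U).IsHermitian := by
      have := isHermitian_conjTranspose_mul_mul U h
      simpa [Matrix.star_eq_conjTranspose] using this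
    have e : star U * (U * A * star U) * U = A := by
      calc star U * (U * A * star U) * U = (star U * U) * A * (star U * U) := by
            simp only [mul_assoc]
        _ = A := by rw [hU, one_mul, mul_one]
    rwa [e] at h2
  · intro h
    have := isHermitian_mul_mul_conjTranspose U h
    simpa [Matrix.star_eq_conjTranspose] using this

/-- unitary invariance -/
theorem vnEntropy_conj_unitary {U : Matrix n n ℂ} (hU : star U * U = 1) (A : Matrix n n ℂ) :
    vnEntropy (U * A * star U) = vnEntropy A := by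
  by_cases hA : A.IsHermitian
  · rw [vnEntropy_eq_specSum ((isHermitian_conj_iff hU A).2 hA), vnEntropy_eq_specSum hA,
      specSum_conj _ _ _ _ hU]
  · have h2 : ¬ (U * A * star U).IsHermitian := fun h => hA ((isHermitian_conj_iff hU A).1 h)
    rw [vnEntropy, dif_neg h2, vnEntropy, dif_neg hA]

theorem vnEntropy_conj_unitary' {U : Matrix n n ℂ} (hU : star U * U = 1) (A : Matrix n n ℂ) :
    vnEntropy (star U * A * U) = vnEntropy A := by
  have hU' : star (star U) * star U = 1 := by rw [star_star]; exact mul_eq_one_comm.1 hU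
  have := vnEntropy_conj_unitary hU' A
  rwa [star_star] at this

/-- reindexing invariance -/
theorem vnEntropy_submatrix_equiv (e : m ≃ n) (A : Matrix n n ℂ) :
    vnEntropy (A.submatrix e e) = vnEntropy A := by
  by_cases hA : A.IsHermitian
  · have h2 : (A.submatrix e e).IsHermitian := hA.submatrix e
    rw [vnEntropy_eq_specSum h2, vnEntropy_eq_specSum hA]
    simpa using specSum_reindex Real.negMulLog e.symm A
  · have h2 : ¬ (A.submatrix e e).IsHermitian := by
      intro h
      apply hA
      have := h.submatrix e.symm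
      simpa using this
    rw [vnEntropy, dif_neg h2, vnEntropy, dif_neg hA]

/-- scaling -/
theorem vnEntropy_smul {A : Matrix n n ℂ} (hA : A.IsHermitian) (c : ℝ) :
    vnEntropy ((c : ℂ) • A) = c * vnEntropy A + Real.negMulLog c * A.trace.re := by
  have hcA : ((c : ℂ) • A).IsHermitian := by
    have : IsSelfAdjoint (c : ℂ) := by simp [isSelfAdjoint_iff]
    exact IsSelfAdjoint.smul this hA
  set V : Matrix n n ℂ := (hA.eigenvectorUnitary : Matrix n n ℂ) with hV
  have hVV : star V * V = 1 := Unitary.coe_star_mul_self _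
  have e : (c : ℂ) • A = V * diagonal (fun j => ((c * hA.eigenvalues j : ℝ) : ℂ)) * star V := by
    conv_lhs => rw [spectral_plain hA]
    rw [← hV, ← Matrix.smul_mul, ← Matrix.mul_smul]
    congr 2
    ext i j
    by_cases h : i = j
    · subst h; simp
    · simp [h]
  rw [vnEntropy_eq_specSum hcA, e, specSum_of_diagonalization _ _ _ hVV, vnEntropy_eq_sum hA]
  have htr : A.trace.re = ∑ j, hA.eigenvalues j := by
    rw [hA.trace_eq_sum_eigenvalues]; simp
  rw [htr, Finset.mul_sum, Finset.mul_sum, ← Finset.sum_add_distrib]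
  refine Finset.sum_congr rfl fun j _ => ?_
  rw [Real.negMulLog_mul]; ring

/-- Kronecker products -/
theorem vnEntropy_kronecker {A : Matrix a a ℂ} {B : Matrix b b ℂ} (hA : A.IsHermitian)
    (hB : B.IsHermitian) :
    vnEntropy (A ⊗ₖ B) = B.trace.re * vnEntropy A + A.trace.re * vnEntropy B := by
  have hAB : (A ⊗ₖ B).IsHermitian := by
    rw [Matrix.IsHermitian, Matrix.conjTranspose_kronecker, hA.eq, hB.eq]
  set VA : Matrix a a ℂ := (hA.eigenvectorUnitary : Matrix a a ℂ) with hVA
  set VB : Matrix b b ℂ := (hB.eigenvectorUnitary : Matrix b b ℂ) with hVB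
  have hVA1 : star VA * VA = 1 := Unitary.coe_star_mul_self _
  have hVB1 : star VB * VB = 1 := Unitary.coe_star_mul_self _
  have hst : star (VA ⊗ₖ VB) = star VA ⊗ₖ star VB := by
    simp only [Matrix.star_eq_conjTranspose, Matrix.conjTranspose_kronecker]
  have hUU : star (VA ⊗ₖ VB) * (VA ⊗ₖ VB) = 1 := by
    rw [hst, ← Matrix.mul_kronecker_mul, hVA1, hVB1, Matrix.one_kronecker_one]
  have e : A ⊗ₖ B = (VA ⊗ₖ VB) *
      diagonal (fun p : a × b => ((hA.eigenvalues p.1 * hB.eigenvalues p.2 : ℝ) : ℂ)) *
      star (VA ⊗ₖ VB) := by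
    conv_lhs => rw [spectral_plain hA, spectral_plain hB]
    rw [← hVA, ← hVB, Matrix.mul_kronecker_mul, Matrix.mul_kronecker_mul, hst,
      Matrix.diagonal_kronecker_diagonal]
    congr 3
    ext p
    push_cast
    rfl
  rw [vnEntropy_eq_specSum hAB, e, specSum_of_diagonalization _ _ _ hUU, vnEntropy_eq_sum hA,
    vnEntropy_eq_sum hB]
  have htrA : A.trace.re = ∑ j, hA.eigenvalues j := by
    rw [hA.trace_eq_sum_eigenvalues]; simp
  have htrB : B.trace.re = ∑ j, hB.eigenvalues j := by
    rw [hB.trace_eq_sum_eigenvalues]; simp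
  rw [htrA, htrB, Fintype.sum_prod_type]
  simp only [Real.negMulLog_mul, Finset.sum_add_distrib]
  rw [Finset.sum_mul_sum, Finset.sum_mul_sum, Finset.sum_comm]

end Crest.Agent.S0534Aux

namespace Crest.Agent.S0534Aux

open Matrix Crest.Quantum Kronecker
open scoped ComplexOrder

variable {n m : Type*} [Fintype n] [DecidableEq n] [Fintype m] [DecidableEq m]

/-- block-diagonal additivity -/
theorem vnEntropy_fromBlocks_diag {A : Matrix n n ℂ} {B : Matrix m m ℂ} (hA : A.IsHermitian)
    (hB : B.IsHermitian) :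
    vnEntropy (fromBlocks A 0 0 B) = vnEntropy A + vnEntropy B := by
  have hAB : (fromBlocks A 0 0 B).IsHermitian := by
    rw [Matrix.IsHermitian, Matrix.fromBlocks_conjTranspose, hA.eq, hB.eq]; simp
  rw [vnEntropy_eq_specSum hAB, vnEntropy_eq_specSum hA, vnEntropy_eq_specSum hB]
  unfold specSum
  rw [Matrix.charpoly_fromBlocks_zero₁₂, Polynomial.roots_mul, Multiset.map_add, Multiset.sum_add]
  exact mul_ne_zero (Matrix.charpoly_monic A).ne_zero (Matrix.charpoly_monic B).ne_zero

/-- normalisation: `S(T) = t * S(T / t) + negMulLog t` for `t = Tr T ≠ 0`. -/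
theorem vnEntropy_eq_trace_mul {T : Matrix n n ℂ} (hT : T.IsHermitian) {t : ℝ} (ht : t ≠ 0)
    (htr : T.trace = (t : ℂ)) :
    vnEntropy T = t * vnEntropy (((t⁻¹ : ℝ) : ℂ) • T) + Real.negMulLog t := by
  have h1 : (((t⁻¹ : ℝ) : ℂ) • T).IsHermitian := by
    have : IsSelfAdjoint ((t⁻¹ : ℝ) : ℂ) := by simp [isSelfAdjoint_iff]
    exact IsSelfAdjoint.smul this hT
  have h2 : T = (t : ℂ) • (((t⁻¹ : ℝ) : ℂ) • T) := by
    rw [smul_smul]; push_cast
    rw [mul_inv_cancel₀ (by exact_mod_cast ht), one_smul]
  conv_lhs => rw [h2]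
  rw [vnEntropy_smul h1]
  have h3 : (((t⁻¹ : ℝ) : ℂ) • T).trace.re = 1 := by
    rw [Matrix.trace_smul, htr, smul_eq_mul]; push_cast
    rw [inv_mul_cancel₀ (by exact_mod_cast ht)]; simp
  rw [h3, mul_one]

end Crest.Agent.S0534Aux
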