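import Crest.Agent.S0534Aux.Plumbing
import Crest.Agent.S0534Aux.EntBasic

/-!
# Ensemble plumbing for S0534 / S0535 (helper36)

* `holevoInfo_submatrix` / `holevoInfo_qubitPower_succ` : reindexing invariance of `holevoInfo`
* `isEnsemble_submatrix`
* `exists_fin_ensemble` : ensembles indexed by an arbitrary `Fintype` can be turned into `Fin m`.
-/

set_option autoImplicit false
set_option linter.unusedSectionVars false
set_option linter.unusedSimpArgs false

namespace Crest.Agent.S0534Aux.Reindex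

open Crest.Quantum Crest.MathPhysics.AmpDamp Matrix Crest.Agent.S0534Aux.Plumbing
open scoped ComplexOrder Kronecker

variable {d e d' e' : Type*} [Fintype d] [Fintype e] [DecidableEq d] [DecidableEq e]
  [Fintype d'] [Fintype e'] [DecidableEq d'] [DecidableEq e']

theorem isDensity_submatrix (f : d' ≃ d) {ρ : Matrix d d ℂ} (h : IsDensity ρ) :
    IsDensity (ρ.submatrix f f) := by
  refine ⟨h.1.submatrix _, ?_⟩
  rw [← h.2]
  simp only [Matrix.trace, Matrix.diag_apply, submatrix_apply]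
  exact f.sum_comp (fun i => ρ i i)

theorem isEnsemble_submatrix (f : d' ≃ d) {m : ℕ} {q : Fin m → ℝ} {ρ : Fin m → Matrix d d ℂ}
    (h : IsEnsemble q ρ) : IsEnsemble q (fun a => (ρ a).submatrix f f) :=
  ⟨h.1, h.2.1, fun a => isDensity_submatrix f (h.2.2 a)⟩

/-- If `Φ'` is `Φ` transported along index equivalences then the Holevo informations agree. -/
theorem holevoInfo_submatrix (f : d' ≃ d) (g : e' ≃ e)
    (Φ : Matrix d d ℂ → Matrix e e ℂ) (Φ' : Matrix d' d' ℂ → Matrix e' e' ℂ)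
    (h : ∀ M, (Φ M).submatrix g g = Φ' (M.submatrix f f))
    {m : ℕ} (q : Fin m → ℝ) (ρ : Fin m → Matrix d d ℂ) :
    holevoInfo Φ q ρ = holevoInfo Φ' q (fun a => (ρ a).submatrix f f) := by
  unfold holevoInfo
  have h1 : (∑ a, (q a : ℂ) • Φ (ρ a)).submatrix g g
      = ∑ a, (q a : ℂ) • Φ' ((ρ a).submatrix f f) := by
    ext i j
    simp only [submatrix_apply, Matrix.sum_apply, Matrix.smul_apply, ← h]
  rw [← h1, EntBasic.vnEntropy_submatrix_equiv]
  congr 1
  refine Finset.sum_congr rfl fun a _ => ?_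
  rw [← h, EntBasic.vnEntropy_submatrix_equiv]

theorem holevoInfo_qubitPower_succ (n : ℕ) (Φ : Matrix Bool Bool ℂ → Matrix Bool Bool ℂ)
    {m : ℕ} (q : Fin m → ℝ) (ρ : Fin m → Matrix (Fin (n + 1) → Bool) (Fin (n + 1) → Bool) ℂ) :
    holevoInfo (qubitPower (n + 1) Φ) q ρ =
      holevoInfo (qubitTensor Φ (qubitPower n Φ)) q
        (fun a => (ρ a).submatrix (cE n) (cE n)) :=
  holevoInfo_submatrix (cE n) (cE n) _ _ (qubitPower_succ n Φ) q ρ

/-- the converse direction: an ensemble on `Bool × (Fin n → Bool)` transported to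
`Fin (n+1) → Bool`. -/
theorem holevoInfo_qubitPower_succ' (n : ℕ) (Φ : Matrix Bool Bool ℂ → Matrix Bool Bool ℂ)
    {m : ℕ} (q : Fin m → ℝ)
    (ρ : Fin m → Matrix (Bool × (Fin n → Bool)) (Bool × (Fin n → Bool)) ℂ) :
    holevoInfo (qubitPower (n + 1) Φ) q (fun a => (ρ a).submatrix (cE n).symm (cE n).symm) =
      holevoInfo (qubitTensor Φ (qubitPower n Φ)) q ρ := by
  rw [holevoInfo_qubitPower_succ]
  congr 1

/-- Ensembles indexed by an arbitrary finite type can be re-indexed by `Fin m`. -/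
theorem exists_fin_ensemble {ι : Type*} [Fintype ι] (q : ι → ℝ) (ρ : ι → Matrix d d ℂ)
    (hq : ∀ a, 0 ≤ q a) (hs : ∑ a, q a = 1) (hρ : ∀ a, IsDensity (ρ a)) :
    ∃ (m : ℕ) (q' : Fin m → ℝ) (ρ' : Fin m → Matrix d d ℂ), IsEnsemble q' ρ' ∧
      (∀ Φ : Matrix d d ℂ → Matrix e e ℂ, holevoInfo Φ q' ρ' =
        vnEntropy (∑ a, (q a : ℂ) • Φ (ρ a)) - ∑ a, q a * vnEntropy (Φ (ρ a))) ∧
      (∑ a, (q' a : ℂ) • ρ' a = ∑ a, (q a : ℂ) • ρ a) := by
  classical
  let f : Fin (Fintype.card ι) ≃ ι := (Fintype.equivFin ι).symm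
  refine ⟨Fintype.card ι, q ∘ f, ρ ∘ f, ⟨fun a => hq _, ?_, fun a => hρ _⟩, ?_, ?_⟩
  · rw [← hs]; exact f.sum_comp q
  · intro Φ
    unfold holevoInfo
    rw [← f.sum_comp (fun a => (q a : ℂ) • Φ (ρ a)), ← f.sum_comp (fun a => q a * vnEntropy (Φ (ρ a)))]
    rfl
  · exact f.sum_comp (fun a => (q a : ℂ) • ρ a)

/-- On a zero-qubit system every Holevo information vanishes. -/
theorem holevoInfo_qubitPower_zero (Φ : Matrix Bool Bool ℂ → Matrix Bool Bool ℂ)
    {m : ℕ} {q : Fin m → ℝ} {ρ : Fin m → Matrix (Fin 0 → Bool) (Fin 0 → Bool) ℂ}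
    (h : IsEnsemble q ρ) : holevoInfo (qubitPower 0 Φ) q ρ = 0 := by
  have hone : ∀ M : Matrix (Fin 0 → Bool) (Fin 0 → Bool) ℂ, M.trace = 1 → M = 1 := by
    intro M hM
    ext i j
    have hj : j = i := Subsingleton.elim _ _
    have h0 : M i i = 1 := by
      rw [← hM, Matrix.trace, Fintype.sum_subsingleton _ i, Matrix.diag_apply]
    rw [hj, h0]
    simp
  have hS : vnEntropy (1 : Matrix (Fin 0 → Bool) (Fin 0 → Bool) ℂ) = 0 := by
    have := EntBasic.vnEntropy_diagonal (d := Fin 0 → Bool) (fun _ => (1 : ℝ))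
    simpa using this
  unfold holevoInfo
  rw [qubitPower_zero]
  have h1 : ∀ a, ρ a = 1 := fun a => hone _ (h.2.2 a).2
  have h2 : ∑ a, (q a : ℂ) • (id (ρ a) : Matrix (Fin 0 → Bool) (Fin 0 → Bool) ℂ) = 1 := by
    simp only [id_eq, h1, ← Finset.sum_smul]
    rw [← Complex.ofReal_sum, h.2.1]
    simp
  rw [h2]
  simp [h1, hS]

end Crest.Agent.S0534Aux.Reindex
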