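import Mathlib
import Crest.Prelude.Def_QState
import Crest.Prelude.Def_QChannel
import Crest.Prelude.Def_AmpDamp
import Crest.Agent.S0534Aux.EntBasic
import Crest.Agent.S0534Aux.Channel
import Crest.Agent.S0534Aux.Reindex
import Crest.Agent.S0534Aux.QubitTwo
import Crest.Agent.S0534Aux.SConvex

/-!
From the tilt interface (A) to the key inequality (B), and from (B) to clauses 1 and 3 of S0535.
-/

set_option autoImplicit false
set_option linter.unusedSectionVars false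

open scoped ComplexOrder Kronecker
open Matrix Crest.Quantum Crest.MathPhysics.AmpDamp

namespace Crest.Agent.S0534Aux.Step78

variable {d e : Type*} [Fintype d] [Fintype e] [DecidableEq d] [DecidableEq e]

/-- `Tr_A [(E ⊗ 1) M]`. -/
def steer (E : Matrix Bool Bool ℂ) (M : Matrix (Bool × e) (Bool × e) ℂ) : Matrix e e ℂ :=
  ∑ s, ∑ t, E t s • block M s t

/-- interface (A): the tilt inequality on `Bool × e`. -/
def TiltProp (γ ν : ℝ) (e : Type*) [Fintype e] [DecidableEq e] : Prop :=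
  ∀ M : Matrix (Bool × e) (Bool × e) ℂ, M.PosSemidef → M.trace = 1 →
    ∃ (k : ℕ) (E : Fin k → Matrix Bool Bool ℂ), (∀ j, (E j).PosSemidef) ∧ ∑ j, E j = 1 ∧
      SConvex.sFun γ ν ((block M true true).trace).re +
        ∑ j, (vnEntropy (∑ s, ∑ t, E j t s • block M s t) -
          Real.negMulLog ((∑ s, ∑ t, E j t s • block M s t).trace).re) ≤
      vnEntropy (qubitTensor (gadMap γ ν) (fun X : Matrix e e ℂ => X) M)

/-- interface (B): the key inequality for `gad ⊗ Ψ`. -/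
def KeyProp (γ ν : ℝ) (Ψ : Matrix d d ℂ → Matrix e e ℂ) : Prop :=
  ∀ ρ : Matrix (Bool × d) (Bool × d) ℂ, IsDensity ρ →
    ∃ (k : ℕ) (t : Fin k → ℝ) (φ : Fin k → Matrix d d ℂ), IsEnsemble t φ ∧
      ∑ j, (t j : ℂ) • φ j = block ρ false false + block ρ true true ∧
      SConvex.sFun γ ν ((block ρ true true).trace).re + ∑ j, t j * vnEntropy (Ψ (φ j)) ≤
        vnEntropy (qubitTensor (gadMap γ ν) Ψ ρ)

lemma isDensity_sum {m : ℕ} {q : Fin m → ℝ} {ρ : Fin m → Matrix d d ℂ} (h : IsEnsemble q ρ) :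
    IsDensity (∑ a, (q a : ℂ) • ρ a) := by
  obtain ⟨hq, hs, hd⟩ := h
  refine ⟨Matrix.posSemidef_sum _ fun a _ => (hd a).1.smul (by exact_mod_cast hq a), ?_⟩
  rw [Matrix.trace_sum]
  simp only [Matrix.trace_smul, (hd _).2, smul_eq_mul, mul_one]
  exact_mod_cast hs

lemma steer_posSemidef {E : Matrix Bool Bool ℂ} (hE : E.PosSemidef)
    {M : Matrix (Bool × e) (Bool × e) ℂ} (hM : M.PosSemidef) : (steer E M).PosSemidef := by
  obtain ⟨B, rfl⟩ : ∃ B : Matrix Bool Bool ℂ, E = Bᴴ * B := by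
    open scoped MatrixOrder in
    exact CStarAlgebra.nonneg_iff_eq_star_mul_self.mp hE.nonneg
  have h1 := Channel.ptr1_posSemidef (Channel.kconj_posSemidef B hM)
  convert h1 using 1
  ext i j
  have h2 : Channel.ptr1 (Channel.kconj B M) i j =
      ∑ u, ∑ s', ∑ t', B u s' * star (B u t') * M (s', i) (t', j) := by
    simp only [Channel.ptr1, Matrix.of_apply, Channel.kconj, Channel.kron_conj_apply]
  rw [h2]
  simp only [steer, Matrix.sum_apply, Matrix.smul_apply, Matrix.add_apply, block, Matrix.of_apply,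
    Matrix.mul_apply, Matrix.conjTranspose_apply, smul_eq_mul, Fintype.sum_bool]
  ring

lemma steer_one (M : Matrix (Bool × e) (Bool × e) ℂ) :
    steer 1 M = block M false false + block M true true := by
  simp [steer, add_comm]

lemma steer_sum {k : ℕ} (E : Fin k → Matrix Bool Bool ℂ) (M : Matrix (Bool × e) (Bool × e) ℂ) :
    ∑ j, steer (E j) M = steer (∑ j, E j) M := by
  simp only [steer, Matrix.sum_apply, Finset.sum_smul]
  rw [Finset.sum_comm]
  refine Finset.sum_congr rfl fun s _ => ?_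
  rw [Finset.sum_comm]

lemma steer_blockwise {Ψ : Matrix d d ℂ → Matrix e e ℂ} (hΨ : IsLinearMap ℂ Ψ)
    (E : Matrix Bool Bool ℂ) (ρ : Matrix (Bool × d) (Bool × d) ℂ) :
    steer E (blockwise (k := Bool) Ψ ρ) = Ψ (steer E ρ) := by
  simp only [steer, Fintype.sum_bool, hΨ.map_add, hΨ.map_smul, Channel.block_blockwise]

lemma exists_normalize [Nonempty d] {T : Matrix d d ℂ} (hT : T.PosSemidef) :
    ∃ φ : Matrix d d ℂ, IsDensity φ ∧ T = ((T.trace.re : ℝ) : ℂ) • φ := by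
  have htr : T.trace = ((T.trace.re : ℝ) : ℂ) := by
    have := hT.trace_nonneg
    rw [Complex.le_def] at this
    apply Complex.ext
    · simp
    · simpa using this.2.symm
  by_cases h0 : T.trace.re = 0
  · obtain ⟨i0⟩ := ‹Nonempty d›
    refine ⟨Matrix.single i0 i0 1, ⟨?_, by simp⟩, ?_⟩
    · have : (Matrix.single i0 i0 (1:ℂ)) = Matrix.vecMulVec (Pi.single i0 1) (star (Pi.single i0 1)) := by
        ext a b
        simp only [Matrix.single_apply, Matrix.vecMulVec_apply, Pi.star_apply, Pi.single_apply]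
        by_cases ha : i0 = a <;> by_cases hb : i0 = b <;> simp [ha, hb, eq_comm]
      rw [this]
      exact Matrix.posSemidef_vecMulVec_self_star _
    · rw [h0]
      have : T.trace = 0 := by rw [htr, h0]; simp
      rw [hT.trace_eq_zero_iff.mp this]
      simp
  · refine ⟨((T.trace.re : ℝ) : ℂ)⁻¹ • T, ⟨hT.smul ?_, ?_⟩, ?_⟩
    · have h1 : 0 ≤ T.trace.re := by
        have := hT.trace_nonneg
        rw [Complex.le_def] at this
        simpa using this.1
      have : (0:ℝ) ≤ (T.trace.re)⁻¹ := inv_nonneg.mpr h1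
      exact_mod_cast this
    · rw [Matrix.trace_smul, smul_eq_mul]
      nth_rewrite 2 [htr]
      exact inv_mul_cancel₀ (by exact_mod_cast h0)
    · rw [smul_smul, mul_inv_cancel₀ (by exact_mod_cast h0), one_smul]

/-- (A) ⇒ (B). -/
theorem key_of_tilt [Nonempty d] {γ ν : ℝ} (hT : TiltProp γ ν e)
    {Ψ : Matrix d d ℂ → Matrix e e ℂ} (hΨ : IsChannel Ψ) : KeyProp γ ν Ψ := by
  intro ρ hρ
  obtain ⟨k, E, hE, hsum, hineq⟩ := hT (blockwise (k := Bool) Ψ ρ)
    (Channel.blockwise_bool_posSemidef hΨ hρ.1) (by rw [Channel.trace_blockwise hΨ.2.2, hρ.2])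
  have hps : ∀ j, (steer (E j) ρ).PosSemidef := fun j => steer_posSemidef (hE j) hρ.1
  choose φ hφd hφe using fun j => exists_normalize (hps j)
  refine ⟨k, fun j => (steer (E j) ρ).trace.re, φ, ⟨?_, ?_, hφd⟩, ?_, ?_⟩
  · intro j
    have := (hps j).trace_nonneg
    rw [Complex.le_def] at this
    simpa using this.1
  · rw [← Complex.re_sum, ← Matrix.trace_sum, steer_sum, hsum, steer_one, Matrix.trace_add,
      ← Channel.trace_eq_sum_block, hρ.2]
    simp
  · rw [← steer_one, ← hsum, ← steer_sum]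
    exact Finset.sum_congr rfl fun j _ => (hφe j).symm
  · rw [Channel.qubitTensor_eq_id_blockwise]
    refine le_trans (le_of_eq ?_) hineq
    rw [Channel.block_blockwise, hΨ.2.2]
    congr 1
    refine Finset.sum_congr rfl fun j _ => ?_
    change _ = vnEntropy (steer (E j) (blockwise (k := Bool) Ψ ρ)) -
      Real.negMulLog ((steer (E j) (blockwise (k := Bool) Ψ ρ)).trace).re
    rw [steer_blockwise hΨ.1, hΨ.2.2]
    have h : Ψ (steer (E j) ρ) = (((steer (E j) ρ).trace.re : ℝ) : ℂ) • Ψ (φ j) := by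
      rw [← hΨ.1.map_smul, ← hφe j]
    have hd := Channel.IsChannel.isDensity hΨ (hφd j)
    rw [h, EntBasic.vnEntropy_smul hd.1.isHermitian, hd.2]
    simp

lemma pop_mem {ρ : Matrix (Bool × d) (Bool × d) ℂ} (hρ : IsDensity ρ) :
    ((block ρ true true).trace).re ∈ Set.Icc (0:ℝ) 1 := by
  have h1 := (Channel.block_diag_posSemidef hρ.1 true).trace_nonneg
  have h0 := (Channel.block_diag_posSemidef hρ.1 false).trace_nonneg
  have h2 := Channel.trace_eq_sum_block ρ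
  rw [hρ.2] at h2
  rw [Complex.le_def] at h0 h1
  have h3 := congrArg Complex.re h2
  simp only [Complex.one_re, Complex.add_re, Complex.zero_re] at h3 h0 h1
  constructor <;> linarith [h0.1, h1.1]

/-- (B) ⇒ clause 3 of S0535 (verbatim). -/
theorem clause3 {γ ν : ℝ} (hγ : γ ∈ Set.Icc (0 : ℝ) 1) {Ψ : Matrix d d ℂ → Matrix e e ℂ}
    (hK : KeyProp γ ν Ψ) :
    ∀ ρ : Matrix (Bool × d) (Bool × d) ℂ, IsDensity ρ → ∀ ε > (0 : ℝ),
      ∃ (ρ₁ : Matrix Bool Bool ℂ) (ρ₂ : Matrix d d ℂ), IsDensity ρ₁ ∧ IsDensity ρ₂ ∧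
        vnEntropy (gadMap γ ν ρ₁) + vnEntropy (Ψ ρ₂) ≤
          vnEntropy (qubitTensor (gadMap γ ν) Ψ ρ) + ε := by
  intro ρ hρ ε hε
  obtain ⟨k, t, φ, ⟨ht, hs, hd⟩, -, hineq⟩ := hK ρ hρ
  have hk : Nonempty (Fin k) := by
    by_contra hne
    rw [not_nonempty_iff] at hne
    simp at hs
  obtain ⟨j0, hj0⟩ := Finite.exists_min (fun j => vnEntropy (Ψ (φ j)))
  refine ⟨QubitTwo.psi _ 1, φ j0, QubitTwo.isDensity_psi (pop_mem hρ) (by norm_num), hd j0, ?_⟩
  rw [QubitTwo.vnEntropy_gadMap_psi hγ (pop_mem hρ) (by norm_num)]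
  have : vnEntropy (Ψ (φ j0)) ≤ ∑ j, t j * vnEntropy (Ψ (φ j)) := by
    calc vnEntropy (Ψ (φ j0)) = ∑ j, t j * vnEntropy (Ψ (φ j0)) := by
          rw [← Finset.sum_mul, hs, one_mul]
      _ ≤ _ := Finset.sum_le_sum fun j _ => mul_le_mul_of_nonneg_left (hj0 j) (ht j)
  linarith

lemma block_sum_smul {m : ℕ} (q : Fin m → ℝ) (X : Fin m → Matrix (Bool × e) (Bool × e) ℂ)
    (s t : Bool) : block (∑ a, (q a : ℂ) • X a) s t = ∑ a, (q a : ℂ) • block (X a) s t := by
  ext i j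
  simp [block, Matrix.sum_apply]

lemma pop_out (γ ν : ℝ) {Ψ : Matrix d d ℂ → Matrix e e ℂ} (hΨ : IsChannel Ψ)
    {ρ : Matrix (Bool × d) (Bool × d) ℂ} (hρ : IsDensity ρ) :
    ((block (qubitTensor (gadMap γ ν) Ψ ρ) true true).trace).re =
      (1 - γ) * ((block ρ true true).trace).re + γ * ν := by
  have h := congrFun (congrFun (Channel.ptr2_qubitTensor_gad γ ν hΨ.2.2 ρ) true) true
  rw [Channel.ptr2_apply_eq_trace_block, Channel.gadMap_tt, Channel.ptr2_apply_eq_trace_block,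
    Channel.ptr2_apply_eq_trace_block] at h
  have h2 := Channel.trace_eq_sum_block ρ
  rw [hρ.2] at h2
  have h3 : (block ρ false false).trace = 1 - (block ρ true true).trace := by
    rw [h2]; ring
  rw [h, h3]
  simp only [Complex.add_re, Complex.mul_re, Complex.ofReal_re, Complex.ofReal_im, Complex.sub_re,
    Complex.one_re, zero_mul, sub_zero]
  ring

/-- (B) ⇒ clause 1 of S0535 (verbatim). -/
theorem clause1 {γ ν : ℝ} (hγ : γ ∈ Set.Icc (0 : ℝ) 1) (hν : ν ∈ Set.Icc (0 : ℝ) 1)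
    {Ψ : Matrix d d ℂ → Matrix e e ℂ} (hΨ : IsChannel Ψ) (hK : KeyProp γ ν Ψ) :
    ∀ (m : ℕ) (q : Fin m → ℝ) (ρ : Fin m → Matrix (Bool × d) (Bool × d) ℂ), IsEnsemble q ρ →
      ∀ ε > (0 : ℝ), ∃ (m₁ : ℕ) (q₁ : Fin m₁ → ℝ) (ρ₁ : Fin m₁ → Matrix Bool Bool ℂ)
        (m₂ : ℕ) (q₂ : Fin m₂ → ℝ) (ρ₂ : Fin m₂ → Matrix d d ℂ),
        IsEnsemble q₁ ρ₁ ∧ IsEnsemble q₂ ρ₂ ∧
          holevoInfo (qubitTensor (gadMap γ ν) Ψ) q ρ ≤
            holevoInfo (gadMap γ ν) q₁ ρ₁ + holevoInfo Ψ q₂ ρ₂ + ε := by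
  intro m q ρ hens ε hε
  obtain ⟨hq, hs, hd⟩ := hens
  choose k t φ hE hsum hineq using fun a => hK (ρ a) (hd a)
  obtain ⟨m₁, q₁, ρ₁, h1, hH1⟩ := QubitTwo.exists_ensemble (ν := ν) hγ m q
    (fun a => ((block (ρ a) true true).trace).re) hq hs (fun a => pop_mem (hd a))
  obtain ⟨m₂, q₂, ρ₂, h2, hH2, -⟩ := Reindex.exists_fin_ensemble (e := e)
    (ι := Σ a : Fin m, Fin (k a))
    (fun x => q x.1 * t x.1 x.2) (fun x => φ x.1 x.2)
    (fun x => mul_nonneg (hq _) ((hE _).1 _))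
    (by rw [Fintype.sum_sigma]; simp only [← Finset.mul_sum, (hE _).2.1, mul_one, hs])
    (fun x => (hE _).2.2 _)
  refine ⟨m₁, q₁, ρ₁, m₂, q₂, ρ₂, h1, h2, ?_⟩
  rw [hH1, hH2 Ψ]
  unfold holevoInfo
  have hTch : IsChannel (qubitTensor (gadMap γ ν) Ψ) := Channel.qubitTensor_gad_isChannel hγ hν hΨ
  have hΩ : IsDensity (∑ a, (q a : ℂ) • qubitTensor (gadMap γ ν) Ψ (ρ a)) :=
    isDensity_sum ⟨hq, hs, fun a => Channel.IsChannel.isDensity hTch (hd a)⟩
  have hsub := EntBasic.vnEntropy_le_binEntropy_add hΩ.1 hΩ.2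
  have hpop : ((block (∑ a, (q a : ℂ) • qubitTensor (gadMap γ ν) Ψ (ρ a)) true true).trace).re =
      (1 - γ) * (∑ a, q a * ((block (ρ a) true true).trace).re) + γ * ν := by
    rw [block_sum_smul, Matrix.trace_sum, Complex.re_sum]
    simp only [Matrix.trace_smul, smul_eq_mul, Complex.re_ofReal_mul, pop_out γ ν hΨ (hd _)]
    simp only [mul_add, Finset.sum_add_distrib, ← Finset.sum_mul, hs, Finset.mul_sum]
    congr 1
    · refine Finset.sum_congr rfl fun a _ => ?_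
      ring
    · ring
  have hmarg : block (∑ a, (q a : ℂ) • qubitTensor (gadMap γ ν) Ψ (ρ a)) false false +
      block (∑ a, (q a : ℂ) • qubitTensor (gadMap γ ν) Ψ (ρ a)) true true =
      ∑ x : Σ a : Fin m, Fin (k a), ((q x.1 * t x.1 x.2 : ℝ) : ℂ) • Ψ (φ x.1 x.2) := by
    rw [block_sum_smul, block_sum_smul, ← Finset.sum_add_distrib, Fintype.sum_sigma]
    refine Finset.sum_congr rfl fun a _ => ?_
    rw [← smul_add, ← Channel.ptr1_eq_sum_block, Channel.ptr1_qubitTensor_gad γ ν hΨ.1,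
      Channel.ptr1_eq_sum_block, ← hsum a]
    have h1 : Ψ (∑ j, (t a j : ℂ) • φ a j) = ∑ j, Ψ ((t a j : ℂ) • φ a j) :=
      map_sum (hΨ.1.mk' Ψ) _ Finset.univ
    rw [h1, Finset.smul_sum]
    refine Finset.sum_congr rfl fun j _ => ?_
    rw [hΨ.1.map_smul, smul_smul]
    push_cast
    rfl
  rw [hpop, hmarg] at hsub
  have hsum2 : ∑ x : Σ a : Fin m, Fin (k a), q x.1 * t x.1 x.2 * vnEntropy (Ψ (φ x.1 x.2)) =
      ∑ a, q a * ∑ j, t a j * vnEntropy (Ψ (φ a j)) := by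
    rw [Fintype.sum_sigma]
    simp only [Finset.mul_sum, mul_assoc]
  have hlow : ∑ a, q a * (SConvex.sFun γ ν ((block (ρ a) true true).trace).re +
      ∑ j, t a j * vnEntropy (Ψ (φ a j))) ≤
      ∑ a, q a * vnEntropy (qubitTensor (gadMap γ ν) Ψ (ρ a)) :=
    Finset.sum_le_sum fun a _ => mul_le_mul_of_nonneg_left (hineq a) (hq a)
  simp only [mul_add, Finset.sum_add_distrib] at hlow
  rw [hsum2]
  linarith

end Crest.Agent.S0534Aux.Step78
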