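import Mathlib
import Crest.Prelude.Def_QState
import Crest.Prelude.Def_QChannel
import Crest.Prelude.Def_AmpDamp
import Crest.Agent.S0534Aux.Step78
import Crest.Agent.S0534Aux.Product
import Crest.Agent.S0534Aux.Achieve
import Crest.Agent.S0534Aux.PowerTop

/-!
S0535 and S0534 (verbatim) from the tilt interface (A) = `Step78.TiltProp`.
-/

set_option autoImplicit false
set_option linter.unusedSectionVars false

open scoped ComplexOrder Kronecker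
open Matrix Crest.Quantum Crest.MathPhysics.AmpDamp

namespace Crest.Agent.S0534Aux.Final78

/-- S0535 verbatim, from the tilt interface on the output system `e`. -/
theorem s0535_of_tilt (γ ν : ℝ)
    (hγ : γ ∈ Set.Icc (0 : ℝ) 1) (hν : ν ∈ Set.Icc (0 : ℝ) 1)
    (d e : Type) [Fintype d] [Fintype e] [DecidableEq d] [DecidableEq e] [Nonempty d] [Nonempty e]
    (hT : Step78.TiltProp γ ν e)
    (Ψ : Matrix d d ℂ → Matrix e e ℂ) (hΨ : IsChannel Ψ) :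
    (∀ (m : ℕ) (q : Fin m → ℝ) (ρ : Fin m → Matrix (Bool × d) (Bool × d) ℂ), IsEnsemble q ρ →
      ∀ ε > (0 : ℝ), ∃ (m₁ : ℕ) (q₁ : Fin m₁ → ℝ) (ρ₁ : Fin m₁ → Matrix Bool Bool ℂ)
        (m₂ : ℕ) (q₂ : Fin m₂ → ℝ) (ρ₂ : Fin m₂ → Matrix d d ℂ),
        IsEnsemble q₁ ρ₁ ∧ IsEnsemble q₂ ρ₂ ∧
          holevoInfo (qubitTensor (gadMap γ ν) Ψ) q ρ ≤
            holevoInfo (gadMap γ ν) q₁ ρ₁ + holevoInfo Ψ q₂ ρ₂ + ε) ∧
    (∀ (m₁ : ℕ) (q₁ : Fin m₁ → ℝ) (ρ₁ : Fin m₁ → Matrix Bool Bool ℂ)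
      (m₂ : ℕ) (q₂ : Fin m₂ → ℝ) (ρ₂ : Fin m₂ → Matrix d d ℂ), IsEnsemble q₁ ρ₁ → IsEnsemble q₂ ρ₂ →
      ∃ (m : ℕ) (q : Fin m → ℝ) (ρ : Fin m → Matrix (Bool × d) (Bool × d) ℂ), IsEnsemble q ρ ∧
        holevoInfo (gadMap γ ν) q₁ ρ₁ + holevoInfo Ψ q₂ ρ₂ ≤
          holevoInfo (qubitTensor (gadMap γ ν) Ψ) q ρ) ∧
    (∀ ρ : Matrix (Bool × d) (Bool × d) ℂ, IsDensity ρ → ∀ ε > (0 : ℝ),
      ∃ (ρ₁ : Matrix Bool Bool ℂ) (ρ₂ : Matrix d d ℂ), IsDensity ρ₁ ∧ IsDensity ρ₂ ∧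
        vnEntropy (gadMap γ ν ρ₁) + vnEntropy (Ψ ρ₂) ≤ vnEntropy (qubitTensor (gadMap γ ν) Ψ ρ) + ε) ∧
    (∀ (ρ₁ : Matrix Bool Bool ℂ) (ρ₂ : Matrix d d ℂ), IsDensity ρ₁ → IsDensity ρ₂ →
      ∃ ρ : Matrix (Bool × d) (Bool × d) ℂ, IsDensity ρ ∧
        vnEntropy (qubitTensor (gadMap γ ν) Ψ ρ) ≤ vnEntropy (gadMap γ ν ρ₁) + vnEntropy (Ψ ρ₂)) :=
  have hK := Step78.key_of_tilt hT hΨ
  ⟨Step78.clause1 hγ hν hΨ hK, Product.clause2 γ ν Ψ hΨ, Step78.clause3 hγ hK,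
    Product.clause4 γ ν Ψ hΨ⟩

/-- single-use upper bound: every qubit ensemble has Holevo information at most `gadRate` at the
mean excited population. -/
theorem single {γ ν : ℝ} (hγ : γ ∈ Set.Icc (0 : ℝ) 1) (hν : ν ∈ Set.Icc (0 : ℝ) 1)
    (m : ℕ) (q : Fin m → ℝ) (ρ : Fin m → Matrix Bool Bool ℂ) (h : IsEnsemble q ρ) :
    ∃ p ∈ Set.Icc (0 : ℝ) 1, holevoInfo (gadMap γ ν) q ρ ≤ gadRate γ ν p := by
  have hbar := Step78.isDensity_sum h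
  obtain ⟨hq, hs, hd⟩ := h
  have hpa : ∀ a, (ρ a true true).re ∈ Set.Icc (0 : ℝ) 1 := fun a =>
    (QubitTwo.density_entries (hd a)).1
  have hmean : ((∑ a, (q a : ℂ) • ρ a) true true).re = ∑ a, q a * (ρ a true true).re := by
    simp [Matrix.sum_apply]
  refine ⟨∑ a, q a * (ρ a true true).re, ?_, ?_⟩
  · rw [← hmean]
    exact (QubitTwo.density_entries hbar).1
  · refine le_trans ?_ (QubitTwo.binEntropy_sub_sum_le_gadRate hγ hν Finset.univ q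
      (fun a => (ρ a true true).re) (fun a _ => hq a) hs (fun a _ => hpa a))
    unfold holevoInfo
    have hlin : ∑ a, (q a : ℂ) • gadMap γ ν (ρ a) = gadMap γ ν (∑ a, (q a : ℂ) • ρ a) := by
      have hL := Channel.gadMap_isLinearMap γ ν
      have h1 : gadMap γ ν (∑ a, (q a : ℂ) • ρ a) = ∑ a, gadMap γ ν ((q a : ℂ) • ρ a) :=
        map_sum (hL.mk' _) _ Finset.univ
      rw [h1]
      exact Finset.sum_congr rfl fun a _ => (hL.map_smul _ _).symm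
    rw [hlin]
    have hup := QubitTwo.vnEntropy_gadMap_le hγ hν hbar
    rw [hmean] at hup
    have hlow : ∑ a, q a * SConvex.sFun γ ν (ρ a true true).re ≤
        ∑ a, q a * vnEntropy (gadMap γ ν (ρ a)) :=
      Finset.sum_le_sum fun a _ =>
        mul_le_mul_of_nonneg_left (QubitTwo.sFun_le_vnEntropy_gadMap hγ hν (hd a)) (hq a)
    linarith

/-- S0534 verbatim (for every `n`), from the tilt interface on all qubit registers. -/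
theorem s0534_of_tilt (γ ν : ℝ) (hγ : γ ∈ Set.Icc (0 : ℝ) 1)
    (hν : ν ∈ Set.Icc (0 : ℝ) 1)
    (hT : ∀ (e : Type) [Fintype e] [DecidableEq e], Step78.TiltProp γ ν e) (n : ℕ) :
    (∀ (m : ℕ) (q : Fin m → ℝ) (ρ : Fin m → Matrix (Fin n → Bool) (Fin n → Bool) ℂ),
        IsEnsemble q ρ → ∃ p ∈ Set.Icc (0 : ℝ) 1,
          holevoInfo (qubitPower n (gadMap γ ν)) q ρ ≤ n * gadRate γ ν p) ∧
    (∀ p ∈ Set.Icc (0 : ℝ) 1, ∃ (m : ℕ) (q : Fin m → ℝ)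
        (ρ : Fin m → Matrix (Fin n → Bool) (Fin n → Bool) ℂ),
        IsEnsemble q ρ ∧ n * gadRate γ ν p ≤ holevoInfo (qubitPower n (gadMap γ ν)) q ρ) := by
  refine ⟨fun m q ρ hens => ?_, Achieve.achieve hγ hν n⟩
  exact PowerTop.upper γ ν (fun n => Channel.qubitPower_gad_isChannel hγ hν n)
    (fun d e _ _ _ _ _ _ Ψ hΨ => (s0535_of_tilt γ ν hγ hν d e (hT e) Ψ hΨ).1)
    (single hγ hν) n m q ρ hens

end Crest.Agent.S0534Aux.Final78
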