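import Mathlib

/-!
# Scalar subadditivity step for the three-edge entropy inequality (row 341, S0534/S0535)

Self-contained real analysis: the "monotone lemma" (M) and the subadditivity of the scalar
function `Gsc`.
-/

set_option autoImplicit false

namespace Crest.Agent.S0534Aux.GscSubadd

open Real Finset Filter Topology

/-- (M) "monotone lemma": a signed sum of `negMulLog` is nonnegative as soon as the signed sums of
`1`, of `x` vanish and the signed sum of `log (u + x)` is nonnegative for all `u > 0`. -/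
theorem monotone_lemma {ι : Type*} (s : Finset ι) (x σ : ι → ℝ) (hx : ∀ i ∈ s, 0 ≤ x i)
    (h0 : ∑ i ∈ s, σ i = 0) (h1 : ∑ i ∈ s, σ i * x i = 0)
    (hlog : ∀ u : ℝ, 0 < u → 0 ≤ ∑ i ∈ s, σ i * Real.log (u + x i)) :
    0 ≤ ∑ i ∈ s, σ i * Real.negMulLog (x i) := by
  classical
  set f : ℝ → ℝ := fun u => ∑ i ∈ s, σ i * ((u + x i) * Real.log (u + x i)) with hf
  have hcont : Continuous f := by
    refine continuous_finsetSum _ fun i _ => continuous_const.mul ?_
    exact Real.continuous_mul_log.comp (continuous_id.add continuous_const)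
  have hderiv : ∀ u : ℝ, 0 < u → HasDerivAt f (∑ i ∈ s, σ i * Real.log (u + x i)) u := by
    intro u hu
    have h : ∀ i ∈ s, HasDerivAt (fun u => σ i * ((u + x i) * Real.log (u + x i)))
        (σ i * (Real.log (u + x i) + 1)) u := by
      intro i hi
      have hne : u + x i ≠ 0 := by have := hx i hi; positivity
      exact ((Real.hasDerivAt_mul_log hne).comp_add_const u (x i)).const_mul (σ i)
    have h2 := HasDerivAt.fun_sum h
    have h3 : ∑ i ∈ s, σ i * (Real.log (u + x i) + 1) = ∑ i ∈ s, σ i * Real.log (u + x i) := by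
      simp only [mul_add, mul_one, Finset.sum_add_distrib, h0, add_zero]
    rw [h3] at h2
    exact h2
  have hmono : MonotoneOn f (Set.Ici 0) := by
    refine monotoneOn_of_deriv_nonneg (convex_Ici 0) hcont.continuousOn ?_ ?_
    · intro u hu
      rw [interior_Ici] at hu
      exact (hderiv u hu).differentiableAt.differentiableWithinAt
    · intro u hu
      rw [interior_Ici] at hu
      rw [(hderiv u hu).deriv]
      exact hlog u hu
  have hlim : Tendsto f atTop (𝓝 0) := by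
    have h : Tendsto (fun u : ℝ => ∑ i ∈ s, σ i * (u * Real.log (1 + x i / u)
        + x i * Real.log (1 + x i / u))) atTop (𝓝 (∑ i ∈ s, σ i * (x i + x i * Real.log (1 + 0)))) := by
      refine tendsto_finsetSum _ fun i _ => Tendsto.const_mul _ ?_
      refine (Real.tendsto_mul_log_one_add_div_atTop (x i)).add (Tendsto.const_mul _ ?_)
      have h0' : Tendsto (fun u : ℝ => 1 + x i / u) atTop (𝓝 (1 + 0)) :=
        tendsto_const_nhds.add (tendsto_const_nhds.div_atTop tendsto_id)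
      exact (Real.continuousAt_log (by norm_num)).tendsto.comp h0'
    have h' : (∑ i ∈ s, σ i * (x i + x i * Real.log (1 + 0))) = 0 := by
      simp [h1]
    rw [h'] at h
    refine h.congr' ?_
    filter_upwards [eventually_gt_atTop 0] with u hu
    have key : ∀ i ∈ s, σ i * ((u + x i) * Real.log (u + x i)) =
        σ i * (u * Real.log (1 + x i / u) + x i * Real.log (1 + x i / u))
          + (u * Real.log u) * σ i + Real.log u * (σ i * x i) := by
      intro i hi
      have hxi := hx i hi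
      have : u + x i = u * (1 + x i / u) := by field_simp
      have hpos : 0 < 1 + x i / u := by positivity
      have hl : Real.log (u + x i) = Real.log u + Real.log (1 + x i / u) := by
        rw [this, Real.log_mul hu.ne' hpos.ne']
      rw [hl]; ring
    rw [hf]
    simp only
    rw [Finset.sum_congr rfl key, Finset.sum_add_distrib, Finset.sum_add_distrib,
      ← Finset.mul_sum, ← Finset.mul_sum, h0, h1]
    ring
  have hle : f 0 ≤ 0 := by
    refine ge_of_tendsto hlim ?_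
    filter_upwards [eventually_ge_atTop 0] with u hu
    exact hmono (Set.mem_Ici.2 le_rfl) (Set.mem_Ici.2 hu) hu
  have hf0 : f 0 = - ∑ i ∈ s, σ i * Real.negMulLog (x i) := by
    rw [hf]
    simp only [zero_add, Real.negMulLog]
    rw [← Finset.sum_neg_distrib]
    exact Finset.sum_congr rfl fun i _ => by ring
  linarith

/-! ### Eigenvalues of a `2 × 2` positive matrix with trace `s` and determinant `d` -/

/-- larger eigenvalue -/
noncomputable def lamP (s d : ℝ) : ℝ := (s + √(s ^ 2 - 4 * d)) / 2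
/-- smaller eigenvalue -/
noncomputable def lamM (s d : ℝ) : ℝ := (s - √(s ^ 2 - 4 * d)) / 2

/-- unnormalised entropy of a `2 × 2` positive matrix with trace `s` and determinant `d`. -/
noncomputable def E2 (s d : ℝ) : ℝ := negMulLog (lamP s d) + negMulLog (lamM s d)

lemma lam_add (s d : ℝ) : lamP s d + lamM s d = s := by
  unfold lamP lamM; ring

lemma lam_mul {s d : ℝ} (h : 4 * d ≤ s ^ 2) : lamP s d * lamM s d = d := by
  unfold lamP lamM
  have h2 : √(s ^ 2 - 4 * d) ^ 2 = s ^ 2 - 4 * d := Real.sq_sqrt (by linarith)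
  nlinarith [h2]

lemma lamP_nonneg {s : ℝ} (d : ℝ) (hs : 0 ≤ s) : 0 ≤ lamP s d := by
  unfold lamP; positivity

lemma lamM_nonneg {s d : ℝ} (hs : 0 ≤ s) (hd : 0 ≤ d) : 0 ≤ lamM s d := by
  unfold lamM
  have : √(s ^ 2 - 4 * d) ≤ s := by
    rw [Real.sqrt_le_left hs]; linarith
  linarith

lemma log_lam {s d u : ℝ} (hs : 0 ≤ s) (hd : 0 ≤ d) (h : 4 * d ≤ s ^ 2) (hu : 0 < u) :
    Real.log (u + lamP s d) + Real.log (u + lamM s d) = Real.log (u ^ 2 + u * s + d) := by
  have h1 := lamP_nonneg d hs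
  have h2 := lamM_nonneg hs hd
  rw [← Real.log_mul (by positivity) (by positivity)]
  congr 1
  have h3 := lam_add s d
  have h4 := lam_mul h
  nlinarith [h3, h4]

lemma lamP_smul {t : ℝ} (ht : 0 ≤ t) (s d : ℝ) : lamP (t * s) (t ^ 2 * d) = t * lamP s d := by
  unfold lamP
  have : (t * s) ^ 2 - 4 * (t ^ 2 * d) = t ^ 2 * (s ^ 2 - 4 * d) := by ring
  rw [this, Real.sqrt_mul (sq_nonneg t), Real.sqrt_sq ht]; ring

lemma lamM_smul {t : ℝ} (ht : 0 ≤ t) (s d : ℝ) : lamM (t * s) (t ^ 2 * d) = t * lamM s d := by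
  unfold lamM
  have : (t * s) ^ 2 - 4 * (t ^ 2 * d) = t ^ 2 * (s ^ 2 - 4 * d) := by ring
  rw [this, Real.sqrt_mul (sq_nonneg t), Real.sqrt_sq ht]; ring

lemma E2_smul {t : ℝ} (ht : 0 ≤ t) (s d : ℝ) :
    E2 (t * s) (t ^ 2 * d) = t * E2 s d + s * negMulLog t := by
  unfold E2
  rw [lamP_smul ht, lamM_smul ht, negMulLog_mul, negMulLog_mul]
  have h : s * negMulLog t = (lamP s d + lamM s d) * negMulLog t := by rw [lam_add]
  rw [h]; ring

/-- bridge to the binary entropy: trace one. -/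
lemma E2_one (d : ℝ) : E2 1 d = Real.binEntropy ((1 + √(1 - 4 * d)) / 2) := by
  rw [Real.binEntropy_eq_negMulLog_add_negMulLog_one_sub]
  unfold E2 lamP lamM
  have h1 : ((1:ℝ) ^ 2 - 4 * d) = 1 - 4 * d := by ring
  rw [h1]
  congr 2
  ring

/-- comparison principle: (M) for a family of `2 × 2` blocks and a family of scalars. -/
theorem cmp {J K : Type*} [Fintype J] [Fintype K] (w s d : J → ℝ) (c y : K → ℝ)
    (hs : ∀ j, 0 ≤ s j) (hd : ∀ j, 0 ≤ d j) (hdisc : ∀ j, 4 * d j ≤ s j ^ 2) (hy : ∀ k, 0 ≤ y k)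
    (h0 : 2 * ∑ j, w j + ∑ k, c k = 0) (h1 : ∑ j, w j * s j + ∑ k, c k * y k = 0)
    (hlog : ∀ u : ℝ, 0 < u →
      0 ≤ ∑ j, w j * Real.log (u ^ 2 + u * s j + d j) + ∑ k, c k * Real.log (u + y k)) :
    0 ≤ ∑ j, w j * E2 (s j) (d j) + ∑ k, c k * negMulLog (y k) := by
  classical
  have key := monotone_lemma (Finset.univ : Finset ((J ⊕ J) ⊕ K))
    (Sum.elim (Sum.elim (fun j => lamP (s j) (d j)) (fun j => lamM (s j) (d j))) y)
    (Sum.elim (Sum.elim w w) c) ?_ ?_ ?_ ?_
  · simp only [Fintype.sum_sum_type, Sum.elim_inl, Sum.elim_inr] at key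
    have : ∑ j, w j * E2 (s j) (d j) =
        ∑ j, w j * negMulLog (lamP (s j) (d j)) + ∑ j, w j * negMulLog (lamM (s j) (d j)) := by
      rw [← Finset.sum_add_distrib]
      exact Finset.sum_congr rfl fun j _ => by unfold E2; ring
    rw [this]; exact key
  · rintro ((j | j) | k) _
    · exact lamP_nonneg _ (hs j)
    · exact lamM_nonneg (hs j) (hd j)
    · exact hy k
  · simp only [Fintype.sum_sum_type, Sum.elim_inl, Sum.elim_inr]
    linarith
  · simp only [Fintype.sum_sum_type, Sum.elim_inl, Sum.elim_inr]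
    have : ∑ j, w j * lamP (s j) (d j) + ∑ j, w j * lamM (s j) (d j) = ∑ j, w j * s j := by
      rw [← Finset.sum_add_distrib]
      exact Finset.sum_congr rfl fun j _ => by rw [← mul_add, lam_add]
    linarith
  · intro u hu
    simp only [Fintype.sum_sum_type, Sum.elim_inl, Sum.elim_inr]
    have : ∑ j, w j * Real.log (u + lamP (s j) (d j)) + ∑ j, w j * Real.log (u + lamM (s j) (d j))
        = ∑ j, w j * Real.log (u ^ 2 + u * s j + d j) := by
      rw [← Finset.sum_add_distrib]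
      exact Finset.sum_congr rfl fun j _ => by
        rw [← mul_add, log_lam (hs j) (hd j) (hdisc j) hu]
    rw [this]; exact hlog u hu

/-! ### Pointwise convexity -/

/-- two-term Hölder inequality in multiplicative form. -/
lemma one_add_rpow_mul_le {θ A B : ℝ} (h0 : 0 ≤ θ) (h1 : θ ≤ 1) (hA : 0 < A) (hB : 0 < B) :
    1 + A ^ θ * B ^ (1 - θ) ≤ (1 + A) ^ θ * (1 + B) ^ (1 - θ) := by
  have hA1 : 0 < 1 + A := by positivity
  have hB1 : 0 < 1 + B := by positivity
  have hP : 0 < (1 + A) ^ θ * (1 + B) ^ (1 - θ) := by positivity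
  have e1 := Real.geom_mean_le_arith_mean2_weighted h0 (sub_nonneg.2 h1)
    (show 0 ≤ 1 / (1 + A) by positivity) (show 0 ≤ 1 / (1 + B) by positivity) (by ring)
  have e2 := Real.geom_mean_le_arith_mean2_weighted h0 (sub_nonneg.2 h1)
    (show 0 ≤ A / (1 + A) by positivity) (show 0 ≤ B / (1 + B) by positivity) (by ring)
  rw [Real.div_rpow zero_le_one hA1.le, Real.div_rpow zero_le_one hB1.le, Real.one_rpow,
    Real.one_rpow] at e1
  rw [Real.div_rpow hA.le hA1.le, Real.div_rpow hB.le hB1.le] at e2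
  have e3 : θ * (1 / (1 + A)) + (1 - θ) * (1 / (1 + B)) + (θ * (A / (1 + A))
      + (1 - θ) * (B / (1 + B))) = 1 := by
    field_simp; ring
  have e4 : 1 / (1 + A) ^ θ * (1 / (1 + B) ^ (1 - θ)) + A ^ θ / (1 + A) ^ θ
      * (B ^ (1 - θ) / (1 + B) ^ (1 - θ)) = (1 + A ^ θ * B ^ (1 - θ))
        / ((1 + A) ^ θ * (1 + B) ^ (1 - θ)) := by
    field_simp
  have e5 : (1 + A ^ θ * B ^ (1 - θ)) / ((1 + A) ^ θ * (1 + B) ^ (1 - θ)) ≤ 1 := by
    rw [← e4]; linarith [add_le_add e1 e2]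
  rwa [div_le_one hP] at e5

/-- joint convexity of `(X, Y) ↦ log (1 + u / (X Y))` on the positive quadrant. -/
lemma key_convex {θ u X Y X' Y' : ℝ} (h0 : 0 ≤ θ) (h1 : θ ≤ 1) (hu : 0 < u) (hX : 0 < X)
    (hY : 0 < Y) (hX' : 0 < X') (hY' : 0 < Y') :
    Real.log (1 + u / ((θ * X + (1 - θ) * X') * (θ * Y + (1 - θ) * Y'))) ≤
      θ * Real.log (1 + u / (X * Y)) + (1 - θ) * Real.log (1 + u / (X' * Y')) := by
  have h1' : 0 ≤ 1 - θ := sub_nonneg.2 h1
  have gX := Real.geom_mean_le_arith_mean2_weighted h0 h1' hX.le hX'.le (by ring)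
  have gY := Real.geom_mean_le_arith_mean2_weighted h0 h1' hY.le hY'.le (by ring)
  have hA : 0 < u / (X * Y) := by positivity
  have hB : 0 < u / (X' * Y') := by positivity
  have hgX : 0 < X ^ θ * X' ^ (1 - θ) := by positivity
  have hgY : 0 < Y ^ θ * Y' ^ (1 - θ) := by positivity
  have hAB : (u / (X * Y)) ^ θ * (u / (X' * Y')) ^ (1 - θ)
      = u / ((X ^ θ * X' ^ (1 - θ)) * (Y ^ θ * Y' ^ (1 - θ))) := by
    rw [Real.div_rpow hu.le (by positivity), Real.div_rpow hu.le (by positivity),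
      Real.mul_rpow hX.le hY.le, Real.mul_rpow hX'.le hY'.le]
    have : u ^ θ * u ^ (1 - θ) = u := by
      rw [← Real.rpow_add hu]; simp
    rw [div_mul_div_comm, this]
    congr 1; ring
  have hC : u / ((θ * X + (1 - θ) * X') * (θ * Y + (1 - θ) * Y')) ≤
      (u / (X * Y)) ^ θ * (u / (X' * Y')) ^ (1 - θ) := by
    rw [hAB]
    apply div_le_div_of_nonneg_left hu.le (by positivity)
    exact mul_le_mul gX gY hgY.le (le_trans hgX.le gX)
  have hH := one_add_rpow_mul_le h0 h1 hA hB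
  have hmX : 0 < θ * X + (1 - θ) * X' := lt_of_lt_of_le hgX gX
  have hmY : 0 < θ * Y + (1 - θ) * Y' := lt_of_lt_of_le hgY gY
  calc Real.log (1 + u / ((θ * X + (1 - θ) * X') * (θ * Y + (1 - θ) * Y')))
      ≤ Real.log ((1 + u / (X * Y)) ^ θ * (1 + u / (X' * Y')) ^ (1 - θ)) := by
        apply Real.log_le_log (by positivity)
        linarith
    _ = θ * Real.log (1 + u / (X * Y)) + (1 - θ) * Real.log (1 + u / (X' * Y')) := by
        rw [Real.log_mul (by positivity) (by positivity), Real.log_rpow (by positivity),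
          Real.log_rpow (by positivity)]

/-- `log` of the shifted `2 × 2` determinant. -/
lemma log_det_split {u p1 p2 p3 : ℝ} (hu : 0 < u) (h1 : 0 ≤ p1) (h2 : 0 ≤ p2) (h3 : 0 ≤ p3) :
    Real.log (u ^ 2 + u * (p1 + p2 + p3) + p1 * p3) =
      Real.log (u + p1) + Real.log (u + p3) + Real.log (1 + u * p2 / ((u + p1) * (u + p3))) := by
  have a1 : 0 < u + p1 := by positivity
  have a3 : 0 < u + p3 := by positivity
  rw [← Real.log_mul a1.ne' a3.ne', ← Real.log_mul (by positivity) (by positivity)]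
  congr 1
  field_simp
  ring

/-! ### The scalar function `Gsc` -/

/-- `Gsc p1 p2 p3 = H(tt*) - η p1 - η p2 - η p3` for `t = [[√p1, √p2], [0, √p3]]`. -/
noncomputable def Gsc (p1 p2 p3 : ℝ) : ℝ :=
  E2 (p1 + p2 + p3) (p1 * p3) - negMulLog p1 - negMulLog p2 - negMulLog p3

lemma disc_ok {p1 p2 p3 : ℝ} (h1 : 0 ≤ p1) (h2 : 0 ≤ p2) (h3 : 0 ≤ p3) :
    4 * (p1 * p3) ≤ (p1 + p2 + p3) ^ 2 := by
  nlinarith [sq_nonneg (p1 - p3), mul_nonneg h2 h1, mul_nonneg h2 h3, sq_nonneg p2]

lemma Gsc_smul {t : ℝ} (ht : 0 ≤ t) (p1 p2 p3 : ℝ) :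
    Gsc (t * p1) (t * p2) (t * p3) = t * Gsc p1 p2 p3 := by
  unfold Gsc
  have e1 : t * p1 + t * p2 + t * p3 = t * (p1 + p2 + p3) := by ring
  have e2 : t * p1 * (t * p3) = t ^ 2 * (p1 * p3) := by ring
  rw [e1, e2, E2_smul ht, negMulLog_mul, negMulLog_mul, negMulLog_mul]
  ring

lemma Gsc_zero_mid (p1 p3 : ℝ) : Gsc p1 0 p3 = 0 := by
  unfold Gsc E2 lamP lamM
  have e : (p1 + 0 + p3) ^ 2 - 4 * (p1 * p3) = (p1 - p3) ^ 2 := by ring
  rw [e, Real.sqrt_sq_eq_abs]
  rcases abs_cases (p1 - p3) with ⟨h, _⟩ | ⟨h, _⟩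
  · rw [h]
    have a : (p1 + 0 + p3 + (p1 - p3)) / 2 = p1 := by ring
    have b : (p1 + 0 + p3 - (p1 - p3)) / 2 = p3 := by ring
    rw [a, b]; simp
  · rw [h]
    have a : (p1 + 0 + p3 + -(p1 - p3)) / 2 = p3 := by ring
    have b : (p1 + 0 + p3 - -(p1 - p3)) / 2 = p1 := by ring
    rw [a, b]; simp

/-- `Gsc` is nonincreasing in the two outer arguments. -/
lemma Gsc_anti {p1 p2 p3 a b : ℝ} (h1 : 0 ≤ p1) (h2 : 0 ≤ p2) (h3 : 0 ≤ p3) (ha : 0 ≤ a)
    (hb : 0 ≤ b) : Gsc (p1 + a) p2 (p3 + b) ≤ Gsc p1 p2 p3 := by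
  have h1a : 0 ≤ p1 + a := by positivity
  have h3b : 0 ≤ p3 + b := by positivity
  have key := cmp (J := Fin 2) (K := Fin 4) ![1, -1]
    ![p1 + p2 + p3, (p1 + a) + p2 + (p3 + b)] ![p1 * p3, (p1 + a) * (p3 + b)]
    ![-1, -1, 1, 1] ![p1, p3, p1 + a, p3 + b] ?_ ?_ ?_ ?_ ?_ ?_ ?_
  · simp only [Fin.sum_univ_succ, Fin.sum_univ_zero, Matrix.cons_val_zero, Matrix.cons_val_succ] at key
    simp at key
    unfold Gsc
    linarith
  · intro j; fin_cases j <;> simp <;> positivity
  · intro j; fin_cases j <;> simp <;> positivity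
  · intro j; fin_cases j
    · simpa using disc_ok h1 h2 h3
    · simpa using disc_ok h1a h2 h3b
  · intro k; fin_cases k <;> simp <;> positivity
  · simp [Fin.sum_univ_succ]
  · simp [Fin.sum_univ_succ]; ring
  · intro u hu
    simp only [Fin.sum_univ_succ, Fin.sum_univ_zero, Matrix.cons_val_zero, Matrix.cons_val_succ]
    simp
    rw [log_det_split hu h1 h2 h3, log_det_split hu h1a h2 h3b]
    have hle : Real.log (1 + u * p2 / ((u + (p1 + a)) * (u + (p3 + b)))) ≤
        Real.log (1 + u * p2 / ((u + p1) * (u + p3))) := by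
      apply Real.log_le_log (by positivity)
      have : u * p2 / ((u + (p1 + a)) * (u + (p3 + b))) ≤ u * p2 / ((u + p1) * (u + p3)) := by
        apply div_le_div_of_nonneg_left (by positivity) (by positivity)
        apply mul_le_mul <;> linarith
      linarith
    linarith

/-- joint convexity of `(x, y) ↦ Gsc x 1 y`. -/
lemma Gsc_convex {θ x y x' y' : ℝ} (h0 : 0 ≤ θ) (h1 : θ ≤ 1) (hx : 0 ≤ x) (hy : 0 ≤ y)
    (hx' : 0 ≤ x') (hy' : 0 ≤ y') :
    Gsc (θ * x + (1 - θ) * x') 1 (θ * y + (1 - θ) * y') ≤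
      θ * Gsc x 1 y + (1 - θ) * Gsc x' 1 y' := by
  have h1' : 0 ≤ 1 - θ := sub_nonneg.2 h1
  set mx := θ * x + (1 - θ) * x' with hmx
  set my := θ * y + (1 - θ) * y' with hmy
  have hmx0 : 0 ≤ mx := by positivity
  have hmy0 : 0 ≤ my := by positivity
  have key := cmp (J := Fin 3) (K := Fin 6) ![θ, 1 - θ, -1]
    ![x + 1 + y, x' + 1 + y', mx + 1 + my] ![x * y, x' * y', mx * my]
    ![-θ, -θ, -(1 - θ), -(1 - θ), 1, 1] ![x, y, x', y', mx, my] ?_ ?_ ?_ ?_ ?_ ?_ ?_
  · simp only [Fin.sum_univ_succ, Fin.sum_univ_zero, Matrix.cons_val_zero,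
      Matrix.cons_val_succ] at key
    simp at key
    unfold Gsc
    simp only [negMulLog_one]
    linarith
  · intro j; fin_cases j <;> simp <;> positivity
  · intro j; fin_cases j <;> simp <;> positivity
  · intro j; fin_cases j
    · simpa using disc_ok hx zero_le_one hy
    · simpa using disc_ok hx' zero_le_one hy'
    · simpa using disc_ok hmx0 zero_le_one hmy0
  · intro k; fin_cases k <;> simp <;> assumption
  · simp [Fin.sum_univ_succ]; ring
  · simp [Fin.sum_univ_succ]; rw [hmx, hmy]; ring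
  · intro u hu
    simp only [Fin.sum_univ_succ, Fin.sum_univ_zero, Matrix.cons_val_zero, Matrix.cons_val_succ]
    simp
    rw [log_det_split hu hx zero_le_one hy, log_det_split hu hx' zero_le_one hy',
      log_det_split hu hmx0 zero_le_one hmy0]
    have hk := key_convex (θ := θ) (u := u) (X := u + x) (Y := u + y) (X' := u + x') (Y' := u + y')
      h0 h1 hu (by positivity) (by positivity) (by positivity) (by positivity)
    have e1 : θ * (u + x) + (1 - θ) * (u + x') = u + mx := by rw [hmx]; ring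
    have e2 : θ * (u + y) + (1 - θ) * (u + y') = u + my := by rw [hmy]; ring
    rw [e1, e2] at hk
    simp only [mul_one]
    linarith

/-- two-vector subadditivity of `Gsc`. -/
lemma Gsc_add_le {p1 p2 p3 q1 q2 q3 : ℝ} (hp1 : 0 ≤ p1) (hp2 : 0 ≤ p2) (hp3 : 0 ≤ p3)
    (hq1 : 0 ≤ q1) (hq2 : 0 ≤ q2) (hq3 : 0 ≤ q3) :
    Gsc (p1 + q1) (p2 + q2) (p3 + q3) ≤ Gsc p1 p2 p3 + Gsc q1 q2 q3 := by
  rcases hp2.eq_or_lt with h | hp
  · subst h
    rw [Gsc_zero_mid, zero_add, zero_add, add_comm p1, add_comm p3]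
    exact Gsc_anti hq1 hq2 hq3 hp1 hp3
  rcases hq2.eq_or_lt with h | hq
  · subst h
    rw [Gsc_zero_mid, add_zero, add_zero]
    exact Gsc_anti hp1 hp2 hp3 hq1 hq3
  have hs : 0 < p2 + q2 := by positivity
  have hc := Gsc_convex (θ := p2 / (p2 + q2)) (x := p1 / p2) (y := p3 / p2) (x' := q1 / q2)
    (y' := q3 / q2) (by positivity) (by rw [div_le_one hs]; linarith) (by positivity)
    (by positivity) (by positivity) (by positivity)
  have e0 : 1 - p2 / (p2 + q2) = q2 / (p2 + q2) := by field_simp; ring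
  rw [e0] at hc
  have e1 : p2 / (p2 + q2) * (p1 / p2) + q2 / (p2 + q2) * (q1 / q2) = (p1 + q1) / (p2 + q2) := by
    field_simp
  have e3 : p2 / (p2 + q2) * (p3 / p2) + q2 / (p2 + q2) * (q3 / q2) = (p3 + q3) / (p2 + q2) := by
    field_simp
  rw [e1, e3] at hc
  have a := Gsc_smul hs.le ((p1 + q1) / (p2 + q2)) 1 ((p3 + q3) / (p2 + q2))
  have b := Gsc_smul hp.le (p1 / p2) 1 (p3 / p2)
  have c := Gsc_smul hq.le (q1 / q2) 1 (q3 / q2)
  rw [mul_div_cancel₀ _ hs.ne', mul_div_cancel₀ _ hs.ne', mul_one] at a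
  rw [mul_div_cancel₀ _ hp.ne', mul_div_cancel₀ _ hp.ne', mul_one] at b
  rw [mul_div_cancel₀ _ hq.ne', mul_div_cancel₀ _ hq.ne', mul_one] at c
  rw [a, b, c]
  have := mul_le_mul_of_nonneg_left hc hs.le
  calc (p2 + q2) * Gsc ((p1 + q1) / (p2 + q2)) 1 ((p3 + q3) / (p2 + q2))
      ≤ (p2 + q2) * (p2 / (p2 + q2) * Gsc (p1 / p2) 1 (p3 / p2)
          + q2 / (p2 + q2) * Gsc (q1 / q2) 1 (q3 / q2)) := this
    _ = p2 * Gsc (p1 / p2) 1 (p3 / p2) + q2 * Gsc (q1 / q2) 1 (q3 / q2) := by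
        field_simp

lemma Gsc_zero : Gsc 0 0 0 = 0 := Gsc_zero_mid 0 0

/-- **Scalar subadditivity** (Step 4 of the three-edge theorem). -/
theorem Gsc_sum_le {ι : Type*} (s : Finset ι) (p1 p2 p3 : ι → ℝ) (h1 : ∀ k ∈ s, 0 ≤ p1 k)
    (h2 : ∀ k ∈ s, 0 ≤ p2 k) (h3 : ∀ k ∈ s, 0 ≤ p3 k) :
    Gsc (∑ k ∈ s, p1 k) (∑ k ∈ s, p2 k) (∑ k ∈ s, p3 k) ≤ ∑ k ∈ s, Gsc (p1 k) (p2 k) (p3 k) := by
  classical
  induction s using Finset.induction_on with
  | empty => simp [Gsc_zero]
  | insert a s ha ih =>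
    rw [Finset.sum_insert ha, Finset.sum_insert ha, Finset.sum_insert ha, Finset.sum_insert ha]
    have ih' := ih (fun k hk => h1 k (Finset.mem_insert_of_mem hk))
      (fun k hk => h2 k (Finset.mem_insert_of_mem hk))
      (fun k hk => h3 k (Finset.mem_insert_of_mem hk))
    have := Gsc_add_le (h1 a (Finset.mem_insert_self a s)) (h2 a (Finset.mem_insert_self a s))
      (h3 a (Finset.mem_insert_self a s))
      (Finset.sum_nonneg fun k hk => h1 k (Finset.mem_insert_of_mem hk))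
      (Finset.sum_nonneg fun k hk => h2 k (Finset.mem_insert_of_mem hk))
      (Finset.sum_nonneg fun k hk => h3 k (Finset.mem_insert_of_mem hk))
    linarith

/-- bridge: for total trace one, the `2 × 2` part of `Gsc` is the binary entropy term of
`gadRate` evaluated at the determinant `p1 * p3`. -/
lemma Gsc_eq_binEntropy {p1 p2 p3 : ℝ} (h : p1 + p2 + p3 = 1) :
    Gsc p1 p2 p3 = Real.binEntropy ((1 + √(1 - 4 * (p1 * p3))) / 2)
      - negMulLog p1 - negMulLog p2 - negMulLog p3 := by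
  unfold Gsc; rw [h, E2_one]

end Crest.Agent.S0534Aux.GscSubadd
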