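import Mathlib
import Crest.Agent.S0534Aux.Gsc
import Crest.Agent.S0534Aux.Spec

set_option autoImplicit false

open scoped ComplexOrder MatrixOrder
open Matrix

namespace Crest.Agent.S0534Aux.H3Det

/-- the pinching determinant inequality (interface) -/
def PinchStatement : Prop :=
  ∀ (κ : Type) [Fintype κ] [DecidableEq κ] (x y : Matrix κ κ ℂ) (al : κ → ℝ),
    x.PosDef → y.PosDef →
    (∏ k, ((x k k).re * (y k k).re + al k ^ 2)) * x.det.re * y.det.re ≤
      ‖(fromBlocks x (diagonal fun k => (al k : ℂ)) (-(diagonal fun k => (al k : ℂ))) y).det‖ *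
        ∏ k, ((x k k).re * (y k k).re)

variable {n e f : Type} [Fintype n] [DecidableEq n] [Fintype e] [DecidableEq e]
  [Fintype f] [DecidableEq f]

lemma posDef_det_eq {M : Matrix n n ℂ} (h : M.PosDef) : ∃ r : ℝ, 0 < r ∧ M.det = (r : ℂ) := by
  have h1 := h.det_pos
  rw [Complex.lt_def] at h1
  refine ⟨M.det.re, by simpa using h1.1, ?_⟩
  apply Complex.ext
  · simp
  · simpa using h1.2.symm

lemma posDef_smul_one_add {A : Matrix n n ℂ} (hA : A.PosSemidef) {u : ℝ} (hu : 0 < u) :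
    ((u : ℂ) • (1 : Matrix n n ℂ) + A).PosDef :=
  (PosDef.one.smul (by exact_mod_cast hu)).add_posSemidef hA

/-- `(u + S)⁻¹ ≤ u⁻¹`. -/
lemma inv_le_inv_smul {S : Matrix n n ℂ} (hS : S.PosSemidef) {u : ℝ} (hu : 0 < u) :
    (((u : ℂ)⁻¹) • (1 : Matrix n n ℂ) - ((u : ℂ) • (1 : Matrix n n ℂ) + S)⁻¹).PosSemidef := by
  set Su := (u : ℂ) • (1 : Matrix n n ℂ) + S with hSu
  have hpd : Su.PosDef := posDef_smul_one_add hS hu
  have hunit : IsUnit Su.det := (Matrix.isUnit_iff_isUnit_det Su).mp hpd.isUnit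
  have h1 : Su * Su⁻¹ = 1 := Matrix.mul_nonsing_inv Su hunit
  have h2 : Su⁻¹ * Su = 1 := Matrix.nonsing_inv_mul Su hunit
  have hu0 : (u : ℂ) ≠ 0 := by exact_mod_cast hu.ne'
  have hP : ((u : ℂ) • S + Sᴴ * S).PosSemidef :=
    (hS.smul (by exact_mod_cast hu.le)).add (posSemidef_conjTranspose_mul_self S)
  have hP2 := (hP.conjTranspose_mul_mul_same Su⁻¹).smul (α := ℂ) (a := (u : ℂ)⁻¹)
    (by rw [inv_nonneg]; exact_mod_cast hu.le)
  have key : ((u : ℂ)⁻¹) • (1 : Matrix n n ℂ) - Su⁻¹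
      = (u : ℂ)⁻¹ • ((Su⁻¹)ᴴ * ((u : ℂ) • S + Sᴴ * S) * Su⁻¹) := by
    have e1 : (u : ℂ) • S + Sᴴ * S = S * Su := by
      rw [hS.isHermitian.eq, hSu, Matrix.mul_add]; simp
    have e2 : Su⁻¹ * S = 1 - (u : ℂ) • Su⁻¹ := by
      have : S = Su - (u : ℂ) • (1 : Matrix n n ℂ) := by rw [hSu]; abel
      conv_lhs => rw [this]
      rw [Matrix.mul_sub, h2]; simp
    rw [hpd.inv.isHermitian.eq, e1, Matrix.mul_assoc, Matrix.mul_assoc, h1, Matrix.mul_one, e2,
      smul_sub, smul_smul, inv_mul_cancel₀ hu0, one_smul]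
  rw [key]; exact hP2


theorem core (hP : PinchStatement) {Q : Matrix e e ℂ} (hQ : Q.PosSemidef) (al : e → ℝ)
    (c : Matrix e f ℂ) {S : Matrix f f ℂ} (hS : S.PosSemidef) {u : ℝ} (hu : 0 < u) :
    ((u : ℂ) • (1 : Matrix f f ℂ) + (cᴴ * c + S)).det.re *
        ((u : ℂ) • (1 : Matrix e e ℂ) + Q).det.re *
        ∏ k, ((u + (Q k k).re) * (u + ((c * cᴴ) k k).re) + u * al k ^ 2)
      ≤ ((u : ℂ) • (1 : Matrix (e ⊕ f) (e ⊕ f) ℂ) +
          fromBlocks (Q + (diagonal fun k => (al k : ℂ)) * (diagonal fun k => (al k : ℂ)))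
            ((diagonal fun k => (al k : ℂ)) * c) (cᴴ * (diagonal fun k => (al k : ℂ)))
            (cᴴ * c + S)).det.re *
        ∏ k, ((u + (Q k k).re) * (u + ((c * cᴴ) k k).re)) := by
  set a : Matrix e e ℂ := diagonal fun k => (al k : ℂ) with ha
  have haH : aᴴ = a := by
    rw [ha, diagonal_conjTranspose]; congr 1; ext k; simp
  set x := (u : ℂ) • (1 : Matrix e e ℂ) + Q with hxdef
  set Su := (u : ℂ) • (1 : Matrix f f ℂ) + S with hSudef
  have hx : x.PosDef := posDef_smul_one_add hQ hu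
  have hSu : Su.PosDef := posDef_smul_one_add hS hu
  have hxu : IsUnit x.det := (Matrix.isUnit_iff_isUnit_det x).mp hx.isUnit
  have hSuu : IsUnit Su.det := (Matrix.isUnit_iff_isUnit_det Su).mp hSu.isUnit
  have hx1 : x * x⁻¹ = 1 := Matrix.mul_nonsing_inv x hxu
  have hS1 : Su * Su⁻¹ = 1 := Matrix.mul_nonsing_inv Su hSuu
  set y := 1 + c * Su⁻¹ * cᴴ with hydef
  have hy : y.PosDef := PosDef.one.add_posSemidef (hSu.inv.posSemidef.mul_mul_conjTranspose_same c)
  set z := y + a * x⁻¹ * a with hzdef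
  have hz : z.PosDef := by
    refine hy.add_posSemidef ?_
    have := hx.inv.posSemidef.mul_mul_conjTranspose_same a
    rwa [haH] at this
  obtain ⟨dx, hdx, ex⟩ := posDef_det_eq hx
  obtain ⟨dS, hdS, eS⟩ := posDef_det_eq hSu
  obtain ⟨dy, hdy, ey⟩ := posDef_det_eq hy
  obtain ⟨dz, hdz, ez⟩ := posDef_det_eq hz
  -- determinant identities
  have E1 : ((u : ℂ) • (1 : Matrix f f ℂ) + (cᴴ * c + S)).det = ((dS * dy : ℝ) : ℂ) := by
    have : (u : ℂ) • (1 : Matrix f f ℂ) + (cᴴ * c + S) = Su + cᴴ * c := by rw [hSudef]; abel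
    rw [this, det_add_mul _ _ hSuu, ← hydef, eS, ey]; push_cast; ring
  have E2 : ((u : ℂ) • (1 : Matrix (e ⊕ f) (e ⊕ f) ℂ) +
      fromBlocks (Q + a * a) (a * c) (cᴴ * a) (cᴴ * c + S)).det = ((dx * dS * dz : ℝ) : ℂ) := by
    have h1 : (u : ℂ) • (1 : Matrix (e ⊕ f) (e ⊕ f) ℂ) +
        fromBlocks (Q + a * a) (a * c) (cᴴ * a) (cᴴ * c + S)
        = fromBlocks x 0 0 Su + fromRows a cᴴ * fromCols a c := by
      rw [fromRows_mul_fromCols, fromBlocks_add, ← fromBlocks_one, fromBlocks_smul, fromBlocks_add]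
      congr 1
      · rw [hxdef]; abel
      · simp
      · simp
      · rw [hSudef]; abel
    have h2 : (fromBlocks x 0 0 Su)⁻¹ = fromBlocks x⁻¹ 0 0 Su⁻¹ := by
      apply Matrix.inv_eq_right_inv
      rw [fromBlocks_multiply]
      simp [hx1, hS1]
    have h3 : (fromBlocks x 0 0 Su).det = x.det * Su.det := det_fromBlocks_zero₂₁ _ _ _
    have h4 : IsUnit (fromBlocks x 0 0 Su).det := by rw [h3]; exact hxu.mul hSuu
    rw [h1, det_add_mul _ _ h4, h2, h3, fromCols_mul_fromBlocks, fromCols_mul_fromRows]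
    simp only [Matrix.mul_zero, add_zero, zero_add]
    have h5 : 1 + (a * x⁻¹ * a + c * Su⁻¹ * cᴴ) = z := by
      rw [hzdef, hydef]; abel
    rw [h5, ex, eS, ez]; push_cast; ring
  have E3 : (fromBlocks x a (-a) y).det = ((dx * dz : ℝ) : ℂ) := by
    let _ : Invertible x := invertibleOfIsUnitDet x hxu
    rw [det_fromBlocks₁₁, invOf_eq_nonsing_inv]
    have : y - -a * x⁻¹ * a = z := by rw [hzdef]; simp
    rw [this, ex, ez]; push_cast; ring
  have hpin := hP e x y al hx hy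
  rw [E3, ex, ey] at hpin
  rw [E1, E2, ex]
  simp only [Complex.ofReal_re] at hpin ⊢
  rw [Complex.norm_real, Real.norm_of_nonneg (by positivity)] at hpin
  -- diagonal entries
  have hxk : ∀ k, (x k k).re = u + (Q k k).re := by
    intro k; simp [hxdef]
  have hxpos : ∀ k, 0 < (x k k).re := fun k => (Complex.lt_def.1 hx.diag_pos).1
  have hypos : ∀ k, 0 < (y k k).re := fun k => (Complex.lt_def.1 hy.diag_pos).1
  have hyk : ∀ k, u * (y k k).re ≤ u + ((c * cᴴ) k k).re := by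
    intro k
    have h1 := ((inv_le_inv_smul hS hu).mul_mul_conjTranspose_same c).diag_nonneg (i := k)
    rw [← hSudef, Matrix.mul_sub, Matrix.sub_mul] at h1
    have h2 := (Complex.le_def.1 h1).1
    simp only [Matrix.sub_apply, Matrix.mul_smul, Matrix.mul_one, Matrix.smul_mul,
      Matrix.smul_apply, Complex.zero_re, Complex.sub_re, smul_eq_mul] at h2
    rw [← Complex.ofReal_inv, Complex.re_ofReal_mul] at h2
    have h3 : (y k k).re = 1 + ((c * Su⁻¹ * cᴴ) k k).re := by simp [hydef]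
    rw [h3]
    have h4 : u * (u⁻¹ * ((c * cᴴ) k k).re) = ((c * cᴴ) k k).re := by field_simp
    nlinarith [mul_le_mul_of_nonneg_left (sub_nonneg.1 h2) hu.le]
  simp only [hxk] at hpin hxpos
  set P1 := ∏ k, ((u + (Q k k).re) * (u + ((c * cᴴ) k k).re) + u * al k ^ 2) with hP1
  set P2 := ∏ k, ((u + (Q k k).re) * (y k k).re) with hP2
  set P3 := ∏ k, ((u + (Q k k).re) * (y k k).re + al k ^ 2) with hP3
  set P4 := ∏ k, ((u + (Q k k).re) * (u + ((c * cᴴ) k k).re)) with hP4
  have hP2pos : 0 < P2 := Finset.prod_pos fun k _ => mul_pos (hxpos k) (hypos k)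
  have h12 : P1 * P2 ≤ P3 * P4 := by
    rw [hP1, hP2, hP3, hP4, ← Finset.prod_mul_distrib, ← Finset.prod_mul_distrib]
    refine Finset.prod_le_prod (fun k _ => ?_) (fun k _ => ?_)
    · have h0 : 0 ≤ u + ((c * cᴴ) k k).re := le_trans (mul_pos hu (hypos k)).le (hyk k)
      have := hxpos k; have := hypos k
      positivity
    · have h5 : 0 ≤ al k ^ 2 * (u + (Q k k).re) := mul_nonneg (sq_nonneg _) (hxpos k).le
      nlinarith [mul_le_mul_of_nonneg_left (hyk k) h5]
  have h3 : P3 * dy ≤ dz * P2 := by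
    have : dx * (P3 * dy) ≤ dx * (dz * P2) := by nlinarith [hpin]
    exact le_of_mul_le_mul_left this hdx
  have hP4nn : 0 ≤ P4 := by
    refine Finset.prod_nonneg fun k _ => ?_
    have h0 : 0 ≤ u + ((c * cᴴ) k k).re := le_trans (mul_pos hu (hypos k)).le (hyk k)
    exact mul_nonneg (hxpos k).le h0
  have h4 : dy * P1 ≤ dz * P4 := by
    have : P2 * (dy * P1) ≤ P2 * (dz * P4) := by
      calc P2 * (dy * P1) = dy * (P1 * P2) := by ring
        _ ≤ dy * (P3 * P4) := mul_le_mul_of_nonneg_left h12 hdy.le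
        _ = (P3 * dy) * P4 := by ring
        _ ≤ (dz * P2) * P4 := mul_le_mul_of_nonneg_right h3 hP4nn
        _ = P2 * (dz * P4) := by ring
    exact le_of_mul_le_mul_left this hP2pos
  calc dS * dy * dx * P1 = (dS * dx) * (dy * P1) := by ring
    _ ≤ (dS * dx) * (dz * P4) := mul_le_mul_of_nonneg_left h4 (by positivity)
    _ = dx * dS * dz * P4 := by ring

/-- In a positive semidefinite matrix a vanishing diagonal entry kills its row. -/
lemma psd_row_eq_zero {M : Matrix n n ℂ} (hM : M.PosSemidef) {i : n} (hi : M i i = 0) (j : n) :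
    M i j = 0 := by
  have h1 := (hM.submatrix ![i, j]).det_nonneg
  rw [det_fin_two] at h1
  simp only [submatrix_apply, Matrix.cons_val_zero, Matrix.cons_val_one, hi, zero_mul,
    zero_sub] at h1
  have h2 : M j i = star (M i j) := by
    have := congrFun (congrFun hM.isHermitian.eq j) i
    rw [conjTranspose_apply] at this
    exact this.symm
  rw [h2] at h1
  have h3 : M i j * star (M i j) = ((Complex.normSq (M i j) : ℝ) : ℂ) := by
    simpa using Complex.mul_conj (M i j)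
  rw [h3] at h1
  have h4 : Complex.normSq (M i j) ≤ 0 := by
    have := (Complex.le_def.1 h1).1
    simpa using this
  exact Complex.normSq_eq_zero.1 (le_antisymm h4 (Complex.normSq_nonneg _))

/-- Block Cholesky factorisation with a diagonal upper left block (pseudo-inverse version). -/
lemma exists_factor (lam : e → ℝ) (Y : Matrix e f ℂ) (B : Matrix f f ℂ)
    (hN : (fromBlocks (diagonal fun k => (lam k : ℂ)) Y Yᴴ B).PosSemidef) :
    ∃ (c : Matrix e f ℂ) (S : Matrix f f ℂ), S.PosSemidef ∧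
      (diagonal fun k => ((Real.sqrt (lam k) : ℝ) : ℂ)) * (diagonal fun k => ((Real.sqrt (lam k) : ℝ) : ℂ))
        = (diagonal fun k => (lam k : ℂ)) ∧
      (diagonal fun k => ((Real.sqrt (lam k) : ℝ) : ℂ)) * c = Y ∧
      cᴴ * (diagonal fun k => ((Real.sqrt (lam k) : ℝ) : ℂ)) = Yᴴ ∧
      cᴴ * c + S = B := by
  have hlam : ∀ k, 0 ≤ lam k := by
    intro k
    have := hN.diag_nonneg (i := Sum.inl k)
    simpa using this
  have hrow : ∀ k, lam k = 0 → ∀ j, Y k j = 0 := by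
    intro k hk j
    have := psd_row_eq_zero hN (i := Sum.inl k) (by simp [hk]) (Sum.inr j)
    simpa using this
  set a : Matrix e e ℂ := diagonal fun k => ((Real.sqrt (lam k) : ℝ) : ℂ) with ha
  set t : Matrix e e ℂ := diagonal fun k => (((Real.sqrt (lam k))⁻¹ : ℝ) : ℂ) with ht
  have haH : aᴴ = a := by
    rw [ha, diagonal_conjTranspose]; congr 1; ext k; simp
  have htH : tᴴ = t := by
    rw [ht, diagonal_conjTranspose]; congr 1; ext k; simp
  have haa : a * a = diagonal fun k => (lam k : ℂ) := by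
    rw [ha, diagonal_mul_diagonal]; congr 1; ext k
    rw [← Complex.ofReal_mul, Real.mul_self_sqrt (hlam k)]
  have hatY : a * (t * Y) = Y := by
    rw [← Matrix.mul_assoc, ha, ht, diagonal_mul_diagonal]
    ext k j
    rw [diagonal_mul]
    by_cases hk : lam k = 0
    · rw [hrow k hk j, mul_zero]
    · have : Real.sqrt (lam k) ≠ 0 := by
        rw [Real.sqrt_ne_zero (hlam k)]; exact hk
      rw [← Complex.ofReal_mul, mul_inv_cancel₀ this]; simp
  refine ⟨t * Y, B - (t * Y)ᴴ * (t * Y), ?_, haa, hatY, ?_, by abel⟩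
  · have h1 := hN.conjTranspose_mul_mul_same (fromRows (-(t * (t * Y))) (1 : Matrix f f ℂ))
    rw [← haa, Matrix.mul_assoc, fromBlocks_mul_fromRows,
      conjTranspose_fromRows_eq_fromCols_conjTranspose, fromCols_mul_fromRows] at h1
    have e1 : a * a * -(t * (t * Y)) + Y * (1 : Matrix f f ℂ) = 0 := by
      have : a * a * (t * (t * Y)) = Y := by
        have h2 : a * t = t * a := by rw [ha, ht, diagonal_mul_diagonal, diagonal_mul_diagonal]; congr 1; ext k; ring
        calc a * a * (t * (t * Y)) = a * ((a * t) * (t * Y)) := by simp only [Matrix.mul_assoc]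
          _ = a * (t * (a * (t * Y))) := by rw [h2]; simp only [Matrix.mul_assoc]
          _ = Y := by rw [hatY, hatY]
      rw [Matrix.mul_neg, this]; simp
    have e2 : Yᴴ * -(t * (t * Y)) + B * (1 : Matrix f f ℂ) = B - (t * Y)ᴴ * (t * Y) := by
      rw [conjTranspose_mul, htH, Matrix.mul_neg, Matrix.mul_one]
      simp only [Matrix.mul_assoc]; abel
    rw [e1, e2] at h1
    simpa using h1
  · have := congrArg conjTranspose hatY
    rwa [conjTranspose_mul, haH] at this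


lemma det_smul_one_add_conj (U M : Matrix n n ℂ) (hU : Uᴴ * U = 1) (u : ℂ) :
    (u • (1 : Matrix n n ℂ) + Uᴴ * M * U).det = (u • (1 : Matrix n n ℂ) + M).det := by
  have h1 : u • (1 : Matrix n n ℂ) + Uᴴ * M * U = Uᴴ * (u • (1 : Matrix n n ℂ) + M) * U := by
    rw [Matrix.mul_add, Matrix.add_mul, Matrix.mul_smul, Matrix.mul_one, Matrix.smul_mul, hU]
  rw [h1, det_mul, det_mul, mul_right_comm, ← det_mul, hU, det_one, one_mul]

/-- The determinant form of the three-edge inequality. -/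
theorem S3 (hP : PinchStatement) {Q A : Matrix e e ℂ} {Y : Matrix e f ℂ} {B : Matrix f f ℂ}
    (hQ : Q.PosSemidef) (hN : (fromBlocks A Y Yᴴ B).PosSemidef) (hA : A.IsHermitian) :
    ∃ q r : e → ℝ, (∀ k, 0 ≤ q k) ∧ (∀ k, 0 ≤ r k) ∧ ∑ k, q k = Q.trace.re ∧
      ∑ k, r k ≤ B.trace.re ∧ ∀ u : ℝ, 0 < u →
      ((u : ℂ) • (1 : Matrix f f ℂ) + B).det.re * ((u : ℂ) • (1 : Matrix e e ℂ) + Q).det.re *
          ∏ k, ((u + q k) * (u + r k) + u * hA.eigenvalues k)
        ≤ ((u : ℂ) • (1 : Matrix (e ⊕ f) (e ⊕ f) ℂ) + fromBlocks (Q + A) Y Yᴴ B).det.re *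
          ∏ k, ((u + q k) * (u + r k)) := by
  set V : Matrix e e ℂ := (hA.eigenvectorUnitary : Matrix e e ℂ) with hV
  have hVV : Vᴴ * V = 1 := by
    rw [hV, ← star_eq_conjTranspose]; exact Unitary.coe_star_mul_self _
  have hVV' : V * Vᴴ = 1 := by
    rw [hV, ← star_eq_conjTranspose]; exact Unitary.coe_mul_star_self _
  set lam := hA.eigenvalues with hlam
  have hAV : Vᴴ * A * V = diagonal fun k => (lam k : ℂ) := by
    have := hA.conjStarAlgAut_star_eigenvectorUnitary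
    rw [Unitary.conjStarAlgAut_star_apply] at this
    rw [hV, ← star_eq_conjTranspose, this]; rfl
  set W : Matrix (e ⊕ f) (e ⊕ f) ℂ := fromBlocks V 0 0 1 with hW
  have hWH : Wᴴ = fromBlocks Vᴴ 0 0 1 := by
    rw [hW, fromBlocks_conjTranspose]; simp
  have hWW : Wᴴ * W = 1 := by
    rw [hWH, hW, fromBlocks_multiply]; simp [hVV]
  have hconj : ∀ X : Matrix e e ℂ, Wᴴ * fromBlocks X Y Yᴴ B * W
      = fromBlocks (Vᴴ * X * V) (Vᴴ * Y) (Vᴴ * Y)ᴴ B := by
    intro X
    rw [hWH, hW, fromBlocks_multiply, fromBlocks_multiply]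
    simp [conjTranspose_mul]
  have hN' : (fromBlocks (diagonal fun k => (lam k : ℂ)) (Vᴴ * Y) (Vᴴ * Y)ᴴ B).PosSemidef := by
    rw [← hAV, ← hconj]; exact hN.conjTranspose_mul_mul_same W
  obtain ⟨c, S, hS, h1, h2, h3, h4⟩ := exists_factor lam (Vᴴ * Y) B hN'
  have hQ' : (Vᴴ * Q * V).PosSemidef := hQ.conjTranspose_mul_mul_same V
  have hlam0 : ∀ k, 0 ≤ lam k := by
    intro k
    have := hN'.diag_nonneg (i := Sum.inl k)
    simpa using this
  refine ⟨fun k => ((Vᴴ * Q * V) k k).re, fun k => ((c * cᴴ) k k).re, ?_, ?_, ?_, ?_, ?_⟩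
  · intro k; exact (Complex.le_def.1 hQ'.diag_nonneg).1
  · intro k; exact (Complex.le_def.1 (posSemidef_self_mul_conjTranspose c).diag_nonneg).1
  · have : (Vᴴ * Q * V).trace = Q.trace := by
      rw [Matrix.trace_mul_comm, ← Matrix.mul_assoc, hVV', Matrix.one_mul]
    rw [← this, Matrix.trace, Complex.re_sum]; rfl
  · have e1 : ∑ k, ((c * cᴴ) k k).re = (cᴴ * c).trace.re := by
      rw [Matrix.trace_mul_comm, Matrix.trace, Complex.re_sum]; rfl
    have e2 : 0 ≤ S.trace.re := (Complex.le_def.1 hS.trace_nonneg).1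
    rw [e1, ← h4, Matrix.trace_add, Complex.add_re]; linarith
  · intro u hu
    have key := core hP hQ' (fun k => Real.sqrt (lam k)) c hS hu
    rw [h1, h2, h3, h4, det_smul_one_add_conj V Q hVV] at key
    have e3 : fromBlocks (Vᴴ * Q * V + diagonal fun k => (lam k : ℂ)) (Vᴴ * Y) (Vᴴ * Y)ᴴ B
        = Wᴴ * fromBlocks (Q + A) Y Yᴴ B * W := by
      rw [hconj, ← hAV, Matrix.mul_add, Matrix.add_mul]
    rw [e3, det_smul_one_add_conj W _ hWW] at key
    simp only [Real.sq_sqrt (hlam0 _)] at key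
    exact key

end Crest.Agent.S0534Aux.H3Det
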