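import Mathlib
import Crest.Agent.S0534Aux.LogDetConvex

/-!
# Pinching inequality for `F K D = log |det (D + K)| - log det D`

Sign reflections + convexity (`LogDetConvex.convexOn_F`).
-/

set_option autoImplicit false

namespace Crest.Agent.S0534Aux.Pinch

open Matrix
open scoped ComplexOrder MatrixOrder
open Crest.Agent.S0534Aux.LogDetConvex

variable {n : Type*} [Fintype n] [DecidableEq n]

/-- One reflection step. -/
lemma refl_step {K D S : Matrix n n ℂ} (hK : (K + Kᴴ).PosSemidef) (hD : D.PosDef)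
    (hS : S * S = 1) (hSh : Sᴴ = S) (hSK : S * K * S = K) :
    ((1 / 2 : ℝ) • D + (1 / 2 : ℝ) • (S * D * S)).PosDef ∧
      F K ((1 / 2 : ℝ) • D + (1 / 2 : ℝ) • (S * D * S)) ≤ F K D := by
  have hSu : IsUnit S := ⟨⟨S, S, hS, hS⟩, rfl⟩
  have hSD : (S * D * S).PosDef := by
    have := (Matrix.IsUnit.posDef_star_left_conjugate_iff (x := D) hSu).mpr hD
    rwa [star_eq_conjTranspose, hSh] at this
  have hconv := convexOn_F hK
  have h1 := hconv.2 hD hSD (by norm_num : (0 : ℝ) ≤ 1 / 2) (by norm_num : (0 : ℝ) ≤ 1 / 2)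
    (by norm_num)
  have hdet : S.det * S.det = 1 := by rw [← Matrix.det_mul, hS, Matrix.det_one]
  have hgen : ∀ X : Matrix n n ℂ, (S * X * S).det = X.det := by
    intro X
    rw [Matrix.det_mul, Matrix.det_mul]
    calc S.det * X.det * S.det = (S.det * S.det) * X.det := by ring
      _ = X.det := by rw [hdet, one_mul]
  have h2 : F K (S * D * S) = F K D := by
    unfold F
    have e1 : S * D * S + K = S * (D + K) * S := by
      rw [Matrix.mul_add, Matrix.add_mul, hSK]
    rw [e1, hgen, hgen]
  refine ⟨hconv.1 hD hSD (by norm_num) (by norm_num) (by norm_num), ?_⟩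
  rw [h2] at h1
  simp only [smul_eq_mul] at h1
  linarith

variable {κ : Type*} [DecidableEq κ]

/-- partial pinching -/
def pinS (idx : n → κ) (s : Finset κ) (D : Matrix n n ℂ) : Matrix n n ℂ :=
  Matrix.of fun i j => if ∀ k ∈ s, (idx i = k ↔ idx j = k) then D i j else 0

/-- full pinching with respect to the fibres of `idx`. -/
def pin (idx : n → κ) (D : Matrix n n ℂ) : Matrix n n ℂ :=
  Matrix.of fun i j => if idx i = idx j then D i j else 0

/-- sign vector -/
def sgn (idx : n → κ) (k : κ) : n → ℂ := fun i => if idx i = k then -1 else 1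

omit [Fintype n] [DecidableEq n] in
lemma pinS_empty (idx : n → κ) (D : Matrix n n ℂ) : pinS idx ∅ D = D := by
  ext i j; simp [pinS]

lemma pinS_insert (idx : n → κ) (k : κ) (s : Finset κ) (D : Matrix n n ℂ) :
    pinS idx (insert k s) D = (1 / 2 : ℝ) • pinS idx s D +
      (1 / 2 : ℝ) • (diagonal (sgn idx k) * pinS idx s D * diagonal (sgn idx k)) := by
  ext i j
  simp only [pinS, Matrix.of_apply, Matrix.add_apply, Matrix.smul_apply, Matrix.mul_diagonal,
    Matrix.diagonal_mul, Finset.forall_mem_insert, sgn]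
  by_cases h : ∀ k ∈ s, (idx i = k ↔ idx j = k)
  · rw [if_congr (and_iff_left h) rfl rfl, if_pos h]
    have h2 : D i j = (1 / 2 : ℝ) • D i j + (1 / 2 : ℝ) • D i j := by
      rw [← add_smul]; norm_num
    by_cases hi : idx i = k <;> by_cases hj : idx j = k
    · simpa [hi, hj] using h2
    · simp [hi, hj]
    · simp [hi, hj]
    · simpa [hi, hj] using h2
  · simp [h]

omit [DecidableEq n] in
lemma pinS_image (idx : n → κ) (D : Matrix n n ℂ) :
    pinS idx (Finset.univ.image idx) D = pin idx D := by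
  ext i j
  simp only [pinS, pin, Matrix.of_apply]
  congr 1
  apply propext
  constructor
  · intro h
    exact ((h (idx i) (Finset.mem_image_of_mem idx (Finset.mem_univ i))).mp rfl).symm
  · intro h k _
    rw [h]

lemma sgn_mul_self (idx : n → κ) (k : κ) :
    diagonal (sgn idx k) * diagonal (sgn idx k) = (1 : Matrix n n ℂ) := by
  rw [Matrix.diagonal_mul_diagonal, ← Matrix.diagonal_one]
  congr 1
  ext i
  by_cases h : idx i = k <;> simp [sgn, h]

omit [Fintype n] in
lemma sgn_conjTranspose (idx : n → κ) (k : κ) :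
    (diagonal (sgn idx k))ᴴ = (diagonal (sgn idx k) : Matrix n n ℂ) := by
  rw [Matrix.diagonal_conjTranspose]
  congr 1
  ext i
  by_cases h : idx i = k <;> simp [sgn, h]

lemma sgn_conj (idx : n → κ) (k : κ) {K : Matrix n n ℂ}
    (hKidx : ∀ i j, idx i ≠ idx j → K i j = 0) :
    diagonal (sgn idx k) * K * diagonal (sgn idx k) = K := by
  ext i j
  simp only [Matrix.mul_diagonal, Matrix.diagonal_mul, sgn]
  by_cases hij : idx i = idx j
  · by_cases hi : idx i = k
    · have hj : idx j = k := hij ▸ hi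
      simp [hi, hj]
    · have hj : ¬ idx j = k := hij ▸ hi
      simp [hi, hj]
  · simp [hKidx i j hij]

/-- **Pinching inequality** (general form). -/
theorem pin_le (idx : n → κ) {K D : Matrix n n ℂ} (hK : (K + Kᴴ).PosSemidef)
    (hKidx : ∀ i j, idx i ≠ idx j → K i j = 0) (hD : D.PosDef) :
    (pin idx D).PosDef ∧ F K (pin idx D) ≤ F K D := by
  have key : ∀ s : Finset κ, (pinS idx s D).PosDef ∧ F K (pinS idx s D) ≤ F K D := by
    intro s
    induction s using Finset.induction_on with
    | empty => rw [pinS_empty]; exact ⟨hD, le_rfl⟩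
    | insert k s _ ih =>
      have := refl_step hK ih.1 (sgn_mul_self idx k) (sgn_conjTranspose idx k)
        (sgn_conj idx k hKidx)
      rw [pinS_insert]
      exact ⟨this.1, this.2.trans ih.2⟩
  rw [← pinS_image]
  exact key _

section blocks

variable {m : Type*} [Fintype m] [DecidableEq m]

omit [DecidableEq m] in
lemma posDef_fromBlocks_diag {l : Type*} [Fintype l] [DecidableEq l] {x : Matrix m m ℂ}
    {y : Matrix l l ℂ} (hx : x.PosDef) (hy : y.PosDef) :
    (fromBlocks x 0 0 y).PosDef := by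
  refine Matrix.PosDef.of_dotProduct_mulVec_pos ?_ ?_
  · exact Matrix.IsHermitian.fromBlocks hx.isHermitian (by simp) hy.isHermitian
  · intro v hv
    obtain ⟨v1, v2, rfl⟩ : ∃ v1 v2, v = Sum.elim v1 v2 :=
      ⟨v ∘ Sum.inl, v ∘ Sum.inr, (Sum.elim_comp_inl_inr v).symm⟩
    have e : star (Sum.elim v1 v2) ⬝ᵥ (fromBlocks x 0 0 y *ᵥ Sum.elim v1 v2)
        = star v1 ⬝ᵥ (x *ᵥ v1) + star v2 ⬝ᵥ (y *ᵥ v2) := by
      rw [Matrix.fromBlocks_mulVec]
      simp [dotProduct, Fintype.sum_sum_type]
    rw [e]
    by_cases h1 : v1 = 0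
    · have h2 : v2 ≠ 0 := by
        rintro rfl
        apply hv
        rw [h1]
        ext (i | i) <;> rfl
      have := hy.dotProduct_mulVec_pos h2
      simpa [h1] using this
    · have p1 := hx.dotProduct_mulVec_pos h1
      have p2 := hy.posSemidef.dotProduct_mulVec_nonneg v2
      exact add_pos_of_pos_of_nonneg p1 p2

lemma det_fromBlocks_diagonal (a b c d : m → ℂ) (ha : ∀ k, a k ≠ 0) :
    (fromBlocks (diagonal a) (diagonal b) (diagonal c) (diagonal d)).det
      = ∏ k, (a k * d k - c k * b k) := by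
  have hinv : (diagonal fun k => (a k)⁻¹) * diagonal a = 1 := by
    rw [diagonal_mul_diagonal, ← diagonal_one]; congr 1; ext k; simp [ha k]
  let _ : Invertible (diagonal a) := invertibleOfLeftInverse _ (diagonal fun k => (a k)⁻¹) hinv
  rw [det_fromBlocks₁₁]
  have h : ⅟(diagonal a) = diagonal fun k => (a k)⁻¹ := rfl
  rw [h, diagonal_mul_diagonal, diagonal_mul_diagonal, diagonal_sub, det_diagonal, det_diagonal,
    ← Finset.prod_mul_distrib]
  refine Finset.prod_congr rfl fun k _ => ?_
  have := ha k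
  field_simp

lemma norm_eq_re_of_nonneg {z : ℂ} (hz : 0 ≤ z) : ‖z‖ = z.re := by
  have := Complex.eq_coe_norm_of_nonneg hz
  conv_rhs => rw [this]
  simp

/-- **(PINCH)**, the form on the task board. -/
theorem pinch {x y : Matrix m m ℂ} (hx : x.PosDef) (hy : y.PosDef) (al : m → ℝ) :
    (∏ k, ((x k k).re * (y k k).re + al k ^ 2)) * (x.det.re * y.det.re) ≤
      ‖(fromBlocks x (diagonal fun k => (al k : ℂ)) (-(diagonal fun k => (al k : ℂ))) y).det‖
        * ∏ k, ((x k k).re * (y k k).re) := by
  set A : Matrix m m ℂ := diagonal fun k => (al k : ℂ) with hA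
  set D : Matrix (m ⊕ m) (m ⊕ m) ℂ := fromBlocks x 0 0 y with hDdef
  set K : Matrix (m ⊕ m) (m ⊕ m) ℂ := fromBlocks 0 A (-A) 0 with hKdef
  have hAh : Aᴴ = A := by
    rw [hA, diagonal_conjTranspose]; congr 1; ext k; simp
  have hK : (K + Kᴴ).PosSemidef := by
    have : K + Kᴴ = 0 := by
      rw [hKdef, fromBlocks_conjTranspose, fromBlocks_add]
      simp [hAh]
    rw [this]; exact Matrix.PosSemidef.zero
  have hD : D.PosDef := posDef_fromBlocks_diag hx hy
  have hKidx : ∀ i j, (Sum.elim id id : m ⊕ m → m) i ≠ (Sum.elim id id : m ⊕ m → m) j →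
      K i j = 0 := by
    rintro (i | i) (j | j) hij
    · simp [hKdef]
    · simp only [Sum.elim_inl, Sum.elim_inr, id] at hij
      simp [hKdef, hA, Matrix.diagonal_apply_ne _ hij]
    · simp only [Sum.elim_inl, Sum.elim_inr, id] at hij
      simp [hKdef, hA, Matrix.diagonal_apply_ne _ hij]
    · simp [hKdef]
  obtain ⟨hpd, hle⟩ := pin_le (Sum.elim id id : m ⊕ m → m) hK hKidx hD
  have hpin : pin (Sum.elim id id : m ⊕ m → m) D
      = fromBlocks (diagonal fun k => x k k) 0 0 (diagonal fun k => y k k) := by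
    ext (i | i) (j | j)
    · by_cases h : i = j
      · subst h; simp [pin, hDdef]
      · simp [pin, hDdef, h]
    · simp only [pin, hDdef, Matrix.of_apply, fromBlocks_apply₁₂, Matrix.zero_apply, ite_self]
    · simp only [pin, hDdef, Matrix.of_apply, fromBlocks_apply₂₁, Matrix.zero_apply, ite_self]
    · by_cases h : i = j
      · subst h; simp [pin, hDdef]
      · simp [pin, hDdef, h]
  have hxk : ∀ k, x k k = ((x k k).re : ℂ) := fun k => (hx.isHermitian.coe_re_apply_self k).symm
  have hyk : ∀ k, y k k = ((y k k).re : ℂ) := fun k => (hy.isHermitian.coe_re_apply_self k).symm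
  have hxpos : ∀ k, 0 < (x k k).re := fun k => (Complex.pos_iff.mp hx.diag_pos).1
  have hypos : ∀ k, 0 < (y k k).re := fun k => (Complex.pos_iff.mp hy.diag_pos).1
  have d1 : (pin (Sum.elim id id : m ⊕ m → m) D + K).det
      = ((∏ k, ((x k k).re * (y k k).re + al k ^ 2) : ℝ) : ℂ) := by
    rw [hpin, hKdef, fromBlocks_add]
    simp only [add_zero, zero_add]
    rw [hA, diagonal_neg, det_fromBlocks_diagonal]
    · push_cast
      refine Finset.prod_congr rfl fun k _ => ?_
      rw [← hxk k, ← hyk k]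
      ring
    · intro k h
      have := hxpos k
      rw [h] at this
      simp at this
  have d2 : (pin (Sum.elim id id : m ⊕ m → m) D).det
      = ((∏ k, ((x k k).re * (y k k).re) : ℝ) : ℂ) := by
    rw [hpin, det_fromBlocks_zero₂₁, det_diagonal, det_diagonal, ← Finset.prod_mul_distrib]
    push_cast
    refine Finset.prod_congr rfl fun k _ => ?_
    rw [← hxk k, ← hyk k]
  have d3 : D.det = ((x.det.re * y.det.re : ℝ) : ℂ) := by
    rw [hDdef, det_fromBlocks_zero₂₁]
    have h1 := Complex.eq_coe_norm_of_nonneg hx.det_pos.le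
    have h2 := Complex.eq_coe_norm_of_nonneg hy.det_pos.le
    rw [← norm_eq_re_of_nonneg hx.det_pos.le, ← norm_eq_re_of_nonneg hy.det_pos.le]
    push_cast
    rw [← h1, ← h2]
  have d4 : D + K = fromBlocks x A (-A) y := by
    rw [hDdef, hKdef, fromBlocks_add]; simp
  have pa : 0 < ∏ k, ((x k k).re * (y k k).re + al k ^ 2) :=
    Finset.prod_pos fun k _ => by have := hxpos k; have := hypos k; positivity
  have pb : 0 < ∏ k, ((x k k).re * (y k k).re) :=
    Finset.prod_pos fun k _ => by have := hxpos k; have := hypos k; positivity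
  have pd : 0 < x.det.re * y.det.re :=
    mul_pos (Complex.pos_iff.mp hx.det_pos).1 (Complex.pos_iff.mp hy.det_pos).1
  have pc : 0 < ‖(D + K).det‖ := norm_pos_iff.mpr (det_add_ne_zero hD hK)
  unfold F at hle
  rw [d1, d2, d3, Complex.norm_real, Complex.norm_real, Complex.norm_real,
    Real.norm_of_nonneg pa.le, Real.norm_of_nonneg pb.le, Real.norm_of_nonneg pd.le] at hle
  rw [← d4]
  have h5 : Real.log ((∏ k, ((x k k).re * (y k k).re + al k ^ 2)) * (x.det.re * y.det.re)) ≤
      Real.log (‖(D + K).det‖ * ∏ k, ((x k k).re * (y k k).re)) := by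
    rw [Real.log_mul pa.ne' pd.ne', Real.log_mul pc.ne' pb.ne']
    linarith
  exact (Real.log_le_log_iff (mul_pos pa pd) (mul_pos pc pb)).mp h5

end blocks

end Crest.Agent.S0534Aux.Pinch
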