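import Mathlib
import Crest.Prelude.Def_QState
import Crest.Prelude.Def_QChannel
import Crest.Agent.S0534Aux.Gsc
import Crest.Agent.S0534Aux.Spec
import Crest.Agent.S0534Aux.EntBasic
import Crest.Agent.S0534Aux.H3Det
import Crest.Agent.S0534Aux.Pinch
import Crest.Agent.S0534Aux.GscSub

set_option autoImplicit false

open scoped ComplexOrder MatrixOrder
open Matrix Crest.Quantum

namespace Crest.Agent.S0534Aux.H3

open Crest.Agent.S0534Aux.H3Det Crest.Agent.S0534Aux.Spec

/-- scalar subadditivity of `Gsc` (interface) -/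
def GscStatement : Prop :=
  ∀ (κ : Type) [Fintype κ] (p1 p2 p3 : κ → ℝ) (P3 : ℝ), (∀ k, 0 ≤ p1 k) → (∀ k, 0 ≤ p2 k) →
    (∀ k, 0 ≤ p3 k) → ∑ k, p3 k ≤ P3 →
    Gsc (∑ k, p1 k) (∑ k, p2 k) P3 ≤ ∑ k, Gsc (p1 k) (p2 k) (p3 k)

variable {e f : Type} [Fintype e] [DecidableEq e] [Fintype f] [DecidableEq f]

lemma posSemidef_fromBlocks_left {Q : Matrix e e ℂ} (hQ : Q.PosSemidef) :
    (fromBlocks Q 0 0 (0 : Matrix f f ℂ)).PosSemidef := by
  have h := hQ.conjTranspose_mul_mul_same (fromCols (1 : Matrix e e ℂ) (0 : Matrix e f ℂ))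
  rw [conjTranspose_fromCols_eq_fromRows_conjTranspose, fromRows_mul, fromRows_mul_fromCols] at h
  simpa using h

lemma trace_fromBlocks' (A : Matrix e e ℂ) (Y : Matrix e f ℂ) (Z : Matrix f e ℂ)
    (B : Matrix f f ℂ) : (fromBlocks A Y Z B).trace = A.trace + B.trace := by
  simp [Matrix.trace, Fintype.sum_sum_type]

theorem H3_sum (hP : PinchStatement) {Q A : Matrix e e ℂ} {Y : Matrix e f ℂ} {B : Matrix f f ℂ}
    (hQ : Q.PosSemidef) (hN : (fromBlocks A Y Yᴴ B).PosSemidef) :
    ∃ q lam r : e → ℝ, (∀ k, 0 ≤ q k) ∧ (∀ k, 0 ≤ lam k) ∧ (∀ k, 0 ≤ r k) ∧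
      ∑ k, q k = Q.trace.re ∧ ∑ k, lam k = A.trace.re ∧ ∑ k, r k ≤ B.trace.re ∧
      vnEntropy Q + vnEntropy A + vnEntropy B + ∑ k, Gsc (q k) (lam k) (r k)
        ≤ vnEntropy (fromBlocks (Q + A) Y Yᴴ B) := by
  have hA : A.PosSemidef := by
    have := hN.submatrix (Sum.inl : e → e ⊕ f)
    have e1 : (fromBlocks A Y Yᴴ B).submatrix Sum.inl Sum.inl = A := by ext i j; rfl
    rwa [e1] at this
  have hB : B.PosSemidef := by
    have := hN.submatrix (Sum.inr : f → e ⊕ f)
    have e1 : (fromBlocks A Y Yᴴ B).submatrix Sum.inr Sum.inr = B := by ext i j; rfl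
    rwa [e1] at this
  have hω : (fromBlocks (Q + A) Y Yᴴ B).PosSemidef := by
    have := (posSemidef_fromBlocks_left (f := f) hQ).add hN
    rw [fromBlocks_add] at this
    simpa using this
  obtain ⟨q, r, hq, hr, hqs, hrs, hdet⟩ := S3 hP hQ hN hA.isHermitian
  set lam := hA.isHermitian.eigenvalues with hlam
  have hl : ∀ k, 0 ≤ lam k := hA.eigenvalues_nonneg
  have hls : ∑ k, lam k = A.trace.re := by
    rw [hA.isHermitian.trace_eq_sum_eigenvalues]; simp [hlam]
  refine ⟨q, lam, r, hq, hl, hr, hqs, hls, hrs, ?_⟩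
  have Hk : ∀ k ∈ (Finset.univ : Finset e), IsSpec (1 + 1 - 1 - 1)
      (lamP (q k) (lam k) (r k) + lamM (q k) (lam k) (r k) - q k - r k)
      (Real.negMulLog (lamP (q k) (lam k) (r k)) + Real.negMulLog (lamM (q k) (lam k) (r k))
        - Real.negMulLog (q k) - Real.negMulLog (r k))
      (fun u => Real.log (u + lamP (q k) (lam k) (r k)) + Real.log (u + lamM (q k) (lam k) (r k))
        - Real.log (u + q k) - Real.log (u + r k)) := fun k _ =>
    (((IsSpec.scalar (lamP_nonneg (hq k) (hl k) (hr k))).add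
      (IsSpec.scalar (lamM_nonneg (hq k) (hl k) (hr k)))).sub (IsSpec.scalar (hq k))).sub
      (IsSpec.scalar (hr k))
  have Hall := (((IsSpec.matrix hω).sub (IsSpec.matrix hQ)).sub (IsSpec.matrix hB)).sub
    (IsSpec.sum Finset.univ Hk)
  have Hall' := Hall.congr (c' := 0) (τ' := 0) (by simp) (by
      simp only [lamP_add_lamM]
      rw [trace_fromBlocks', Matrix.trace_add]
      simp only [Complex.add_re]
      have : ∑ k, (q k + lam k + r k - q k - r k) = ∑ k, lam k :=
        Finset.sum_congr rfl fun k _ => by ring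
      rw [this, hls]; ring) rfl (fun u _ => rfl)
  have hnn := Hall'.nonneg (by
    intro u hu
    have h1 := hdet u hu
    have pω := det_add_pos hω hu
    have pQ := det_add_pos hQ hu
    have pB := det_add_pos hB hu
    have hk1 : ∀ k, 0 < (u + q k) * (u + r k) := fun k =>
      mul_pos (by linarith [hq k]) (by linarith [hr k])
    have hk2 : ∀ k, 0 < (u + q k) * (u + r k) + u * lam k := fun k =>
      add_pos_of_pos_of_nonneg (hk1 k) (mul_nonneg hu.le (hl k))
    have h2 := Real.log_le_log (mul_pos (mul_pos pB pQ) (Finset.prod_pos fun k _ => hk2 k)) h1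
    rw [Real.log_mul (mul_pos pB pQ).ne' (Finset.prod_pos fun k _ => hk2 k).ne',
      Real.log_mul pB.ne' pQ.ne', Real.log_mul pω.ne' (Finset.prod_pos fun k _ => hk1 k).ne',
      Real.log_prod (fun k _ => (hk2 k).ne'), Real.log_prod (fun k _ => (hk1 k).ne')] at h2
    have h3 : ∀ k, Real.log (u + lamP (q k) (lam k) (r k)) + Real.log (u + lamM (q k) (lam k) (r k))
        - Real.log (u + q k) - Real.log (u + r k)
        = Real.log ((u + q k) * (u + r k) + u * lam k) - Real.log ((u + q k) * (u + r k)) := by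
      intro k
      have hp : 0 < u + lamP (q k) (lam k) (r k) := by
        linarith [lamP_nonneg (hq k) (hl k) (hr k)]
      have hm : 0 < u + lamM (q k) (lam k) (r k) := by
        linarith [lamM_nonneg (hq k) (hl k) (hr k)]
      rw [← Real.log_mul hp.ne' hm.ne', add_lamP_mul_add_lamM (hq k) (hl k) (hr k),
        Real.log_mul (by have := hq k; positivity) (by have := hr k; positivity)]
      have : u ^ 2 + u * (q k + lam k + r k) + q k * r k = (u + q k) * (u + r k) + u * lam k := by
        ring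
      rw [this]; ring
    simp only [h3, Finset.sum_sub_distrib]
    linarith)
  have hHA : vnEntropy A = ∑ k, Real.negMulLog (lam k) := vnEntropy_eq_sum hA.isHermitian
  have hG : ∑ k, Gsc (q k) (lam k) (r k) = ∑ k, (Real.negMulLog (lamP (q k) (lam k) (r k))
      + Real.negMulLog (lamM (q k) (lam k) (r k)) - Real.negMulLog (q k) - Real.negMulLog (r k))
      - ∑ k, Real.negMulLog (lam k) := by
    rw [← Finset.sum_sub_distrib]
    exact Finset.sum_congr rfl fun k _ => by unfold Gsc; ring
  rw [hG, hHA]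
  linarith


/-- **Three-edge theorem**, `fromBlocks` form. -/
theorem H3 (hP : PinchStatement) (hG : GscStatement) {Q A : Matrix e e ℂ} {Y : Matrix e f ℂ}
    {B : Matrix f f ℂ} (hQ : Q.PosSemidef) (hN : (fromBlocks A Y Yᴴ B).PosSemidef) :
    vnEntropy Q + vnEntropy A + vnEntropy B + Gsc Q.trace.re A.trace.re B.trace.re
      ≤ vnEntropy (fromBlocks (Q + A) Y Yᴴ B) := by
  obtain ⟨q, lam, r, hq, hl, hr, hqs, hls, hrs, h⟩ := H3_sum hP hQ hN
  have := hG e q lam r B.trace.re hq hl hr hrs
  rw [hqs, hls] at this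
  linarith

/-- `e ⊕ e ≃ Bool × e`, the left summand going to the level `b`. -/
def sumEquiv (e : Type) (b : Bool) : e ⊕ e ≃ Bool × e where
  toFun := Sum.elim (Prod.mk b) (Prod.mk (!b))
  invFun p := if p.1 = b then Sum.inl p.2 else Sum.inr p.2
  left_inv := by rintro (i | i) <;> cases b <;> simp
  right_inv := by rintro ⟨c, i⟩; cases b <;> cases c <;> simp

lemma submatrix_sumEquiv (b : Bool) (M : Matrix (Bool × e) (Bool × e) ℂ) :
    M.submatrix (sumEquiv e b) (sumEquiv e b)
      = fromBlocks (block M b b) (block M b (!b)) (block M (!b) b) (block M (!b) (!b)) := by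
  ext (i | i) (j | j) <;> rfl

/-- **Three-edge theorem**, `Bool × e` form: `ω = N + (Q in the (b,b) block)`. -/
theorem H3_block (hP : PinchStatement) (hG : GscStatement) (b : Bool) {Q : Matrix e e ℂ}
    {N ω : Matrix (Bool × e) (Bool × e) ℂ} (hQ : Q.PosSemidef) (hN : N.PosSemidef)
    (h1 : block ω b b = Q + block N b b) (h2 : block ω b (!b) = block N b (!b))
    (h3 : block ω (!b) b = block N (!b) b) (h4 : block ω (!b) (!b) = block N (!b) (!b)) :
    vnEntropy Q + vnEntropy (block N b b) + vnEntropy (block N (!b) (!b))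
        + Gsc Q.trace.re (block N b b).trace.re (block N (!b) (!b)).trace.re
      ≤ vnEntropy ω := by
  have hN' := hN.submatrix (sumEquiv e b)
  rw [submatrix_sumEquiv] at hN'
  have hY : block N (!b) b = (block N b (!b))ᴴ := by
    ext i j
    have := congrFun (congrFun hN.isHermitian.eq (!b, i)) (b, j)
    rw [conjTranspose_apply] at this
    simp only [block, Matrix.of_apply, conjTranspose_apply]
    exact this.symm
  rw [hY] at hN'
  have key := H3 hP hG hQ hN'
  rw [← EntBasic.vnEntropy_submatrix_equiv (sumEquiv e b) ω, submatrix_sumEquiv, h1, h2, h3, h4, hY]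
  exact key


theorem pinchStatement : PinchStatement := by
  intro κ _ _ x y al hx hy
  have := Pinch.pinch hx hy al
  rwa [← mul_assoc] at this

theorem gscStatement : GscStatement := by
  intro κ _ p1 p2 p3 P3 h1 h2 h3 hP3
  exact GscSub.Gsc_sum_ge Finset.univ p1 p2 p3 _ P3 (fun k _ => h1 k) (fun k _ => h2 k)
    (fun k _ => h3 k) le_rfl hP3

/-- **Three-edge theorem**, `fromBlocks` form (unconditional). -/
theorem three_edge_fromBlocks {Q A : Matrix e e ℂ} {Y : Matrix e f ℂ}
    {B : Matrix f f ℂ} (hQ : Q.PosSemidef) (hN : (fromBlocks A Y Yᴴ B).PosSemidef) :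
    vnEntropy Q + vnEntropy A + vnEntropy B + Gsc Q.trace.re A.trace.re B.trace.re
      ≤ vnEntropy (fromBlocks (Q + A) Y Yᴴ B) :=
  H3 pinchStatement gscStatement hQ hN

/-- **Three-edge theorem**, `Bool × e` form (unconditional): `ω = N + (Q in the (b,b) block)`. -/
theorem three_edge_block (b : Bool) {Q : Matrix e e ℂ}
    {N ω : Matrix (Bool × e) (Bool × e) ℂ} (hQ : Q.PosSemidef) (hN : N.PosSemidef)
    (h1 : block ω b b = Q + block N b b) (h2 : block ω b (!b) = block N b (!b))
    (h3 : block ω (!b) b = block N (!b) b) (h4 : block ω (!b) (!b) = block N (!b) (!b)) :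
    vnEntropy Q + vnEntropy (block N b b) + vnEntropy (block N (!b) (!b))
        + Gsc Q.trace.re (block N b b).trace.re (block N (!b) (!b)).trace.re
      ≤ vnEntropy ω :=
  H3_block pinchStatement gscStatement b hQ hN h1 h2 h3 h4

end Crest.Agent.S0534Aux.H3
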