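import Crest.Agent.S0534Aux.Basic

/-!
# Gibbs / Klein inequality in "basis form" and subadditivity of `vnEntropy`
-/

set_option autoImplicit false

namespace Crest.Agent.S0534Aux

open Matrix Crest.Quantum
open scoped ComplexOrder

variable {n m : Type*} [Fintype n] [DecidableEq n] [Fintype m] [DecidableEq m]

/-- scalar Gibbs inequality -/
lemma negMulLog_le_gibbs {x μ : ℝ} (hx : 0 ≤ x) (hμ : 0 < μ) :
    Real.negMulLog x ≤ -x * Real.log μ + μ - x := by
  rcases hx.eq_or_lt with rfl | hx
  · simp [hμ.le]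
  · have h1 : Real.log (μ / x) ≤ μ / x - 1 := Real.log_le_sub_one_of_pos (div_pos hμ hx)
    rw [Real.log_div hμ.ne' hx.ne'] at h1
    have h2 : x * (Real.log μ - Real.log x) ≤ x * (μ / x - 1) :=
      mul_le_mul_of_nonneg_left h1 hx.le
    have h3 : x * (μ / x - 1) = μ - x := by field_simp
    rw [h3] at h2
    unfold Real.negMulLog
    nlinarith

/-- Gibbs inequality through a doubly stochastic matrix. -/
lemma gibbs_doublyStochastic (P : n → n → ℝ) (hP : ∀ i j, 0 ≤ P i j)
    (hcol : ∀ j, ∑ i, P i j = 1) (hrow : ∀ i, ∑ j, P i j = 1)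
    (l μ : n → ℝ) (hl : ∀ j, 0 ≤ l j) (hμ : ∀ i, 0 ≤ μ i)
    (h0 : ∀ i, μ i = 0 → ∑ j, P i j * l j = 0) :
    ∑ j, Real.negMulLog (l j) ≤
      -∑ i, (∑ j, P i j * l j) * Real.log (μ i) + ∑ i, μ i - ∑ j, l j := by
  have key : ∀ i j, P i j * Real.negMulLog (l j) ≤
      -(P i j * l j) * Real.log (μ i) + P i j * μ i - P i j * l j := by
    intro i j
    rcases (hμ i).eq_or_lt with h | h
    · have hz := h0 i h.symm
      have hz' : P i j * l j = 0 :=
        (Finset.sum_eq_zero_iff_of_nonneg (fun j _ => mul_nonneg (hP i j) (hl j))).1 hz j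
          (Finset.mem_univ j)
      rw [hz', ← h]
      rcases mul_eq_zero.1 hz' with h' | h'
      · simp [h']
      · simp [h']
    · have := mul_le_mul_of_nonneg_left (negMulLog_le_gibbs (hl j) h) (hP i j)
      nlinarith
  calc ∑ j, Real.negMulLog (l j) = ∑ j, ∑ i, P i j * Real.negMulLog (l j) := by
        refine Finset.sum_congr rfl fun j _ => ?_
        rw [← Finset.sum_mul, hcol, one_mul]
    _ = ∑ i, ∑ j, P i j * Real.negMulLog (l j) := Finset.sum_comm
    _ ≤ ∑ i, ∑ j, (-(P i j * l j) * Real.log (μ i) + P i j * μ i - P i j * l j) :=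
        Finset.sum_le_sum fun i _ => Finset.sum_le_sum fun j _ => key i j
    _ = -∑ i, (∑ j, P i j * l j) * Real.log (μ i) + ∑ i, μ i - ∑ j, l j := by
        have e1 : ∑ i, ∑ j, P i j * μ i = ∑ i, μ i := by
          refine Finset.sum_congr rfl fun i _ => ?_
          rw [← Finset.sum_mul, hrow, one_mul]
        have e2 : ∑ i, ∑ j, P i j * l j = ∑ j, l j := by
          rw [Finset.sum_comm]
          refine Finset.sum_congr rfl fun j _ => ?_
          rw [← Finset.sum_mul, hcol, one_mul]
        simp only [Finset.sum_sub_distrib, Finset.sum_add_distrib, e1, e2]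
        congr 2
        rw [← Finset.sum_neg_distrib]
        refine Finset.sum_congr rfl fun i _ => ?_
        rw [Finset.sum_mul, ← Finset.sum_neg_distrib]
        refine Finset.sum_congr rfl fun j _ => ?_
        ring

/-- diagonal entries of `W * diagonal l * star W`. -/
lemma conj_diagonal_apply_self (W : Matrix n n ℂ) (l : n → ℝ) (i : n) :
    (W * diagonal (fun j => (l j : ℂ)) * star W) i i = ((∑ j, Complex.normSq (W i j) * l j : ℝ) : ℂ) := by
  rw [Matrix.mul_apply]
  push_cast
  refine Finset.sum_congr rfl fun j _ => ?_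
  rw [Matrix.mul_diagonal, Matrix.star_apply, Complex.normSq_eq_conj_mul_self]
  simp only [RCLike.star_def]
  ring

lemma sum_normSq_row {W : Matrix n n ℂ} (h : W * star W = 1) (i : n) :
    ∑ j, Complex.normSq (W i j) = 1 := by
  have := congrFun (congrFun h i) i
  rw [Matrix.mul_apply, Matrix.one_apply_eq] at this
  have h2 : ((∑ j, Complex.normSq (W i j) : ℝ) : ℂ) = 1 := by
    rw [← this]; push_cast
    refine Finset.sum_congr rfl fun j _ => ?_
    rw [Matrix.star_apply, Complex.normSq_eq_conj_mul_self]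
    simp only [RCLike.star_def]; ring
  exact_mod_cast h2

lemma sum_normSq_col {W : Matrix n n ℂ} (h : star W * W = 1) (j : n) :
    ∑ i, Complex.normSq (W i j) = 1 := by
  have := congrFun (congrFun h j) j
  rw [Matrix.mul_apply, Matrix.one_apply_eq] at this
  have h2 : ((∑ i, Complex.normSq (W i j) : ℝ) : ℂ) = 1 := by
    rw [← this]; push_cast
    refine Finset.sum_congr rfl fun i _ => ?_
    rw [Matrix.star_apply, Complex.normSq_eq_conj_mul_self]
    simp only [RCLike.star_def]
  exact_mod_cast h2

/-- spectral theorem in plain matrix form. -/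
lemma spectral_plain {A : Matrix n n ℂ} (hA : A.IsHermitian) :
    A = (hA.eigenvectorUnitary : Matrix n n ℂ) * diagonal (fun j => (hA.eigenvalues j : ℂ)) *
      star (hA.eigenvectorUnitary : Matrix n n ℂ) := by
  conv_lhs => rw [hA.spectral_theorem, Unitary.conjStarAlgAut_apply]
  rfl

/-- **Gibbs/Klein inequality, basis form.** -/
theorem vnEntropy_le_of_basis {ρ : Matrix n n ℂ} (hρ : ρ.PosSemidef) (U : Matrix n n ℂ)
    (hU : star U * U = 1) (μ : n → ℝ) (hμ : ∀ i, 0 ≤ μ i)
    (h0 : ∀ i, μ i = 0 → (star U * ρ * U) i i = 0) :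
    vnEntropy ρ ≤ -∑ i, ((star U * ρ * U) i i).re * Real.log (μ i) + ∑ i, μ i - ρ.trace.re := by
  have hH := hρ.isHermitian
  set V : Matrix n n ℂ := (hH.eigenvectorUnitary : Matrix n n ℂ) with hV
  have hVV : star V * V = 1 := Unitary.coe_star_mul_self _
  have hVV' : V * star V = 1 := Unitary.coe_mul_star_self _
  have hUU' : U * star U = 1 := mul_eq_one_comm.1 hU
  set W : Matrix n n ℂ := star U * V with hW
  have hWW : star W * W = 1 := by
    rw [hW, star_mul, star_star, mul_assoc, ← mul_assoc U, hUU', one_mul, hVV]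
  have hWW' : W * star W = 1 := mul_eq_one_comm.1 hWW
  have hconj : star U * ρ * U = W * diagonal (fun j => (hH.eigenvalues j : ℂ)) * star W := by
    conv_lhs => rw [spectral_plain hH]
    rw [hW, star_mul, star_star]
    simp only [mul_assoc, ← hV]
  have hdiag : ∀ i, (star U * ρ * U) i i =
      ((∑ j, Complex.normSq (W i j) * hH.eigenvalues j : ℝ) : ℂ) := by
    intro i; rw [hconj, conj_diagonal_apply_self]
  have htr : ρ.trace.re = ∑ j, hH.eigenvalues j := by
    rw [hH.trace_eq_sum_eigenvalues]; simp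
  rw [vnEntropy_eq_sum hH, htr]
  have := gibbs_doublyStochastic (fun i j => Complex.normSq (W i j))
    (fun i j => Complex.normSq_nonneg _) (sum_normSq_col hWW) (sum_normSq_row hWW')
    hH.eigenvalues μ (fun j => hρ.eigenvalues_nonneg j) hμ
    (fun i hi => by
      have := h0 i hi
      rw [hdiag] at this
      exact_mod_cast this)
  simpa only [hdiag, Complex.ofReal_re] using this

end Crest.Agent.S0534Aux
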