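import Crest.Prelude.Def_AmpDamp

/-!
# Task KR (rid 341): tilted Kraus decomposition of the generalized amplitude damping map

For `γ ν p ∈ [0,1]` with `v = γν(1-ν)+γ(1-γ)(p-ν)² > 0` we exhibit real `2×2` matrices `N1 N2 El`
and a real unit vector `r0` with
`gadMap γ ν R = N1 R N1ᵀ + N2 R N2ᵀ + tr(El R) r0 r0ᵀ` for all `R`.
-/

set_option autoImplicit false

namespace Crest.Agent.S0534Aux.Kraus

open Matrix Crest.Quantum Crest.MathPhysics.AmpDamp
open scoped ComplexOrder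

/-! ### abstract shapes -/

/-- first Kraus operator, without its prefactor. -/
def n1F (c p q x0 x1 : ℝ) : Bool → Bool → ℝ
  | false, false => -(x0 * (1 - q))
  | false, true => -(c * (1 - p) * x1)
  | true, false => q * x1
  | true, true => -(c * (1 - p) * x0)

/-- second Kraus operator, without its prefactor. -/
def n2F (c be x0 sp b0 : ℝ) : Bool → Bool → ℝ
  | false, false => c * sp
  | false, true => -(x0 * b0)
  | true, false => 0
  | true, true => (1 - be) * sp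

/-- the reset effect, without its prefactor. -/
def eF (al be c q x0 x1 : ℝ) : Bool → Bool → ℝ
  | false, false => al * (1 - q)
  | false, true => c * x0 * x1
  | true, false => c * x0 * x1
  | true, true => be * q

/-- the tilted vector, without its prefactor. -/
def rF (x0 x1 : ℝ) : Bool → ℝ
  | false => x1
  | true => x0

/-- transfer coefficients of the generalized amplitude damping map:
`gadC s t a b` = coefficient of `R a b` in the `(s,t)` entry of the output. -/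
def gadC (al be c : ℝ) : Bool → Bool → Bool → Bool → ℝ
  | false, false, false, false => 1 - al
  | false, false, true, true => be
  | true, true, false, false => al
  | true, true, true, true => 1 - be
  | false, true, false, true => c
  | true, false, true, false => c
  | _, _, _, _ => 0

/-- polynomial core of the decomposition (all 16 transfer coefficients). -/
theorem core (al be p c x0 sp b0 q v : ℝ)
    (hq : q = al * (1 - p) + (1 - be) * p)
    (hv : v = al * (1 - q) * (1 - p) + be * q * p)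
    (hc : c * c = 1 - (al + be)) (hx0 : x0 * x0 = al * (1 - p))
    (hsp : sp * sp = p) (hb0 : b0 * b0 = be) (s t a b : Bool) :
    al * (n1F c p q x0 (b0 * sp) s a * n1F c p q x0 (b0 * sp) t b)
      + v * (n2F c be x0 sp b0 s a * n2F c be x0 sp b0 t b)
      + q * (eF al be c q x0 (b0 * sp) b a * rF x0 (b0 * sp) s * rF x0 (b0 * sp) t)
      = q * v * gadC al be c s t a b := by
  subst hv hq
  cases s <;> cases t <;> cases a <;> cases b <;>
    simp only [n1F, n2F, eF, rF, gadC] <;> grind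

/-- putting the prefactors back. -/
theorem assemble (al q v N A B r P1 P2 P3 T : ℝ) (hq : q ≠ 0) (hv : v ≠ 0) (hN : N ≠ 0)
    (hA : A * A = al / (q * v)) (hB : B * B = 1 / q) (hr : r * r = 1 / N)
    (E : al * P1 + v * P2 + q * P3 = q * v * T) :
    (A * A) * P1 + (B * B) * P2 + (N / v) * (r * r) * P3 = T := by
  rw [hA, hB, hr]
  field_simp
  linarith

/-! ### scalars -/

noncomputable def al (γ ν : ℝ) : ℝ := γ * ν
noncomputable def be (γ ν : ℝ) : ℝ := γ * (1 - ν)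
noncomputable def cc (γ : ℝ) : ℝ := Real.sqrt (1 - γ)
/-- output excited population (first argument of `binEntropy` in `gadRate`). -/
noncomputable def qq (γ ν p : ℝ) : ℝ := (1 - γ) * p + γ * ν
/-- the determinant `v` of `gadRate`, verbatim. -/
noncomputable def vv (γ ν p : ℝ) : ℝ := γ * ν * (1 - ν) + γ * (1 - γ) * (p - ν) ^ 2
noncomputable def NN (γ ν p : ℝ) : ℝ := γ * ν * (1 - p) + γ * (1 - ν) * p
noncomputable def x0 (γ ν p : ℝ) : ℝ := Real.sqrt (γ * ν * (1 - p))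
noncomputable def x1 (γ ν p : ℝ) : ℝ := Real.sqrt (γ * (1 - ν)) * Real.sqrt p

theorem qq_eq (γ ν p : ℝ) : qq γ ν p = al γ ν * (1 - p) + (1 - be γ ν) * p := by
  unfold qq al be; ring

theorem vv_eq (γ ν p : ℝ) :
    vv γ ν p = al γ ν * (1 - qq γ ν p) * (1 - p) + be γ ν * qq γ ν p * p := by
  unfold vv qq al be; ring

theorem vv_eq' (γ ν p : ℝ) :
    vv γ ν p = qq γ ν p * (1 - qq γ ν p) - (1 - γ) * p * (1 - p) := by
  unfold vv qq; ring

theorem NN_eq (γ ν p : ℝ) : NN γ ν p = al γ ν * (1 - p) + be γ ν * p := rfl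

section bounds
variable {γ ν p : ℝ} (hγ : γ ∈ Set.Icc (0 : ℝ) 1) (hν : ν ∈ Set.Icc (0 : ℝ) 1)
  (hp : p ∈ Set.Icc (0 : ℝ) 1)
include hγ hν

theorem al_nonneg : 0 ≤ al γ ν := mul_nonneg hγ.1 hν.1
theorem be_nonneg : 0 ≤ be γ ν := mul_nonneg hγ.1 (by linarith [hν.2])
theorem al_le_one : al γ ν ≤ 1 := by
  unfold al; nlinarith [hγ.1, hγ.2, hν.1, hν.2]
theorem be_le_one : be γ ν ≤ 1 := by
  unfold be; nlinarith [hγ.1, hγ.2, hν.1, hν.2]

include hp

theorem qq_nonneg : 0 ≤ qq γ ν p := by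
  unfold qq
  have := mul_nonneg (sub_nonneg.2 hγ.2) hp.1
  have := mul_nonneg hγ.1 hν.1
  linarith

theorem qq_le_one : qq γ ν p ≤ 1 := by
  unfold qq
  nlinarith [hγ.1, hγ.2, hν.1, hν.2, hp.1, hp.2, mul_nonneg (sub_nonneg.2 hγ.2) (sub_nonneg.2 hp.2),
    mul_nonneg hγ.1 (sub_nonneg.2 hν.2)]

omit hp in
theorem vv_nonneg : 0 ≤ vv γ ν p := by
  unfold vv
  have h1 := mul_nonneg (mul_nonneg hγ.1 hν.1) (sub_nonneg.2 hν.2)
  have h2 := mul_nonneg (mul_nonneg hγ.1 (sub_nonneg.2 hγ.2)) (sq_nonneg (p - ν))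
  linarith

theorem vv_le_NN : vv γ ν p ≤ NN γ ν p := by
  have hq0 := qq_nonneg hγ hν hp
  have hq1 := qq_le_one hγ hν hp
  have ha := al_nonneg hγ hν
  have hb := be_nonneg hγ hν
  rw [vv_eq, NN_eq]
  have h1 : al γ ν * (1 - qq γ ν p) * (1 - p) ≤ al γ ν * (1 - p) := by
    have := mul_nonneg (mul_nonneg ha hq0) (sub_nonneg.2 hp.2)
    nlinarith
  have h2 : be γ ν * qq γ ν p * p ≤ be γ ν * p := by
    have := mul_nonneg (mul_nonneg hb (sub_nonneg.2 hq1)) hp.1
    nlinarith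
  linarith

theorem qq_pos (hv : 0 < vv γ ν p) : 0 < qq γ ν p := by
  rcases (qq_nonneg hγ hν hp).lt_or_eq with h | h
  · exact h
  · exfalso
    have ha := al_nonneg hγ hν
    have hb1 := be_le_one hγ hν
    have e1 := qq_eq γ ν p
    have e2 := vv_eq γ ν p
    rw [← h] at e1 e2
    have h1 := mul_nonneg ha (sub_nonneg.2 hp.2)
    have h2 := mul_nonneg (sub_nonneg.2 hb1) hp.1
    have h3 : al γ ν * (1 - p) = 0 := by linarith
    have : vv γ ν p = 0 := by rw [e2]; nlinarith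
    linarith

theorem NN_pos (hv : 0 < vv γ ν p) : 0 < NN γ ν p := lt_of_lt_of_le hv (vv_le_NN hγ hν hp)

theorem x0_mul_self : x0 γ ν p * x0 γ ν p = al γ ν * (1 - p) :=
  Real.mul_self_sqrt (mul_nonneg (mul_nonneg hγ.1 hν.1) (sub_nonneg.2 hp.2))

theorem x1_mul_self : x1 γ ν p * x1 γ ν p = be γ ν * p := by
  unfold x1 be
  have h1 := Real.mul_self_sqrt (mul_nonneg hγ.1 (sub_nonneg.2 hν.2))
  have h2 := Real.mul_self_sqrt hp.1
  calc _ = (Real.sqrt (γ * (1 - ν)) * Real.sqrt (γ * (1 - ν))) * (Real.sqrt p * Real.sqrt p) := by ring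
    _ = _ := by rw [h1, h2]

end bounds

theorem cc_mul_self {γ : ℝ} (hγ : γ ∈ Set.Icc (0 : ℝ) 1) : cc γ * cc γ = 1 - γ :=
  Real.mul_self_sqrt (sub_nonneg.2 hγ.2)

/-! ### the real operators -/

/-- real entries of the first Kraus operator. -/
noncomputable def N1r (γ ν p : ℝ) (s a : Bool) : ℝ :=
  Real.sqrt (al γ ν / (qq γ ν p * vv γ ν p)) * n1F (cc γ) p (qq γ ν p) (x0 γ ν p) (x1 γ ν p) s a

/-- real entries of the second Kraus operator. -/
noncomputable def N2r (γ ν p : ℝ) (s a : Bool) : ℝ :=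
  Real.sqrt (1 / qq γ ν p) *
    n2F (cc γ) (be γ ν) (x0 γ ν p) (Real.sqrt p) (Real.sqrt (γ * (1 - ν))) s a

/-- real entries of the reset effect `E_l`. -/
noncomputable def Elr (γ ν p : ℝ) (a b : Bool) : ℝ :=
  NN γ ν p / vv γ ν p * eF (al γ ν) (be γ ν) (cc γ) (qq γ ν p) (x0 γ ν p) (x1 γ ν p) a b

/-- real entries of the tilted unit vector `r0`. -/
noncomputable def r0r (γ ν p : ℝ) (s : Bool) : ℝ :=
  Real.sqrt (1 / NN γ ν p) * rF (x0 γ ν p) (x1 γ ν p) s

/-- **Real form of the decomposition**, coefficient by coefficient. -/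
theorem real_coeff {γ ν p : ℝ} (hγ : γ ∈ Set.Icc (0 : ℝ) 1) (hν : ν ∈ Set.Icc (0 : ℝ) 1)
    (hp : p ∈ Set.Icc (0 : ℝ) 1) (hv : 0 < vv γ ν p) (s t a b : Bool) :
    N1r γ ν p s a * N1r γ ν p t b + N2r γ ν p s a * N2r γ ν p t b
      + Elr γ ν p b a * r0r γ ν p s * r0r γ ν p t = gadC (al γ ν) (be γ ν) (cc γ) s t a b := by
  have hq := qq_pos hγ hν hp hv
  have hN := NN_pos hγ hν hp hv
  have ha := al_nonneg hγ hν
  have E := core (al γ ν) (be γ ν) p (cc γ) (x0 γ ν p) (Real.sqrt p) (Real.sqrt (γ * (1 - ν)))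
    (qq γ ν p) (vv γ ν p) (qq_eq γ ν p) (vv_eq γ ν p)
    (by rw [cc_mul_self hγ]; unfold al be; ring) (x0_mul_self hγ hν hp)
    (Real.mul_self_sqrt hp.1) (Real.mul_self_sqrt (mul_nonneg hγ.1 (sub_nonneg.2 hν.2))) s t a b
  have F := assemble (al γ ν) (qq γ ν p) (vv γ ν p) (NN γ ν p)
    (Real.sqrt (al γ ν / (qq γ ν p * vv γ ν p))) (Real.sqrt (1 / qq γ ν p))
    (Real.sqrt (1 / NN γ ν p)) _ _ _ _ hq.ne' hv.ne' hN.ne'
    (Real.mul_self_sqrt (div_nonneg ha (mul_pos hq hv).le))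
    (Real.mul_self_sqrt (div_nonneg zero_le_one hq.le))
    (Real.mul_self_sqrt (div_nonneg zero_le_one hN.le)) E
  rw [← F]
  unfold N1r N2r Elr r0r x1
  ring

/-! ### the complex operators -/

/-- first Kraus operator of the non-reset part. -/
noncomputable def N1 (γ ν p : ℝ) : Matrix Bool Bool ℂ := Matrix.of fun s a => ((N1r γ ν p s a : ℝ) : ℂ)
/-- second Kraus operator of the non-reset part. -/
noncomputable def N2 (γ ν p : ℝ) : Matrix Bool Bool ℂ := Matrix.of fun s a => ((N2r γ ν p s a : ℝ) : ℂ)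
/-- the reset effect. -/
noncomputable def El (γ ν p : ℝ) : Matrix Bool Bool ℂ := Matrix.of fun s a => ((Elr γ ν p s a : ℝ) : ℂ)
/-- the tilted unit vector. -/
noncomputable def r0 (γ ν p : ℝ) : Bool → ℂ := fun s => ((r0r γ ν p s : ℝ) : ℂ)

theorem qubitCoeff_gadMap (γ ν : ℝ) (s t a b : Bool) :
    qubitCoeff (gadMap γ ν) s t a b = ((gadC (al γ ν) (be γ ν) (cc γ) s t a b : ℝ) : ℂ) := by
  cases s <;> cases t <;> cases a <;> cases b <;>
    simp [qubitCoeff, gadMap, gadC, Matrix.single, al, be, cc] <;> ring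

/-- **KR, coefficient form.** -/
theorem qubitCoeff_eq {γ ν p : ℝ} (hγ : γ ∈ Set.Icc (0 : ℝ) 1) (hν : ν ∈ Set.Icc (0 : ℝ) 1)
    (hp : p ∈ Set.Icc (0 : ℝ) 1) (hv : 0 < vv γ ν p) (s t a b : Bool) :
    qubitCoeff (gadMap γ ν) s t a b =
      N1 γ ν p s a * N1 γ ν p t b + N2 γ ν p s a * N2 γ ν p t b
        + El γ ν p b a * r0 γ ν p s * r0 γ ν p t := by
  rw [qubitCoeff_gadMap, ← real_coeff hγ hν hp hv s t a b]
  simp [N1, N2, El, r0]

theorem gadMap_apply (γ ν : ℝ) (R : Matrix Bool Bool ℂ) (s t : Bool) :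
    gadMap γ ν R s t = ∑ a : Bool, ∑ b : Bool, qubitCoeff (gadMap γ ν) s t a b * R a b := by
  simp only [qubitCoeff_gadMap, Fintype.sum_bool]
  cases s <;> cases t <;> simp [gadMap, gadC, al, be, cc] <;> ring

theorem star_N1 (γ ν p : ℝ) (s a : Bool) : star (N1 γ ν p s a) = N1 γ ν p s a := by simp [N1]
theorem star_N2 (γ ν p : ℝ) (s a : Bool) : star (N2 γ ν p s a) = N2 γ ν p s a := by simp [N2]
theorem star_El (γ ν p : ℝ) (s a : Bool) : star (El γ ν p s a) = El γ ν p s a := by simp [El]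
theorem star_r0 (γ ν p : ℝ) (s : Bool) : star (r0 γ ν p s) = r0 γ ν p s := by simp [r0]

/-- **KR, matrix form**: `gadMap R = N1 R N1ᴴ + N2 R N2ᴴ + tr(El R) r0 r0ᴴ`. -/
theorem gadMap_eq {γ ν p : ℝ} (hγ : γ ∈ Set.Icc (0 : ℝ) 1) (hν : ν ∈ Set.Icc (0 : ℝ) 1)
    (hp : p ∈ Set.Icc (0 : ℝ) 1) (hv : 0 < vv γ ν p) (R : Matrix Bool Bool ℂ) :
    gadMap γ ν R = N1 γ ν p * R * (N1 γ ν p)ᴴ + N2 γ ν p * R * (N2 γ ν p)ᴴ
      + (El γ ν p * R).trace • Matrix.vecMulVec (r0 γ ν p) (star (r0 γ ν p)) := by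
  ext s t
  rw [gadMap_apply]
  simp only [qubitCoeff_eq hγ hν hp hv, Matrix.add_apply, Matrix.mul_apply, Matrix.smul_apply,
    Matrix.conjTranspose_apply, Matrix.trace, Matrix.diag_apply, Matrix.vecMulVec_apply,
    Pi.star_apply, star_N1, star_N2, star_r0, Fintype.sum_bool, smul_eq_mul]
  ring

section blocks
variable {e : Type*} [Fintype e] [DecidableEq e]

/-- `Tr_A[(E ⊗ 1) M]` : the (unnormalised) state steered by the effect `E` on the qubit. -/
def steer (E : Matrix Bool Bool ℂ) (M : Matrix (Bool × e) (Bool × e) ℂ) : Matrix e e ℂ :=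
  ∑ s : Bool, ∑ t : Bool, E t s • block M s t

theorem steer_apply (E : Matrix Bool Bool ℂ) (M : Matrix (Bool × e) (Bool × e) ℂ) (i j : e) :
    steer E M i j = ∑ s : Bool, ∑ t : Bool, E t s * M (s, i) (t, j) := by
  simp [steer, block, Matrix.add_apply]

theorem kron_conj_apply (K : Matrix Bool Bool ℂ) (M : Matrix (Bool × e) (Bool × e) ℂ)
    (s t : Bool) (i j : e) :
    ((Matrix.kroneckerMap (· * ·) K (1 : Matrix e e ℂ)) * M *
      (Matrix.kroneckerMap (· * ·) K (1 : Matrix e e ℂ))ᴴ) (s, i) (t, j)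
      = ∑ a : Bool, ∑ b : Bool, K s a * star (K t b) * M (a, i) (b, j) := by
  simp only [Matrix.mul_apply, Fintype.sum_prod_type, Matrix.kroneckerMap_apply,
    Matrix.conjTranspose_apply, Matrix.one_apply, Fintype.sum_bool]
  simp [Finset.sum_add_distrib, add_mul, apply_ite (starRingEnd ℂ)]
  ring

/-- **KR, block form**: `(gad ⊗ id) M = Σ_j (N_j ⊗ 1) M (N_j ⊗ 1)ᴴ + r0 r0ᴴ ⊗ Tr_A[(El ⊗ 1) M]`. -/
theorem qubitTensor_id_eq {γ ν p : ℝ} (hγ : γ ∈ Set.Icc (0 : ℝ) 1) (hν : ν ∈ Set.Icc (0 : ℝ) 1)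
    (hp : p ∈ Set.Icc (0 : ℝ) 1) (hv : 0 < vv γ ν p) (M : Matrix (Bool × e) (Bool × e) ℂ) :
    qubitTensor (gadMap γ ν) id M =
      (Matrix.kroneckerMap (· * ·) (N1 γ ν p) (1 : Matrix e e ℂ)) * M *
        (Matrix.kroneckerMap (· * ·) (N1 γ ν p) (1 : Matrix e e ℂ))ᴴ
      + (Matrix.kroneckerMap (· * ·) (N2 γ ν p) (1 : Matrix e e ℂ)) * M *
        (Matrix.kroneckerMap (· * ·) (N2 γ ν p) (1 : Matrix e e ℂ))ᴴ
      + Matrix.kroneckerMap (· * ·) (Matrix.vecMulVec (r0 γ ν p) (star (r0 γ ν p)))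
          (steer (El γ ν p) M) := by
  ext ⟨s, i⟩ ⟨t, j⟩
  rw [Matrix.add_apply, Matrix.add_apply, kron_conj_apply, kron_conj_apply]
  simp only [qubitTensor, Matrix.of_apply, id, block, qubitCoeff_eq hγ hν hp hv,
    Matrix.kroneckerMap_apply, Matrix.vecMulVec_apply, Pi.star_apply, star_N1, star_N2, star_r0,
    steer_apply, Fintype.sum_bool]
  ring

end blocks

end Crest.Agent.S0534Aux.Kraus
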