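import Crest.Agent.S0534Aux.Klein

/-!
# Partial traces and subadditivity of `vnEntropy`
-/

set_option autoImplicit false
set_option linter.unusedSectionVars false

namespace Crest.Agent.S0534Aux

open Matrix Crest.Quantum Kronecker
open scoped ComplexOrder

variable {a b : Type*} [Fintype a] [DecidableEq a] [Fintype b] [DecidableEq b]

/-- trace out the right factor -/
def ptraceR (M : Matrix (a × b) (a × b) ℂ) : Matrix a a ℂ :=
  Matrix.of fun i i' => ∑ k, M (i, k) (i', k)

/-- trace out the left factor -/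
def ptraceL (M : Matrix (a × b) (a × b) ℂ) : Matrix b b ℂ :=
  Matrix.of fun k k' => ∑ i, M (i, k) (i, k')

omit [DecidableEq a] [DecidableEq b] in
lemma ptraceR_eq_sum (M : Matrix (a × b) (a × b) ℂ) :
    ptraceR M = ∑ k, M.submatrix (fun i => (i, k)) (fun i => (i, k)) := by
  ext i i'; simp [ptraceR, Matrix.sum_apply]

omit [DecidableEq a] [DecidableEq b] in
lemma ptraceL_eq_sum (M : Matrix (a × b) (a × b) ℂ) :
    ptraceL M = ∑ i, M.submatrix (fun k => (i, k)) (fun k => (i, k)) := by
  ext k k'; simp [ptraceL, Matrix.sum_apply]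

omit [DecidableEq a] [DecidableEq b] in
lemma ptraceR_posSemidef {M : Matrix (a × b) (a × b) ℂ} (hM : M.PosSemidef) :
    (ptraceR M).PosSemidef := by
  rw [ptraceR_eq_sum]; exact posSemidef_sum _ fun k _ => hM.submatrix _

omit [DecidableEq a] [DecidableEq b] in
lemma ptraceL_posSemidef {M : Matrix (a × b) (a × b) ℂ} (hM : M.PosSemidef) :
    (ptraceL M).PosSemidef := by
  rw [ptraceL_eq_sum]; exact posSemidef_sum _ fun k _ => hM.submatrix _

omit [DecidableEq a] [DecidableEq b] in
lemma trace_ptraceR (M : Matrix (a × b) (a × b) ℂ) : (ptraceR M).trace = M.trace := by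
  simp [ptraceR, Matrix.trace, Fintype.sum_prod_type]

omit [DecidableEq a] [DecidableEq b] in
lemma trace_ptraceL (M : Matrix (a × b) (a × b) ℂ) : (ptraceL M).trace = M.trace := by
  simp only [ptraceL, Matrix.trace, Fintype.sum_prod_type, Matrix.diag_apply, Matrix.of_apply]
  exact Finset.sum_comm


lemma diag_kron_conj (M : Matrix (a × b) (a × b) ℂ) (UA : Matrix a a ℂ) (UB : Matrix b b ℂ)
    (j : a) (l : b) :
    (star (UA ⊗ₖ UB) * M * (UA ⊗ₖ UB)) (j, l) (j, l) =
      ∑ i', ∑ k', ∑ i, ∑ k, star (UA i j) * UA i' j * M (i, k) (i', k') *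
        (UB k' l * star (UB k l)) := by
  simp only [Matrix.mul_apply, Fintype.sum_prod_type, Matrix.star_apply, kroneckerMap_apply,
    Finset.sum_mul, star_mul']
  refine Finset.sum_congr rfl fun i' _ => Finset.sum_congr rfl fun k' _ =>
    Finset.sum_congr rfl fun i _ => Finset.sum_congr rfl fun k _ => ?_
  ring

lemma sum_diag_kron_conj_right (M : Matrix (a × b) (a × b) ℂ) (UA : Matrix a a ℂ)
    (UB : Matrix b b ℂ) (hB : UB * star UB = 1) (j : a) :
    ∑ l, (star (UA ⊗ₖ UB) * M * (UA ⊗ₖ UB)) (j, l) (j, l) = (star UA * ptraceR M * UA) j j := by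
  simp only [diag_kron_conj]
  rw [Finset.sum_comm]
  have hB' : ∀ k' k, ∑ l, UB k' l * star (UB k l) = if k' = k then 1 else 0 := by
    intro k' k
    have := congrFun (congrFun hB k') k
    rw [Matrix.mul_apply, Matrix.one_apply] at this
    simpa [Matrix.star_apply] using this
  simp only [Matrix.mul_apply, Matrix.star_apply, ptraceR, Matrix.of_apply, Finset.sum_mul,
    Finset.mul_sum]
  refine Finset.sum_congr rfl fun i' _ => ?_
  rw [Finset.sum_comm]
  -- goal: ∑ k', ∑ l, ∑ i, ∑ k, .. = ∑ i, ∑ k, ..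
  have : ∀ k', ∑ l, ∑ i, ∑ k, star (UA i j) * UA i' j * M (i, k) (i', k') *
        (UB k' l * star (UB k l)) = ∑ i, star (UA i j) * M (i, k') (i', k') * UA i' j := by
    intro k'
    rw [Finset.sum_comm]
    refine Finset.sum_congr rfl fun i _ => ?_
    rw [Finset.sum_comm]
    simp only [← Finset.mul_sum, hB']
    simp
    ring
  simp only [this]
  rw [Finset.sum_comm]

lemma sum_diag_kron_conj_left (M : Matrix (a × b) (a × b) ℂ) (UA : Matrix a a ℂ)
    (UB : Matrix b b ℂ) (hA : UA * star UA = 1) (l : b) :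
    ∑ j, (star (UA ⊗ₖ UB) * M * (UA ⊗ₖ UB)) (j, l) (j, l) = (star UB * ptraceL M * UB) l l := by
  simp only [diag_kron_conj]
  have hA' : ∀ i' i, ∑ j, star (UA i j) * UA i' j = if i' = i then 1 else 0 := by
    intro i' i
    have := congrFun (congrFun hA i') i
    rw [Matrix.mul_apply, Matrix.one_apply] at this
    rw [← this]
    refine Finset.sum_congr rfl fun j _ => ?_
    rw [Matrix.star_apply]; ring
  simp only [Matrix.mul_apply, Matrix.star_apply, ptraceL, Matrix.of_apply, Finset.sum_mul,
    Finset.mul_sum]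
  -- LHS: ∑ j, ∑ i', ∑ k', ∑ i, ∑ k ; RHS: ∑ k', ∑ k, ∑ i
  have : ∀ i' k', ∑ j, ∑ i, ∑ k, star (UA i j) * UA i' j * M (i, k) (i', k') *
        (UB k' l * star (UB k l)) = ∑ k, star (UB k l) * M (i', k) (i', k') * UB k' l := by
    intro i' k'
    rw [Finset.sum_comm]
    have : ∀ i, ∑ j, ∑ k, star (UA i j) * UA i' j * M (i, k) (i', k') *
        (UB k' l * star (UB k l)) = (if i' = i then 1 else 0) * ∑ k, M (i, k) (i', k') *
        (UB k' l * star (UB k l)) := by
      intro i
      rw [← hA', Finset.sum_mul]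
      refine Finset.sum_congr rfl fun j _ => ?_
      rw [Finset.mul_sum]
      refine Finset.sum_congr rfl fun k _ => ?_
      ring
    simp only [this]
    simp
    refine Finset.sum_congr rfl fun k _ => ?_
    ring
  rw [Finset.sum_comm]
  conv_lhs => enter [2, i']; rw [Finset.sum_comm]
  simp only [this]
  rw [Finset.sum_comm]
  refine Finset.sum_congr rfl fun k' _ => ?_
  rw [Finset.sum_comm]


lemma star_eigenvectorUnitary_conj {n : Type*} [Fintype n] [DecidableEq n] {A : Matrix n n ℂ}
    (hA : A.IsHermitian) :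
    star (hA.eigenvectorUnitary : Matrix n n ℂ) * A * (hA.eigenvectorUnitary : Matrix n n ℂ) =
      diagonal (fun j => (hA.eigenvalues j : ℂ)) := by
  have hVV : star (hA.eigenvectorUnitary : Matrix n n ℂ) * (hA.eigenvectorUnitary : Matrix n n ℂ) = 1 :=
    Unitary.coe_star_mul_self _
  have h := spectral_plain hA
  generalize (hA.eigenvectorUnitary : Matrix n n ℂ) = V at h hVV ⊢
  generalize diagonal (fun j => (hA.eigenvalues j : ℂ)) = D at h ⊢
  subst h
  simp only [mul_assoc, hVV, mul_one]
  rw [← mul_assoc, hVV, one_mul]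

/-- **Subadditivity of the von Neumann entropy.** -/
theorem vnEntropy_subadditive {M : Matrix (a × b) (a × b) ℂ} (hM : M.PosSemidef)
    (htr : M.trace = 1) :
    vnEntropy M ≤ vnEntropy (ptraceR M) + vnEntropy (ptraceL M) := by
  have hA := ptraceR_posSemidef hM
  have hB := ptraceL_posSemidef hM
  have hAH := hA.isHermitian
  have hBH := hB.isHermitian
  set UA : Matrix a a ℂ := (hAH.eigenvectorUnitary : Matrix a a ℂ) with hUA
  set UB : Matrix b b ℂ := (hBH.eigenvectorUnitary : Matrix b b ℂ) with hUB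
  set α := hAH.eigenvalues with hα
  set β := hBH.eigenvalues with hβ
  have hα0 : ∀ j, 0 ≤ α j := fun j => hA.eigenvalues_nonneg j
  have hβ0 : ∀ l, 0 ≤ β l := fun l => hB.eigenvalues_nonneg l
  have hUA1 : star UA * UA = 1 := Unitary.coe_star_mul_self _
  have hUA2 : UA * star UA = 1 := Unitary.coe_mul_star_self _
  have hUB1 : star UB * UB = 1 := Unitary.coe_star_mul_self _
  have hUB2 : UB * star UB = 1 := Unitary.coe_mul_star_self _
  set U : Matrix (a × b) (a × b) ℂ := UA ⊗ₖ UB with hU
  have hUU : star U * U = 1 := by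
    rw [hU, Matrix.star_eq_conjTranspose, Matrix.conjTranspose_kronecker,
      ← Matrix.mul_kronecker_mul, ← Matrix.star_eq_conjTranspose, ← Matrix.star_eq_conjTranspose,
      hUA1, hUB1, Matrix.one_kronecker_one]
  set N : Matrix (a × b) (a × b) ℂ := star U * M * U with hN
  have hNpsd : N.PosSemidef := by
    rw [hN, Matrix.star_eq_conjTranspose]; exact hM.conjTranspose_mul_mul_same U
  have hN0 : ∀ p, 0 ≤ N p p := fun p => hNpsd.diag_nonneg
  have hsumR : ∀ j, ∑ l, N (j, l) (j, l) = (α j : ℂ) := by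
    intro j
    rw [hN, hU, sum_diag_kron_conj_right M UA UB hUB2 j, hUA, star_eigenvectorUnitary_conj hAH]
    simp [hα]
  have hsumL : ∀ l, ∑ j, N (j, l) (j, l) = (β l : ℂ) := by
    intro l
    rw [hN, hU, sum_diag_kron_conj_left M UA UB hUA2 l, hUB, star_eigenvectorUnitary_conj hBH]
    simp [hβ]
  set r : a × b → ℝ := fun p => (N p p).re with hr
  have hr0 : ∀ p, 0 ≤ r p := fun p => (Complex.le_def.1 (hN0 p)).1
  have hrN : ∀ p, N p p = (r p : ℂ) := by
    intro p
    apply Complex.ext
    · simp [hr]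
    · simpa using ((Complex.le_def.1 (hN0 p)).2).symm
  have hsumR' : ∀ j, ∑ l, r (j, l) = α j := by
    intro j
    have := hsumR j
    simp only [hrN] at this
    exact_mod_cast this
  have hsumL' : ∀ l, ∑ j, r (j, l) = β l := by
    intro l
    have := hsumL l
    simp only [hrN] at this
    exact_mod_cast this
  have hrα : ∀ j l, α j = 0 → r (j, l) = 0 := by
    intro j l h
    have := hsumR' j
    rw [h] at this
    exact (Finset.sum_eq_zero_iff_of_nonneg (fun l _ => hr0 (j, l))).1 this l (Finset.mem_univ l)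
  have hrβ : ∀ j l, β l = 0 → r (j, l) = 0 := by
    intro j l h
    have := hsumL' l
    rw [h] at this
    exact (Finset.sum_eq_zero_iff_of_nonneg (fun j _ => hr0 (j, l))).1 this j (Finset.mem_univ j)
  have hαsum : ∑ j, α j = 1 := by
    have h1 : (ptraceR M).trace = 1 := by rw [trace_ptraceR, htr]
    rw [hAH.trace_eq_sum_eigenvalues] at h1
    have h2 : ((∑ j, α j : ℝ) : ℂ) = 1 := by rw [← h1]; simp [hα]
    exact_mod_cast h2
  have hβsum : ∑ l, β l = 1 := by
    have h1 : (ptraceL M).trace = 1 := by rw [trace_ptraceL, htr]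
    rw [hBH.trace_eq_sum_eigenvalues] at h1
    have h2 : ((∑ l, β l : ℝ) : ℂ) = 1 := by rw [← h1]; simp [hβ]
    exact_mod_cast h2
  have key := vnEntropy_le_of_basis hM U hUU (fun p => α p.1 * β p.2)
    (fun p => mul_nonneg (hα0 _) (hβ0 _))
    (fun p hp => by
      obtain ⟨j, l⟩ := p
      show N (j, l) (j, l) = 0
      rw [hrN]
      rcases mul_eq_zero.1 hp with h | h
      · simp [hrα j l h]
      · simp [hrβ j l h])
  have e1 : ∑ p : a × b, α p.1 * β p.2 = 1 := by
    rw [Fintype.sum_prod_type]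
    simp only [← Finset.mul_sum, hβsum, mul_one, hαsum]
  have e2 : ∑ p : a × b, r p * Real.log (α p.1 * β p.2) =
      ∑ j, α j * Real.log (α j) + ∑ l, β l * Real.log (β l) := by
    have : ∀ p : a × b, r p * Real.log (α p.1 * β p.2) =
        r p * Real.log (α p.1) + r p * Real.log (β p.2) := by
      rintro ⟨j, l⟩
      by_cases h1 : α j = 0
      · simp [hrα j l h1]
      by_cases h2 : β l = 0
      · simp [hrβ j l h2]
      rw [Real.log_mul h1 h2]; ring
    simp only [this, Finset.sum_add_distrib]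
    congr 1
    · rw [Fintype.sum_prod_type]
      refine Finset.sum_congr rfl fun j _ => ?_
      simp only []
      rw [← Finset.sum_mul, hsumR']
    · rw [Fintype.sum_prod_type_right]
      refine Finset.sum_congr rfl fun l _ => ?_
      simp only []
      rw [← Finset.sum_mul, hsumL']
  have e3 : M.trace.re = 1 := by rw [htr]; simp
  rw [e1, e3] at key
  have key' : vnEntropy M ≤ -∑ p : a × b, r p * Real.log (α p.1 * β p.2) := by
    have : ∑ p : a × b, ((star U * M * U) p p).re * Real.log (α p.1 * β p.2) =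
        ∑ p : a × b, r p * Real.log (α p.1 * β p.2) := rfl
    rw [this] at key
    linarith
  rw [e2] at key'
  have hSA : vnEntropy (ptraceR M) = -∑ j, α j * Real.log (α j) := by
    rw [vnEntropy, dif_pos hAH]
  have hSB : vnEntropy (ptraceL M) = -∑ l, β l * Real.log (β l) := by
    rw [vnEntropy, dif_pos hBH]
  rw [hSA, hSB]
  linarith

end Crest.Agent.S0534Aux
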