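import Mathlib
import Crest.Prelude.Def_QState
import Crest.Prelude.Def_QChannel
import Crest.Prelude.Def_AmpDamp
import Crest.Agent.S0534Aux.EntBasic
import Crest.Agent.S0534Aux.Channel
import Crest.Agent.S0534Aux.H3
import Crest.Agent.S0534Aux.H3fromE3
import Crest.Agent.S0534Aux.Top3

/-!
Side pieces of the tilt step: phase reduction, the degenerate case `v = 0`, and the scalar
identity between `Gsc` and `sFun`.
-/

set_option autoImplicit false
set_option linter.unusedSectionVars false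

open scoped ComplexOrder Kronecker
open Matrix Crest.Quantum Crest.MathPhysics.AmpDamp

namespace Crest.Agent.S0534Aux.Tilt78

variable {n : Type} [Fintype n] [DecidableEq n]

/-- the conclusion of `Top.Core` at one matrix. -/
def CoreAt (γ ν : ℝ) (M : Matrix (Bool × n) (Bool × n) ℂ) : Prop :=
  ∃ (k : ℕ) (E : Fin k → Matrix Bool Bool ℂ), (∀ j, (E j).PosSemidef) ∧ ∑ j, E j = 1 ∧
    Top.sFun γ ν (block M true true).trace.re
      + ∑ j, (vnEntropy (Top.steer (E j) M) - Real.negMulLog (Top.steer (E j) M).trace.re)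
      ≤ vnEntropy (qubitTensor (gadMap γ ν) id M)

theorem core_of_coreAt {γ ν : ℝ}
    (h : ∀ (n : Type) [Fintype n] [DecidableEq n] (M : Matrix (Bool × n) (Bool × n) ℂ),
      M.PosSemidef → M.trace = 1 → CoreAt γ ν M) : Top.Core γ ν := h

/-! ### phase rotation -/

/-- the phases `(1, ζ)`. -/
def zz (ζ : ℂ) (b : Bool) : ℂ := cond b ζ 1

/-- conjugation by `diag(1, ζ) ⊗ 1`. -/
def rot (ζ : ℂ) (M : Matrix (Bool × n) (Bool × n) ℂ) : Matrix (Bool × n) (Bool × n) ℂ :=
  Matrix.of fun p q => zz ζ p.1 * star (zz ζ q.1) * M p q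

def UU (ζ : ℂ) : Matrix (Bool × n) (Bool × n) ℂ := Matrix.diagonal fun p => zz ζ p.1

def D2 (ζ : ℂ) : Matrix Bool Bool ℂ := Matrix.diagonal (zz ζ)

lemma zz_mul_star {ζ : ℂ} (hζ : ζ * star ζ = 1) (b : Bool) : zz ζ b * star (zz ζ b) = 1 := by
  cases b
  · simp [zz]
  · exact hζ

lemma rot_eq (ζ : ℂ) (M : Matrix (Bool × n) (Bool × n) ℂ) :
    rot ζ M = UU ζ * M * star (UU ζ) := by
  ext p q
  simp only [rot, UU, Matrix.of_apply, star_eq_conjTranspose, Matrix.diagonal_conjTranspose,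
    Matrix.mul_diagonal, Matrix.diagonal_mul, Pi.star_apply]
  ring

lemma UU_mem {ζ : ℂ} (hζ : ζ * star ζ = 1) : (UU ζ : Matrix (Bool × n) (Bool × n) ℂ) ∈
    unitaryGroup (Bool × n) ℂ := by
  rw [mem_unitaryGroup_iff]
  simp only [UU, star_eq_conjTranspose, Matrix.diagonal_conjTranspose, Matrix.diagonal_mul_diagonal,
    Pi.star_apply, zz_mul_star hζ]
  exact Matrix.diagonal_one

lemma rot_posSemidef (ζ : ℂ) {M : Matrix (Bool × n) (Bool × n) ℂ} (hM : M.PosSemidef) :
    (rot ζ M).PosSemidef := by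
  rw [rot_eq]
  exact hM.mul_mul_conjTranspose_same _

lemma block_rot (ζ : ℂ) (M : Matrix (Bool × n) (Bool × n) ℂ) (s t : Bool) :
    block (rot ζ M) s t = (zz ζ s * star (zz ζ t)) • block M s t := by
  ext i j
  simp [block, rot]

lemma block_rot_diag {ζ : ℂ} (hζ : ζ * star ζ = 1) (M : Matrix (Bool × n) (Bool × n) ℂ) (s : Bool) :
    block (rot ζ M) s s = block M s s := by
  rw [block_rot, zz_mul_star hζ, one_smul]

lemma rot_trace {ζ : ℂ} (hζ : ζ * star ζ = 1) (M : Matrix (Bool × n) (Bool × n) ℂ) :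
    (rot ζ M).trace = M.trace := by
  rw [Top.trace_eq_block, Top.trace_eq_block M, block_rot_diag hζ, block_rot_diag hζ]

lemma gad_rot {ζ : ℂ} (hζ : ζ * star ζ = 1) (γ ν : ℝ) (M : Matrix (Bool × n) (Bool × n) ℂ) :
    qubitTensor (gadMap γ ν) id (rot ζ M) = rot ζ (qubitTensor (gadMap γ ν) id M) := by
  have h1 : star ζ * ζ = 1 := by rw [mul_comm]; exact hζ
  ext ⟨s, i⟩ ⟨t, j⟩
  cases s <;> cases t
  · simp only [rot, Matrix.of_apply, Channel.qubitTensor_gad_ff, id, block, zz, cond_false,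
      cond_true, star_one, mul_one, one_mul, hζ]
  · simp only [rot, Matrix.of_apply, Channel.qubitTensor_gad_ft, id, block, zz, cond_false,
      cond_true, one_mul]
    ring
  · simp only [rot, Matrix.of_apply, Channel.qubitTensor_gad_tf, id, block, zz, cond_false,
      cond_true, star_one, mul_one]
    ring
  · simp only [rot, Matrix.of_apply, Channel.qubitTensor_gad_tt, id, block, zz, cond_false,
      cond_true, star_one, mul_one, one_mul, hζ]

lemma steer_rot (ζ : ℂ) (E : Matrix Bool Bool ℂ) (M : Matrix (Bool × n) (Bool × n) ℂ) :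
    Top.steer E (rot ζ M) = Top.steer ((D2 ζ)ᴴ * E * D2 ζ) M := by
  simp only [Top.steer, block_rot, D2, Matrix.diagonal_conjTranspose, Matrix.mul_diagonal,
    Matrix.diagonal_mul, Pi.star_apply, smul_smul]
  refine Finset.sum_congr rfl fun s _ => Finset.sum_congr rfl fun t _ => ?_
  congr 1
  ring

lemma D2_mul {ζ : ℂ} (hζ : ζ * star ζ = 1) : (D2 ζ)ᴴ * D2 ζ = 1 := by
  simp only [D2, Matrix.diagonal_conjTranspose, Matrix.diagonal_mul_diagonal, Pi.star_apply]
  have : ∀ b, star (zz ζ b) * zz ζ b = 1 := fun b => by rw [mul_comm]; exact zz_mul_star hζ b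
  simp only [this]
  exact Matrix.diagonal_one

theorem coreAt_of_rot {γ ν : ℝ} {ζ : ℂ} (hζ : ζ * star ζ = 1)
    {M : Matrix (Bool × n) (Bool × n) ℂ} (h : CoreAt γ ν (rot ζ M)) : CoreAt γ ν M := by
  obtain ⟨k, E, hE, hs, hineq⟩ := h
  refine ⟨k, fun j => (D2 ζ)ᴴ * E j * D2 ζ, fun j => (hE j).conjTranspose_mul_mul_same _, ?_, ?_⟩
  · rw [← Finset.sum_mul, ← Finset.mul_sum, hs, Matrix.mul_one, D2_mul hζ]
  · rw [gad_rot hζ, rot_eq ζ (qubitTensor (gadMap γ ν) id M),
      EntBasic.vnEntropy_unitary_conj (UU_mem hζ), block_rot_diag hζ] at hineq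
    simpa only [steer_rot] using hineq

lemma exists_phase (y : ℂ) : ∃ ζ : ℂ, ζ * star ζ = 1 ∧ (star ζ * y).re = 0 := by
  by_cases hy : y = 0
  · exact ⟨1, by simp, by simp [hy]⟩
  · have hn : (‖y‖ : ℂ) ≠ 0 := by exact_mod_cast (norm_ne_zero_iff.mpr hy)
    have hyy : y * star y = (‖y‖ : ℂ) * (‖y‖ : ℂ) := by
      rw [Complex.star_def, Complex.mul_conj, Complex.normSq_eq_norm_sq]
      push_cast
      ring
    refine ⟨Complex.I * (y / ‖y‖), ?_, ?_⟩
    · have : star (Complex.I * (y / (‖y‖ : ℂ))) = -Complex.I * (star y / (‖y‖ : ℂ)) := by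
        simp
      rw [this]
      have h2 : Complex.I * (y / ↑‖y‖) * (-Complex.I * (star y / ↑‖y‖)) =
          -(Complex.I * Complex.I) * ((y * star y) / ((‖y‖ : ℂ) * (‖y‖ : ℂ))) := by
        field_simp
      rw [h2, hyy, Complex.I_mul_I, div_self (mul_ne_zero hn hn)]
      simp
    · have : star (Complex.I * (y / (‖y‖ : ℂ))) = -Complex.I * (star y / (‖y‖ : ℂ)) := by
        simp
      rw [this]
      have h2 : -Complex.I * (star y / ↑‖y‖) * y = -Complex.I * ((y * star y) / (‖y‖ : ℂ)) := by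
        field_simp
      rw [h2, hyy, mul_div_assoc, div_self hn, mul_one]
      simp

/-- (T1) phase reduction. -/
theorem core_of_phase {γ ν : ℝ}
    (h : ∀ (n : Type) [Fintype n] [DecidableEq n] (M : Matrix (Bool × n) (Bool × n) ℂ),
      M.PosSemidef → M.trace = 1 → ((block M false true).trace).re = 0 → CoreAt γ ν M) :
    Top.Core γ ν := by
  intro n _ _ M hM htr
  obtain ⟨ζ, hζ, hre⟩ := exists_phase (block M false true).trace
  refine coreAt_of_rot hζ (h n (rot ζ M) (rot_posSemidef ζ hM) ((rot_trace hζ M).trans htr) ?_)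
  rw [block_rot, Matrix.trace_smul]
  simpa [zz] using hre

/-! ### scalar identities for `Gsc` -/

lemma Gsc_zero_left {a b : ℝ} (hab : a + b = 1) :
    Gsc 0 a b = - Real.negMulLog a - Real.negMulLog b := by
  unfold Gsc lamP lamM
  have h : Real.sqrt ((0 + a + b) ^ 2 - 4 * 0 * b) = 1 := by
    rw [show (0 + a + b) ^ 2 - 4 * 0 * b = 1 by rw [zero_add, hab]; ring]
    exact Real.sqrt_one
  rw [h, zero_add, hab]
  norm_num

/-- (T4) if the three weights sum to `1`, `Gsc` is the binary entropy of determinant `p1 p3`. -/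
lemma Gsc_eq_binEntropy {p1 p2 p3 v : ℝ} (hsum : p1 + p2 + p3 = 1) (hv : p1 * p3 = v) :
    Gsc p1 p2 p3 = Real.binEntropy ((1 + Real.sqrt (1 - 4 * v)) / 2)
      - Real.negMulLog p1 - Real.negMulLog p2 - Real.negMulLog p3 := by
  unfold Gsc lamP lamM
  rw [hsum, show (1 : ℝ) ^ 2 - 4 * p1 * p3 = 1 - 4 * v by rw [← hv]; ring,
    Real.binEntropy_eq_negMulLog_add_negMulLog_one_sub]
  congr 5
  ring

lemma Gsc_eq_sFun {γ ν p p1 p2 p3 : ℝ} (hsum : p1 + p2 + p3 = 1)
    (hv : p1 * p3 = γ * ν * (1 - ν) + γ * (1 - γ) * (p - ν) ^ 2) :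
    Gsc p1 p2 p3 = Top.sFun γ ν p
      - Real.negMulLog p1 - Real.negMulLog p2 - Real.negMulLog p3 :=
  Gsc_eq_binEntropy hsum hv

/-! ### the degenerate case -/

/-- a projective measurement of the qubit does not increase the entropy on average. -/
lemma St_pinch {ω : Matrix (Bool × n) (Bool × n) ℂ} (hω : ω.PosSemidef) (htr : ω.trace = 1) :
    (vnEntropy (block ω false false) - Real.negMulLog (block ω false false).trace.re) +
      (vnEntropy (block ω true true) - Real.negMulLog (block ω true true).trace.re) ≤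
      vnEntropy ω := by
  have h := H3.three_edge_block false (Q := 0) (N := ω) (ω := ω) PosSemidef.zero hω (by simp)
    rfl rfl rfl
  have h2 := Top.trace_eq_block ω
  rw [htr] at h2
  have h3 : (block ω false false).trace.re + (block ω true true).trace.re = 1 := by
    have := congrArg Complex.re h2
    simpa using this.symm
  simp only [Bool.not_false, Matrix.trace_zero, Complex.zero_re, H3fromE3.vnEntropy_zero] at h
  rw [Gsc_zero_left h3] at h
  linarith

/-- the effect `Φ^*(|0⟩⟨0|)`. -/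
noncomputable def Ef (γ ν : ℝ) : Matrix Bool Bool ℂ :=
  Matrix.diagonal fun b => cond b ((γ * (1 - ν) : ℝ) : ℂ) ((1 - γ * ν : ℝ) : ℂ)

/-- the effect `Φ^*(|1⟩⟨1|)`. -/
noncomputable def Et (γ ν : ℝ) : Matrix Bool Bool ℂ :=
  Matrix.diagonal fun b => cond b ((1 - γ + γ * ν : ℝ) : ℂ) ((γ * ν : ℝ) : ℂ)

lemma steer_Ef (γ ν : ℝ) (M : Matrix (Bool × n) (Bool × n) ℂ) :
    Top.steer (Ef γ ν) M = block (qubitTensor (gadMap γ ν) id M) false false := by
  ext i j
  simp only [Top.steer, Ef, block, Matrix.of_apply, Channel.qubitTensor_gad_ff, Fintype.sum_bool,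
    Matrix.add_apply, Matrix.smul_apply, Matrix.diagonal_apply, id, smul_eq_mul]
  simp
  ring

lemma steer_Et (γ ν : ℝ) (M : Matrix (Bool × n) (Bool × n) ℂ) :
    Top.steer (Et γ ν) M = block (qubitTensor (gadMap γ ν) id M) true true := by
  ext i j
  simp only [Top.steer, Et, block, Matrix.of_apply, Channel.qubitTensor_gad_tt, Fintype.sum_bool,
    Matrix.add_apply, Matrix.smul_apply, Matrix.diagonal_apply, id, smul_eq_mul]
  simp
  ring

lemma Ef_posSemidef {γ ν : ℝ} (hγ : γ ∈ Set.Icc (0 : ℝ) 1) (hν : ν ∈ Set.Icc (0 : ℝ) 1) :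
    (Ef γ ν).PosSemidef := by
  apply Matrix.PosSemidef.diagonal
  intro b
  cases b
  · have : 0 ≤ 1 - γ * ν := by nlinarith [hγ.1, hγ.2, hν.1, hν.2]
    simpa using (by exact_mod_cast this : (0 : ℂ) ≤ ((1 - γ * ν : ℝ) : ℂ))
  · have : 0 ≤ γ * (1 - ν) := mul_nonneg hγ.1 (by linarith [hν.2])
    simpa using (by exact_mod_cast this : (0 : ℂ) ≤ ((γ * (1 - ν) : ℝ) : ℂ))

lemma Et_posSemidef {γ ν : ℝ} (hγ : γ ∈ Set.Icc (0 : ℝ) 1) (hν : ν ∈ Set.Icc (0 : ℝ) 1) :
    (Et γ ν).PosSemidef := by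
  apply Matrix.PosSemidef.diagonal
  intro b
  cases b
  · have : 0 ≤ γ * ν := mul_nonneg hγ.1 hν.1
    simpa using (by exact_mod_cast this : (0 : ℂ) ≤ ((γ * ν : ℝ) : ℂ))
  · have : 0 ≤ 1 - γ + γ * ν := by nlinarith [hγ.1, hγ.2, hν.1, hν.2]
    simpa using (by exact_mod_cast this : (0 : ℂ) ≤ ((1 - γ + γ * ν : ℝ) : ℂ))

lemma Ef_add_Et (γ ν : ℝ) : Ef γ ν + Et γ ν = 1 := by
  rw [Ef, Et, Matrix.diagonal_add, ← Matrix.diagonal_one]
  congr 1
  funext b
  cases b <;> simp <;> ring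

/-- (T3) whenever `sFun` vanishes at the excited population (in particular when `v = 0`). -/
theorem coreAt_of_sFun_eq_zero {γ ν : ℝ} (hγ : γ ∈ Set.Icc (0 : ℝ) 1) (hν : ν ∈ Set.Icc (0 : ℝ) 1)
    {M : Matrix (Bool × n) (Bool × n) ℂ} (hM : M.PosSemidef) (htr : M.trace = 1)
    (h0 : Top.sFun γ ν (block M true true).trace.re = 0) : CoreAt γ ν M := by
  refine ⟨2, ![Ef γ ν, Et γ ν], ?_, ?_, ?_⟩
  · intro j
    fin_cases j
    · exact Ef_posSemidef hγ hν
    · exact Et_posSemidef hγ hν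
  · simp [Fin.sum_univ_two, Ef_add_Et]
  · have h := St_pinch (Top.gad_psd hγ hν M hM) ((Top.gad_trace γ ν M).trans htr)
    rw [h0, zero_add, Fin.sum_univ_two]
    simpa [steer_Ef, steer_Et] using h

lemma sFun_eq_zero_of_v {γ ν p : ℝ} (hv : γ * ν * (1 - ν) + γ * (1 - γ) * (p - ν) ^ 2 = 0) :
    Top.sFun γ ν p = 0 := by
  unfold Top.sFun
  rw [hv]
  norm_num

/-- Everything reduced to the main case: `Re Tr M_ft = 0` and `0 < v`. -/
theorem core_of_main {γ ν : ℝ} (hγ : γ ∈ Set.Icc (0 : ℝ) 1) (hν : ν ∈ Set.Icc (0 : ℝ) 1)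
    (h : ∀ (n : Type) [Fintype n] [DecidableEq n] (M : Matrix (Bool × n) (Bool × n) ℂ),
      M.PosSemidef → M.trace = 1 → ((block M false true).trace).re = 0 →
      0 < γ * ν * (1 - ν) + γ * (1 - γ) * ((block M true true).trace.re - ν) ^ 2 → CoreAt γ ν M) :
    Top.Core γ ν := by
  refine core_of_phase fun n _ _ M hM htr hre => ?_
  have hv0 : 0 ≤ γ * ν * (1 - ν) + γ * (1 - γ) * ((block M true true).trace.re - ν) ^ 2 := by
    have h1 : 0 ≤ γ * ν * (1 - ν) := mul_nonneg (mul_nonneg hγ.1 hν.1) (by linarith [hν.2])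
    have h2 : 0 ≤ γ * (1 - γ) * ((block M true true).trace.re - ν) ^ 2 :=
      mul_nonneg (mul_nonneg hγ.1 (by linarith [hγ.2])) (sq_nonneg _)
    linarith
  rcases hv0.lt_or_eq with hv | hv
  · exact h n M hM htr hre hv
  · exact coreAt_of_sFun_eq_zero hγ hν hM htr (sFun_eq_zero_of_v hv.symm)

end Crest.Agent.S0534Aux.Tilt78
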