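import Crest.Agent.S0534Aux.Channel
import Crest.Agent.S0534Aux.EntBasic
import Crest.Agent.S0534Aux.SConvex
import Crest.Agent.S0534Aux.Gsc

set_option autoImplicit false
set_option linter.unusedSectionVars false

namespace Crest.Agent.S0534Aux.TiltB

/-! ### scalar identities behind the tilted decomposition -/

/-- the relations between the real parameters -/
structure Rel (α β p c x0 sb u1 q v Np k1 k2 kl : ℝ) : Prop where
  hc : c ^ 2 = 1 - α - β
  hx0 : x0 ^ 2 = α * (1 - p)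
  hsb : sb ^ 2 = β
  hu1 : u1 ^ 2 = p
  hq : q = α * (1 - p) + (1 - β) * p
  hv : v = q * (1 - q) - (1 - α - β) * p * (1 - p)
  hN : Np = α * (1 - p) + β * p
  hk1 : k1 * (q * v) = α
  hk2 : k2 * q = 1
  hkl : kl * v = Np ^ 2
  hq0 : q ≠ 0
  hv0 : v ≠ 0

section scalar
variable {α β p c x0 sb u1 q v Np k1 k2 kl : ℝ}

theorem Rel.cancel (h : Rel α β p c x0 sb u1 q v Np k1 k2 kl) {a b d R : ℝ}
    (hh : α * a + v * b + q * Np ^ 2 * d = q * v * R) : k1 * a + k2 * b + kl * d = R := by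
  apply mul_left_cancel₀ (mul_ne_zero h.hq0 h.hv0)
  rw [← hh]
  linear_combination a * h.hk1 + (v * b) * h.hk2 + (q * d) * h.hkl

-- output (f,f)
theorem Rel.ff_ff (h : Rel α β p c x0 sb u1 q v Np k1 k2 kl) :
    k1 * ((x0 * (sb * u1) * (2 * q - 1)) * (x0 * (sb * u1) * (2 * q - 1))) +
      k2 * ((c * sb * p) * (c * sb * p)) + kl * (α * (1 - q)) =
      (sb * u1) ^ 2 * (1 - α) + x0 ^ 2 * α := by
  apply h.cancel
  obtain ⟨hc, hx0, hsb, hu1, hq, hv, hN, -, -, -, -, -⟩ := h
  grind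

theorem Rel.ff_tt (h : Rel α β p c x0 sb u1 q v Np k1 k2 kl) :
    k1 * ((-(c * (1 - p) * Np)) * (-(c * (1 - p) * Np))) +
      k2 * ((x0 * u1 * (1 - 2 * β)) * (x0 * u1 * (1 - 2 * β))) + kl * (β * q) =
      (sb * u1) ^ 2 * β + x0 ^ 2 * (1 - β) := by
  apply h.cancel
  obtain ⟨hc, hx0, hsb, hu1, hq, hv, hN, -, -, -, -, -⟩ := h
  grind

theorem Rel.ff_ft (h : Rel α β p c x0 sb u1 q v Np k1 k2 kl) :
    k1 * ((x0 * (sb * u1) * (2 * q - 1)) * (-(c * (1 - p) * Np))) +
      k2 * ((c * sb * p) * (x0 * u1 * (1 - 2 * β))) + kl * (c * x0 * (sb * u1)) =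
      c * x0 * (sb * u1) := by
  apply h.cancel
  obtain ⟨hc, hx0, hsb, hu1, hq, hv, hN, -, -, -, -, -⟩ := h
  grind

-- output (t,t)
theorem Rel.tt_ff (h : Rel α β p c x0 sb u1 q v Np k1 k2 kl) :
    k1 * (v * v) + k2 * ((-(c * u1 * x0)) * (-(c * u1 * x0))) + kl * 0 =
      x0 ^ 2 * (1 - α) + (sb * u1) ^ 2 * α := by
  apply h.cancel
  obtain ⟨hc, hx0, hsb, hu1, hq, hv, hN, -, -, -, -, -⟩ := h
  grind

theorem Rel.tt_tt (h : Rel α β p c x0 sb u1 q v Np k1 k2 kl) :
    k1 * (0 * 0) + k2 * ((sb * q) * (sb * q)) + kl * 0 =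
      x0 ^ 2 * β + (sb * u1) ^ 2 * (1 - β) := by
  apply h.cancel
  obtain ⟨hc, hx0, hsb, hu1, hq, hv, hN, -, -, -, -, -⟩ := h
  grind

theorem Rel.tt_ft (h : Rel α β p c x0 sb u1 q v Np k1 k2 kl) :
    k1 * (v * 0) + k2 * ((-(c * u1 * x0)) * (sb * q)) + kl * 0 = -(c * x0 * (sb * u1)) := by
  apply h.cancel
  obtain ⟨hc, hx0, hsb, hu1, hq, hv, hN, -, -, -, -, -⟩ := h
  grind

-- output (f,t): first index row f (inputs s'), second row t (inputs t')
theorem Rel.ft_ff (h : Rel α β p c x0 sb u1 q v Np k1 k2 kl) :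
    k1 * ((x0 * (sb * u1) * (2 * q - 1)) * v) + k2 * ((c * sb * p) * (-(c * u1 * x0))) + kl * 0 =
      -(x0 * (sb * u1) * (1 - 2 * α)) := by
  apply h.cancel
  obtain ⟨hc, hx0, hsb, hu1, hq, hv, hN, -, -, -, -, -⟩ := h
  grind

theorem Rel.ft_tt (h : Rel α β p c x0 sb u1 q v Np k1 k2 kl) :
    k1 * ((-(c * (1 - p) * Np)) * 0) + k2 * ((x0 * u1 * (1 - 2 * β)) * (sb * q)) + kl * 0 =
      x0 * (sb * u1) * (1 - 2 * β) := by
  apply h.cancel
  obtain ⟨hc, hx0, hsb, hu1, hq, hv, hN, -, -, -, -, -⟩ := h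
  grind

theorem Rel.ft_ft (h : Rel α β p c x0 sb u1 q v Np k1 k2 kl) :
    k1 * ((x0 * (sb * u1) * (2 * q - 1)) * 0) + k2 * ((c * sb * p) * (sb * q)) + kl * 0 =
      c * (sb * u1) ^ 2 := by
  apply h.cancel
  obtain ⟨hc, hx0, hsb, hu1, hq, hv, hN, -, -, -, -, -⟩ := h
  grind

theorem Rel.ft_tf (h : Rel α β p c x0 sb u1 q v Np k1 k2 kl) :
    k1 * ((-(c * (1 - p) * Np)) * v) + k2 * ((x0 * u1 * (1 - 2 * β)) * (-(c * u1 * x0))) + kl * 0 =
      -(c * x0 ^ 2) := by
  apply h.cancel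
  obtain ⟨hc, hx0, hsb, hu1, hq, hv, hN, -, -, -, -, -⟩ := h
  grind

theorem Rel.aux1 (h : Rel α β p c x0 sb u1 q v Np k1 k2 kl) :
    x0 ^ 2 * (1 - α) + (sb * u1) ^ 2 * α = α * (1 - q) := by
  obtain ⟨hc, hx0, hsb, hu1, hq, hv, hN, -, -, -, -, -⟩ := h
  grind

theorem Rel.aux2 (h : Rel α β p c x0 sb u1 q v Np k1 k2 kl) :
    x0 ^ 2 * β + (sb * u1) ^ 2 * (1 - β) = β * q := by
  obtain ⟨hc, hx0, hsb, hu1, hq, hv, hN, -, -, -, -, -⟩ := h
  grind

theorem Rel.aux3 (h : Rel α β p c x0 sb u1 q v Np k1 k2 kl) :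
    x0 ^ 2 + (sb * u1) ^ 2 = Np := by
  obtain ⟨hc, hx0, hsb, hu1, hq, hv, hN, -, -, -, -, -⟩ := h
  grind

theorem Rel.aux4 (h : Rel α β p c x0 sb u1 q v Np k1 k2 kl) :
    α * (1 - q) * (1 - p) + β * q * p = v := by
  obtain ⟨hc, hx0, hsb, hu1, hq, hv, hN, -, -, -, -, -⟩ := h
  grind

end scalar


open Crest.Quantum Crest.MathPhysics.AmpDamp Channel
open scoped ComplexOrder Matrix Kronecker

variable {e : Type} [Fintype e] [DecidableEq e]

/-- `(gadMap γ ν) ⊗ id` -/
noncomputable abbrev gadB (γ ν : ℝ) (M : Matrix (Bool × e) (Bool × e) ℂ) :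
    Matrix (Bool × e) (Bool × e) ℂ :=
  qubitTensor (gadMap γ ν) (fun X : Matrix e e ℂ => X) M

section decomp
variable {γ ν p x0 sb u1 q v Np k1 k2 kl : ℝ}

theorem rot_decomp (h : Rel (γ * ν) (γ * (1 - ν)) p (Real.sqrt (1 - γ)) x0 sb u1 q v Np k1 k2 kl)
    (M : Matrix (Bool × e) (Bool × e) ℂ) :
    kconj (bmat ((sb * u1 : ℝ) : ℂ) (x0 : ℝ) ((-x0 : ℝ) : ℂ) ((sb * u1 : ℝ) : ℂ)) (gadB γ ν M) =
      (k1 : ℂ) • kconj (bmat ((x0 * (sb * u1) * (2 * q - 1) : ℝ) : ℂ)
          ((-(Real.sqrt (1 - γ) * (1 - p) * Np) : ℝ) : ℂ) (v : ℝ) 0) M +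
      (k2 : ℂ) • kconj (bmat ((Real.sqrt (1 - γ) * sb * p : ℝ) : ℂ)
          ((x0 * u1 * (1 - 2 * (γ * (1 - ν))) : ℝ) : ℂ)
          ((-(Real.sqrt (1 - γ) * u1 * x0) : ℝ) : ℂ) ((sb * q : ℝ) : ℂ)) M +
      (Matrix.single false false (1 : ℂ)) ⊗ₖ ((kl : ℂ) •
        (((γ * ν * (1 - q) : ℝ) : ℂ) • block M false false +
          ((γ * (1 - ν) * q : ℝ) : ℂ) • block M true true +
          ((Real.sqrt (1 - γ) * x0 * (sb * u1) : ℝ) : ℂ) •
            (block M false true + block M true false))) := by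
  ext ⟨s, i⟩ ⟨t, j⟩
  simp only [Matrix.add_apply, Matrix.smul_apply, smul_eq_mul, kconj, kron_conj_apply,
    Fintype.sum_bool, Matrix.kroneckerMap_apply, gadB, qubitTensor_gad_ff, qubitTensor_gad_ft,
    qubitTensor_gad_tf, qubitTensor_gad_tt]
  have c1 := congrArg (fun x : ℝ => (x : ℂ)) h.ff_ff
  have c2 := congrArg (fun x : ℝ => (x : ℂ)) h.ff_tt
  have c3 := congrArg (fun x : ℝ => (x : ℂ)) h.ff_ft
  have c4 := congrArg (fun x : ℝ => (x : ℂ)) h.tt_ff
  have c5 := congrArg (fun x : ℝ => (x : ℂ)) h.tt_tt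
  have c6 := congrArg (fun x : ℝ => (x : ℂ)) h.tt_ft
  have c7 := congrArg (fun x : ℝ => (x : ℂ)) h.ft_ff
  have c8 := congrArg (fun x : ℝ => (x : ℂ)) h.ft_tt
  have c9 := congrArg (fun x : ℝ => (x : ℂ)) h.ft_ft
  have c10 := congrArg (fun x : ℝ => (x : ℂ)) h.ft_tf
  push_cast at c1 c2 c3 c4 c5 c6 c7 c8 c9 c10
  cases s <;> cases t
  · simp [bmat, block]
    linear_combination (-(M (false, i) (false, j))) * c1 + (-(M (true, i) (true, j))) * c2 +
      (-(M (false, i) (true, j)) - M (true, i) (false, j)) * c3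
  · simp [bmat, block]
    linear_combination (-(M (false, i) (false, j))) * c7 + (-(M (true, i) (true, j))) * c8 +
      (-(M (false, i) (true, j))) * c9 + (- M (true, i) (false, j)) * c10
  · simp [bmat, block]
    linear_combination (-(M (false, i) (false, j))) * c7 + (-(M (true, i) (true, j))) * c8 +
      (-(M (true, i) (false, j))) * c9 + (- M (false, i) (true, j)) * c10
  · simp [bmat, block]
    linear_combination (-(M (false, i) (false, j))) * c4 + (-(M (true, i) (true, j))) * c5 +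
      (-(M (false, i) (true, j)) - M (true, i) (false, j)) * c6

end decomp


/-! ### steering, `St`, and the block form of the 3-edge theorem -/

/-- `Tr_A[(E ⊗ 1) M]` -/
noncomputable def steer (E : Matrix Bool Bool ℂ) (M : Matrix (Bool × e) (Bool × e) ℂ) :
    Matrix e e ℂ :=
  ∑ s : Bool, ∑ t : Bool, E t s • block M s t

noncomputable def St (T : Matrix e e ℂ) : ℝ := vnEntropy T - Real.negMulLog T.trace.re

/-- block form of the 3-edge theorem on `Bool × e` -/
def H3Bool (e : Type) [Fintype e] [DecidableEq e] : Prop :=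
  ∀ (N : Matrix (Bool × e) (Bool × e) ℂ) (Q : Matrix e e ℂ), N.PosSemidef → Q.PosSemidef →
    vnEntropy Q + vnEntropy (block N false false) + vnEntropy (block N true true)
      + Gsc Q.trace.re (block N false false).trace.re (block N true true).trace.re
      ≤ vnEntropy (N + (Matrix.single false false (1 : ℂ)) ⊗ₖ Q)

theorem kron_one_unitary {k : Matrix Bool Bool ℂ} (hk : k * kᴴ = 1) :
    (k ⊗ₖ (1 : Matrix e e ℂ)) ∈ Matrix.unitaryGroup (Bool × e) ℂ := by
  rw [Matrix.mem_unitaryGroup_iff, Matrix.star_eq_conjTranspose, Matrix.conjTranspose_kronecker,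
    ← Matrix.mul_kronecker_mul, hk, Matrix.conjTranspose_one, Matrix.mul_one,
    Matrix.one_kronecker_one]

theorem vnEntropy_kconj {k : Matrix Bool Bool ℂ} (hk : k * kᴴ = 1)
    (W : Matrix (Bool × e) (Bool × e) ℂ) : vnEntropy (kconj k W) = vnEntropy W := by
  have := EntBasic.vnEntropy_unitary_conj (kron_one_unitary (e := e) hk) W
  rwa [Matrix.star_eq_conjTranspose] at this

theorem trace_kconj {k : Matrix Bool Bool ℂ} (hk : k * kᴴ = 1)
    (W : Matrix (Bool × e) (Bool × e) ℂ) : (kconj k W).trace = W.trace := by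
  have hu := kron_one_unitary (e := e) hk
  rw [Matrix.mem_unitaryGroup_iff', Matrix.star_eq_conjTranspose] at hu
  unfold kconj
  rw [Matrix.trace_mul_cycle, hu, Matrix.one_mul]

theorem trace_single_kron (Q : Matrix e e ℂ) :
    ((Matrix.single false false (1 : ℂ)) ⊗ₖ Q).trace = Q.trace := by
  rw [Matrix.trace_kronecker]
  simp [Matrix.trace, Matrix.single]

theorem final_step (H3 : H3Bool e) {γ ν p : ℝ} {M : Matrix (Bool × e) (Bool × e) ℂ}
    (htr : M.trace = 1) {Ut : Matrix Bool Bool ℂ} (hU : Ut * Utᴴ = 1)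
    {N : Matrix (Bool × e) (Bool × e) ℂ} (hN : N.PosSemidef) {Q : Matrix e e ℂ}
    (hQ : Q.PosSemidef)
    (hdec : kconj Ut (gadB γ ν M) = N + (Matrix.single false false (1 : ℂ)) ⊗ₖ Q)
    (hprod : Q.trace.re * (block N true true).trace.re = SConvex.vFun γ ν p) :
    SConvex.sFun γ ν p + (St Q + St (block N false false) + St (block N true true)) ≤
      vnEntropy (gadB γ ν M) := by
  have e1 : vnEntropy (gadB γ ν M) = vnEntropy (N + (Matrix.single false false (1 : ℂ)) ⊗ₖ Q) := by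
    rw [← hdec, vnEntropy_kconj hU]
  have h3 := H3 N Q hN hQ
  have ht : Q.trace.re + (block N false false).trace.re + (block N true true).trace.re = 1 := by
    have h1 := congrArg Matrix.trace hdec
    rw [trace_kconj hU, Matrix.trace_add, trace_single_kron, trace_eq_sum_block N] at h1
    have h2 : (gadB γ ν M).trace = 1 := by
      rw [← htr]
      exact qubitTensor_gad_trace γ ν (fun _ => rfl) M
    rw [h2] at h1
    have := congrArg Complex.re h1
    simp only [Complex.one_re, Complex.add_re] at this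
    linarith
  have hs : SConvex.sFun γ ν p =
      Real.negMulLog (lamP Q.trace.re (block N false false).trace.re (block N true true).trace.re) +
      Real.negMulLog (lamM Q.trace.re (block N false false).trace.re (block N true true).trace.re) := by
    unfold SConvex.sFun lamP lamM
    rw [Real.binEntropy_eq_negMulLog_add_negMulLog_one_sub, ht]
    have hv : γ * ν * (1 - ν) + γ * (1 - γ) * (p - ν) ^ 2 =
        Q.trace.re * (block N true true).trace.re := by rw [hprod]; rfl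
    rw [hv]
    congr 2
    · congr 2; ring_nf
    · have : (1 : ℝ) ^ 2 - 4 * Q.trace.re * (block N true true).trace.re =
          1 - 4 * (Q.trace.re * (block N true true).trace.re) := by ring
      rw [this]; ring
  rw [e1, hs]
  unfold St
  unfold Gsc at h3
  linarith


/-! ### rank-one POVM pieces -/

noncomputable def rO (b : Bool → ℂ) : Matrix Bool Bool ℂ := Matrix.vecMulVec (star b) b

theorem rO_posSemidef (b : Bool → ℂ) : (rO b).PosSemidef :=
  Matrix.posSemidef_vecMulVec_star_self b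

theorem steer_add (E E' : Matrix Bool Bool ℂ) (M : Matrix (Bool × e) (Bool × e) ℂ) :
    steer (E + E') M = steer E M + steer E' M := by
  simp only [steer, Fintype.sum_bool, Matrix.add_apply, add_smul]
  abel

theorem steer_smul (r : ℂ) (E : Matrix Bool Bool ℂ) (M : Matrix (Bool × e) (Bool × e) ℂ) :
    steer (r • E) M = r • steer E M := by
  simp only [steer, Fintype.sum_bool, Matrix.smul_apply, smul_eq_mul, mul_smul, smul_add]

theorem steer_bmat (a b c d : ℂ) (M : Matrix (Bool × e) (Bool × e) ℂ) :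
    steer (bmat a b c d) M = a • block M false false + d • block M true true +
      c • block M false true + b • block M true false := by
  simp only [steer, Fintype.sum_bool, bmat, Matrix.of_apply, cond_true, cond_false]
  abel

theorem block_kconj_diag (B : Matrix Bool Bool ℂ) (M : Matrix (Bool × e) (Bool × e) ℂ) (s : Bool) :
    block (kconj B M) s s = steer (rO (B s)) M := by
  ext i j
  simp only [block, Matrix.of_apply, kconj, kron_conj_apply, steer, rO, Matrix.vecMulVec_apply,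
    Fintype.sum_bool, Matrix.add_apply, Matrix.smul_apply, smul_eq_mul, Pi.star_apply]
  ring

theorem steer_rO_posSemidef {M : Matrix (Bool × e) (Bool × e) ℂ} (hM : M.PosSemidef)
    (b : Bool → ℂ) : (steer (rO b) M).PosSemidef := by
  have := block_diag_posSemidef (kconj_posSemidef (Matrix.of fun _ : Bool => b) hM) false
  rwa [block_kconj_diag] at this

theorem trace_steer_bmat (a b c d : ℂ) (M : Matrix (Bool × e) (Bool × e) ℂ) :
    (steer (bmat a b c d) M).trace = a * (block M false false).trace +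
      d * (block M true true).trace + c * (block M false true).trace +
      b * (block M true false).trace := by
  rw [steer_bmat]
  simp only [Matrix.trace_add, Matrix.trace_smul, smul_eq_mul]

/-- vector `(a, b)` indexed by `Bool` -/
def bvec (a b : ℂ) : Bool → ℂ := fun s => cond s b a

theorem rO_bvec_real (a b : ℝ) :
    rO (bvec a b) = bmat ((a * a : ℝ) : ℂ) ((a * b : ℝ) : ℂ) ((b * a : ℝ) : ℂ) ((b * b : ℝ) : ℂ) := by
  ext s t
  cases s <;> cases t <;> simp [rO, bvec, bmat, Matrix.vecMulVec_apply]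

theorem bmat_row_false (a b c d : ℂ) : (bmat a b c d) false = bvec a b := by
  funext t; cases t <;> simp [bmat, bvec]

theorem bmat_row_true (a b c d : ℂ) : (bmat a b c d) true = bvec c d := by
  funext t; cases t <;> simp [bmat, bvec]

theorem bmat_add (a b c d a' b' c' d' : ℂ) :
    bmat a b c d + bmat a' b' c' d' = bmat (a + a') (b + b') (c + c') (d + d') := by
  ext s t; cases s <;> cases t <;> simp [bmat]

theorem smul_bmat (r a b c d : ℂ) : r • bmat a b c d = bmat (r * a) (r * b) (r * c) (r * d) := by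
  ext s t; cases s <;> cases t <;> simp [bmat]

theorem bmat_one : bmat 1 0 0 1 = 1 := by
  ext s t; cases s <;> cases t <;> simp [bmat]


theorem kconj_smul_real (r : ℝ) (k : Matrix Bool Bool ℂ) (W : Matrix (Bool × e) (Bool × e) ℂ) :
    kconj ((r : ℂ) • k) W = ((r * r : ℝ) : ℂ) • kconj k W := by
  ext ⟨s, i⟩ ⟨t, j⟩
  simp only [kconj, kron_conj_apply, Matrix.smul_apply, smul_eq_mul, Fintype.sum_bool, star_mul',
    Complex.star_def, Complex.conj_ofReal]
  push_cast
  ring

section main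
variable {γ ν p x0 sb u1 q v Np k1 k2 kl : ℝ}

theorem El0_eq (h : Rel (γ * ν) (γ * (1 - ν)) p (Real.sqrt (1 - γ)) x0 sb u1 q v Np k1 k2 kl) :
    (k1 : ℂ) • rO (bvec (v : ℝ) ((0 : ℝ) : ℂ)) +
      (k2 : ℂ) • rO (bvec ((Real.sqrt (1 - γ) * u1 * x0 : ℝ) : ℂ) ((sb * q : ℝ) : ℂ)) =
    bmat ((γ * ν * (1 - q) : ℝ) : ℂ) ((Real.sqrt (1 - γ) * x0 * (sb * u1) : ℝ) : ℂ)
      ((Real.sqrt (1 - γ) * x0 * (sb * u1) : ℝ) : ℂ) ((γ * (1 - ν) * q : ℝ) : ℂ) := by
  rw [rO_bvec_real, rO_bvec_real, smul_bmat, smul_bmat, bmat_add]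
  have a1 := h.tt_ff
  have a2 := h.tt_tt
  have a3 := h.tt_ft
  have b1 := h.aux1
  have b2 := h.aux2
  congr 1 <;> norm_cast
  · linear_combination a1 + b1
  · linear_combination -a3
  · linear_combination -a3
  · linear_combination a2 + b2

theorem Et0_eq (h : Rel (γ * ν) (γ * (1 - ν)) p (Real.sqrt (1 - γ)) x0 sb u1 q v Np k1 k2 kl) :
    (k1 : ℂ) • rO (bvec (v : ℝ) ((0 : ℝ) : ℂ)) +
      (k2 : ℂ) • rO (bvec ((-(Real.sqrt (1 - γ) * u1 * x0) : ℝ) : ℂ) ((sb * q : ℝ) : ℂ)) =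
    bmat ((γ * ν * (1 - q) : ℝ) : ℂ) ((-(Real.sqrt (1 - γ) * x0 * (sb * u1)) : ℝ) : ℂ)
      ((-(Real.sqrt (1 - γ) * x0 * (sb * u1)) : ℝ) : ℂ) ((γ * (1 - ν) * q : ℝ) : ℂ) := by
  rw [rO_bvec_real, rO_bvec_real, smul_bmat, smul_bmat, bmat_add]
  have a1 := h.tt_ff
  have a2 := h.tt_tt
  have a3 := h.tt_ft
  have b1 := h.aux1
  have b2 := h.aux2
  congr 1 <;> norm_cast
  · linear_combination a1 + b1
  · linear_combination a3
  · linear_combination a3
  · linear_combination a2 + b2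

theorem Em0_eq (h : Rel (γ * ν) (γ * (1 - ν)) p (Real.sqrt (1 - γ)) x0 sb u1 q v Np k1 k2 kl) :
    (k1 : ℂ) • rO (bvec ((x0 * (sb * u1) * (2 * q - 1) : ℝ) : ℂ)
        ((-(Real.sqrt (1 - γ) * (1 - p) * Np) : ℝ) : ℂ)) +
      (k2 : ℂ) • rO (bvec ((Real.sqrt (1 - γ) * sb * p : ℝ) : ℂ)
        ((x0 * u1 * (1 - 2 * (γ * (1 - ν))) : ℝ) : ℂ)) =
    bmat (((sb * u1) ^ 2 * (1 - γ * ν) + x0 ^ 2 * (γ * ν) - kl * (γ * ν * (1 - q)) : ℝ) : ℂ)
      ((Real.sqrt (1 - γ) * x0 * (sb * u1) - kl * (Real.sqrt (1 - γ) * x0 * (sb * u1)) : ℝ) : ℂ)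
      ((Real.sqrt (1 - γ) * x0 * (sb * u1) - kl * (Real.sqrt (1 - γ) * x0 * (sb * u1)) : ℝ) : ℂ)
      (((sb * u1) ^ 2 * (γ * (1 - ν)) + x0 ^ 2 * (1 - γ * (1 - ν)) - kl * (γ * (1 - ν) * q) : ℝ) : ℂ)
    := by
  rw [rO_bvec_real, rO_bvec_real, smul_bmat, smul_bmat, bmat_add]
  have a1 := h.ff_ff
  have a2 := h.ff_tt
  have a3 := h.ff_ft
  congr 1 <;> norm_cast
  · linear_combination a1
  · linear_combination a3
  · linear_combination a3
  · linear_combination a2


theorem tilt_rel (H3 : H3Bool e)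
    (h : Rel (γ * ν) (γ * (1 - ν)) p (Real.sqrt (1 - γ)) x0 sb u1 q v Np k1 k2 kl)
    (hk1 : 0 ≤ k1) (hk2 : 0 ≤ k2) (hkl : 0 ≤ kl) (hNp : 0 < Np) (hvF : v = SConvex.vFun γ ν p)
    {M : Matrix (Bool × e) (Bool × e) ℂ} (hM : M.PosSemidef) (htr : M.trace = 1)
    (hp : (block M true true).trace = (p : ℂ))
    (hY : (block M false true).trace + (block M true false).trace = 0) :
    ∃ E : Fin 3 → Matrix Bool Bool ℂ, (∀ j, (E j).PosSemidef) ∧ ∑ j, E j = 1 ∧
      SConvex.sFun γ ν p + ∑ j, St (steer (E j) M) ≤ vnEntropy (gadB γ ν M) := by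
  set c := Real.sqrt (1 - γ) with hcdef
  set r : ℝ := Np⁻¹ with hr
  have hrN : r * Np = 1 := inv_mul_cancel₀ hNp.ne'
  have hr0 : 0 ≤ r := inv_nonneg.2 hNp.le
  set w : ℝ := (Real.sqrt Np)⁻¹ with hw
  have hww : w * w = r := by
    rw [hw, hr, ← mul_inv, Real.mul_self_sqrt hNp.le]
  have hX : (block M false false).trace = ((1 - p : ℝ) : ℂ) := by
    have := trace_eq_sum_block M
    rw [htr, hp] at this
    push_cast
    linear_combination -this
  -- the three POVM elements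
  set El0 : Matrix Bool Bool ℂ := (k1 : ℂ) • rO (bvec (v : ℝ) ((0 : ℝ) : ℂ)) +
      (k2 : ℂ) • rO (bvec ((c * u1 * x0 : ℝ) : ℂ) ((sb * q : ℝ) : ℂ)) with hEl0
  set Et0 : Matrix Bool Bool ℂ := (k1 : ℂ) • rO (bvec (v : ℝ) ((0 : ℝ) : ℂ)) +
      (k2 : ℂ) • rO (bvec ((-(c * u1 * x0) : ℝ) : ℂ) ((sb * q : ℝ) : ℂ)) with hEt0
  set Em0 : Matrix Bool Bool ℂ := (k1 : ℂ) • rO (bvec ((x0 * (sb * u1) * (2 * q - 1) : ℝ) : ℂ)
        ((-(c * (1 - p) * Np) : ℝ) : ℂ)) +
      (k2 : ℂ) • rO (bvec ((c * sb * p : ℝ) : ℂ)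
        ((x0 * u1 * (1 - 2 * (γ * (1 - ν))) : ℝ) : ℂ)) with hEm0
  have ck1 : (0 : ℂ) ≤ (k1 : ℂ) := by exact_mod_cast hk1
  have ck2 : (0 : ℂ) ≤ (k2 : ℂ) := by exact_mod_cast hk2
  have cr : (0 : ℂ) ≤ (r : ℂ) := by exact_mod_cast hr0
  have crl : (0 : ℂ) ≤ ((r * kl : ℝ) : ℂ) := by exact_mod_cast mul_nonneg hr0 hkl
  have pEl0 : El0.PosSemidef := ((rO_posSemidef _).smul ck1).add ((rO_posSemidef _).smul ck2)
  have pEt0 : Et0.PosSemidef := ((rO_posSemidef _).smul ck1).add ((rO_posSemidef _).smul ck2)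
  have pEm0 : Em0.PosSemidef := ((rO_posSemidef _).smul ck1).add ((rO_posSemidef _).smul ck2)
  have eEl0 := El0_eq h
  have eEt0 := Et0_eq h
  have eEm0 := Em0_eq h
  rw [← hcdef, ← hEl0] at eEl0
  rw [← hcdef, ← hEt0] at eEt0
  rw [← hcdef, ← hEm0] at eEm0
  refine ⟨![((r * kl : ℝ) : ℂ) • El0, (r : ℂ) • Em0, (r : ℂ) • Et0], ?_, ?_, ?_⟩
  · intro j
    fin_cases j
    · exact pEl0.smul crl
    · exact pEm0.smul cr
    · exact pEt0.smul cr
  · simp only [Fin.sum_univ_three, Matrix.cons_val_zero, Matrix.cons_val_one, Matrix.cons_val_two,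
      Matrix.head_cons, Matrix.tail_cons]
    rw [eEl0, eEm0, eEt0, smul_bmat, smul_bmat, smul_bmat, bmat_add, bmat_add, ← bmat_one]
    have b1 := h.aux1
    have b2 := h.aux2
    have b3 := h.aux3
    congr 1 <;> norm_cast
    · linear_combination r * b3 - r * b1 + hrN
    · ring
    · ring
    · linear_combination r * b3 - r * b2 + hrN
  · set B1 : Matrix Bool Bool ℂ := bmat ((x0 * (sb * u1) * (2 * q - 1) : ℝ) : ℂ)
          ((-(c * (1 - p) * Np) : ℝ) : ℂ) (v : ℝ) 0 with hB1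
    set B2 : Matrix Bool Bool ℂ := bmat ((c * sb * p : ℝ) : ℂ)
          ((x0 * u1 * (1 - 2 * (γ * (1 - ν))) : ℝ) : ℂ)
          ((-(c * u1 * x0) : ℝ) : ℂ) ((sb * q : ℝ) : ℂ) with hB2
    set Ut0 : Matrix Bool Bool ℂ :=
      bmat ((sb * u1 : ℝ) : ℂ) (x0 : ℝ) ((-x0 : ℝ) : ℂ) ((sb * u1 : ℝ) : ℂ) with hUt0
    have hdec0 := rot_decomp h M
    rw [← hcdef, ← hB1, ← hB2, ← hUt0] at hdec0
    have hU : ((w : ℂ) • Ut0) * ((w : ℂ) • Ut0)ᴴ = 1 := by
      have b3 := h.aux3
      have e0 : w * w * (x0 ^ 2 + (sb * u1) ^ 2) = 1 := by rw [hww, b3, hrN]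
      have e0c := congrArg (fun x : ℝ => (x : ℂ)) e0
      push_cast at e0c
      ext s t
      cases s <;> cases t <;>
        simp [hUt0, Matrix.mul_apply, bmat, Matrix.conjTranspose_apply]
      · linear_combination e0c
      · ring
      · ring
      · linear_combination e0c
    set N : Matrix (Bool × e) (Bool × e) ℂ :=
      (r : ℂ) • ((k1 : ℂ) • kconj B1 M + (k2 : ℂ) • kconj B2 M) with hNdef
    have pN : N.PosSemidef :=
      (((kconj_posSemidef _ hM).smul ck1).add ((kconj_posSemidef _ hM).smul ck2)).smul cr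
    have pQ : (steer (((r * kl : ℝ) : ℂ) • El0) M).PosSemidef := by
      rw [steer_smul, hEl0, steer_add, steer_smul, steer_smul]
      exact (((steer_rO_posSemidef hM _).smul ck1).add ((steer_rO_posSemidef hM _).smul ck2)).smul
        crl
    have hdec : kconj ((w : ℂ) • Ut0) (gadB γ ν M) =
        N + (Matrix.single false false (1 : ℂ)) ⊗ₖ (steer (((r * kl : ℝ) : ℂ) • El0) M) := by
      rw [kconj_smul_real, hdec0, hww, smul_add, ← hNdef, steer_smul, eEl0, steer_bmat,
        ← Matrix.kronecker_smul]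
      congr 2
      push_cast
      rw [smul_smul]
      congr 1
      simp only [smul_add]
      abel
    have hNff : block N false false = steer ((r : ℂ) • Em0) M := by
      rw [hNdef, block_smul, block_add, block_smul, block_smul, block_kconj_diag, block_kconj_diag,
        hB1, hB2, bmat_row_false, bmat_row_false, steer_smul, hEm0, steer_add, steer_smul,
        steer_smul]
    have hNtt : block N true true = steer ((r : ℂ) • Et0) M := by
      rw [hNdef, block_smul, block_add, block_smul, block_smul, block_kconj_diag, block_kconj_diag,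
        hB1, hB2, bmat_row_true, bmat_row_true, steer_smul, hEt0, steer_add, steer_smul,
        steer_smul]
      simp
    have b4 := h.aux4
    have tQ : (steer (((r * kl : ℝ) : ℂ) • El0) M).trace = ((Np : ℝ) : ℂ) := by
      rw [eEl0, smul_bmat, trace_steer_bmat, hX, hp]
      have e1 : r * kl * v = Np := by
        have := h.hkl
        calc r * kl * v = r * (kl * v) := by ring
          _ = r * Np ^ 2 := by rw [this]
          _ = (r * Np) * Np := by ring
          _ = Np := by rw [hrN, one_mul]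
      have e2 : r * kl * (γ * ν * (1 - q) * (1 - p) + γ * (1 - ν) * q * p) = Np := by
        rw [b4, e1]
      have e2c := congrArg (fun x : ℝ => (x : ℂ)) e2
      push_cast at e2c
      push_cast
      linear_combination e2c + ((r : ℂ) * kl * (c * x0 * (sb * u1))) * hY
    have tT : (block N true true).trace = ((r * v : ℝ) : ℂ) := by
      rw [hNtt, eEt0, smul_bmat, trace_steer_bmat, hX, hp]
      have e2 : r * (γ * ν * (1 - q) * (1 - p) + γ * (1 - ν) * q * p) = r * v := by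
        rw [b4]
      have e2c := congrArg (fun x : ℝ => (x : ℂ)) e2
      push_cast at e2c
      push_cast
      linear_combination e2c - ((r : ℂ) * (c * x0 * (sb * u1))) * hY
    have hprod : (steer (((r * kl : ℝ) : ℂ) • El0) M).trace.re * (block N true true).trace.re =
        SConvex.vFun γ ν p := by
      rw [tQ, tT, Complex.ofReal_re, Complex.ofReal_re, ← hvF]
      calc Np * (r * v) = (r * Np) * v := by ring
        _ = v := by rw [hrN, one_mul]
    have key := final_step H3 htr hU pN pQ hdec hprod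
    simp only [Fin.sum_univ_three, Matrix.cons_val_zero, Matrix.cons_val_one, Matrix.cons_val_two,
      Matrix.head_cons, Matrix.tail_cons]
    rw [hNff, hNtt] at key
    exact key


end main

theorem pop_mem {M : Matrix (Bool × e) (Bool × e) ℂ} (hM : M.PosSemidef) (htr : M.trace = 1)
    {p : ℝ} (hp : (block M true true).trace = (p : ℂ)) : 0 ≤ p ∧ p ≤ 1 := by
  have h1 := (block_diag_posSemidef hM true).trace_nonneg
  have h0 := (block_diag_posSemidef hM false).trace_nonneg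
  have := trace_eq_sum_block M
  rw [htr, hp] at this
  have hX : (block M false false).trace = ((1 - p : ℝ) : ℂ) := by
    push_cast
    linear_combination -this
  rw [hp] at h1
  rw [hX] at h0
  constructor
  · exact_mod_cast h1
  · have : (0 : ℝ) ≤ 1 - p := by exact_mod_cast h0
    linarith

theorem tilt_pos (H3 : H3Bool e) {γ ν p : ℝ} (hγ : γ ∈ Set.Icc (0 : ℝ) 1)
    (hν : ν ∈ Set.Icc (0 : ℝ) 1)
    {M : Matrix (Bool × e) (Bool × e) ℂ} (hM : M.PosSemidef) (htr : M.trace = 1)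
    (hp : (block M true true).trace = (p : ℂ))
    (hY : (block M false true).trace + (block M true false).trace = 0)
    (hv : 0 < SConvex.vFun γ ν p) :
    ∃ E : Fin 3 → Matrix Bool Bool ℂ, (∀ j, (E j).PosSemidef) ∧ ∑ j, E j = 1 ∧
      SConvex.sFun γ ν p + ∑ j, St (steer (E j) M) ≤ vnEntropy (gadB γ ν M) := by
  obtain ⟨hp0, hp1⟩ := pop_mem hM htr hp
  obtain ⟨hγ0, hγ1⟩ := hγ
  obtain ⟨hν0, hν1⟩ := hν
  have hα : 0 ≤ γ * ν := mul_nonneg hγ0 hν0
  have hβ : 0 ≤ γ * (1 - ν) := mul_nonneg hγ0 (by linarith)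
  have hα1 : γ * ν ≤ 1 := by nlinarith
  have hβ1 : γ * (1 - ν) ≤ 1 := by nlinarith
  set q : ℝ := γ * ν * (1 - p) + (1 - γ * (1 - ν)) * p with hq
  set v : ℝ := q * (1 - q) - (1 - γ * ν - γ * (1 - ν)) * p * (1 - p) with hvdef
  set Np : ℝ := γ * ν * (1 - p) + γ * (1 - ν) * p with hNp
  have hvF : v = SConvex.vFun γ ν p := by
    rw [hvdef, hq]; unfold SConvex.vFun; ring
  have hv0 : 0 < v := by rw [hvF]; exact hv
  have hq0 : 0 ≤ q := by
    rw [hq]
    have := mul_nonneg hα (by linarith : (0 : ℝ) ≤ 1 - p)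
    have := mul_nonneg (by linarith : (0 : ℝ) ≤ 1 - γ * (1 - ν)) hp0
    linarith
  have hq1 : q ≤ 1 := by
    rw [hq]
    nlinarith [mul_nonneg (by linarith : (0 : ℝ) ≤ 1 - γ * ν) (by linarith : (0 : ℝ) ≤ 1 - p),
      mul_nonneg hβ hp0]
  have hqpos : 0 < q := by
    rcases hq0.lt_or_eq with h | h
    · exact h
    · exfalso
      have h2 : v = -((1 - γ * ν - γ * (1 - ν)) * p * (1 - p)) := by rw [hvdef, ← h]; ring
      have h3 : 0 ≤ (1 - γ * ν - γ * (1 - ν)) * p * (1 - p) :=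
        mul_nonneg (mul_nonneg (by nlinarith) hp0) (by linarith)
      linarith
  have hvN : v = (γ * ν * (1 - p)) * (1 - q) + (γ * (1 - ν) * p) * q := by
    rw [hvdef, hq]; ring
  have hNpos : 0 < Np := by
    have a1 : 0 ≤ γ * ν * (1 - p) := mul_nonneg hα (by linarith)
    have a2 : 0 ≤ γ * (1 - ν) * p := mul_nonneg hβ hp0
    have : v ≤ Np := by
      rw [hvN, hNp]
      nlinarith [mul_nonneg a1 hq0, mul_nonneg a2 (by linarith : (0 : ℝ) ≤ 1 - q)]
    linarith
  have hrel : Rel (γ * ν) (γ * (1 - ν)) p (Real.sqrt (1 - γ)) (Real.sqrt (γ * ν * (1 - p)))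
      (Real.sqrt (γ * (1 - ν))) (Real.sqrt p) q v Np (γ * ν / (q * v)) (1 / q) (Np ^ 2 / v) :=
    { hc := by rw [Real.sq_sqrt (by linarith)]; ring
      hx0 := Real.sq_sqrt (mul_nonneg hα (by linarith))
      hsb := Real.sq_sqrt hβ
      hu1 := Real.sq_sqrt hp0
      hq := rfl
      hv := rfl
      hN := rfl
      hk1 := div_mul_cancel₀ _ (mul_pos hqpos hv0).ne'
      hk2 := div_mul_cancel₀ _ hqpos.ne'
      hkl := div_mul_cancel₀ _ hv0.ne'
      hq0 := hqpos.ne'
      hv0 := hv0.ne' }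
  exact tilt_rel H3 hrel (div_nonneg hα (mul_pos hqpos hv0).le) (div_nonneg zero_le_one hqpos.le)
    (div_nonneg (sq_nonneg _) hv0.le) hNpos hvF hM htr hp hY


theorem bmat_diag_posSemidef {a d : ℝ} (ha : 0 ≤ a) (hd : 0 ≤ d) :
    (bmat (a : ℂ) 0 0 (d : ℂ)).PosSemidef := by
  have e : bmat (a : ℂ) 0 0 (d : ℂ) = (a : ℂ) • rO (bvec ((1 : ℝ) : ℂ) ((0 : ℝ) : ℂ)) +
      (d : ℂ) • rO (bvec ((0 : ℝ) : ℂ) ((1 : ℝ) : ℂ)) := by
    rw [rO_bvec_real, rO_bvec_real, smul_bmat, smul_bmat, bmat_add]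
    congr 1 <;> simp
  rw [e]
  exact ((rO_posSemidef _).smul (by exact_mod_cast ha)).add
    ((rO_posSemidef _).smul (by exact_mod_cast hd))

theorem kconj_one (W : Matrix (Bool × e) (Bool × e) ℂ) : kconj 1 W = W := by
  unfold kconj
  rw [Matrix.one_kronecker_one, Matrix.conjTranspose_one, Matrix.one_mul, Matrix.mul_one]

theorem tilt_zero (H3 : H3Bool e) {γ ν p : ℝ} (hγ : γ ∈ Set.Icc (0 : ℝ) 1)
    (hν : ν ∈ Set.Icc (0 : ℝ) 1)
    {M : Matrix (Bool × e) (Bool × e) ℂ} (hM : M.PosSemidef) (htr : M.trace = 1)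
    (hv : SConvex.vFun γ ν p = 0) :
    ∃ E : Fin 3 → Matrix Bool Bool ℂ, (∀ j, (E j).PosSemidef) ∧ ∑ j, E j = 1 ∧
      SConvex.sFun γ ν p + ∑ j, St (steer (E j) M) ≤ vnEntropy (gadB γ ν M) := by
  have hα : 0 ≤ γ * ν := mul_nonneg hγ.1 hν.1
  have hβ : 0 ≤ γ * (1 - ν) := mul_nonneg hγ.1 (by linarith [hν.2])
  have hα1 : 0 ≤ 1 - γ * ν := by nlinarith [hγ.1, hγ.2, hν.1, hν.2]
  have hβ1 : 0 ≤ 1 - γ + γ * ν := by nlinarith [hγ.1, hγ.2, hν.1, hν.2]
  refine ⟨![0, bmat ((1 - γ * ν : ℝ) : ℂ) 0 0 ((γ * (1 - ν) : ℝ) : ℂ),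
    bmat ((γ * ν : ℝ) : ℂ) 0 0 ((1 - γ + γ * ν : ℝ) : ℂ)], ?_, ?_, ?_⟩
  · intro j
    fin_cases j
    · exact Matrix.PosSemidef.zero
    · exact bmat_diag_posSemidef hα1 hβ
    · exact bmat_diag_posSemidef hα hβ1
  · simp only [Fin.sum_univ_three, Matrix.cons_val_zero, Matrix.cons_val_one, Matrix.cons_val_two,
      Matrix.head_cons, Matrix.tail_cons]
    rw [zero_add, bmat_add, ← bmat_one]
    congr 1 <;> push_cast <;> ring
  · have hdec : kconj (1 : Matrix Bool Bool ℂ) (gadB γ ν M) =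
        gadB γ ν M + (Matrix.single false false (1 : ℂ)) ⊗ₖ (0 : Matrix e e ℂ) := by
      rw [kconj_one, Matrix.kronecker_zero, add_zero]
    have key := final_step (p := p) H3 htr (by simp) (gad_id_posSemidef hγ hν hM)
      Matrix.PosSemidef.zero hdec (by rw [hv]; simp)
    simp only [Fin.sum_univ_three, Matrix.cons_val_zero, Matrix.cons_val_one, Matrix.cons_val_two,
      Matrix.head_cons, Matrix.tail_cons]
    have e0 : steer (0 : Matrix Bool Bool ℂ) M = 0 := by simp [steer]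
    have e1 : steer (bmat ((1 - γ * ν : ℝ) : ℂ) 0 0 ((γ * (1 - ν) : ℝ) : ℂ)) M =
        block (gadB γ ν M) false false := by
      rw [steer_bmat]
      ext i j
      simp only [block, Matrix.of_apply, gadB, qubitTensor_gad_ff, Matrix.add_apply,
        Matrix.smul_apply, smul_eq_mul]
      ring
    have e2 : steer (bmat ((γ * ν : ℝ) : ℂ) 0 0 ((1 - γ + γ * ν : ℝ) : ℂ)) M =
        block (gadB γ ν M) true true := by
      rw [steer_bmat]
      ext i j
      simp only [block, Matrix.of_apply, gadB, qubitTensor_gad_tt, Matrix.add_apply,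
        Matrix.smul_apply, smul_eq_mul]
      ring
    rw [e0, e1, e2]
    exact key

/-! ### phase rotation -/

theorem exists_phase (y : ℂ) : ∃ ζ : ℂ, ζ * star ζ = 1 ∧ star ζ * y + ζ * star y = 0 := by
  by_cases hy : y = 0
  · exact ⟨1, by simp, by simp [hy]⟩
  · have hn : (‖y‖ : ℂ) ≠ 0 := by exact_mod_cast (norm_pos_iff.2 hy).ne'
    have hyy : y * (starRingEnd ℂ) y = (‖y‖ : ℂ) ^ 2 := by
      rw [Complex.mul_conj, Complex.normSq_eq_norm_sq]; push_cast; rfl
    refine ⟨-Complex.I * y / ‖y‖, ?_, ?_⟩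
    · simp only [Complex.star_def, map_div₀, map_mul, map_neg, Complex.conj_I, Complex.conj_ofReal]
      field_simp
      linear_combination (-Complex.I ^ 2) * hyy + (-(‖y‖ : ℂ) ^ 2) * Complex.I_sq
    · simp only [Complex.star_def, map_div₀, map_mul, map_neg, Complex.conj_I, Complex.conj_ofReal]
      field_simp
      ring

theorem kconj_phase_apply (ζ : ℂ) (M : Matrix (Bool × e) (Bool × e) ℂ) (s t : Bool) (i j : e) :
    kconj (bmat 1 0 0 ζ) M (s, i) (t, j) = (cond s ζ 1) * star (cond t ζ 1) * M (s, i) (t, j) := by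
  simp only [kconj, kron_conj_apply, Fintype.sum_bool]
  cases s <;> cases t <;> simp [bmat]

theorem phase_unitary {ζ : ℂ} (hζ : ζ * star ζ = 1) :
    (bmat 1 0 0 ζ) * (bmat 1 0 0 ζ)ᴴ = 1 := by
  ext s t
  cases s <;> cases t <;> simp [Matrix.mul_apply, bmat, Matrix.conjTranspose_apply]
  simpa using hζ

theorem gadB_phase (γ ν : ℝ) {ζ : ℂ} (hζ : ζ * star ζ = 1) (M : Matrix (Bool × e) (Bool × e) ℂ) :
    gadB γ ν (kconj (bmat 1 0 0 ζ) M) = kconj (bmat 1 0 0 ζ) (gadB γ ν M) := by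
  ext ⟨s, i⟩ ⟨t, j⟩
  rw [kconj_phase_apply]
  cases s <;> cases t
  · simp only [gadB, qubitTensor_gad_ff, block, Matrix.of_apply, kconj_phase_apply, cond_true,
      cond_false, star_one, one_mul]
    linear_combination (((γ * (1 - ν) : ℝ) : ℂ) * M (true, i) (true, j)) * hζ
  · simp only [gadB, qubitTensor_gad_ft, block, Matrix.of_apply, kconj_phase_apply, cond_true,
      cond_false, one_mul]
    ring
  · simp only [gadB, qubitTensor_gad_tf, block, Matrix.of_apply, kconj_phase_apply, cond_true,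
      cond_false, star_one, mul_one]
    ring
  · simp only [gadB, qubitTensor_gad_tt, block, Matrix.of_apply, kconj_phase_apply, cond_true,
      cond_false, star_one, one_mul]
    linear_combination (-((γ * ν : ℝ) : ℂ) * M (false, i) (false, j)) * hζ

theorem steer_phase (E : Matrix Bool Bool ℂ) (ζ : ℂ) (M : Matrix (Bool × e) (Bool × e) ℂ) :
    steer E (kconj (bmat 1 0 0 ζ) M) = steer ((bmat 1 0 0 ζ)ᴴ * E * (bmat 1 0 0 ζ)) M := by
  ext i j
  simp only [steer, Fintype.sum_bool, Matrix.add_apply, Matrix.smul_apply, smul_eq_mul, block,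
    Matrix.of_apply, kconj_phase_apply, cond_true, cond_false]
  simp only [Matrix.mul_apply, Matrix.conjTranspose_apply, bmat, Fintype.sum_bool, Matrix.of_apply,
    cond_true, cond_false, star_one, star_zero]
  ring

/-- **Interface (A)**: the tilted strong-superadditivity inequality for `gadMap ⊗ id`. -/
theorem tilt_main (H3 : H3Bool e) {γ ν : ℝ} (hγ : γ ∈ Set.Icc (0 : ℝ) 1)
    (hν : ν ∈ Set.Icc (0 : ℝ) 1)
    {M : Matrix (Bool × e) (Bool × e) ℂ} (hM : M.PosSemidef) (htr : M.trace = 1) :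
    ∃ E : Fin 3 → Matrix Bool Bool ℂ, (∀ j, (E j).PosSemidef) ∧ ∑ j, E j = 1 ∧
      SConvex.sFun γ ν (block M true true).trace.re + ∑ j, St (steer (E j) M) ≤
        vnEntropy (gadB γ ν M) := by
  set p : ℝ := (block M true true).trace.re with hpdef
  have hp : (block M true true).trace = (p : ℂ) := by
    have h1 := (block_diag_posSemidef hM true).trace_nonneg
    rw [Complex.le_def] at h1
    apply Complex.ext
    · simp [hpdef]
    · simpa using h1.2.symm
  rcases (SConvex.vFun_nonneg hγ hν p).lt_or_eq with hv | hv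
  · obtain ⟨ζ, hζ, hζy⟩ := exists_phase (block M false true).trace
    set D : Matrix Bool Bool ℂ := bmat 1 0 0 ζ with hD
    have hDu := phase_unitary hζ
    have hM' : (kconj D M).PosSemidef := kconj_posSemidef D hM
    have htr' : (kconj D M).trace = 1 := by rw [trace_kconj hDu, htr]
    have hbtt : block (kconj D M) true true = block M true true := by
      ext i j
      simp only [block, Matrix.of_apply, hD, kconj_phase_apply, cond_true]
      rw [hζ, one_mul]
    have hp' : (block (kconj D M) true true).trace = (p : ℂ) := by rw [hbtt, hp]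
    have hYs : (block M true false).trace = star (block M false true).trace := by
      have hH := hM.1
      simp only [Matrix.trace, Matrix.diag, block, Matrix.of_apply, star_sum]
      refine Finset.sum_congr rfl fun i _ => ?_
      have := congrFun (congrFun hH (true, i)) (false, i)
      rw [Matrix.conjTranspose_apply] at this
      exact this.symm
    have hY' : (block (kconj D M) false true).trace + (block (kconj D M) true false).trace = 0 := by
      have e1 : (block (kconj D M) false true).trace = star ζ * (block M false true).trace := by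
        simp only [Matrix.trace, Matrix.diag, block, Matrix.of_apply, hD, kconj_phase_apply,
          cond_true, cond_false, one_mul, Finset.mul_sum]
      have e2 : (block (kconj D M) true false).trace = ζ * (block M true false).trace := by
        simp only [Matrix.trace, Matrix.diag, block, Matrix.of_apply, hD, kconj_phase_apply,
          cond_true, cond_false, star_one, mul_one, Finset.mul_sum]
      rw [e1, e2, hYs]
      exact hζy
    obtain ⟨E, hE, hsum, hineq⟩ := tilt_pos H3 hγ hν hM' htr' hp' hY' hv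
    refine ⟨fun j => Dᴴ * E j * D, fun j => (hE j).conjTranspose_mul_mul_same D, ?_, ?_⟩
    · rw [← Finset.sum_mul, ← Finset.mul_sum, hsum, Matrix.mul_one]
      exact mul_eq_one_comm.1 hDu
    · have e3 : vnEntropy (gadB γ ν (kconj D M)) = vnEntropy (gadB γ ν M) := by
        rw [hD, gadB_phase γ ν hζ, vnEntropy_kconj (phase_unitary hζ)]
      rw [e3] at hineq
      simpa only [hD, steer_phase] using hineq
  · exact tilt_zero H3 hγ hν hM htr hv.symm

end Crest.Agent.S0534Aux.TiltB
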