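import Crest.Agent.S0534Aux.Tilt87
import Crest.Agent.S0534Aux.H3fromE3
import Crest.Agent.S0534Aux.Final78

/-!
Discharge of the two interfaces: `Tilt87.H3Statement` (from `H3fromE3.H3_bool'`) and
`Step78.TiltProp` (from `Tilt87.tilt_fin`).
-/

set_option autoImplicit false

open scoped ComplexOrder Kronecker
open Matrix Crest.Quantum Crest.MathPhysics.AmpDamp

namespace Crest.Agent.S0534Aux.TiltFinal87

theorem h3Statement (e : Type) [Fintype e] [DecidableEq e] : Tilt87.H3Statement e :=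
  fun Q N hQ hN => H3fromE3.H3_bool' Q N hQ hN

theorem tiltProp {γ ν : ℝ} (hγ : γ ∈ Set.Icc (0 : ℝ) 1) (hν : ν ∈ Set.Icc (0 : ℝ) 1)
    (e : Type) [Fintype e] [DecidableEq e] : Step78.TiltProp γ ν e := by
  intro M hM htr
  obtain ⟨E, h1, h2, h3⟩ := Tilt87.tilt_fin (h3Statement e) hγ hν hM htr
  exact ⟨3, E, h1, h2, h3⟩

end Crest.Agent.S0534Aux.TiltFinal87
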