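import Crest.Agent.S0534Aux.TopPlumb

/-!
Top-level assembly for S0534 / S0535 (helper15): everything is derived from a `Kit` of facts
(entropy calculus, channel plumbing, qubit facts, and the core inequality).
-/

set_option autoImplicit false
set_option linter.unusedSectionVars false
set_option linter.unusedSimpArgs false

namespace Crest.Agent.S0534Aux.Top

open Crest.Quantum Crest.MathPhysics.AmpDamp Matrix
open scoped ComplexOrder Kronecker

variable {d e : Type} [Fintype d] [Fintype e] [DecidableEq d] [DecidableEq e]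

theorem steer_posSemidef {E : Matrix Bool Bool ℂ} (hE : E.PosSemidef)
    {M : Matrix (Bool × d) (Bool × d) ℂ} (hM : M.PosSemidef) : (steer E M).PosSemidef := by
  classical
  have hK : ((Eᵀ).submatrix (Prod.fst : Bool × d → Bool) Prod.fst).PosSemidef :=
    hE.transpose.submatrix _
  have hH := hM.hadamard hK
  let R : Matrix (Bool × d) d ℂ := Matrix.of fun p j => if p.2 = j then 1 else 0
  have hR := hH.conjTranspose_mul_mul_same R
  have heq : steer E M = Rᴴ * (M ⊙ (Eᵀ).submatrix (Prod.fst : Bool × d → Bool) Prod.fst) * R := by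
    ext i j
    simp only [steer, Matrix.mul_apply, Matrix.conjTranspose_apply, Matrix.hadamard_apply,
      Matrix.submatrix_apply, Matrix.transpose_apply, Fintype.sum_prod_type, R, Matrix.of_apply,
      Matrix.sum_apply, Matrix.smul_apply, block, smul_eq_mul]
    simp only [apply_ite star, star_one, star_zero, ite_mul, one_mul, zero_mul, mul_ite, mul_one,
      mul_zero, Finset.sum_ite_eq', Finset.sum_ite_eq, Finset.mem_univ, if_true]
    rw [Finset.sum_comm]
    refine Finset.sum_congr rfl fun x _ => Finset.sum_congr rfl fun y _ => ?_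
    ring
  rw [heq]; exact hR

/-- The facts the assembly needs from the other files. -/
structure Kit (γ ν : ℝ) : Prop where
  hγ : γ ∈ Set.Icc (0 : ℝ) 1
  hν : ν ∈ Set.Icc (0 : ℝ) 1
  ent_smul : ∀ (n : Type) [Fintype n] [DecidableEq n] (σ : Matrix n n ℂ) (t : ℝ),
      IsDensity σ → 0 ≤ t → vnEntropy ((t : ℂ) • σ) = t * vnEntropy σ + Real.negMulLog t
  ent_sub : ∀ (n : Type) [Fintype n] [DecidableEq n] (ω : Matrix (Bool × n) (Bool × n) ℂ),
      IsDensity ω → vnEntropy ω ≤ Real.binEntropy (trB ω true true).re + vnEntropy (trA ω)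
  core : ∀ (n : Type) [Fintype n] [DecidableEq n] (M : Matrix (Bool × n) (Bool × n) ℂ),
      M.PosSemidef → M.trace = 1 →
      ∃ (k : ℕ) (E : Fin k → Matrix Bool Bool ℂ), (∀ j, (E j).PosSemidef) ∧ ∑ j, E j = 1 ∧
        sFun γ ν (block M true true).trace.re
          + ∑ j, (vnEntropy (steer (E j) M) - Real.negMulLog (steer (E j) M).trace.re)
          ≤ vnEntropy (qubitTensor (gadMap γ ν) id M)
  q_pure : ∀ p ∈ Set.Icc (0 : ℝ) 1, ∃ ψ : Matrix Bool Bool ℂ, IsDensity ψ ∧
      vnEntropy (gadMap γ ν ψ) = sFun γ ν p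
  q_ens : ∀ (m : ℕ) (w p : Fin m → ℝ), (∀ i, 0 ≤ w i) → ∑ i, w i = 1 →
      (∀ i, p i ∈ Set.Icc (0 : ℝ) 1) →
      ∃ (m₁ : ℕ) (q₁ : Fin m₁ → ℝ) (ρ₁ : Fin m₁ → Matrix Bool Bool ℂ), IsEnsemble q₁ ρ₁ ∧
        holevoInfo (gadMap γ ν) q₁ ρ₁
          = Real.binEntropy ((1 - γ) * (∑ i, w i * p i) + γ * ν) - ∑ i, w i * sFun γ ν (p i)

theorem PosSemidef.trace_eq_re {n : Type} [Fintype n] {A : Matrix n n ℂ} (hA : A.PosSemidef) :
    A.trace = ((A.trace.re : ℝ) : ℂ) := by
  have h := hA.trace_nonneg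
  rw [Complex.le_def] at h
  apply Complex.ext
  · simp
  · simpa using h.2.symm

theorem PosSemidef.trace_re_nonneg {n : Type} [Fintype n] {A : Matrix n n ℂ} (hA : A.PosSemidef) :
    0 ≤ A.trace.re := by
  have h := hA.trace_nonneg
  rw [Complex.le_def] at h
  simpa using h.1

/-- channels map density matrices to density matrices. -/
theorem channel_density {Ψ : Matrix d d ℂ → Matrix e e ℂ} (hΨ : IsChannel Ψ)
    {σ : Matrix d d ℂ} (hσ : IsDensity σ) : IsDensity (Ψ σ) := by
  obtain ⟨hlin, hcp, htp⟩ := hΨ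
  refine ⟨?_, by rw [htp]; exact hσ.2⟩
  have h1 : (Matrix.diagonal (fun b : Bool => if b = false then (1 : ℂ) else 0)).PosSemidef := by
    apply Matrix.PosSemidef.diagonal
    intro j; cases j <;> simp
  have h2 := cp_bool Ψ hcp _ (h1.kronecker hσ.1)
  have h3 := h2.submatrix (fun i : e => ((false, i) : Bool × e))
  convert h3 using 1
  ext i j
  simp only [Matrix.submatrix_apply, blockwise, Matrix.of_apply]
  congr 2
  ext a b
  simp [block, Matrix.kroneckerMap_apply]

theorem steer_blockwise {Ψ : Matrix d d ℂ → Matrix e e ℂ} (hlin : IsLinearMap ℂ Ψ)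
    (E : Matrix Bool Bool ℂ) (ρ : Matrix (Bool × d) (Bool × d) ℂ) :
    steer E (blockwise Ψ ρ) = Ψ (steer E ρ) := by
  simp only [steer, Fintype.sum_bool, block_blockwise, hlin.map_add, hlin.map_smul]

theorem key {γ ν : ℝ} (K : Kit γ ν) [Nonempty d] (Ψ : Matrix d d ℂ → Matrix e e ℂ)
    (hΨ : IsChannel Ψ) (ρ : Matrix (Bool × d) (Bool × d) ℂ) (hρ : IsDensity ρ) :
    ∃ (k : ℕ) (t : Fin k → ℝ) (φ : Fin k → Matrix d d ℂ),
      (∀ j, 0 ≤ t j) ∧ ∑ j, t j = 1 ∧ (∀ j, IsDensity (φ j)) ∧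
      ∑ j, (t j : ℂ) • φ j = trA ρ ∧
      sFun γ ν (trB ρ true true).re + ∑ j, t j * vnEntropy (Ψ (φ j))
        ≤ vnEntropy (qubitTensor (gadMap γ ν) Ψ ρ) := by
  classical
  have hΨ' := hΨ
  obtain ⟨hlin, hcp, htp⟩ := hΨ
  have hMpsd := cp_bool Ψ hcp ρ hρ.1
  have hMtr : (blockwise Ψ ρ).trace = 1 := by
    rw [trace_eq_block, block_blockwise, block_blockwise, htp, htp, ← trace_eq_block]; exact hρ.2
  obtain ⟨k, E, hE, hsum, hineq⟩ := K.core e _ hMpsd hMtr
  obtain ⟨σ0, hσ0⟩ := exists_density d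
  have hT : ∀ j, (steer (E j) ρ).PosSemidef := fun j => steer_posSemidef (hE j) hρ.1
  let t : Fin k → ℝ := fun j => (steer (E j) ρ).trace.re
  let φ : Fin k → Matrix d d ℂ := fun j =>
    if t j = 0 then σ0 else ((t j : ℂ)⁻¹) • steer (E j) ρ
  have ht0 : ∀ j, 0 ≤ t j := fun j => PosSemidef.trace_re_nonneg (hT j)
  have htr : ∀ j, (steer (E j) ρ).trace = (t j : ℂ) := fun j => PosSemidef.trace_eq_re (hT j)
  have hφT : ∀ j, (t j : ℂ) • φ j = steer (E j) ρ := by
    intro j
    by_cases h : t j = 0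
    · have : steer (E j) ρ = 0 := by
        rw [← (hT j).trace_eq_zero_iff, htr j, h]; simp
      simp [φ, h, this]
    · have h' : (t j : ℂ) ≠ 0 := by exact_mod_cast h
      simp [φ, h, smul_smul, mul_inv_cancel₀ h']
  have hφ : ∀ j, IsDensity (φ j) := by
    intro j
    by_cases h : t j = 0
    · simpa [φ, h] using hσ0
    · have h' : (t j : ℂ) ≠ 0 := by exact_mod_cast h
      have hpos : 0 < t j := lt_of_le_of_ne (ht0 j) (Ne.symm h)
      simp only [φ, h, if_false]
      refine ⟨?_, ?_⟩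
      · apply (hT j).smul
        have : (0 : ℝ) ≤ (t j)⁻¹ := inv_nonneg.mpr (ht0 j)
        have h2 : ((t j : ℂ)⁻¹) = (((t j)⁻¹ : ℝ) : ℂ) := by push_cast; rfl
        rw [h2]; exact_mod_cast this
      · rw [Matrix.trace_smul, htr j, smul_eq_mul, inv_mul_cancel₀ h']
  have hsumT : ∑ j, steer (E j) ρ = trA ρ := by rw [← steer_sum, hsum, steer_one]
  refine ⟨k, t, φ, ht0, ?_, hφ, ?_, ?_⟩
  · have h1 : ((∑ j, t j : ℝ) : ℂ) = 1 := by
      push_cast
      rw [← Finset.sum_congr rfl (fun j _ => htr j), ← Matrix.trace_sum, hsumT, trace_trA]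
      exact hρ.2
    exact_mod_cast h1
  · rw [Finset.sum_congr rfl (fun j _ => hφT j), hsumT]
  · rw [qubitTensor_eq_id_blockwise]
    refine le_trans (le_of_eq ?_) hineq
    congr 1
    · congr 1
      rw [block_blockwise, htp]; rfl
    · refine Finset.sum_congr rfl fun j _ => ?_
      rw [steer_blockwise hlin, htp, htr j, ← hφT j, hlin.map_smul,
        K.ent_smul e _ _ (channel_density hΨ' (hφ j)) (ht0 j)]
      simp

end Crest.Agent.S0534Aux.Top
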