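import Crest.Agent.S0534Aux.Top

/-!
Top-level assembly for S0534 / S0535 (helper15): the four clauses of S0535 from the `Kit`.
-/

set_option autoImplicit false
set_option linter.unusedSectionVars false
set_option linter.unusedSimpArgs false

namespace Crest.Agent.S0534Aux.Top

open Crest.Quantum Crest.MathPhysics.AmpDamp Matrix
open scoped ComplexOrder Kronecker

variable {d e : Type} [Fintype d] [Fintype e] [DecidableEq d] [DecidableEq e]

theorem isDensity_sum {n ι : Type} [Fintype n] [Fintype ι] (w : ι → ℝ) (σ : ι → Matrix n n ℂ)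
    (hw : ∀ i, 0 ≤ w i) (hs : ∑ i, w i = 1) (hσ : ∀ i, IsDensity (σ i)) :
    IsDensity (∑ i, (w i : ℂ) • σ i) := by
  classical
  refine ⟨?_, ?_⟩
  · apply Matrix.posSemidef_sum
    intro i _
    apply (hσ i).1.smul
    exact_mod_cast hw i
  · rw [Matrix.trace_sum]
    simp only [Matrix.trace_smul, (hσ _).2, smul_eq_mul, mul_one]
    exact_mod_cast hs

theorem trA_sum_smul {ι : Type} [Fintype ι] (c : ι → ℂ) (M : ι → Matrix (Bool × d) (Bool × d) ℂ) :
    trA (∑ i, c i • M i) = ∑ i, c i • trA (M i) := by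
  ext a b
  simp [trA, block, Matrix.sum_apply, Finset.sum_add_distrib, mul_add]

theorem trB_sum_smul {ι : Type} [Fintype ι] (c : ι → ℂ) (M : ι → Matrix (Bool × d) (Bool × d) ℂ) :
    trB (∑ i, c i • M i) = ∑ i, c i • trB (M i) := by
  ext a b
  simp only [trB, block, Matrix.trace, Matrix.diag, Matrix.of_apply, Matrix.sum_apply,
    Matrix.smul_apply, smul_eq_mul, Finset.mul_sum]
  rw [Finset.sum_comm]

theorem tensor_density {γ ν : ℝ} (hγ : γ ∈ Set.Icc (0 : ℝ) 1) (hν : ν ∈ Set.Icc (0 : ℝ) 1)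
    {Ψ : Matrix d d ℂ → Matrix e e ℂ} (hΨ : IsChannel Ψ)
    {ρ : Matrix (Bool × d) (Bool × d) ℂ} (hρ : IsDensity ρ) :
    IsDensity (qubitTensor (gadMap γ ν) Ψ ρ) := by
  obtain ⟨hlin, hcp, htp⟩ := hΨ
  rw [qubitTensor_eq_id_blockwise]
  refine ⟨gad_psd hγ hν _ (cp_bool Ψ hcp ρ hρ.1), ?_⟩
  rw [gad_trace, trace_eq_block, block_blockwise, block_blockwise, htp, htp, ← trace_eq_block]
  exact hρ.2

theorem tensor_trB (γ ν : ℝ) {Ψ : Matrix d d ℂ → Matrix e e ℂ} (hΨ : IsChannel Ψ)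
    (ρ : Matrix (Bool × d) (Bool × d) ℂ) :
    trB (qubitTensor (gadMap γ ν) Ψ ρ) = gadMap γ ν (trB ρ) := by
  obtain ⟨hlin, hcp, htp⟩ := hΨ
  rw [qubitTensor_eq_id_blockwise, gad_trB]
  congr 1
  ext s t
  simp only [trB, Matrix.of_apply, block_blockwise]
  exact htp _

theorem tensor_trA (γ ν : ℝ) {Ψ : Matrix d d ℂ → Matrix e e ℂ} (hΨ : IsChannel Ψ)
    (ρ : Matrix (Bool × d) (Bool × d) ℂ) :
    trA (qubitTensor (gadMap γ ν) Ψ ρ) = Ψ (trA ρ) := by
  obtain ⟨hlin, hcp, htp⟩ := hΨ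
  rw [qubitTensor_eq_id_blockwise, gad_trA]
  simp only [trA, block_blockwise, hlin.map_add]

theorem block_posSemidef {M : Matrix (Bool × d) (Bool × d) ℂ} (hM : M.PosSemidef) (s : Bool) :
    (block M s s).PosSemidef := hM.submatrix (fun i : d => (s, i))

theorem pop_mem {ρ : Matrix (Bool × d) (Bool × d) ℂ} (hρ : IsDensity ρ) :
    (trB ρ true true).re ∈ Set.Icc (0 : ℝ) 1 := by
  have h1 := PosSemidef.trace_re_nonneg (block_posSemidef hρ.1 true)
  have h0 := PosSemidef.trace_re_nonneg (block_posSemidef hρ.1 false)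
  have h := congrArg Complex.re ((trace_eq_block ρ).symm.trans hρ.2)
  simp only [Complex.add_re, Complex.one_re] at h
  constructor
  · exact h1
  · show (block ρ true true).trace.re ≤ 1
    linarith

theorem trB_density {ρ : Matrix (Bool × d) (Bool × d) ℂ} (hρ : IsDensity ρ) : IsDensity (trB ρ) := by
  refine ⟨?_, by rw [trace_trB]; exact hρ.2⟩
  have h : trB ρ = ∑ i : d, ρ.submatrix (fun s : Bool => (s, i)) (fun s : Bool => (s, i)) := by
    ext s t
    simp [trB, block, Matrix.trace, Matrix.sum_apply]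
  rw [h]
  exact Matrix.posSemidef_sum _ fun i _ => hρ.1.submatrix _

theorem trA_density {ρ : Matrix (Bool × d) (Bool × d) ℂ} (hρ : IsDensity ρ) : IsDensity (trA ρ) :=
  ⟨(block_posSemidef hρ.1 false).add (block_posSemidef hρ.1 true), by rw [trace_trA]; exact hρ.2⟩

theorem pop_false {ρ : Matrix (Bool × d) (Bool × d) ℂ} (hρ : IsDensity ρ) :
    (trB ρ false false).re = 1 - (trB ρ true true).re := by
  have h := congrArg Complex.re ((trace_eq_block ρ).symm.trans hρ.2)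
  simp only [Complex.add_re, Complex.one_re] at h
  show (block ρ false false).trace.re = 1 - (block ρ true true).trace.re
  linarith

theorem gad_pop (γ ν : ℝ) {r : Matrix Bool Bool ℂ} (hr : (r false false).re = 1 - (r true true).re) :
    (gadMap γ ν r true true).re = (1 - γ) * (r true true).re + γ * ν := by
  simp [gadMap, hr]
  ring

theorem map_sum_smul {Ψ : Matrix d d ℂ → Matrix e e ℂ} (h : IsLinearMap ℂ Ψ) {ι : Type} [Fintype ι]
    (c : ι → ℂ) (x : ι → Matrix d d ℂ) : Ψ (∑ i, c i • x i) = ∑ i, c i • Ψ (x i) := by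
  have h1 := map_sum (h.mk' Ψ) (fun i => c i • x i) Finset.univ
  simp only [IsLinearMap.mk'_apply] at h1
  rw [h1]
  exact Finset.sum_congr rfl fun i _ => h.map_smul _ _

/-- Strong superadditivity consequence: clause 1 of S0535 (without `ε`). -/
theorem holevo_le {γ ν : ℝ} (K : Kit γ ν) [Nonempty d] (Ψ : Matrix d d ℂ → Matrix e e ℂ)
    (hΨ : IsChannel Ψ) (m : ℕ) (q : Fin m → ℝ) (ρ : Fin m → Matrix (Bool × d) (Bool × d) ℂ)
    (hens : IsEnsemble q ρ) :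
    ∃ (m₁ : ℕ) (q₁ : Fin m₁ → ℝ) (ρ₁ : Fin m₁ → Matrix Bool Bool ℂ)
      (m₂ : ℕ) (q₂ : Fin m₂ → ℝ) (ρ₂ : Fin m₂ → Matrix d d ℂ),
      IsEnsemble q₁ ρ₁ ∧ IsEnsemble q₂ ρ₂ ∧
        holevoInfo (qubitTensor (gadMap γ ν) Ψ) q ρ ≤
          holevoInfo (gadMap γ ν) q₁ ρ₁ + holevoInfo Ψ q₂ ρ₂ := by
  classical
  obtain ⟨hq0, hq1, hρ⟩ := hens
  choose k t φ ht0 hts hφ hsum hineq using fun a => key K Ψ hΨ (ρ a) (hρ a)
  let p : Fin m → ℝ := fun a => (trB (ρ a) true true).re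
  have hp : ∀ a, p a ∈ Set.Icc (0 : ℝ) 1 := fun a => pop_mem (hρ a)
  obtain ⟨m₁, q₁, ρ₁, hens₁, hχ₁⟩ := K.q_ens m q p hq0 hq1 hp
  obtain ⟨m₂, q₂, ρ₂, hens₂, hχ₂⟩ := exists_fin_ensemble Ψ
    (ι := Σ a : Fin m, Fin (k a)) (fun x => q x.1 * t x.1 x.2) (fun x => φ x.1 x.2)
    (fun x => mul_nonneg (hq0 _) (ht0 _ _))
    (by rw [Fintype.sum_sigma]; simp only [← Finset.mul_sum, hts, mul_one]; exact hq1)
    (fun x => hφ _ _)
  refine ⟨m₁, q₁, ρ₁, m₂, q₂, ρ₂, hens₁, hens₂, ?_⟩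
  rw [hχ₁, hχ₂]
  unfold holevoInfo
  have hdens : IsDensity (∑ a, (q a : ℂ) • qubitTensor (gadMap γ ν) Ψ (ρ a)) :=
    isDensity_sum q _ hq0 hq1 (fun a => tensor_density K.hγ K.hν hΨ (hρ a))
  have hsub := K.ent_sub e _ hdens
  -- the `B` marginal
  have hA : trA (∑ a, (q a : ℂ) • qubitTensor (gadMap γ ν) Ψ (ρ a))
      = ∑ x : (Σ a : Fin m, Fin (k a)), ((q x.1 * t x.1 x.2 : ℝ) : ℂ) • Ψ (φ x.1 x.2) := by
    rw [trA_sum_smul, Fintype.sum_sigma]
    refine Finset.sum_congr rfl fun a _ => ?_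
    rw [tensor_trA γ ν hΨ, ← hsum a, map_sum_smul hΨ.1, Finset.smul_sum]
    refine Finset.sum_congr rfl fun j _ => ?_
    rw [smul_smul]; push_cast; rfl
  -- the qubit marginal
  have hBe : (trB (∑ a, (q a : ℂ) • qubitTensor (gadMap γ ν) Ψ (ρ a)) true true).re
      = (1 - γ) * (∑ a, q a * p a) + γ * ν := by
    rw [trB_sum_smul]
    simp only [Matrix.sum_apply, Matrix.smul_apply, smul_eq_mul, Complex.re_sum,
      Complex.re_ofReal_mul, tensor_trB γ ν hΨ, gad_pop γ ν (pop_false (hρ _))]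
    simp only [mul_add, Finset.sum_add_distrib, ← Finset.sum_mul, hq1, Finset.mul_sum]
    simp only [p, one_mul]
    congr 1
    exact Finset.sum_congr rfl fun a _ => by ring
  rw [hA, hBe] at hsub
  have hlow : ∑ a, q a * (sFun γ ν (p a) + ∑ j, t a j * vnEntropy (Ψ (φ a j)))
      ≤ ∑ a, q a * vnEntropy (qubitTensor (gadMap γ ν) Ψ (ρ a)) :=
    Finset.sum_le_sum fun a _ => mul_le_mul_of_nonneg_left (hineq a) (hq0 a)
  have hsplit : ∑ a, q a * (sFun γ ν (p a) + ∑ j, t a j * vnEntropy (Ψ (φ a j)))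
      = ∑ a, q a * sFun γ ν (p a)
        + ∑ x : (Σ a : Fin m, Fin (k a)), q x.1 * t x.1 x.2 * vnEntropy (Ψ (φ x.1 x.2)) := by
    rw [Fintype.sum_sigma, ← Finset.sum_add_distrib]
    refine Finset.sum_congr rfl fun a _ => ?_
    rw [mul_add, Finset.mul_sum]
    congr 1
    exact Finset.sum_congr rfl fun j _ => by ring
  linarith

/-- clause 3 of S0535 (without `ε`). -/
theorem minEntropy_le {γ ν : ℝ} (K : Kit γ ν) [Nonempty d] (Ψ : Matrix d d ℂ → Matrix e e ℂ)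
    (hΨ : IsChannel Ψ) (ρ : Matrix (Bool × d) (Bool × d) ℂ) (hρ : IsDensity ρ) :
    ∃ (ρ₁ : Matrix Bool Bool ℂ) (ρ₂ : Matrix d d ℂ), IsDensity ρ₁ ∧ IsDensity ρ₂ ∧
      vnEntropy (gadMap γ ν ρ₁) + vnEntropy (Ψ ρ₂) ≤ vnEntropy (qubitTensor (gadMap γ ν) Ψ ρ) := by
  classical
  obtain ⟨k, t, φ, ht0, hts, hφ, -, hineq⟩ := key K Ψ hΨ ρ hρ
  obtain ⟨ψ, hψ, hSψ⟩ := K.q_pure _ (pop_mem hρ)
  -- some `j` has entropy at most the average
  have hex : ∃ j, vnEntropy (Ψ (φ j)) ≤ ∑ j, t j * vnEntropy (Ψ (φ j)) := by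
    by_contra hcon
    push Not at hcon
    have hpos : ∃ j, 0 < t j := by
      by_contra h0
      push Not at h0
      have : ∑ j, t j ≤ 0 := Finset.sum_nonpos fun j _ => h0 j
      linarith
    have hlt : ∑ j, t j * (∑ j, t j * vnEntropy (Ψ (φ j))) < ∑ j, t j * vnEntropy (Ψ (φ j)) := by
      apply Finset.sum_lt_sum
      · intro j _
        exact mul_le_mul_of_nonneg_left (hcon j).le (ht0 j)
      · obtain ⟨j, hj⟩ := hpos
        exact ⟨j, Finset.mem_univ _, mul_lt_mul_of_pos_left (hcon j) hj⟩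
    rw [← Finset.sum_mul, hts, one_mul] at hlt
    exact lt_irrefl _ hlt
  obtain ⟨j, hj⟩ := hex
  exact ⟨ψ, φ j, hψ, hφ j, by rw [hSψ]; linarith⟩

end Crest.Agent.S0534Aux.Top
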