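import Crest.Prelude.Def_AmpDamp

/-!
Top-level assembly for S0534 / S0535 (helper15): definitions and elementary lemmas.
-/

set_option autoImplicit false
set_option linter.unusedSectionVars false

namespace Crest.Agent.S0534Aux.Top

open Crest.Quantum Crest.MathPhysics.AmpDamp Matrix
open scoped ComplexOrder Kronecker

variable {d e : Type} [Fintype d] [Fintype e] [DecidableEq d] [DecidableEq e]

/-- partial trace over the qubit. -/
def trA (M : Matrix (Bool × d) (Bool × d) ℂ) : Matrix d d ℂ :=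
  block M false false + block M true true

/-- partial trace over the second system. -/
def trB (M : Matrix (Bool × d) (Bool × d) ℂ) : Matrix Bool Bool ℂ :=
  Matrix.of fun s t => (block M s t).trace

/-- `Tr_A [(E ⊗ 1) M]`. -/
def steer (E : Matrix Bool Bool ℂ) (M : Matrix (Bool × d) (Bool × d) ℂ) : Matrix d d ℂ :=
  ∑ s : Bool, ∑ t : Bool, E t s • block M s t

/-- the second term of `gadRate`. -/
noncomputable def sFun (γ ν p : ℝ) : ℝ :=
  Real.binEntropy ((1 + Real.sqrt (1 - 4 * (γ * ν * (1 - ν) + γ * (1 - γ) * (p - ν) ^ 2))) / 2)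

theorem gadRate_eq (γ ν p : ℝ) :
    gadRate γ ν p = Real.binEntropy ((1 - γ) * p + γ * ν) - sFun γ ν p := rfl

/-- An ensemble indexed by an arbitrary finite type can be re-indexed by `Fin m`. -/
theorem exists_fin_ensemble {n o ι : Type} [Fintype n] [Fintype o] [DecidableEq o] [Fintype ι]
    (Φ : Matrix n n ℂ → Matrix o o ℂ) (w : ι → ℝ) (σ : ι → Matrix n n ℂ)
    (hw : ∀ i, 0 ≤ w i) (hs : ∑ i, w i = 1) (hσ : ∀ i, IsDensity (σ i)) :
    ∃ (m : ℕ) (q : Fin m → ℝ) (ρ : Fin m → Matrix n n ℂ), IsEnsemble q ρ ∧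
      holevoInfo Φ q ρ
        = vnEntropy (∑ i, (w i : ℂ) • Φ (σ i)) - ∑ i, w i * vnEntropy (Φ (σ i)) := by
  classical
  let f := (Fintype.equivFin ι).symm
  refine ⟨Fintype.card ι, fun a => w (f a), fun a => σ (f a), ⟨fun a => hw _, ?_, fun a => hσ _⟩, ?_⟩
  · rw [← hs]; exact Equiv.sum_comp f w
  · unfold holevoInfo
    rw [Equiv.sum_comp f (fun i => (w i : ℂ) • Φ (σ i)),
      Equiv.sum_comp f (fun i => w i * vnEntropy (Φ (σ i)))]

theorem exists_density (n : Type) [Fintype n] [DecidableEq n] [Nonempty n] :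
    ∃ σ : Matrix n n ℂ, IsDensity σ := by
  obtain ⟨i⟩ := ‹Nonempty n›
  refine ⟨Matrix.diagonal (fun j => if j = i then 1 else 0), ?_, ?_⟩
  · apply Matrix.PosSemidef.diagonal
    intro j
    by_cases h : j = i <;> simp [h]
  · simp [Matrix.trace_diagonal]

theorem block_blockwise (Ψ : Matrix d d ℂ → Matrix e e ℂ) (M : Matrix (Bool × d) (Bool × d) ℂ)
    (s t : Bool) : block (blockwise Ψ M) s t = Ψ (block M s t) := by
  ext i j; rfl

theorem qubitTensor_eq_id_blockwise (Φ : Matrix Bool Bool ℂ → Matrix Bool Bool ℂ)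
    (Ψ : Matrix d d ℂ → Matrix e e ℂ) (M : Matrix (Bool × d) (Bool × d) ℂ) :
    qubitTensor Φ Ψ M = qubitTensor Φ id (blockwise Ψ M) := by
  ext p q; rfl

theorem trace_eq_block (M : Matrix (Bool × d) (Bool × d) ℂ) :
    M.trace = (block M false false).trace + (block M true true).trace := by
  simp [Matrix.trace, block, Fintype.sum_prod_type, add_comm]

theorem trace_trA (M : Matrix (Bool × d) (Bool × d) ℂ) : (trA M).trace = M.trace := by
  rw [trace_eq_block, trA, Matrix.trace_add]

theorem trace_trB (M : Matrix (Bool × d) (Bool × d) ℂ) : (trB M).trace = M.trace := by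
  rw [trace_eq_block]; simp [trB, Matrix.trace, add_comm]

theorem steer_one (M : Matrix (Bool × d) (Bool × d) ℂ) : steer 1 M = trA M := by
  simp [steer, trA, Matrix.one_apply, add_comm]

theorem steer_sum {k : ℕ} (E : Fin k → Matrix Bool Bool ℂ) (M : Matrix (Bool × d) (Bool × d) ℂ) :
    steer (∑ j, E j) M = ∑ j, steer (E j) M := by
  simp only [steer, Matrix.sum_apply, Finset.sum_smul, Fintype.sum_bool, Finset.sum_add_distrib]

end Crest.Agent.S0534Aux.Top
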