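import Crest.Agent.S0534Aux.TopDefs

/-!
Top-level assembly for S0534 / S0535 (helper15): channel plumbing for `gadMap ⊗ Ψ`.
-/

set_option autoImplicit false
set_option linter.unusedSectionVars false
set_option linter.unusedSimpArgs false

namespace Crest.Agent.S0534Aux.Top

open Crest.Quantum Crest.MathPhysics.AmpDamp Matrix
open scoped ComplexOrder Kronecker

variable {d e : Type} [Fintype d] [Fintype e] [DecidableEq d] [DecidableEq e]

theorem gad_id_apply (γ ν : ℝ) (M : Matrix (Bool × d) (Bool × d) ℂ) (s t : Bool) (i j : d) :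
    qubitTensor (gadMap γ ν) id M (s, i) (t, j)
      = gadMap γ ν (Matrix.of fun s' t' => M (s', i) (t', j)) s t := by
  cases s <;> cases t <;>
    simp [qubitTensor, qubitCoeff, gadMap, Matrix.single, block, add_comm]

theorem gad_trace (γ ν : ℝ) (M : Matrix (Bool × d) (Bool × d) ℂ) :
    (qubitTensor (gadMap γ ν) id M).trace = M.trace := by
  simp only [Matrix.trace, Matrix.diag, Fintype.sum_prod_type, Fintype.sum_bool, gad_id_apply]
  simp only [gadMap, Matrix.of_apply]
  simp
  rw [← Finset.sum_add_distrib, ← Finset.sum_add_distrib]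
  refine Finset.sum_congr rfl fun i _ => ?_
  ring

theorem gad_trB (γ ν : ℝ) (M : Matrix (Bool × d) (Bool × d) ℂ) :
    trB (qubitTensor (gadMap γ ν) id M) = gadMap γ ν (trB M) := by
  ext s t
  cases s <;> cases t <;>
    simp [trB, Matrix.trace, block, gad_id_apply, gadMap, Finset.sum_add_distrib, Finset.mul_sum]

theorem gad_trA (γ ν : ℝ) (M : Matrix (Bool × d) (Bool × d) ℂ) :
    trA (qubitTensor (gadMap γ ν) id M) = trA M := by
  ext i j
  simp [trA, block, gad_id_apply, gadMap]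
  ring

theorem cp_bool (Ψ : Matrix d d ℂ → Matrix e e ℂ) (hcp : IsCompletelyPositive Ψ)
    (M : Matrix (Bool × d) (Bool × d) ℂ) (hM : M.PosSemidef) : (blockwise Ψ M).PosSemidef := by
  let f : Fin 2 → Bool := finTwoEquiv
  let g : Bool → Fin 2 := finTwoEquiv.symm
  have hfg : ∀ b, f (g b) = b := fun b => finTwoEquiv.apply_symm_apply b
  have h1 : (M.submatrix (fun p : Fin 2 × d => (f p.1, p.2)) (fun p : Fin 2 × d => (f p.1, p.2))).PosSemidef :=
    hM.submatrix _
  have h2 := (hcp 2 _ h1).submatrix (fun p : Bool × e => (g p.1, p.2))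
  have heq : blockwise Ψ M = (blockwise (k := Fin 2) Ψ (M.submatrix (fun p : Fin 2 × d => (f p.1, p.2))
      (fun p : Fin 2 × d => (f p.1, p.2)))).submatrix (fun p : Bool × e => (g p.1, p.2))
      (fun p : Bool × e => (g p.1, p.2)) := by
    ext p q
    simp only [Matrix.submatrix_apply, blockwise, Matrix.of_apply]
    have hb : block M p.1 q.1 = block (M.submatrix (fun p : Fin 2 × d => (f p.1, p.2))
      (fun p : Fin 2 × d => (f p.1, p.2))) (g p.1) (g q.1) := by
      ext a b
      simp [block, hfg]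
    rw [hb]
  rw [heq]; exact h2

theorem gad_psd {γ ν : ℝ} (hγ : γ ∈ Set.Icc (0 : ℝ) 1) (hν : ν ∈ Set.Icc (0 : ℝ) 1)
    (M : Matrix (Bool × d) (Bool × d) ℂ) (hM : M.PosSemidef) :
    (qubitTensor (gadMap γ ν) id M).PosSemidef := by
  classical
  set c : ℝ := Real.sqrt (1 - γ) with hc
  have hc2 : c * c = 1 - γ := Real.mul_self_sqrt (by linarith [hγ.2])
  let u : Bool → ℂ := fun b => if b then (c : ℂ) else 1
  let v : Bool → ℂ := fun b => if b then 1 else (c : ℂ)
  let C : Matrix Bool Bool ℂ := ((1 - ν : ℝ) : ℂ) • vecMulVec u (star u) + ((ν : ℝ) : ℂ) • vecMulVec v (star v)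
  have hC : C.PosSemidef := by
    apply Matrix.PosSemidef.add
    · apply (Matrix.posSemidef_vecMulVec_self_star u).smul
      exact_mod_cast (by linarith [hν.2] : (0:ℝ) ≤ 1 - ν)
    · apply (Matrix.posSemidef_vecMulVec_self_star v).smul
      exact_mod_cast hν.1
  let D : Matrix Bool Bool ℂ := Matrix.diagonal fun b => if b then ((γ * ν : ℝ) : ℂ) else ((γ * (1 - ν) : ℝ) : ℂ)
  have hD : D.PosSemidef := by
    apply Matrix.PosSemidef.diagonal
    intro b
    cases b
    · show (0 : ℂ) ≤ ((γ * (1 - ν) : ℝ) : ℂ)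
      exact_mod_cast mul_nonneg hγ.1 (by linarith [hν.2] : (0:ℝ) ≤ 1 - ν)
    · show (0 : ℂ) ≤ ((γ * ν : ℝ) : ℂ)
      exact_mod_cast mul_nonneg hγ.1 hν.1
  have h1 := hM.hadamard (hC.submatrix (Prod.fst : Bool × d → Bool))
  have h2 := (hM.submatrix (fun p : Bool × d => (!p.1, p.2))).hadamard
    (hD.submatrix (Prod.fst : Bool × d → Bool))
  have hcc : (c : ℂ) * (c : ℂ) = 1 - (γ : ℂ) := by exact_mod_cast hc2
  have heq : qubitTensor (gadMap γ ν) id M = M ⊙ C.submatrix (Prod.fst : Bool × d → Bool) Prod.fst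
      + (M.submatrix (fun p : Bool × d => (!p.1, p.2)) (fun p : Bool × d => (!p.1, p.2))) ⊙
        D.submatrix (Prod.fst : Bool × d → Bool) Prod.fst := by
    ext ⟨s, i⟩ ⟨t, j⟩
    cases s <;> cases t <;>
      simp [qubitTensor, qubitCoeff, gadMap, Matrix.single, block, C, D, u, v, vecMulVec_apply,
        Matrix.diagonal_apply, ← hc, hcc]
    all_goals ring
  rw [heq]; exact h1.add h2

theorem block_kron (A : Matrix Bool Bool ℂ) (B : Matrix d d ℂ) (s t : Bool) :
    block (A ⊗ₖ B) s t = A s t • B := by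
  ext i j; simp [block, Matrix.kroneckerMap_apply]

theorem qubitTensor_kron (γ ν : ℝ) {Ψ : Matrix d d ℂ → Matrix e e ℂ} (hlin : IsLinearMap ℂ Ψ)
    (A : Matrix Bool Bool ℂ) (B : Matrix d d ℂ) :
    qubitTensor (gadMap γ ν) Ψ (A ⊗ₖ B) = gadMap γ ν A ⊗ₖ Ψ B := by
  ext ⟨s, i⟩ ⟨t, j⟩
  cases s <;> cases t <;>
    simp [qubitTensor, qubitCoeff, gadMap, Matrix.single, block_kron, hlin.map_smul,
      Matrix.kroneckerMap_apply]
  all_goals ring

end Crest.Agent.S0534Aux.Top
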